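import Crest.Agent.R163.Defs

/-!
# R163/ADefs: definitions for the antiferromagnetic three-state case, and gap coordinates
-/

set_option autoImplicit false

namespace Crest.Agent.R163

open Finset

/-- sorted vectors in gap coordinates -/
noncomputable def Lq4 (y1 y2 y3 : ℝ) : Vec 4 :=
  ![1, Real.exp (-(16 * y1)), Real.exp (-(16 * (y1 + y2))), Real.exp (-(16 * (y1 + y2 + y3)))]
noncomputable def Lq3 (D : ℝ) (y1 y2 : ℝ) : Vec 3 :=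
  ![1, Real.exp (-(D * y1)), Real.exp (-(D * (y1 + y2)))]

/-- pairwise exponents and the geometric mean -/
noncomputable def sP (σ : ℂ) : Fin 3 → ℂ := ![σ, 1 - σ, 0]
noncomputable def sG : Fin 3 → ℂ := ![1 / 3, 1 / 3, 1 / 3]
/-- the dictionary `Q, H, C1, C2, C3, C4` -/
noncomputable def sig : Fin 6 → ℂ :=
  ![1 / 4, 1 / 2, 1 / 2 + 1 / 2 * Complex.I, 1 / 2 + Complex.I, 1 / 2 + 3 / 2 * Complex.I,
    1 / 2 + 2 * Complex.I]
/-- cubic Taylor coefficients: `gS = c2 p - c3 p3 + …` -/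
noncomputable def cc3 : Fin 6 → ℝ := ![9 / 64, 3 / 16, 3 / 8, 15 / 16, 15 / 8, 51 / 16]

noncomputable def gS {q : ℕ} (s : Fin q → ℂ) (L : Vec q) : ℝ := avg L - mS s L
noncomputable def gJ (j : Fin 6) (L : Vec 3) : ℝ := gS (sP (sig j)) L
noncomputable def gG (L : Vec 3) : ℝ := gS sG L

/-- `(D - 2) gS + c3 p3` -/
noncomputable def wS {q : ℕ} (s : Fin q → ℂ) (c3 : ℝ) (L : Vec q) : ℝ :=
  mS s L + avg L * kM s L - 2 * avg L + c3 * (avg L * p3 L)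
noncomputable def wJ (j : Fin 6) (L : Vec 3) : ℝ := wS (sP (sig j)) (cc3 j) L
noncomputable def wG (L : Vec 3) : ℝ := wS sG (1 / 3) L

/-- the monotonicity generators -/
structure Gens : Prop where
  G : ∀ b : Vec 3, PP b → (∀ i, b i ≤ 3 / 2 * avg b) → 0 ≤ wG b
  Q : ∀ b : Vec 3, PP b → (∀ i, b i ≤ 3 / 2 * avg b) → 438 / 1000 * wG b ≤ wJ 0 b
  QC : ∀ b : Vec 3, PP b → (∀ i, b i ≤ 3 / 2 * avg b) →
    433 / 1000 * wG b ≤ wJ 0 b + 8 / 10000 * wJ 5 b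
  C4 : ∀ b : Vec 3, PP b → (∀ i, b i ≤ 3 / 2 * avg b) → 0 ≤ wJ 5 b + 30 * wG b
  H : ∀ b : Vec 3, PP b → (∀ i, b i ≤ 29 / 20 * avg b) → 49 / 100 * wG b ≤ wJ 1 b
  C1 : ∀ b : Vec 3, PP b → (∀ i, b i ≤ 29 / 20 * avg b) → 33 / 100 * wG b ≤ wJ 2 b
  C2 : ∀ b : Vec 3, PP b → (∀ i, b i ≤ 29 / 20 * avg b) → 0 ≤ wJ 3 b + 23 / 10 * wG b
  C3 : ∀ b : Vec 3, PP b → (∀ i, b i ≤ 29 / 20 * avg b) → 0 ≤ wJ 4 b + 19 / 2 * wG b

/-- a linear certificate -/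
structure Lane where
  α : Fin 6 → ℝ
  β : Fin 6 → ℝ
  e : ℝ
  ν : ℝ
  γ : ℝ

namespace Lane

noncomputable def A (l : Lane) (L : Vec 3) : ℝ := ∑ j, l.α j * gJ j L - l.e * gG L + l.γ * avg L
noncomputable def B (l : Lane) (b : Vec 3) : ℝ := ∑ j, l.β j * gJ j b + l.ν * gG b
noncomputable def F (l : Lane) (t : ℝ) (L : Vec 3) : ℝ := l.A L - l.B (Pm (-t) L) / t ^ 2
noncomputable def b3 (l : Lane) : ℝ := ∑ j, l.β j * cc3 j + l.ν / 3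
/-- the second function to be checked at `t1` -/
noncomputable def F2 (l : Lane) (t : ℝ) (L : Vec 3) : ℝ := l.F t L + t * l.b3 * (avg L * p3 L)
def Valid (l : Lane) (t : ℝ) : Prop := ∀ L, NN L → 0 ≤ l.F t L
def Valid2 (l : Lane) (t : ℝ) : Prop := ∀ L, NN L → 0 ≤ l.F t L ∧ 0 ≤ l.F2 t L
/-- valid for all `0 < t ≤ t1` -/
def ValidLe (l : Lane) (t1 : ℝ) : Prop := ∀ t, 0 < t → t ≤ t1 → l.Valid t

noncomputable def comb (a : ℝ) (l : Lane) (b : ℝ) (m : Lane) : Lane :=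
  ⟨fun j => a * l.α j + b * m.α j, fun j => a * l.β j + b * m.β j, a * l.e + b * m.e,
    a * l.ν + b * m.ν, a * l.γ + b * m.γ⟩

/-- `(β, ν)` lies in the cone of the monotonicity generators -/
structure GenOk (l : Lane) : Prop where
  nonneg : ∀ j, 0 ≤ l.β j
  h1 : -(438 / 1000) * l.β 0 + 25 / 4 * l.β 5 - 49 / 100 * l.β 1 - 33 / 100 * l.β 2 +
    23 / 10 * l.β 3 + 19 / 2 * l.β 4 ≤ l.ν
  h2 : -(457 / 1000) * l.β 0 + 30 * l.β 5 - 49 / 100 * l.β 1 - 33 / 100 * l.β 2 +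
    23 / 10 * l.β 3 + 19 / 2 * l.β 4 ≤ l.ν

/-- only `Q` and `C4` are used on the child side -/
def Small (l : Lane) : Prop := l.β 1 = 0 ∧ l.β 2 = 0 ∧ l.β 3 = 0 ∧ l.β 4 = 0

/-- the scalar conditions which exclude the limit value `z` -/
def Excl (l : Lane) (O : Off) (z : ℝ) : Prop :=
  ∃ c : Fin 6 → ℝ, (∀ j, ∀ x ∈ Set.Icc (-1 / 2 : ℝ) 1,
      l.α j * (1 - O.gen x) ≤ l.β j * (O.d * (1 - x)) + c j) ∧
    ∑ j, c j + l.γ < l.e * (1 - O.gen (1 - z / O.d)) + l.ν * z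

end Lane

theorem adm3_neg {t : ℝ} (h0 : 0 ≤ t) (h1 : t ≤ 1 / 2) : Adm 3 (-t) :=
  ⟨by linarith, by push_cast; linarith⟩

/-- the monotone sequence `z n = d E (ā - G)` seen from the parent -/
noncomputable def zseq (O : Off) (t : ℝ) (h : Adm 3 (-t)) (n : ℕ) : ℝ :=
  O.d * (Exp.chan (-t) h (Exp.bp O (-t) h n)).E gG

/-- upper envelope of the generating function; `dU = 0` means `∞` -/
noncomputable def PhiU (dU : ℕ) (z : ℝ) : ℝ := if dU = 0 then Real.exp (-z) else (1 - z / dU) ^ dU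

/-- two-sided information on the offspring law used by the scalar checks -/
structure Off.Cls (O : Off) (dL dU : ℕ) : Prop where
  d_ge : 4 ≤ O.d
  lo1 : ∀ ζ : ℝ, 0 ≤ ζ → ζ ≤ dL → (1 - ζ / dL) ^ dL ≤ O.gen (1 - ζ / O.d)
  lo2 : ∀ x ∈ Set.Icc (-1 / 2 : ℝ) 1, -(1 / 2 : ℝ) ^ dL ≤ O.gen x
  up : ∀ z : ℝ, 0 ≤ z → z ≤ 4 → O.gen (1 - z / O.d) ≤ PhiU dU z

/-- second order information near `z = 0` -/
structure Off.Cls1 (O : Off) (κ : ℝ) : Prop where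
  d_ge : 4 ≤ O.d
  tan : ∀ w : ℝ, 0 ≤ w → w ≤ 1 → ∀ x ∈ Set.Icc (-1 / 2 : ℝ) 1,
    1 - O.gen x ≤ (1 - κ * w + κ ^ 2 * w ^ 2 / 2) * (O.d * (1 - x)) + κ * w ^ 2 / 2
  low : ∀ z : ℝ, 0 ≤ z → z ≤ 1 → z - κ * z ^ 2 / 2 ≤ 1 - O.gen (1 - z / O.d)

end Crest.Agent.R163
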