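import Crest.Agent.R163.Mom
import Crest.Agent.R163.ADefs

/-!
# R163/ACls: the offspring laws satisfy `Cls` and `Cls1`

`(1 - ζ/d)^d` is nondecreasing in `d ≥ ζ` (Bernoulli `one_add_mul_le_pow`/`Real.rpow` concavity or AM–GM) and `≤ exp (-ζ)`.
`Cls1` for `reg b`, `κ = 1 - 1/b`: with `x0 = 1 - w/b ≥ 3/4`, the tangent inequality `x^b ≥ x0^b + b x0^(b-1) (x - x0)` holds on `[-1/2, 1]`
(convexity for `x ≥ 0`; for `x < 0`: `x^b ≥ -|x| 2^(1-b)` and `b x0^(b-1) ≥ 2^(1-b)`), `x0^(b-1) ≤ exp (-κ w) ≤ 1 - κ w + κ² w²/2`,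
`1 - x0^b - w x0^(b-1) ≤ κ w² / 2` and `(1 - z/b)^b ≤ 1 - z + κ z²/2` (Bonferroni; induction or derivatives).
-/

set_option autoImplicit false

namespace Crest.Agent.R163

theorem ACls_mono {m n : ℕ} (hm : 0 < m) (hmn : m ≤ n) {ζ : ℝ} (h1 : ζ ≤ m) :
    (1 - ζ / m) ^ m ≤ (1 - ζ / n) ^ n := by
  have hm' : (0 : ℝ) < m := by exact_mod_cast hm
  have hmn' : (m : ℝ) ≤ n := by exact_mod_cast hmn
  have hn' : (0 : ℝ) < n := by linarith
  have h2 : ζ / m ≤ 1 := (div_le_one hm').2 h1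
  have h3 := rpow_one_add_le_one_add_mul_self (s := -(ζ / m)) (by linarith) (p := (m : ℝ) / n)
    (by positivity) ((div_le_one hn').2 hmn')
  have e1 : 1 + (m : ℝ) / n * -(ζ / m) = 1 - ζ / n := by field_simp; ring
  rw [e1, ← sub_eq_add_neg] at h3
  have h4 := pow_le_pow_left₀ (Real.rpow_nonneg (by linarith) _) h3 n
  rwa [← Real.rpow_natCast, ← Real.rpow_mul (by linarith), div_mul_cancel₀ _ hn'.ne',
    Real.rpow_natCast] at h4

theorem ACls_tan {a x : ℝ} (ha : 0 ≤ a) (hx : -a ≤ x) (n : ℕ) :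
    a ^ n + n * a ^ (n - 1) * (x - a) ≤ x ^ n := by
  have := pow_add_mul_le_add_pow ha (b := x - a) (by linarith) n
  rwa [add_sub_cancel] at this

theorem ACls_bonf {u : ℝ} (h0 : 0 ≤ u) (h1 : u ≤ 1) (n : ℕ) :
    (1 - u) ^ n ≤ 1 - n * u + n * (n - 1) / 2 * u ^ 2 := by
  induction n with
  | zero => simp
  | succ n ih =>
    have h2 := mul_le_mul_of_nonneg_right ih (sub_nonneg.2 h1)
    have h3 : 0 ≤ (n : ℝ) * (n - 1) := by
      rcases Nat.eq_zero_or_pos n with rfl | h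
      · simp
      · have : (1 : ℝ) ≤ n := by exact_mod_cast h
        exact mul_nonneg (by linarith) (by linarith)
    have h4 : 0 ≤ (n : ℝ) * (n - 1) / 2 * u ^ 3 := by positivity
    rw [pow_succ]
    push_cast
    nlinarith

theorem ACls_two {u : ℝ} (h0 : 0 ≤ u) (h1 : u ≤ 1) (n : ℕ) :
    1 - (1 - u) ^ (n + 1) - (n + 1) * u * (1 - u) ^ n ≤ (n + 1) * n / 2 * u ^ 2 := by
  induction n with
  | zero => simp
  | succ n ih =>
    have h2 : (1 - u) ^ n ≤ 1 := pow_le_one₀ (by linarith) (by linarith)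
    have h3 := mul_le_mul_of_nonneg_right h2 (by positivity : 0 ≤ ((n : ℝ) + 1) * u ^ 2)
    simp only [pow_succ] at ih h3 ⊢
    push_cast
    nlinarith

theorem ACls_exp_le {y : ℝ} (hy : 0 ≤ y) : Real.exp (-y) ≤ 1 - y + y ^ 2 / 2 := by
  have h1 := Real.quadratic_le_exp_of_nonneg hy
  have h2 : 0 < 1 - y + y ^ 2 / 2 := by nlinarith [sq_nonneg (y - 1)]
  rw [Real.exp_neg, inv_le_iff_one_le_mul₀ (Real.exp_pos y)]
  have h3 := mul_le_mul_of_nonneg_left h1 h2.le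
  nlinarith [sq_nonneg (y ^ 2)]

theorem ACls_exp_tan (y w : ℝ) : Real.exp (-w) * (1 + w - y) ≤ Real.exp (-y) := by
  have h1 := mul_le_mul_of_nonneg_left (Real.add_one_le_exp (w - y)) (Real.exp_pos (-w)).le
  rw [← Real.exp_add, show -w + (w - y) = -y by ring] at h1
  linarith

theorem ACls_exp_two {w : ℝ} (h0 : 0 ≤ w) (h1 : w ≤ 1) :
    1 - w ^ 2 / 2 ≤ Real.exp (-w) * (1 + w) := by
  have h2 := Real.exp_bound (x := -w) (by rw [abs_neg, abs_of_nonneg h0]; exact h1) (n := 3)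
    (by norm_num)
  rw [abs_neg, abs_of_nonneg h0] at h2
  have h3 := (abs_le.1 h2).1
  simp only [Finset.sum_range_succ, Finset.sum_range_zero, Nat.factorial] at h3
  norm_num at h3
  have h4 : 1 - w + w ^ 2 / 2 - 2 / 9 * w ^ 3 ≤ Real.exp (-w) := by linarith
  have h5 := mul_le_mul_of_nonneg_right h4 (by linarith : 0 ≤ 1 + w)
  have h6 : 0 ≤ w ^ 3 := by positivity
  have h7 : w ^ 4 ≤ w ^ 3 := pow_le_pow_of_le_one h0 h1 (by norm_num)
  nlinarith

theorem cls_reg {b dL dU : ℕ} (h4 : 4 ≤ dL) (hL : dL ≤ b) (hU : dU = 0 ∨ b ≤ dU) :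
    (Off.reg b).Cls dL dU := by
  have hb : (4 : ℝ) ≤ b := by exact_mod_cast h4.trans hL
  refine ⟨hb, fun ζ _ h1 => ?_, fun x hx => ?_, fun z _ h1 => ?_⟩
  · rw [Off.gen_reg]
    exact ACls_mono (by omega) hL h1
  · rw [Off.gen_reg]
    have h1 : |x ^ b| ≤ (1 / 2) ^ dL ∨ 0 ≤ x := by
      rcases le_total 0 x with h | h
      · exact Or.inr h
      · left
        rw [abs_pow]
        refine (pow_le_pow_left₀ (abs_nonneg x) (b := 1 / 2) ?_ b).trans
          (pow_le_pow_of_le_one (by norm_num) (by norm_num) hL)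
        rw [abs_of_nonpos h]
        linarith [hx.1]
    rcases h1 with h1 | h1
    · exact (abs_le.1 h1).1
    · exact le_trans (neg_nonpos.2 (by positivity)) (pow_nonneg h1 b)
  · rw [Off.gen_reg]
    unfold PhiU
    split_ifs with h
    · exact Real.one_sub_div_pow_le_exp_neg (h1.trans hb)
    · exact ACls_mono (by omega) (hU.resolve_left h) (h1.trans hb)

theorem cls_pois {d : ℝ} (hd : 0 < d) (h4 : 4 ≤ d) {dL : ℕ} (hL : 0 < dL) :
    (Off.pois d hd).Cls dL 0 := by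
  have e : ∀ ζ : ℝ, (Off.pois d hd).gen (1 - ζ / (Off.pois d hd).d) = Real.exp (-ζ) := by
    intro ζ
    rw [Off.gen_pois]
    congr 2
    show d * (1 - (1 - ζ / d)) = ζ
    field_simp
    ring
  refine ⟨h4, fun ζ _ h1 => ?_, fun x _ => ?_, fun z _ _ => ?_⟩
  · rw [e]
    exact Real.one_sub_div_pow_le_exp_neg h1
  · rw [Off.gen_pois]
    exact le_trans (neg_nonpos.2 (by positivity)) (Real.exp_pos _).le
  · rw [e]
    simp [PhiU]

theorem cls1_reg {b : ℕ} (h4 : 4 ≤ b) : (Off.reg b).Cls1 (1 - 1 / b) := by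
  have hb : (4 : ℝ) ≤ b := by exact_mod_cast h4
  have hb0 : (0 : ℝ) < b := by linarith
  refine ⟨hb, fun w h0 h1 x hx => ?_, fun z h0 h1 => ?_⟩
  · rw [Off.gen_reg]
    show 1 - x ^ b ≤ _ * ((b : ℝ) * (1 - x)) + _
    obtain ⟨n, rfl⟩ : ∃ n, b = n + 1 := ⟨b - 1, by omega⟩
    push_cast at hb hb0 ⊢
    obtain ⟨u, rfl⟩ : ∃ u, w = ((n : ℝ) + 1) * u := ⟨w / (n + 1), by field_simp⟩
    have hu0 : 0 ≤ u := nonneg_of_mul_nonneg_right h0 hb0
    have hu1 : u ≤ 1 / 4 := by nlinarith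
    have k1 := ACls_tan (a := 1 - u) (x := x) (by linarith) (by linarith [hx.1]) (n + 1)
    rw [Nat.add_sub_cancel] at k1
    push_cast at k1
    have k2 := ACls_bonf hu0 (by linarith) n
    have k3 := ACls_two hu0 (by linarith) n
    have e1 : (1 - 1 / ((n : ℝ) + 1)) * ((n + 1) * u) = n * u := by field_simp; ring
    have e2 : (1 - 1 / ((n : ℝ) + 1)) ^ 2 * ((n + 1) * u) ^ 2 = (n * u) ^ 2 := by
      rw [← mul_pow, e1]
    have e3 : (1 - 1 / ((n : ℝ) + 1)) * ((n + 1) * u) ^ 2 = (n + 1) * n * u ^ 2 := by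
      field_simp; ring
    rw [e1, e2, e3]
    have k4 : (1 - u) ^ n ≤ 1 - n * u + (n * u) ^ 2 / 2 := by
      have : 0 ≤ (n : ℝ) * u ^ 2 := by positivity
      nlinarith
    have k5 := mul_le_mul_of_nonneg_right k4
      (mul_nonneg hb0.le (sub_nonneg.2 hx.2) : 0 ≤ ((n : ℝ) + 1) * (1 - x))
    nlinarith
  · rw [Off.gen_reg]
    show _ ≤ 1 - (1 - z / (b : ℝ)) ^ b
    have k2 := ACls_bonf (u := z / b) (by positivity) (by rw [div_le_one hb0]; linarith) b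
    have e : 1 - b * (z / b) + (b : ℝ) * (b - 1) / 2 * (z / b) ^ 2 =
        1 - (z - (1 - 1 / b) * z ^ 2 / 2) := by field_simp; ring
    linarith

theorem cls1_pois {d : ℝ} (hd : 0 < d) (h4 : 4 ≤ d) : (Off.pois d hd).Cls1 1 := by
  refine ⟨h4, fun w h0 h1 x hx => ?_, fun z h0 _ => ?_⟩
  · rw [Off.gen_pois]
    show _ ≤ _ * (d * (1 - x)) + _
    have hy : 0 ≤ d * (1 - x) := mul_nonneg hd.le (sub_nonneg.2 hx.2)
    generalize d * (1 - x) = y at hy ⊢
    have k1 := ACls_exp_tan y w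
    have k2 := mul_le_mul_of_nonneg_right (ACls_exp_le h0) hy
    have k3 := ACls_exp_two h0 h1
    nlinarith
  · rw [Off.gen_pois]
    have e : d * (1 - (1 - z / (Off.pois d hd).d)) = z := by
      show d * (1 - (1 - z / d)) = z
      field_simp
      ring
    rw [e]
    linarith [ACls_exp_le h0]

/-- the tangent inequality used by the scalar checker -/
theorem Off.Cls.tan {O : Off} {dL dU : ℕ} (h : O.Cls dL dU) (hL : 0 < dL) {α β c ζ0 : ℝ}
    (hα : 0 ≤ α) (h0 : 0 ≤ ζ0) (h1 : ζ0 ≤ dL) (hβ : α * (1 - ζ0 / dL) ^ (dL - 1) ≤ β)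
    (hc : α * (1 - (1 - ζ0 / dL) ^ dL - ζ0 * (1 - ζ0 / dL) ^ (dL - 1)) ≤ c)
    (hc2 : α * (1 + (1 / 2 : ℝ) ^ dL) ≤ β * dL + c) :
    ∀ x ∈ Set.Icc (-1 / 2 : ℝ) 1, α * (1 - O.gen x) ≤ β * (O.d * (1 - x)) + c := by
  intro x hx
  have hd : 0 < O.d := by linarith [h.d_ge]
  have hL' : (0 : ℝ) < dL := by exact_mod_cast hL
  have hx0 : 0 ≤ 1 - ζ0 / dL := sub_nonneg.2 ((div_le_one hL').2 h1)
  have hζ : 0 ≤ O.d * (1 - x) := mul_nonneg hd.le (sub_nonneg.2 hx.2)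
  have hβ0 : 0 ≤ β := le_trans (by positivity) hβ
  rcases le_total (O.d * (1 - x)) dL with h2 | h2
  · have k1 := h.lo1 _ hζ h2
    rw [show 1 - O.d * (1 - x) / O.d = x by field_simp; ring] at k1
    generalize O.d * (1 - x) = ζ at hζ h2 k1 ⊢
    have k2 := ACls_tan hx0 (x := 1 - ζ / dL)
      (by linarith [(div_le_one hL').2 h2]) dL
    have e : (dL : ℝ) * (1 - ζ0 / dL) ^ (dL - 1) * (1 - ζ / dL - (1 - ζ0 / dL)) =
        (1 - ζ0 / dL) ^ (dL - 1) * (ζ0 - ζ) := by field_simp; ring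
    rw [e] at k2
    have k3 := mul_le_mul_of_nonneg_left (k2.trans k1) hα
    have k4 := mul_le_mul_of_nonneg_right hβ hζ
    nlinarith
  · have k1 := mul_le_mul_of_nonneg_left (h.lo2 x hx) hα
    have k2 := mul_le_mul_of_nonneg_left h2 hβ0
    linarith

/-- concavity in `z`: it suffices to check the endpoints -/
theorem phiU_concave {dU : ℕ} (hU : dU = 0 ∨ 4 ≤ dU) {e ν K za zb z : ℝ} (he : 0 ≤ e) (h0 : 0 ≤ za)
    (h1 : zb ≤ 4) (ha : za ≤ z) (hb : z ≤ zb) (hKa : K < e * (1 - PhiU dU za) + ν * za)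
    (hKb : K < e * (1 - PhiU dU zb) + ν * zb) : K < e * (1 - PhiU dU z) + ν * z := by
  have key : ∃ s : ℝ, ∀ y, y ≤ 4 → PhiU dU z + s * (y - z) ≤ PhiU dU y := by
    unfold PhiU
    split_ifs with h
    · exact ⟨-Real.exp (-z), fun y _ => by linarith [ACls_exp_tan y z]⟩
    · have h4 : (4 : ℝ) ≤ dU := by exact_mod_cast hU.resolve_left h
      have h5 : (0 : ℝ) < dU := by linarith
      refine ⟨-(1 - z / dU) ^ (dU - 1), fun y hy => ?_⟩
      have k1 : z / dU ≤ 1 := (div_le_one h5).2 (by linarith)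
      have k2 : y / dU ≤ 1 := (div_le_one h5).2 (by linarith)
      have k3 := ACls_tan (a := 1 - z / dU) (x := 1 - y / dU) (by linarith) (by linarith) dU
      have e : (dU : ℝ) * (1 - z / dU) ^ (dU - 1) * (1 - y / dU - (1 - z / dU)) =
          -(1 - z / dU) ^ (dU - 1) * (y - z) := by field_simp; ring
      rwa [e] at k3
  obtain ⟨s, hs⟩ := key
  have k1 := mul_le_mul_of_nonneg_left (hs za (by linarith)) he
  have k2 := mul_le_mul_of_nonneg_left (hs zb h1) he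
  rcases le_total 0 (ν - e * s) with h | h
  · nlinarith [mul_nonneg h (sub_nonneg.2 ha)]
  · nlinarith [mul_nonneg (neg_nonneg.2 h) (sub_nonneg.2 hb)]

end Crest.Agent.R163
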