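import Crest.Agent.R163.ADefs

/-!
# R163/ADefs2: integer lanes, the checks `V3`, the degenerate lanes
-/

set_option autoImplicit false

namespace Crest.Agent.R163

/-- the function checked at `t1`; it bounds `F t` from below when `s = t1 - t` -/
noncomputable def Lane.F3 (l : Lane) (t1 s : ℝ) (L : Vec 3) : ℝ :=
  l.F t1 L + s * l.b3 * (avg L * p3 L)
def Lane.V3 (l : Lane) (t1 s : ℝ) : Prop := ∀ L, NN L → 0 ≤ l.F3 t1 s L

/-- a lane with integer coefficients (all notions are homogeneous) -/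
structure LD where
  a0 : ℕ
  a1 : ℕ
  a2 : ℕ
  a3 : ℕ
  a4 : ℕ
  a5 : ℕ
  b0 : ℕ
  b1 : ℕ
  b2 : ℕ
  b3 : ℕ
  b4 : ℕ
  b5 : ℕ
  e : ℕ
  np : ℕ
  nm : ℕ
  g : ℕ

noncomputable def LD.toLane (l : LD) : Lane :=
  ⟨![l.a0, l.a1, l.a2, l.a3, l.a4, l.a5], ![l.b0, l.b1, l.b2, l.b3, l.b4, l.b5], l.e,
    (l.np : ℝ) - l.nm, l.g⟩

/-- decidable form of `GenOk` -/
def LD.genOk (l : LD) : Bool :=
  and (Nat.ble (6250 * l.b5 + 2300 * l.b3 + 9500 * l.b4 + 1000 * l.nm)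
      (1000 * l.np + 438 * l.b0 + 490 * l.b1 + 330 * l.b2))
    (Nat.ble (30000 * l.b5 + 2300 * l.b3 + 9500 * l.b4 + 1000 * l.nm)
      (1000 * l.np + 457 * l.b0 + 490 * l.b1 + 330 * l.b2))
def LD.small (l : LD) : Bool := Nat.beq (l.b1 + l.b2 + l.b3 + l.b4) 0

/-- the degenerate lanes (scale `2^32`) -/
def dN0 : LD := ⟨8589934592, 0, 0, 0, 0, 7087360, 8589934592, 0, 0, 0, 0, 7087360, 3691651536, 0, 3691651536, 0⟩
def dN1 : LD := ⟨8589934592, 0, 0, 0, 0, 7087360, 8541752116, 0, 0, 0, 0, 6319181, 3691651536, 0, 3654895321, 0⟩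
def dN2 : LD := ⟨8589934592, 0, 0, 0, 0, 7087360, 8553772257, 0, 0, 0, 0, 6502439, 3691651536, 0, 3663982655, 0⟩

/-- the five checks of the degenerate lanes -/
def dChecks : List (LD × ℕ) := [(dN0, 0), (dN1, 0), (dN1, 10), (dN2, 0), (dN2, 10)]

/-- the critical antiferromagnetic cases -/
def AntiReg : Prop := ∀ b : ℕ, 4 ≤ b → ∀ t : ℝ, 0 < t → ∀ h : Adm 3 (-t), (b : ℝ) * t ^ 2 = 1 →
  Filter.Tendsto (fun n => (Exp.bp (Off.reg b) (-t) h n).E tv) Filter.atTop (nhds 0)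
def AntiPois : Prop := ∀ (d : ℝ) (hd : 0 < d) (t : ℝ), 0 < t → ∀ h : Adm 3 (-t), d * t ^ 2 = 1 →
  Filter.Tendsto (fun n => (Exp.bp (Off.pois d hd) (-t) h n).E tv) Filter.atTop (nhds 0)

end Crest.Agent.R163
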