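import Crest.Agent.R163.WProd
import Crest.Agent.R163.ADefs

/-!
# R163/Sort: reduction to sorted vectors in gap coordinates; invariances

`exists_sorted*`: sort with `Tuple.sort` (or `Finset.exists_max_image` by hand), `c` = the largest entry, gaps = logs of ratios.
`pq_Lq*_le`: all entries lie in `[exp (-D q m), 1]`, `m = max y`, `ā ≥ 1/q`, `|L i - ā| ≤ 1 - exp (-D q m) ≤ min 1 (D q m)`.
`sq_max_le*`: each gap `D y_i = log (L i / L (i+1)) ≤ L i / L (i+1) - 1 ≤ R (L i - L (i+1))`, and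
`(L i - L j)² ≤ 2 q ā² p ≤ 2 q p`.
-/

set_option autoImplicit false

namespace Crest.Agent.R163

open Finset

section
variable {q : ℕ} [NeZero q]
omit [NeZero q] in
theorem kS_comp (s η : Fin q → ℂ) (L : Vec q) (σ : Equiv.Perm (Fin q)) :
    kS s η (L ∘ σ) = kS s η L := by
  unfold kS
  rw [← Equiv.sum_comp (Equiv.mulLeft σ) fun π : Equiv.Perm (Fin q) =>
    ((∑ i, (η i + lin η (L ∘ π) * s i) / ((L (π i) : ℝ) : ℂ)) * mon s (L ∘ π)).re]
  rfl
omit [NeZero q] in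
theorem kM_comp (s : Fin q → ℂ) (L : Vec q) (σ : Equiv.Perm (Fin q)) : kM s (L ∘ σ) = kM s L := by
  unfold kM
  rw [← Equiv.sum_comp (Equiv.mulLeft σ) fun π : Equiv.Perm (Fin q) =>
    ((∑ i, s i / ((L (π i) : ℝ) : ℂ)) * mon s (L ∘ π)).re]
  rfl
omit [NeZero q] in
theorem kS_smul {s η : Fin q → ℂ} (h : HAdm s η) {c : ℝ} (hc : 0 < c) {L : Vec q} (hL : PP L) :
    kS s η (c • L) = kS s η L := by
  unfold kS
  refine congrArg (· / _) (Finset.sum_congr rfl fun π _ => congrArg _ ?_)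
  have hπ : PP (L ∘ π) := fun i => hL _
  have hc' : (c : ℂ) ≠ 0 := Complex.ofReal_ne_zero.2 hc.ne'
  rw [show (c • L) ∘ π = c • (L ∘ π) from rfl, wp_lin_smul h.sum_zero hc hπ,
    mon_smul h.sAdm hc hπ.nn, ← mul_assoc, Finset.sum_mul]
  congr 1
  refine Finset.sum_congr rfl fun i _ => ?_
  rw [Pi.smul_apply, smul_eq_mul, Complex.ofReal_mul]
  field_simp
omit [NeZero q] in
theorem kM_smul {s : Fin q → ℂ} (h : SAdm s) {c : ℝ} (hc : 0 < c) {L : Vec q} (hL : PP L) :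
    kM s (c • L) = kM s L := by
  unfold kM
  refine congrArg (· / _) (Finset.sum_congr rfl fun π _ => congrArg _ ?_)
  have hπ : PP (L ∘ π) := fun i => hL _
  have hc' : (c : ℂ) ≠ 0 := Complex.ofReal_ne_zero.2 hc.ne'
  rw [show (c • L) ∘ π = c • (L ∘ π) from rfl, mon_smul h hc hπ.nn, ← mul_assoc, Finset.sum_mul]
  congr 1
  refine Finset.sum_congr rfl fun i _ => ?_
  rw [Pi.smul_apply, smul_eq_mul, Complex.ofReal_mul]
  field_simp
omit [NeZero q] in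
theorem srt_inv_smul (c : ℝ) (L : Vec q) :
    avg (fun i => ((c • L) i)⁻¹) = c⁻¹ * avg fun i => (L i)⁻¹ := by
  rw [← avg_smul]
  congr 1
  funext i
  simp [mul_comm]

theorem srt_psi0 {c : ℝ} (hc : 0 < c) {L : Vec q} (hL : PP L) (σ : Equiv.Perm (Fin q)) :
    psi0 (c • (L ∘ σ)) = c * psi0 L := by
  have hσ : PP (L ∘ σ) := fun i => hL _
  have e : avg (fun i => ((L ∘ σ) i)⁻¹) = avg fun i => (L i)⁻¹ := avg_comp (fun i => (L i)⁻¹) σ
  rw [psi0, psi0, srt_inv_smul, e, Sf_smul hc hσ, Sf_comp, avg_smul, avg_comp]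
  field_simp

theorem psiB_smul_comp {s η : Fin q → ℂ} (h : HAdm s η) {c : ℝ} (hc : 0 < c) {L : Vec q} (hL : PP L)
    (σ : Equiv.Perm (Fin q)) : psiB s η (c • (L ∘ σ)) = c * psiB s η L := by
  have hσ : PP (L ∘ σ) := fun i => hL _
  rw [psiB, psiB, srt_psi0 hc hL, hS_smul h hc hσ, hS_comp, kS_smul h hc hσ, kS_comp, avg_smul,
    avg_comp]
  ring
theorem psiA_smul_comp {s η : Fin q → ℂ} (h : HAdm s η) (eN : ℝ) {c : ℝ} (hc : 0 < c) {L : Vec q}
    (hL : PP L) (σ : Equiv.Perm (Fin q)) : psiA s η eN (c • (L ∘ σ)) = c * psiA s η eN L := by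
  have hσ : PP (L ∘ σ) := fun i => hL _
  rw [psiA, psiA, srt_psi0 hc hL, hS_smul h hc hσ, hS_comp, kS_smul h hc hσ, kS_comp, avg_smul,
    avg_comp]
  ring
theorem wS_smul_comp {s : Fin q → ℂ} (h : SAdm s) (c3 : ℝ) {c : ℝ} (hc : 0 < c) {L : Vec q}
    (hL : PP L) (σ : Equiv.Perm (Fin q)) : wS s c3 (c • (L ∘ σ)) = c * wS s c3 L := by
  have hσ : PP (L ∘ σ) := fun i => hL _
  rw [wS, wS, hom_mS h c _ hc hσ.nn, mS_comp, kM_smul h hc hσ, kM_comp, p3_smul hc.ne', p3_comp,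
    avg_smul, avg_comp]
  ring
end

theorem hAdm4 : HAdm s4 eta4 := by
  refine ⟨?_, fun i => ?_, ?_, Equiv.swap 0 1, fun i => ?_⟩
  · simp [s4, Fin.sum_univ_four]
    ring
  · fin_cases i <;> simp [s4]
  · simp [eta4, Fin.sum_univ_four]
    ring
  · fin_cases i <;> simp [s4, eta4, Equiv.swap_apply_of_ne_of_ne, map_ofNat, sub_eq_add_neg]
theorem hAdm3 : HAdm s3 eta3 := by
  refine ⟨?_, fun i => ?_, ?_, Equiv.swap 1 2, fun i => ?_⟩
  · simp [s3, Fin.sum_univ_three]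
    ring
  · fin_cases i <;> simp [s3]
  · simp [eta3, Fin.sum_univ_three]
    ring
  · fin_cases i <;> simp [s3, eta3, Equiv.swap_apply_of_ne_of_ne, map_ofNat, sub_eq_add_neg]
theorem sAdm_sG : SAdm sG := by
  refine ⟨?_, fun i => Or.inr ?_, 1, fun i => ?_⟩
  · simp [sG, Fin.sum_univ_three]
    ring
  · fin_cases i <;> simp [sG]
  · fin_cases i <;> simp [sG, Complex.ext_iff]
theorem srt_sP_real {z : ℂ} (h : z.im = 0) (h0 : 0 < z.re) (h1 : z.re < 1) : SAdm (sP z) := by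
  refine ⟨?_, fun i => ?_, 1, fun i => ?_⟩
  · simp [sP, Fin.sum_univ_three]
  · fin_cases i <;> simp [sP, h0, h1]
  · fin_cases i <;> simp [sP, Complex.ext_iff, h]

theorem srt_sP_half {z : ℂ} (h : z.re = 1 / 2) : SAdm (sP z) := by
  refine ⟨?_, fun i => ?_, Equiv.swap 0 1, fun i => ?_⟩
  · simp [sP, Fin.sum_univ_three]
  · fin_cases i <;> simp [sP, h]
    norm_num
  · fin_cases i <;> simp [sP, Complex.ext_iff, h, Equiv.swap_apply_of_ne_of_ne] <;> norm_num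

theorem sAdm_sig (j : Fin 6) : SAdm (sP (sig j)) := by
  fin_cases j
  · exact srt_sP_real (by simp [sig]) (by simp [sig]) (by simp [sig]; norm_num)
  · exact srt_sP_half (by simp [sig])
  · exact srt_sP_half (by simp [sig])
  · exact srt_sP_half (by simp [sig])
  · exact srt_sP_half (by simp [sig])
  · exact srt_sP_half (by simp [sig])

theorem pp_Lq4 (y1 y2 y3 : ℝ) : PP (Lq4 y1 y2 y3) := by
  intro i
  fin_cases i <;> simp [Lq4, Real.exp_pos]
theorem pp_Lq3 (D y1 y2 : ℝ) : PP (Lq3 D y1 y2) := by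
  intro i
  fin_cases i <;> simp [Lq3, Real.exp_pos]
theorem srt_exists_anti {q : ℕ} (L : Vec q) : ∃ τ : Equiv.Perm (Fin q), Antitone (L ∘ τ) :=
  ⟨Tuple.sort fun i => -L i, fun _ _ hij =>
    neg_le_neg_iff.1 (Tuple.monotone_sort (fun i => -L i) hij)⟩

theorem srt_exp {a b x : ℝ} (ha : 0 < a) (hb : 0 < b) (hx : x = Real.log b - Real.log a) :
    b = a * Real.exp x := by
  rw [hx, Real.exp_sub, Real.exp_log ha, Real.exp_log hb]
  field_simp

theorem exists_sorted4 {L : Vec 4} (h : PP L) : ∃ (c y1 y2 y3 : ℝ) (σ : Equiv.Perm (Fin 4)),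
    0 < c ∧ 0 ≤ y1 ∧ 0 ≤ y2 ∧ 0 ≤ y3 ∧ L = c • (Lq4 y1 y2 y3 ∘ σ) := by
  obtain ⟨τ, hτ⟩ := srt_exists_anti L
  have hl : ∀ i j : Fin 4, i ≤ j → 0 ≤ (Real.log (L (τ i)) - Real.log (L (τ j))) / 16 :=
    fun i j hij => div_nonneg (sub_nonneg.2 (Real.log_le_log (h _) (hτ hij))) (by norm_num)
  refine ⟨L (τ 0), _, _, _, τ.symm, h _, hl 0 1 (by decide), hl 1 2 (by decide),
    hl 2 3 (by decide), funext fun i => ?_⟩
  obtain ⟨j, rfl⟩ := τ.surjective i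
  rw [Pi.smul_apply, Function.comp_apply, Equiv.symm_apply_apply, smul_eq_mul]
  fin_cases j
  · simp [Lq4]
  · exact srt_exp (h _) (h _) (by simp; ring)
  · exact srt_exp (h _) (h _) (by simp; ring)
  · exact srt_exp (h _) (h _) (by simp; ring)
theorem exists_sorted3 {D : ℝ} (hD : 0 < D) {L : Vec 3} (h : PP L) :
    ∃ (c y1 y2 : ℝ) (σ : Equiv.Perm (Fin 3)),
      0 < c ∧ 0 ≤ y1 ∧ 0 ≤ y2 ∧ L = c • (Lq3 D y1 y2 ∘ σ) := by
  obtain ⟨τ, hτ⟩ := srt_exists_anti L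
  have hl : ∀ i j : Fin 3, i ≤ j → 0 ≤ (Real.log (L (τ i)) - Real.log (L (τ j))) / D :=
    fun i j hij => div_nonneg (sub_nonneg.2 (Real.log_le_log (h _) (hτ hij))) hD.le
  refine ⟨L (τ 0), _, _, τ.symm, h _, hl 0 1 (by decide), hl 1 2 (by decide),
    funext fun i => ?_⟩
  obtain ⟨j, rfl⟩ := τ.surjective i
  rw [Pi.smul_apply, Function.comp_apply, Equiv.symm_apply_apply, smul_eq_mul]
  fin_cases j
  · simp [Lq3]
  · exact srt_exp (h _) (h _) (by simp; field_simp; ring)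
  · exact srt_exp (h _) (h _) (by simp; field_simp; ring)
theorem srt_pq_le {q : ℕ} [NeZero q] {L : Vec q} {K m : ℝ} {i0 : Fin q} (hm : 0 ≤ m)
    (h0 : L i0 = 1) (h : ∀ i, Real.exp (-(K * m)) ≤ L i ∧ L i ≤ 1) :
    pq L ≤ (q * max 1 K) ^ 2 * min 1 m ^ 2 := by
  have he := Real.exp_pos (-(K * m))
  have hL : PP L := fun i => he.trans_le (h i).1
  have ha := avg_pos hL
  have h1 : 1 ≤ q * avg L := h0 ▸ le_mul_avg hL.nn i0
  have h2 : avg L ≤ 1 := (avg_mono fun i => (h i).2).trans (avg_const 1).le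
  have h3 : Real.exp (-(K * m)) ≤ avg L := (avg_const _).ge.trans (avg_mono fun i => (h i).1)
  have h4 : 1 - Real.exp (-(K * m)) ≤ max 1 K * min 1 m := by
    rcases le_total 1 m with hm1 | hm1
    · rw [min_eq_left hm1, mul_one]
      linarith [le_max_left 1 K]
    · rw [min_eq_right hm1]
      have := Real.add_one_le_exp (-(K * m))
      nlinarith [le_max_right 1 K]
  have hq : (0 : ℝ) < q := bq_pos
  have h5 : 0 ≤ max 1 K * min 1 m := (sub_nonneg.2 (h3.trans h2)).trans h4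
  refine (avg_mono fun i => ?_).trans (avg_const _).le
  rw [← mul_pow]
  refine sq_le_sq' ?_ ?_
  · rw [le_sub_iff_add_le, le_div_iff₀ ha]
    nlinarith [(h i).1, (h i).2, mul_le_mul_of_nonneg_left h1 h5]
  · rw [sub_le_iff_le_add, div_le_iff₀ ha]
    nlinarith [(h i).1, (h i).2, mul_le_mul_of_nonneg_left h1 h5]

theorem pq_Lq4_le : ∃ C : ℝ, 0 < C ∧ ∀ y1 y2 y3 : ℝ, 0 ≤ y1 → 0 ≤ y2 → 0 ≤ y3 →
    pq (Lq4 y1 y2 y3) ≤ C * min 1 (max y1 (max y2 y3)) ^ 2 := by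
  refine ⟨((4 : ℕ) * max 1 48) ^ 2, by positivity, fun y1 y2 y3 h1 h2 h3 => ?_⟩
  have a1 : y1 ≤ max y1 (max y2 y3) := le_max_left _ _
  have a2 : y2 ≤ max y1 (max y2 y3) := (le_max_left _ _).trans (le_max_right _ _)
  have a3 : y3 ≤ max y1 (max y2 y3) := (le_max_right _ _).trans (le_max_right _ _)
  refine srt_pq_le (i0 := 0) (h1.trans a1) rfl fun i => ?_
  generalize max y1 (max y2 y3) = m at *
  fin_cases i <;> simp [Lq4] <;> (try constructor) <;> linarith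
theorem pq_Lq3_le {D : ℝ} (hD : 0 < D) : ∃ C : ℝ, 0 < C ∧ ∀ y1 y2 : ℝ, 0 ≤ y1 → 0 ≤ y2 →
    pq (Lq3 D y1 y2) ≤ C * min 1 (max y1 y2) ^ 2 := by
  refine ⟨((3 : ℕ) * max 1 (2 * D)) ^ 2, by positivity, fun y1 y2 h1 h2 => ?_⟩
  have a1 : y1 ≤ max y1 y2 := le_max_left _ _
  have a2 : y2 ≤ max y1 y2 := le_max_right _ _
  refine srt_pq_le (i0 := 0) (h1.trans a1) rfl fun i => ?_
  generalize max y1 y2 = m at *
  fin_cases i <;> simp [Lq3] <;> (try constructor) <;> nlinarith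
theorem srt_diff_sq {q : ℕ} [NeZero q] {L : Vec q} (hL : PP L) (h : ∀ i, L i ≤ 1) (i j : Fin q) :
    (L i - L j) ^ 2 ≤ 4 * q * pq L := by
  have ha := avg_pos hL
  have h2 : avg L ≤ 1 := (avg_mono h).trans (avg_const 1).le
  have k : ∀ i, (L i - avg L) ^ 2 ≤ q * pq L := fun i => by
    have h1 : (L i / avg L - 1) ^ 2 ≤ q * pq L :=
      le_mul_avg (L := fun i => (L i / avg L - 1) ^ 2) (fun _ => sq_nonneg _) i
    have h3 : (L i - avg L) ^ 2 = avg L ^ 2 * (L i / avg L - 1) ^ 2 := by field_simp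
    rw [h3]
    exact (mul_le_of_le_one_left (sq_nonneg _) (pow_le_one₀ ha.le h2)).trans h1
  nlinarith [k i, k j, sq_nonneg (L i + L j - 2 * avg L)]

theorem sq_max_le4 (R : ℝ) : ∃ C : ℝ, 0 ≤ C ∧ ∀ y1 y2 y3 : ℝ, 0 ≤ y1 → 0 ≤ y2 → 0 ≤ y3 →
    Rat_le R (Lq4 y1 y2 y3) →
      max y1 (max y2 y3) ≤ R ∧ max y1 (max y2 y3) ^ 2 ≤ C * pq (Lq4 y1 y2 y3) := by
  refine ⟨R ^ 2, sq_nonneg _, fun y1 y2 y3 h1 h2 h3 hR => ?_⟩
  have hL := pp_Lq4 y1 y2 y3
  have hle : ∀ i, Lq4 y1 y2 y3 i ≤ 1 := fun i => by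
    fin_cases i <;> simp [Lq4] <;> linarith
  have key : ∀ (i j : Fin 4) (y : ℝ), 0 ≤ y →
      Lq4 y1 y2 y3 i = Lq4 y1 y2 y3 j * Real.exp (16 * y) →
        y ≤ R ∧ y ^ 2 ≤ R ^ 2 * pq (Lq4 y1 y2 y3) := by
    intro i j y hy e
    have k1 := srt_diff_sq hL hle i j
    have k2 : 1 ≤ R * Lq4 y1 y2 y3 j := hR 0 j
    have k3 := hL j
    have k4 := hle i
    generalize Lq4 y1 y2 y3 i = a at *
    generalize Lq4 y1 y2 y3 j = b at *
    have hR0 : 0 < R := pos_of_mul_pos_left (one_pos.trans_le k2) k3.le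
    have k5 : b * (16 * y) ≤ a - b := by nlinarith [Real.add_one_le_exp (16 * y)]
    have k6 : 16 * y ≤ R * (a - b) := by nlinarith
    refine ⟨by nlinarith, ?_⟩
    have k7 : (16 * y) ^ 2 ≤ (R * (a - b)) ^ 2 := pow_le_pow_left₀ (by positivity) k6 2
    have k8 := mul_le_mul_of_nonneg_left k1 (sq_nonneg R)
    push_cast at k8
    nlinarith [sq_nonneg y]
  have b1 := key 0 1 y1 h1 (by simp [Lq4, ← Real.exp_add])
  have b2 := key 1 2 y2 h2 (by simp [Lq4, ← Real.exp_add]; ring)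
  have b3 := key 2 3 y3 h3 (by simp [Lq4, ← Real.exp_add]; ring)
  rcases max_choice y1 (max y2 y3) with e | e <;> rw [e]
  · exact b1
  · rcases max_choice y2 y3 with e | e <;> rw [e]
    · exact b2
    · exact b3

end Crest.Agent.R163
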