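import Crest.Agent.R163.Order
import Crest.Agent.R163.Sort

/-!
# R163/ALimit: the limit argument

`μ n = bp O (-t) h n`, `ν n = chan (μ n)`, `M j n = (ν n).E (mS (sP (sig j))) ∈ [-1/2, 1]`
(`mS (sP σ) L = (∑ i k, Re (L i ^ σ L k ^ (1-σ)) - ∑ i, L i) / 6 ≥ -avg L / 2`, because for `j = 0` all terms are `≥ 0` and for `j ≥ 1`
`1 - σ = conj σ`, so the double sum is `‖∑ L i ^ σ‖²`), `ζ j n = d (1 - M j n)`, `(μ (n+1)).E (gJ j) = 1 - O.gen (M j n)` (`E_mS_step`), and the same for `G`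
(`mS sG` is `Good` by `good_mS`, so `zseq` is antitone by `bp_succ_le`, `Le.chan`; `0 ≤ zseq`).
Integrating `0 ≤ l.F t` against `μ (n+1)` and using the tangent inequalities gives, with `u n = ∑ j, β j ζ j n` (bounded),
`u (n+1) - u n ≤ ∑ c + γ - e (1 - gen (1 - z n / d)) - ν z (n+1)`; the right side tends to a negative number if `l.Excl O z` for the limit `z`
(`O.gen` is continuous on `[-1,1]`: `continuousOn_tsum`), so `u n → -∞`, a contradiction.  Hence the limit is `0`.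
Finally `(μ (n+1)).E gG = 1 - gen (1 - z n / d) ≤ z n` (`1 - x^k ≤ k (1 - x)`), and `tv L ^ 2 ≤ C * avg L * gG L`
(e.g. `ā - G ≥ c ∑ (√L i - √L k)²` from `G ≤ (L2 + 2 √(L0 L1)) / 3` and permutations), then Cauchy–Schwarz or
`tv ≤ ε ā + (C/ε) gG`.
-/

set_option autoImplicit false

namespace Crest.Agent.R163

open Finset

theorem alim_sum_perm3 (f : Fin 3 → Fin 3 → ℝ) :
    ∑ π : Equiv.Perm (Fin 3), f (π 0) (π 1) = f 0 1 + f 0 2 + f 1 0 + f 1 2 + f 2 0 + f 2 1 := by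
  have h : (univ : Finset (Equiv.Perm (Fin 3))) =
      {1, Equiv.swap 1 2, Equiv.swap 0 1, Equiv.swap 0 1 * Equiv.swap 1 2,
        Equiv.swap 1 2 * Equiv.swap 0 1, Equiv.swap 0 2} := by decide
  rw [h, sum_insert (by decide), sum_insert (by decide), sum_insert (by decide),
    sum_insert (by decide), sum_insert (by decide), sum_singleton]
  have e1 : (Equiv.swap (1 : Fin 3) 2) 0 = 0 := by decide
  have e2 : (Equiv.swap (1 : Fin 3) 2) 1 = 2 := by decide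
  have e3 : (Equiv.swap (0 : Fin 3) 1) 0 = 1 := by decide
  have e4 : (Equiv.swap (0 : Fin 3) 1) 1 = 0 := by decide
  have e5 : (Equiv.swap (0 : Fin 3) 1 * Equiv.swap 1 2 : Equiv.Perm (Fin 3)) 0 = 1 := by decide
  have e6 : (Equiv.swap (0 : Fin 3) 1 * Equiv.swap 1 2 : Equiv.Perm (Fin 3)) 1 = 2 := by decide
  have e7 : (Equiv.swap (1 : Fin 3) 2 * Equiv.swap 0 1 : Equiv.Perm (Fin 3)) 0 = 2 := by decide
  have e8 : (Equiv.swap (1 : Fin 3) 2 * Equiv.swap 0 1 : Equiv.Perm (Fin 3)) 1 = 0 := by decide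
  have e9 : (Equiv.swap (0 : Fin 3) 2) 0 = 2 := by decide
  have e10 : (Equiv.swap (0 : Fin 3) 2) 1 = 1 := by decide
  rw [e5, e6, e7, e8, e1, e2, e3, e4, e9, e10, Equiv.Perm.one_apply, Equiv.Perm.one_apply]
  ring

theorem alim_mS_sP (σ : ℂ) (L : Vec 3) : mS (sP σ) L =
    (∑ π : Equiv.Perm (Fin 3), (((L (π 0) : ℝ) : ℂ) ^ σ * ((L (π 1) : ℝ) : ℂ) ^ (1 - σ)).re) / 6 := by
  unfold mS
  congr 1
  refine sum_congr rfl fun π _ => ?_
  simp [mon, sP, Fin.prod_univ_three]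

theorem alim_half {σ : ℂ} (hσ : σ.re = 1 / 2) {L : Vec 3} (h : NN L) :
    -(avg L / 2) ≤ mS (sP σ) L := by
  have e : 1 - σ = (starRingEnd ℂ) σ := by
    apply Complex.ext
    · simp [hσ]; norm_num
    · simp
  have e1 : ∀ i, ((L i : ℝ) : ℂ) ^ (1 - σ) = (starRingEnd ℂ) (((L i : ℝ) : ℂ) ^ σ) := fun i => by
    rw [e, Complex.cpow_conj _ _ (by
      rw [Complex.arg_ofReal_of_nonneg (h i)]; exact Real.pi_ne_zero.symm), Complex.conj_ofReal]
  have e2 : ∀ i, (((L i : ℝ) : ℂ) ^ σ).re ^ 2 + (((L i : ℝ) : ℂ) ^ σ).im ^ 2 = L i := fun i => by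
    have a1 := Complex.norm_cpow_eq_rpow_re_of_nonneg (h i) (y := σ) (by rw [hσ]; norm_num)
    have a2 := Complex.sq_norm (((L i : ℝ) : ℂ) ^ σ)
    rw [a1, hσ, ← Real.sqrt_eq_rpow, Real.sq_sqrt (h i), Complex.normSq_apply] at a2
    linarith
  rw [alim_mS_sP, alim_sum_perm3 fun i k => (((L i : ℝ) : ℂ) ^ σ * ((L k : ℝ) : ℂ) ^ (1 - σ)).re]
  simp only [e1, Complex.mul_re, Complex.conj_re, Complex.conj_im]
  have b0 := e2 0
  have b1 := e2 1
  have b2 := e2 2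
  have b3 : avg L = (L 0 + L 1 + L 2) / 3 := by simp [avg, Fin.sum_univ_three]
  generalize ((L 0 : ℝ) : ℂ) ^ σ = a at *
  generalize ((L 1 : ℝ) : ℂ) ^ σ = b at *
  generalize ((L 2 : ℝ) : ℂ) ^ σ = c at *
  nlinarith [sq_nonneg (a.re + b.re + c.re), sq_nonneg (a.im + b.im + c.im)]

theorem mS_sig_ge (j : Fin 6) {L : Vec 3} (h : NN L) : -(avg L / 2) ≤ mS (sP (sig j)) L := by
  fin_cases j
  · have e : sP (sig 0) = fun i => (((![1 / 4, 3 / 4, 0] : Fin 3 → ℝ) i : ℝ) : ℂ) := by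
      funext i
      fin_cases i <;> simp [sP, sig]
      norm_num
    have h1 := (good_mS (q := 3) (s := ![1 / 4, 3 / 4, 0]) (fun i => by fin_cases i <;> norm_num)
      (by simp [Fin.sum_univ_three]; norm_num)).nonneg L h
    rw [← e] at h1
    have := avg_nonneg h
    show -(avg L / 2) ≤ mS (sP (sig 0)) L
    linarith
  all_goals exact alim_half (by simp [sig]) h

theorem alim_sG : sG = fun _ => (((1 / 3 : ℝ) : ℝ) : ℂ) := by
  funext i
  fin_cases i <;> simp [sG]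

theorem good_G : Good (mS sG) := by
  rw [alim_sG]
  exact good_mS (q := 3) (s := fun _ => 1 / 3) (fun _ => by norm_num) (by simp)

theorem mS_sG_eq {L : Vec 3} (h : NN L) : mS sG L = (L 0 * L 1 * L 2) ^ (1 / 3 : ℝ) := by
  rw [alim_sG]
  unfold mS
  have e : ∀ π : Equiv.Perm (Fin 3), (mon (fun _ => (((1 / 3 : ℝ) : ℝ) : ℂ)) (L ∘ π)).re =
      (L 0 * L 1 * L 2) ^ (1 / 3 : ℝ) := fun π => by
    rw [mom_mon_real (fun _ => (1 / 3 : ℝ)) (L := L ∘ π) fun i => h (π i),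
      Real.finsetProd_rpow _ (L ∘ π) fun i _ => h (π i), ← Fin.prod_univ_three L, ← Equiv.prod_comp π L]
    rfl
  simp only [e, sum_const, card_univ, Fintype.card_perm, Fintype.card_fin, nsmul_eq_mul]
  have : ((Nat.factorial 3 : ℕ) : ℝ) ≠ 0 := by positivity
  field_simp

theorem alim_d_nonneg (O : Off) : 0 ≤ O.d :=
  O.mean.nonneg fun k => mul_nonneg (O.pos k).le (Nat.cast_nonneg _)

theorem alim_lin_gS {s : Fin 3 → ℂ} (hs : SAdm s) : Lin (gS s) := lin_avg.sub (lin_mS hs)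

theorem alim_E_gS (μ : Exp 3) {s : Fin 3 → ℂ} (hs : SAdm s) : μ.E (gS s) = 1 - μ.E (mS s) := by
  rw [← μ.E_avg, ← μ.E_sub lin_avg (lin_mS hs)]
  rfl

theorem alim_zseq (O : Off) {t : ℝ} (h : Adm 3 (-t)) (n : ℕ) :
    zseq O t h n = O.d * (1 - (Exp.chan (-t) h (Exp.bp O (-t) h n)).E (mS sG)) := by
  rw [← alim_E_gS _ sAdm_sG]
  rfl

theorem zseq_nonneg {O : Off} {t : ℝ} (h : Adm 3 (-t)) (n : ℕ) : 0 ≤ zseq O t h n := by
  rw [alim_zseq]
  exact mul_nonneg (alim_d_nonneg O) (sub_nonneg.2 (abs_le.1 (Exp.abs_E_mS_le _ sAdm_sG)).2)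

theorem zseq_antitone (O : Off) {t : ℝ} (h : Adm 3 (-t)) : Antitone (zseq O t h) := by
  refine antitone_nat_of_succ_le fun n => ?_
  rw [alim_zseq, alim_zseq]
  have := ((Exp.bp_succ_le O h n).chan h) _ good_G
  exact mul_le_mul_of_nonneg_left (by linarith) (alim_d_nonneg O)

theorem zseq_zero (O : Off) {t : ℝ} (h : Adm 3 (-t)) (h0 : 0 ≤ t) :
    zseq O t h 0 = O.d * (1 - ((1 - 2 * t) * (1 + t) ^ 2) ^ (1 / 3 : ℝ)) := by
  rw [alim_zseq]
  congr 2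
  have h2 : 0 ≤ 1 - 2 * t := by
    have := h.2
    push_cast at this
    linarith
  have hn : ∀ j : Fin 3, NN (Pi.single j 1 : Vec 3) := fun j i => by
    rw [Pi.single_apply]; split_ifs <;> norm_num
  have e : ∀ j : Fin 3, mS sG (Pm (-t) (Pi.single j 1)) =
      ((1 - 2 * t) * (1 + t) ^ 2) ^ (1 / 3 : ℝ) / 3 := fun j => by
    rw [mS_sG_eq (Pm_nonneg h (hn j))]
    have a1 : Pm (-t) (Pi.single j 1 : Vec 3) 0 * Pm (-t) (Pi.single j 1 : Vec 3) 1 *
        Pm (-t) (Pi.single j 1 : Vec 3) 2 = ((1 - 2 * t) * (1 + t) ^ 2) / 3 ^ 3 := by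
      simp only [Pm, avg_single]
      fin_cases j <;> simp <;> ring
    rw [a1, Real.div_rpow (by positivity) (by positivity)]
    congr 1
    rw [show (1 / 3 : ℝ) = ((3 : ℕ) : ℝ)⁻¹ by norm_num]
    exact Real.pow_rpow_inv_natCast (by norm_num) (by norm_num)
  show Exp.perfect.E (fun L => mS sG (Pm (-t) L)) = _
  rw [Exp.E_perfect]
  simp only [e, sum_const, card_univ, Fintype.card_fin, nsmul_eq_mul]
  push_cast
  ring

/-- for `t ≤ 9/20` at criticality the starting value is at most `201/100`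
(`(1 - 2t)(1+t)² = 1 - 3t² - 2t³ ≥ (1 - 2.01 t²)³`) -/
theorem zseq_zero_le (O : Off) {t : ℝ} (h : Adm 3 (-t)) (h0 : 0 < t) (h1 : t ≤ 9 / 20)
    (hd : O.d * t ^ 2 = 1) : zseq O t h 0 ≤ 201 / 100 := by
  rw [zseq_zero O h h0.le]
  have ht2 : t ^ 2 ≤ 81 / 400 := by nlinarith
  have a0 : 0 ≤ 1 - 201 / 100 * t ^ 2 := by linarith
  have a1 : 0 ≤ 303 / 100 - 2 * t - 121203 / 10000 * t ^ 2 + 8120601 / 1000000 * t ^ 4 := by
    have b1 : 0 ≤ 2 + (t + 9 / 20) * (121203 / 10000 - 8120601 / 1000000 * (t ^ 2 + 81 / 400)) := by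
      have : 0 ≤ (t + 9 / 20) * (121203 / 10000 - 8120601 / 1000000 * (t ^ 2 + 81 / 400)) :=
        mul_nonneg (by linarith) (by linarith)
      linarith
    have b2 := mul_nonneg (sub_nonneg.2 h1) b1
    nlinarith
  have a2 : (1 - 201 / 100 * t ^ 2) ^ 3 ≤ (1 - 2 * t) * (1 + t) ^ 2 := by
    have := mul_nonneg (sq_nonneg t) a1
    nlinarith
  have a3 : 1 - 201 / 100 * t ^ 2 ≤ ((1 - 2 * t) * (1 + t) ^ 2) ^ (1 / 3 : ℝ) := by
    have := Real.rpow_le_rpow (pow_nonneg a0 3) a2 (show (0 : ℝ) ≤ 1 / 3 by norm_num)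
    rwa [show (1 / 3 : ℝ) = ((3 : ℕ) : ℝ)⁻¹ by norm_num,
      Real.pow_rpow_inv_natCast a0 (by norm_num), show ((3 : ℕ) : ℝ)⁻¹ = 1 / 3 by norm_num] at this
  have := mul_le_mul_of_nonneg_left (show 1 - ((1 - 2 * t) * (1 + t) ^ 2) ^ (1 / 3 : ℝ) ≤
    201 / 100 * t ^ 2 by linarith) (alim_d_nonneg O)
  nlinarith

theorem alim_gen_summable (O : Off) {x : ℝ} (hx : |x| ≤ 1) :
    Summable fun k => O.π k * x ^ O.c k :=
  Summable.of_norm_bounded O.sum_one.summable fun k => by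
    rw [Real.norm_eq_abs, abs_mul, abs_of_pos (O.pos k), abs_pow]
    exact mul_le_of_le_one_right (O.pos k).le (pow_le_one₀ (abs_nonneg _) hx)

theorem alim_gen_one (O : Off) : O.gen 1 = 1 := by
  simp only [Off.gen, one_pow, mul_one]
  exact O.sum_one.tsum_eq

theorem alim_gen_lip (O : Off) {x y : ℝ} (hx : |x| ≤ 1) (hy : |y| ≤ 1) :
    |O.gen x - O.gen y| ≤ O.d * |x - y| := by
  unfold Off.gen
  rw [← (alim_gen_summable O hx).tsum_sub (alim_gen_summable O hy), mul_comm O.d]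
  refine tsum_of_norm_bounded (f := fun k => O.π k * x ^ O.c k - O.π k * y ^ O.c k)
    (O.mean.mul_left |x - y|) fun k => ?_
  rw [Real.norm_eq_abs, ← mul_sub, abs_mul, abs_of_pos (O.pos k), mul_left_comm]
  refine mul_le_mul_of_nonneg_left ((abs_pow_sub_pow_le x y (O.c k)).trans ?_) (O.pos k).le
  exact mul_le_of_le_one_right (by positivity)
    (pow_le_one₀ (le_max_of_le_left (abs_nonneg _)) (max_le hx hy))

theorem alim_tv_sq {L : Vec 3} (h : NN L) : tv L ^ 2 ≤ 6 * (avg L * gG L) := by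
  have hc : ∀ i, (L i ^ (1 / 3 : ℝ)) ^ 3 = L i := fun i => by
    rw [show (1 / 3 : ℝ) = ((3 : ℕ) : ℝ)⁻¹ by norm_num]
    exact Real.rpow_inv_natCast_pow (h i) (by norm_num)
  have e1 : gG L = avg L - L 0 ^ (1 / 3 : ℝ) * L 1 ^ (1 / 3 : ℝ) * L 2 ^ (1 / 3 : ℝ) := by
    rw [← Real.mul_rpow (h 0) (h 1), ← Real.mul_rpow (mul_nonneg (h 0) (h 1)) (h 2), ← mS_sG_eq h]
    rfl
  have e2 : avg L = (L 0 + L 1 + L 2) / 3 := by simp [avg, Fin.sum_univ_three]
  have e3 : tv L = (|L 0 - avg L| + |L 1 - avg L| + |L 2 - avg L|) / 6 := by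
    simp only [tv, Fin.sum_univ_three]
    push_cast
    ring
  have e4 : tv L ^ 2 ≤ ((L 0 - L 1) ^ 2 + (L 1 - L 2) ^ 2 + (L 2 - L 0) ^ 2) / 36 := by
    have b0 := sq_abs (L 0 - avg L)
    have b1 := sq_abs (L 1 - avg L)
    have b2 := sq_abs (L 2 - avg L)
    have b3 : (L 0 - avg L) ^ 2 + (L 1 - avg L) ^ 2 + (L 2 - avg L) ^ 2 =
        ((L 0 - L 1) ^ 2 + (L 1 - L 2) ^ 2 + (L 2 - L 0) ^ 2) / 3 := by rw [e2]; ring
    rw [e3]
    nlinarith [sq_nonneg (|L 0 - avg L| - |L 1 - avg L|), sq_nonneg (|L 1 - avg L| - |L 2 - avg L|),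
      sq_nonneg (|L 2 - avg L| - |L 0 - avg L|)]
  have p0 := Real.rpow_nonneg (h 0) (1 / 3)
  have p1 := Real.rpow_nonneg (h 1) (1 / 3)
  have p2 := Real.rpow_nonneg (h 2) (1 / 3)
  have c0 := hc 0
  have c1 := hc 1
  have c2 := hc 2
  rw [e1, e2]
  generalize L 0 ^ (1 / 3 : ℝ) = a at *
  generalize L 1 ^ (1 / 3 : ℝ) = b at *
  generalize L 2 ^ (1 / 3 : ℝ) = c at *
  rw [← c0, ← c1, ← c2] at e4 ⊢
  have key : ∀ x y w : ℝ, 0 ≤ x → 0 ≤ y → 0 ≤ w →
      (x ^ 3 - y ^ 3) ^ 2 ≤ (x + y + w) ^ 4 * (x - y) ^ 2 := fun x y w hx hy hw => by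
    have k1 : x ^ 2 + x * y + y ^ 2 ≤ (x + y + w) ^ 2 := by
      nlinarith [mul_nonneg hx hy, mul_nonneg hx hw, mul_nonneg hy hw]
    have k2 := pow_le_pow_left₀ (by positivity) k1 2
    calc (x ^ 3 - y ^ 3) ^ 2 = (x ^ 2 + x * y + y ^ 2) ^ 2 * (x - y) ^ 2 := by ring
      _ ≤ ((x + y + w) ^ 2) ^ 2 * (x - y) ^ 2 := by gcongr
      _ = _ := by ring
  have k1 := key a b c p0 p1 p2
  have k2 := key b c a p1 p2 p0
  have k3 := key c a b p2 p0 p1
  have k4 : (a + b + c) ^ 3 ≤ 9 * (a ^ 3 + b ^ 3 + c ^ 3) := by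
    nlinarith [mul_nonneg (add_nonneg p0 p1) (sq_nonneg (a - b)),
      mul_nonneg (add_nonneg p1 p2) (sq_nonneg (b - c)),
      mul_nonneg (add_nonneg p2 p0) (sq_nonneg (c - a)),
      mul_nonneg p2 (sq_nonneg (a - b)), mul_nonneg p0 (sq_nonneg (b - c)),
      mul_nonneg p1 (sq_nonneg (c - a))]
  obtain ⟨D, hD⟩ : ∃ D, D = (a + b + c) * ((a - b) ^ 2 + (b - c) ^ 2 + (c - a) ^ 2) := ⟨_, rfl⟩
  have hD0 : 0 ≤ D := by rw [hD]; positivity
  have k5 : (a ^ 3 + b ^ 3 + c ^ 3) / 3 - a * b * c = D / 6 := by rw [hD]; ring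
  have k6 : (a + b + c) ^ 4 * (a - b) ^ 2 + (b + c + a) ^ 4 * (b - c) ^ 2 +
      (c + a + b) ^ 4 * (c - a) ^ 2 = (a + b + c) ^ 3 * D := by rw [hD]; ring
  have k7 := mul_le_mul_of_nonneg_right k4 hD0
  have k8 : 0 ≤ (a ^ 3 + b ^ 3 + c ^ 3) * D := by positivity
  rw [k5]
  nlinarith

theorem alim_E_tv_sq (μ : Exp 3) : μ.E tv ^ 2 ≤ 6 * μ.E gG := by
  obtain ⟨T, hT⟩ : ∃ T, T = μ.E tv := ⟨_, rfl⟩
  have hT0 : 0 ≤ T := hT ▸ μ.E_tv_nonneg
  have hg : Lin gG := alim_lin_gS sAdm_sG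
  have h1 := (lin_tv (q := 3)).const_mul (2 * T)
  have h2 := (lin_avg (q := 3)).const_mul (T ^ 2)
  have h3 := hg.const_mul 6
  have := μ.E_mono h1 (h2.add h3) fun L hL => by
    have a1 := alim_tv_sq hL
    have a2 := avg_nonneg hL
    have a3 : 0 ≤ gG L := sub_nonneg.2 (abs_le.1 (abs_mS_le sAdm_sG hL)).2
    refine abs_le_of_sq_le_sq' ?_ (by positivity) |>.2
    have a4 := mul_le_mul_of_nonneg_left a1 (show 0 ≤ 4 * T ^ 2 by positivity)
    nlinarith [sq_nonneg (T ^ 2 * avg L - 6 * gG L)]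
  rw [μ.E_add h2 h3, μ.E_const_mul, μ.E_const_mul, μ.E_const_mul, μ.E_avg, ← hT] at this
  rw [← hT]
  nlinarith

theorem alim_lin_sum {ι : Type*} (s : Finset ι) {ψ : ι → Vec 3 → ℝ} (h : ∀ j, Lin (ψ j)) :
    Lin fun L => ∑ j ∈ s, ψ j L := by
  classical
  induction s using Finset.induction_on with
  | empty => exact ⟨0, fun L _ => by simp⟩
  | insert a s ha ih => simpa only [sum_insert ha] using (h a).add ih

theorem alim_E_sum (μ : Exp 3) {ι : Type*} (s : Finset ι) {ψ : ι → Vec 3 → ℝ} (h : ∀ j, Lin (ψ j)) :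
    μ.E (fun L => ∑ j ∈ s, ψ j L) = ∑ j ∈ s, μ.E (ψ j) :=
  Summable.tsum_finsetSum fun j _ => μ.summable_of_lin (h j)

theorem alim_lin_J (a : Fin 6 → ℝ) : Lin fun L => ∑ j, a j * gJ j L :=
  alim_lin_sum _ fun j => (alim_lin_gS (sAdm_sig j)).const_mul (a j)

theorem alim_E_J (μ : Exp 3) (a : Fin 6 → ℝ) :
    μ.E (fun L => ∑ j, a j * gJ j L) = ∑ j, a j * (1 - μ.E (mS (sP (sig j)))) := by
  rw [alim_E_sum μ _ (ψ := fun j L => a j * gJ j L)
    fun j => (alim_lin_gS (sAdm_sig j)).const_mul (a j)]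
  refine sum_congr rfl fun j _ => ?_
  rw [μ.E_const_mul, ← alim_E_gS μ (sAdm_sig j)]
  rfl

theorem alim_lin_A (l : Lane) : Lin l.A :=
  ((alim_lin_J l.α).sub ((alim_lin_gS sAdm_sG).const_mul l.e)).add (lin_avg.const_mul l.γ)

theorem alim_lin_B (l : Lane) : Lin l.B :=
  (alim_lin_J l.β).add ((alim_lin_gS sAdm_sG).const_mul l.ν)

theorem alim_E_A (μ : Exp 3) (l : Lane) : μ.E l.A =
    ∑ j, l.α j * (1 - μ.E (mS (sP (sig j)))) - l.e * (1 - μ.E (mS sG)) + l.γ := by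
  have hG : Lin fun L => l.e * gG L := (alim_lin_gS sAdm_sG).const_mul l.e
  have h1 := μ.E_add ((alim_lin_J l.α).sub hG) (lin_avg.const_mul l.γ)
  rw [μ.E_sub (alim_lin_J l.α) hG, alim_E_J, μ.E_const_mul, μ.E_const_mul, μ.E_avg, mul_one] at h1
  rw [← alim_E_gS μ sAdm_sG]
  exact h1

theorem alim_E_B (μ : Exp 3) (l : Lane) : μ.E l.B =
    ∑ j, l.β j * (1 - μ.E (mS (sP (sig j)))) + l.ν * (1 - μ.E (mS sG)) := by
  have hG : Lin fun L => l.ν * gG L := (alim_lin_gS sAdm_sG).const_mul l.ν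
  have h1 := μ.E_add (alim_lin_J l.β) hG
  rw [alim_E_J, μ.E_const_mul] at h1
  rw [← alim_E_gS μ sAdm_sG]
  exact h1

theorem alim_valid (μ : Exp 3) {l : Lane} {t d : ℝ} (h0 : 0 < t) (h : Adm 3 (-t))
    (hd : d * t ^ 2 = 1) (hv : l.Valid t) : d * (Exp.chan (-t) h μ).E l.B ≤ μ.E l.A := by
  rw [Exp.E_chan, ← μ.E_const_mul]
  refine μ.E_mono (((alim_lin_B l).comp_Pm h).const_mul d) (alim_lin_A l) fun L hL => ?_
  have h1 := hv L hL
  have h2 : d = 1 / t ^ 2 := by rw [eq_div_iff (by positivity)]; exact hd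
  unfold Lane.F at h1
  rw [h2, one_div, ← div_eq_inv_mul]
  linarith

theorem alim_M_mem (μ : Exp 3) (j : Fin 6) : μ.E (mS (sP (sig j))) ∈ Set.Icc (-1 / 2 : ℝ) 1 := by
  refine ⟨?_, (abs_le.1 (μ.abs_E_mS_le (sAdm_sig j))).2⟩
  have := μ.E_mono (lin_avg.const_mul (-1 / 2)) (lin_mS (sAdm_sig j)) fun L hL => by
    have := mS_sig_ge j hL
    linarith
  rwa [μ.E_const_mul, μ.E_avg, mul_one] at this

theorem alim_no_drift {u r : ℕ → ℝ} {B ρ : ℝ} (hB : ∀ n, |u n| ≤ B) (hρ : ρ < 0)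
    (hr : Filter.Tendsto r Filter.atTop (nhds ρ)) (hu : ∀ n, u (n + 1) - u n ≤ r n) : False := by
  obtain ⟨N, hN⟩ := Filter.eventually_atTop.1 (hr.eventually (gt_mem_nhds (show ρ < ρ / 2 by linarith)))
  have key : ∀ k : ℕ, u (N + k) ≤ u N + k * (ρ / 2) := by
    intro k
    induction k with
    | zero => simp
    | succ k ih =>
      have a1 := hu (N + k)
      have a2 := hN (N + k) (Nat.le_add_right _ _)
      rw [← add_assoc]
      push_cast
      linarith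
  obtain ⟨k, hk⟩ := exists_nat_gt (2 * B / (-ρ / 2))
  rw [div_lt_iff₀ (by linarith)] at hk
  have a1 := key k
  have a2 := (abs_le.1 (hB (N + k))).1
  have a3 := (abs_le.1 (hB N)).2
  linarith

theorem anti_of_lanes (O : Off) {t : ℝ} (h0 : 0 < t) (h : Adm 3 (-t)) (hd : O.d * t ^ 2 = 1)
    {Z : ℝ} {n0 : ℕ} (hZ : zseq O t h n0 ≤ Z)
    (hl : ∀ z : ℝ, 0 < z → z ≤ Z → ∃ l : Lane, l.Valid t ∧ l.Excl O z) :
    Filter.Tendsto (fun n => (Exp.bp O (-t) h n).E tv) Filter.atTop (nhds 0) := by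
  have hd0 : 0 < O.d := (alim_d_nonneg O).lt_of_ne fun h1 => by rw [← h1] at hd; simp at hd
  have hbd : BddBelow (Set.range (zseq O t h)) := ⟨0, by rintro _ ⟨n, rfl⟩; exact zseq_nonneg h n⟩
  have hlim := tendsto_atTop_ciInf (zseq_antitone O h) hbd
  obtain ⟨z, hz⟩ : ∃ z, z = ⨅ n, zseq O t h n := ⟨_, rfl⟩
  have hz0 : 0 ≤ z := hz ▸ le_ciInf fun n => zseq_nonneg h n
  have hzn : ∀ n, z ≤ zseq O t h n := fun n => hz ▸ ciInf_le hbd n
  rw [← hz] at hlim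
  obtain ⟨ν, hν⟩ : ∃ ν : ℕ → Exp 3, ν = fun n => Exp.chan (-t) h (Exp.bp O (-t) h n) := ⟨_, rfl⟩
  have hν' : ∀ n, Exp.chan (-t) h (Exp.bp O (-t) h n) = ν n := fun n => by rw [hν]
  have hsym : ∀ n, (ν n).Sym := fun n => hν' n ▸ (Exp.sym_bp O h n).chan h
  have hstep : ∀ n, Exp.bp O (-t) h (n + 1) = Exp.step O (ν n) := fun n => by rw [← hν']; rfl
  have hzs : ∀ n, zseq O t h n = O.d * (1 - (ν n).E (mS sG)) := fun n => by rw [alim_zseq, hν']
  have hG1 : ∀ n, |(ν n).E (mS sG)| ≤ 1 := fun n => (ν n).abs_E_mS_le sAdm_sG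
  have hz' : z = 0 := by
    by_contra hne
    have hzpos : 0 < z := lt_of_le_of_ne hz0 (Ne.symm hne)
    obtain ⟨l, hv, c, hc1, hc2⟩ := hl z hzpos ((hzn n0).trans hZ)
    have hx : |1 - z / O.d| ≤ 1 := by
      have a1 := hzn 0
      have a2 := (abs_le.1 (hG1 0)).1
      rw [hzs] at a1
      have a3 : z / O.d ≤ 2 := by rw [div_le_iff₀ hd0]; nlinarith
      have a4 : 0 ≤ z / O.d := by positivity
      rw [abs_le]
      constructor <;> linarith
    refine alim_no_drift (u := fun n => ∑ j, l.β j * (O.d * (1 - (ν n).E (mS (sP (sig j))))))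
      (B := ∑ j, |l.β j| * (O.d * 2))
      (r := fun n => (∑ j, c j + l.γ - (l.e * (1 - O.gen (1 - z / O.d)) + l.ν * zseq O t h (n + 1))) +
        |l.e| * (zseq O t h n - z))
      (ρ := (∑ j, c j + l.γ - (l.e * (1 - O.gen (1 - z / O.d)) + l.ν * z)) + |l.e| * (z - z))
      (fun n => ?_) (by linarith) ?_ fun n => ?_
    · refine (abs_sum_le_sum_abs _ _).trans (sum_le_sum fun j _ => ?_)
      obtain ⟨a1, a2⟩ := alim_M_mem (ν n) j
      rw [abs_mul, abs_of_nonneg (mul_nonneg hd0.le (sub_nonneg.2 a2))]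
      gcongr
      linarith
    · have hlim' := (Filter.tendsto_add_atTop_iff_nat 1).2 hlim
      exact (tendsto_const_nhds.sub (tendsto_const_nhds.add (hlim'.const_mul _))).add
        ((hlim.sub_const z).const_mul _)
    · have a1 := alim_valid (Exp.bp O (-t) h (n + 1)) h0 h hd hv
      rw [hν', alim_E_B, alim_E_A, hstep, Exp.E_mS_step (hsym n) sAdm_sG] at a1
      simp only [Exp.E_mS_step (hsym n) (sAdm_sig _)] at a1
      have a2 := sum_le_sum fun j (_ : j ∈ univ) => hc1 j _ (alim_M_mem (ν n) j)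
      rw [sum_add_distrib] at a2
      have a3 := alim_gen_lip O (hG1 n) hx
      have a4 : O.d * |(ν n).E (mS sG) - (1 - z / O.d)| = zseq O t h n - z := by
        rw [← abs_of_pos hd0, ← abs_mul, abs_of_pos hd0, ← abs_neg,
          ← abs_of_nonneg (sub_nonneg.2 (hzn n)), hzs]
        congr 1
        field_simp
        ring
      rw [a4] at a3
      have a5 : l.e * (O.gen ((ν n).E (mS sG)) - O.gen (1 - z / O.d)) ≤
          |l.e| * (zseq O t h n - z) := by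
        refine (le_abs_self _).trans ?_
        rw [abs_mul]
        exact mul_le_mul_of_nonneg_left a3 (abs_nonneg _)
      have a6 : O.d * (∑ j, l.β j * (1 - (ν (n + 1)).E (mS (sP (sig j)))) +
          l.ν * (1 - (ν (n + 1)).E (mS sG))) =
          ∑ j, l.β j * (O.d * (1 - (ν (n + 1)).E (mS (sP (sig j))))) +
            l.ν * zseq O t h (n + 1) := by
        rw [hzs, mul_add, mul_sum]
        congr 1
        · exact sum_congr rfl fun j _ => by ring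
        · ring
      rw [a6] at a1
      linarith
  rw [hz'] at hlim
  rw [← Filter.tendsto_add_atTop_iff_nat 1]
  have hs : Filter.Tendsto (fun n => √(6 * zseq O t h n)) Filter.atTop (nhds 0) := by
    simpa using (hlim.const_mul 6).sqrt
  refine squeeze_zero (fun n => Exp.E_tv_nonneg _) (fun n => ?_) hs
  refine Real.le_sqrt_of_sq_le ((alim_E_tv_sq _).trans ?_)
  have a1 : (Exp.bp O (-t) h (n + 1)).E gG = 1 - O.gen ((ν n).E (mS sG)) := by
    rw [← Exp.E_mS_step (hsym n) sAdm_sG, ← hstep, ← alim_E_gS _ sAdm_sG]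
    rfl
  have a2 := (le_abs_self _).trans (alim_gen_lip O (x := 1) (by simp) (hG1 n))
  rw [alim_gen_one, abs_of_nonneg (sub_nonneg.2 (abs_le.1 (hG1 n)).2), ← hzs] at a2
  rw [a1]
  linarith

end Crest.Agent.R163
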