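import Crest.Agent.R163.Chan
import Crest.Agent.R163.Sort

/-!
# R163/AReduce: a certificate checked at `t1` is valid for all `t ≤ t1`

`validLe_of_valid2`: fix `L ≥ 0` with `avg L > 0` (the case `L = 0` is trivial by homogeneity / all terms vanish).  For
`0 < x < t1 ≤ 1/2`, `b = Pm (-x) L` is positive (`b i ≥ (1 - 2x) ā`) and `b i ≤ (1 + x) avg b`.  By `hasDerivAt_mS`, `avg_Pm`, `p3_Pm`:
`d/dx (gS s (Pm (-x) L) / x² - c3 x ā p3 L) = wS s c3 (Pm (-x) L) / x³`.  So `K x = B (Pm (-x) L) / x² - b3 x ā p3 L` is monotone on `[t, t1]`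
(`monotoneOn_of_deriv_nonneg`; continuity at `x = t1 = 1/2`, where an entry of `b` may vanish, from
`Complex.continuousAt_ofReal_cpow_const`-type lemmas, or exponent `0`), whence
`F t ≥ F t1 + b3 (t1 - t) ā p3 = (t/t1) F t1 + (1 - t/t1) F2 t1 ≥ 0`.
`validLe_half`, `validLe_45`: if `β5 ≤ 0.0008 β0` combine `hG.Q` with weight `β0 - β5/0.0008` and `hG.QC` with weight `β5 / 0.0008` (use `h1`),
otherwise `hG.QC` with weight `β0` and `hG.C4` with weight `β5 - 0.0008 β0` (use `h2`); the rest goes to `hG.G`.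
-/

set_option autoImplicit false

namespace Crest.Agent.R163

theorem ared_mS_zero (s : Fin 3 → ℂ) (hs : ∑ i, s i = 1) : mS s (0 : Vec 3) = 0 := by
  have h : ∃ i, s i ≠ 0 := by
    by_contra hc
    push Not at hc
    simp [hc] at hs
  obtain ⟨i, hi⟩ := h
  have e : ∀ π : Equiv.Perm (Fin 3), mon s ((0 : Vec 3) ∘ π) = 0 := fun π =>
    Finset.prod_eq_zero (Finset.mem_univ i) (by simp [hi])
  simp only [mS, e]
  simp

theorem ared_cont_mS {s : Fin 3 → ℂ} (hs : SAdm s) (L : Vec 3) :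
    Continuous fun x : ℝ => mS s (Pm (-x) L) := by
  unfold mS
  refine Continuous.div_const (continuous_finsetSum _ fun π _ => Complex.continuous_re.comp ?_) _
  unfold mon
  refine continuous_finsetProd _ fun i _ => ?_
  rcases hs.re_pos i with h | h
  · simp only [h, Complex.cpow_zero]
    exact continuous_const
  · have h1 : Continuous fun x : ℝ => (Pm (-x) L ∘ π) i := by
      simp only [Function.comp_apply, Pm]
      fun_prop
    exact (Complex.continuous_ofReal_cpow_const h).comp h1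

theorem ared_deriv {s : Fin 3 → ℂ} (hs : ∑ i, s i = 1) (c3 : ℝ) {L : Vec 3} (hL : avg L ≠ 0) {x : ℝ}
    (hx : 0 < x) (hp : PP (Pm (-x) L)) :
    HasDerivAt (fun y => gS s (Pm (-y) L) / y ^ 2 - c3 * y * (avg L * p3 L))
      (wS s c3 (Pm (-x) L) / x ^ 3) x := by
  have h1 := (hasDerivAt_mS s hs L (neg_ne_zero.2 hx.ne') hp).comp x (hasDerivAt_neg x)
  have h2 := ((h1.const_sub (avg L)).fun_div (hasDerivAt_pow 2 x) (pow_ne_zero 2 hx.ne')).fun_sub
    (((hasDerivAt_id' x).const_mul c3).mul_const (avg L * p3 L))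
  have e : (fun y => gS s (Pm (-y) L) / y ^ 2 - c3 * y * (avg L * p3 L)) =
      fun y => (avg L - ((fun y => mS s (Pm y L)) ∘ Neg.neg) y) / y ^ 2 - c3 * y * (avg L * p3 L) := by
    funext y
    simp only [gS, avg_Pm, Function.comp_apply]
  rw [e]
  refine h2.congr_deriv ?_
  rw [wS, p3_Pm _ hL, avg_Pm]
  have := hx.ne'
  simp only [Function.comp_apply]
  norm_num
  field_simp
  ring

namespace Lane

theorem ared_K_eq (l : Lane) (L : Vec 3) (y : ℝ) :
    l.B (Pm (-y) L) / y ^ 2 - l.b3 * y * (avg L * p3 L) =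
      ∑ j, l.β j * (gS (sP (sig j)) (Pm (-y) L) / y ^ 2 - cc3 j * y * (avg L * p3 L)) +
        l.ν * (gS sG (Pm (-y) L) / y ^ 2 - 1 / 3 * y * (avg L * p3 L)) := by
  simp only [B, b3, gJ, gG, Fin.sum_univ_six]
  ring

theorem validLe_of_valid2 (l : Lane) {t1 : ℝ} (h0 : 0 < t1) (h1 : t1 ≤ 1 / 2) (hv : l.Valid2 t1)
    (hw : ∀ b : Vec 3, PP b → (∀ i, b i ≤ (1 + t1) * avg b) →
      0 ≤ ∑ j, l.β j * wJ j b + l.ν * wG b) : l.ValidLe t1 := by
  intro t ht ht1 L hL
  obtain ⟨hF, hF2⟩ := hv L hL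
  rcases (avg_nonneg hL).eq_or_lt with ha | ha
  · have hL0 : L = 0 := by
      funext i
      have := le_mul_avg hL i
      rw [← ha, mul_zero] at this
      exact le_antisymm this (hL i)
    have hP : ∀ x : ℝ, Pm x L = 0 := fun x => by
      funext i
      simp [Pm, hL0, avg]
    have hB : l.B 0 = 0 := by
      have e0 : avg (0 : Vec 3) = 0 := by simp [avg]
      simp only [B, gJ, gG, gS, e0, ared_mS_zero _ (sAdm_sig _).sum_one,
        ared_mS_zero _ sAdm_sG.sum_one]
      simp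
    unfold F at hF ⊢
    rw [hP, hB, zero_div] at hF ⊢
    exact hF
  · have hpos : ∀ x : ℝ, 0 < x → x < t1 → PP (Pm (-x) L) := fun x hx hx1 i => by
      have e1 := le_mul_avg hL i
      have e2 := mul_le_mul_of_nonneg_left e1 hx.le
      have e3 := mul_pos (show 0 < 1 - 2 * x by linarith) ha
      unfold Pm
      push_cast at e2
      nlinarith
    have hder : ∀ x : ℝ, 0 < x → x < t1 →
        HasDerivAt (fun y => l.B (Pm (-y) L) / y ^ 2 - l.b3 * y * (avg L * p3 L))
          ((∑ j, l.β j * wJ j (Pm (-x) L) + l.ν * wG (Pm (-x) L)) / x ^ 3) x := fun x hx hx1 => by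
      have a1 := HasDerivAt.fun_sum (u := Finset.univ) fun j _ =>
        (ared_deriv (sAdm_sig j).sum_one (cc3 j) ha.ne' hx (hpos x hx hx1)).const_mul (l.β j)
      have a2 := (ared_deriv sAdm_sG.sum_one (1 / 3) ha.ne' hx (hpos x hx hx1)).const_mul l.ν
      simp only [ared_K_eq]
      refine (a1.fun_add a2).congr_deriv ?_
      simp only [wJ, wG, Fin.sum_univ_six]
      ring
    have hcont : ContinuousOn (fun y => l.B (Pm (-y) L) / y ^ 2 - l.b3 * y * (avg L * p3 L))
        (Set.Icc t t1) := by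
      have c1 : Continuous fun y : ℝ => l.B (Pm (-y) L) := by
        simp only [B, gJ, gG, gS, avg_Pm]
        exact (continuous_finsetSum _ fun j _ => continuous_const.mul
          (continuous_const.sub (ared_cont_mS (sAdm_sig j) L))).add
          (continuous_const.mul (continuous_const.sub (ared_cont_mS sAdm_sG L)))
      refine (c1.continuousOn.div (by fun_prop) fun y hy => ?_).sub (by fun_prop)
      exact pow_ne_zero 2 (ht.trans_le hy.1).ne'
    have hmono := monotoneOn_of_deriv_nonneg (convex_Icc t t1) hcont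
      (fun x hx => by
        rw [interior_Icc] at hx
        exact (hder x (ht.trans hx.1) hx.2).differentiableAt.differentiableWithinAt)
      (fun x hx => by
        rw [interior_Icc] at hx
        have hx0 := ht.trans hx.1
        rw [(hder x hx0 hx.2).deriv]
        refine div_nonneg (hw _ (hpos x hx0 hx.2) fun i => ?_) (pow_nonneg hx0.le 3)
        rw [avg_Pm]
        have e1 := mul_nonneg hx0.le (hL i)
        have e2 := mul_nonneg (sub_nonneg.2 hx.2.le) ha.le
        unfold Pm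
        nlinarith)
      (Set.left_mem_Icc.2 ht1) (Set.right_mem_Icc.2 ht1) ht1
    have key : t1 * l.F t L ≥ t * l.F t1 L + (t1 - t) * l.F2 t1 L := by
      have e := mul_le_mul_of_nonneg_left hmono h0.le
      unfold F2 F
      simp only at e
      nlinarith
    have e1 := mul_nonneg ht.le hF
    have e2 := mul_nonneg (sub_nonneg.2 ht1) hF2
    exact nonneg_of_mul_nonneg_right (by linarith : 0 ≤ t1 * l.F t L) h0

theorem ared_core (l : Lane) (hg : l.GenOk) {g w0 w1 w2 w3 w4 w5 : ℝ} (hG : 0 ≤ g)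
    (hQ : 438 / 1000 * g ≤ w0) (hQC : 433 / 1000 * g ≤ w0 + 8 / 10000 * w5) (hC4 : 0 ≤ w5 + 30 * g)
    (e1 : 0 ≤ l.β 1 * (w1 - 49 / 100 * g)) (e2 : 0 ≤ l.β 2 * (w2 - 33 / 100 * g))
    (e3 : 0 ≤ l.β 3 * (w3 + 23 / 10 * g)) (e4 : 0 ≤ l.β 4 * (w4 + 19 / 2 * g)) :
    0 ≤ l.β 0 * w0 + l.β 1 * w1 + l.β 2 * w2 + l.β 3 * w3 + l.β 4 * w4 + l.β 5 * w5 + l.ν * g := by
  rcases le_total (1250 * l.β 5) (l.β 0) with h | h
  · have a1 := mul_nonneg (sub_nonneg.2 h) (sub_nonneg.2 hQ)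
    have a2 := mul_nonneg (hg.nonneg 5) (sub_nonneg.2 hQC)
    have a3 := mul_nonneg (sub_nonneg.2 hg.h1) hG
    nlinarith
  · have a1 := mul_nonneg (sub_nonneg.2 h) hC4
    have a2 := mul_nonneg (hg.nonneg 0) (sub_nonneg.2 hQC)
    have a3 := mul_nonneg (sub_nonneg.2 hg.h2) hG
    nlinarith

theorem validLe_half (hG : Gens) (l : Lane) (hg : l.GenOk) (hs : l.Small) (hv : l.Valid2 (1 / 2)) :
    l.ValidLe (1 / 2) := by
  refine validLe_of_valid2 l (by norm_num) le_rfl hv fun b hb hle => ?_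
  have h : ∀ i, b i ≤ 3 / 2 * avg b := fun i => (hle i).trans_eq (by norm_num)
  obtain ⟨s1, s2, s3, s4⟩ := hs
  rw [Fin.sum_univ_six]
  exact ared_core l hg (hG.G b hb h) (hG.Q b hb h) (hG.QC b hb h) (hG.C4 b hb h)
    (by rw [s1, zero_mul]) (by rw [s2, zero_mul]) (by rw [s3, zero_mul]) (by rw [s4, zero_mul])

theorem validLe_45 (hG : Gens) (l : Lane) (hg : l.GenOk) (hv : l.Valid2 (9 / 20)) :
    l.ValidLe (9 / 20) := by
  refine validLe_of_valid2 l (by norm_num) (by norm_num) hv fun b hb hle => ?_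
  have h' : ∀ i, b i ≤ 29 / 20 * avg b := fun i => (hle i).trans_eq (by norm_num)
  have h : ∀ i, b i ≤ 3 / 2 * avg b := fun i =>
    (h' i).trans (mul_le_mul_of_nonneg_right (by norm_num) (avg_pos hb).le)
  rw [Fin.sum_univ_six]
  exact ared_core l hg (hG.G b hb h) (hG.Q b hb h) (hG.QC b hb h) (hG.C4 b hb h)
    (mul_nonneg (hg.nonneg 1) (sub_nonneg.2 (hG.H b hb h')))
    (mul_nonneg (hg.nonneg 2) (sub_nonneg.2 (hG.C1 b hb h')))
    (mul_nonneg (hg.nonneg 3) (hG.C2 b hb h')) (mul_nonneg (hg.nonneg 4) (hG.C3 b hb h'))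

theorem F_comb (a : ℝ) (l : Lane) (b : ℝ) (m : Lane) (t : ℝ) (L : Vec 3) :
    (comb a l b m).F t L = a * l.F t L + b * m.F t L := by
  simp only [F, A, B, Lane.comb, Fin.sum_univ_six]
  ring
theorem ValidLe.comb {l m : Lane} {t1 a b : ℝ} (hl : l.ValidLe t1) (hm : m.ValidLe t1) (ha : 0 ≤ a)
    (hb : 0 ≤ b) : (comb a l b m).ValidLe t1 := fun t ht ht1 L hL => by
  rw [F_comb]
  exact add_nonneg (mul_nonneg ha (hl t ht ht1 L hL)) (mul_nonneg hb (hm t ht ht1 L hL))
theorem ValidLe.mono {l : Lane} {t1 t2 : ℝ} (hl : l.ValidLe t1) (h : t2 ≤ t1) : l.ValidLe t2 :=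
  fun t ht ht2 => hl t ht (ht2.trans h)

end Lane

end Crest.Agent.R163
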