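import Crest.Agent.R163.AReduce
import Crest.Agent.R163.ACls
import Crest.Agent.R163.ADefs2

/-!
# R163/AReduce2: validity on a range of `t`; the first interval `0 < z ≤ 1/100`

`F3_le`: copy the proof of `validLe_of_valid2` (its `hmono` is the claim).  `valid_half`, `valid_45`: `F3` is affine in `s`; the
hypothesis `hw` is derived from `hG` as in `validLe_half`, `validLe_45`.
`first_interval`: `dN0.toLane.b3 = 0`, so `V3 (1/2) 0` is `V3 (1/2) (1/2)` for `dN0`; all three lanes are valid at `t` (`valid_half` with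
`sa = 0`, `sb = 1/2`).  With `u = 100 z` take the lane `(1 - u) N0 + u ((4κ - 3) N1 + (4 - 4κ) N2)` (`Lane.comb`, `Valid.comb`): it has the
same `α, e` as `N0`, `γ = 0`.  `Excl`: `c j = α j κ (r j z)² / 2` with `r 0 = 9/16`, `r 5 = 23/2` (`Cls1.tan` with `w = r j z`; one needs
`α j (1 - κ w + κ² w²/2) ≤ β j`, which follows from the cases `κ = 1`, `κ = 3/4` at `z = 1/100` by convexity in `κ`, and `d (1 - x) ≥ 0`), `c j = 0`
for the other `j`; the final strict inequality is `z²` times a function affine in `κ` that is positive at both ends (`Cls1.low`).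
-/

set_option autoImplicit false

namespace Crest.Agent.R163

namespace Lane

theorem F3_le (l : Lane) {t1 : ℝ} (h1 : t1 ≤ 1 / 2)
    (hw : ∀ b : Vec 3, PP b → (∀ i, b i ≤ (1 + t1) * avg b) →
      0 ≤ ∑ j, l.β j * wJ j b + l.ν * wG b) {t : ℝ} (ht : 0 < t) (ht1 : t ≤ t1) {L : Vec 3} (hL : NN L) :
    l.F3 t1 (t1 - t) L ≤ l.F t L := by
  rcases (avg_nonneg hL).eq_or_lt with ha | ha
  · have hL0 : L = 0 := by
      funext i
      have := le_mul_avg hL i
      rw [← ha, mul_zero] at this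
      exact le_antisymm this (hL i)
    have hP : ∀ x : ℝ, Pm x L = 0 := fun x => by
      funext i
      simp [Pm, hL0, avg]
    have hB : l.B 0 = 0 := by
      have e0 : avg (0 : Vec 3) = 0 := by simp [avg]
      simp only [B, gJ, gG, gS, e0, ared_mS_zero _ (sAdm_sig _).sum_one,
        ared_mS_zero _ sAdm_sG.sum_one]
      simp
    unfold F3 F
    rw [hP, hP, hB, zero_div, zero_div, ← ha]
    simp
  · have hpos : ∀ x : ℝ, 0 < x → x < t1 → PP (Pm (-x) L) := fun x hx hx1 i => by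
      have e1 := le_mul_avg hL i
      have e2 := mul_le_mul_of_nonneg_left e1 hx.le
      have e3 := mul_pos (show 0 < 1 - 2 * x by linarith) ha
      unfold Pm
      push_cast at e2
      nlinarith
    have hder : ∀ x : ℝ, 0 < x → x < t1 →
        HasDerivAt (fun y => l.B (Pm (-y) L) / y ^ 2 - l.b3 * y * (avg L * p3 L))
          ((∑ j, l.β j * wJ j (Pm (-x) L) + l.ν * wG (Pm (-x) L)) / x ^ 3) x := fun x hx hx1 => by
      have a1 := HasDerivAt.fun_sum (u := Finset.univ) fun j _ =>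
        (ared_deriv (sAdm_sig j).sum_one (cc3 j) ha.ne' hx (hpos x hx hx1)).const_mul (l.β j)
      have a2 := (ared_deriv sAdm_sG.sum_one (1 / 3) ha.ne' hx (hpos x hx hx1)).const_mul l.ν
      simp only [ared_K_eq]
      refine (a1.fun_add a2).congr_deriv ?_
      simp only [wJ, wG, Fin.sum_univ_six]
      ring
    have hcont : ContinuousOn (fun y => l.B (Pm (-y) L) / y ^ 2 - l.b3 * y * (avg L * p3 L))
        (Set.Icc t t1) := by
      have c1 : Continuous fun y : ℝ => l.B (Pm (-y) L) := by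
        simp only [B, gJ, gG, gS, avg_Pm]
        exact (continuous_finsetSum _ fun j _ => continuous_const.mul
          (continuous_const.sub (ared_cont_mS (sAdm_sig j) L))).add
          (continuous_const.mul (continuous_const.sub (ared_cont_mS sAdm_sG L)))
      refine (c1.continuousOn.div (by fun_prop) fun y hy => ?_).sub (by fun_prop)
      exact pow_ne_zero 2 (ht.trans_le hy.1).ne'
    have hmono := monotoneOn_of_deriv_nonneg (convex_Icc t t1) hcont
      (fun x hx => by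
        rw [interior_Icc] at hx
        exact (hder x (ht.trans hx.1) hx.2).differentiableAt.differentiableWithinAt)
      (fun x hx => by
        rw [interior_Icc] at hx
        have hx0 := ht.trans hx.1
        rw [(hder x hx0 hx.2).deriv]
        refine div_nonneg (hw _ (hpos x hx0 hx.2) fun i => ?_) (pow_nonneg hx0.le 3)
        rw [avg_Pm]
        have e1 := mul_nonneg hx0.le (hL i)
        have e2 := mul_nonneg (sub_nonneg.2 hx.2.le) ha.le
        unfold Pm
        nlinarith)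
      (Set.left_mem_Icc.2 ht1) (Set.right_mem_Icc.2 ht1) ht1
    unfold F3 F
    simp only at hmono
    linarith

theorem ared2_between {l : Lane} {t1 sa sb s : ℝ} (ha : l.V3 t1 sa) (hb : l.V3 t1 sb)
    (h2 : sa ≤ s) (h3 : s ≤ sb) : l.V3 t1 s := by
  intro L hL
  have e1 := ha L hL
  have e2 := hb L hL
  unfold F3 at e1 e2 ⊢
  rcases le_total 0 (l.b3 * (avg L * p3 L)) with h | h
  · nlinarith [mul_nonneg (sub_nonneg.2 h2) h]
  · nlinarith [mul_nonneg (sub_nonneg.2 h3) (neg_nonneg.2 h)]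

theorem valid_half (hG : Gens) (l : Lane) (hg : l.GenOk) (hs : l.Small) {sa sb t : ℝ}
    (ha : l.V3 (1 / 2) sa) (hb : l.V3 (1 / 2) sb) (ht : 0 < t) (h1 : t ≤ 1 / 2)
    (h2 : sa ≤ 1 / 2 - t) (h3 : 1 / 2 - t ≤ sb) : l.Valid t := by
  intro L hL
  refine (ared2_between ha hb h2 h3 L hL).trans (F3_le l le_rfl (fun b hb hle => ?_) ht h1 hL)
  have h : ∀ i, b i ≤ 3 / 2 * avg b := fun i => (hle i).trans_eq (by norm_num)
  obtain ⟨s1, s2, s3, s4⟩ := hs
  rw [Fin.sum_univ_six]
  exact ared_core l hg (hG.G b hb h) (hG.Q b hb h) (hG.QC b hb h) (hG.C4 b hb h)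
    (by rw [s1, zero_mul]) (by rw [s2, zero_mul]) (by rw [s3, zero_mul]) (by rw [s4, zero_mul])

theorem valid_45 (hG : Gens) (l : Lane) (hg : l.GenOk) {sa sb t : ℝ}
    (ha : l.V3 (9 / 20) sa) (hb : l.V3 (9 / 20) sb) (ht : 0 < t) (h1 : t ≤ 9 / 20)
    (h2 : sa ≤ 9 / 20 - t) (h3 : 9 / 20 - t ≤ sb) : l.Valid t := by
  intro L hL
  refine (ared2_between ha hb h2 h3 L hL).trans
    (F3_le l (by norm_num) (fun b hb hle => ?_) ht h1 hL)
  have h' : ∀ i, b i ≤ 29 / 20 * avg b := fun i => (hle i).trans_eq (by norm_num)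
  have h : ∀ i, b i ≤ 3 / 2 * avg b := fun i =>
    (h' i).trans (mul_le_mul_of_nonneg_right (by norm_num) (avg_pos hb).le)
  rw [Fin.sum_univ_six]
  exact ared_core l hg (hG.G b hb h) (hG.Q b hb h) (hG.QC b hb h) (hG.C4 b hb h)
    (mul_nonneg (hg.nonneg 1) (sub_nonneg.2 (hG.H b hb h')))
    (mul_nonneg (hg.nonneg 2) (sub_nonneg.2 (hG.C1 b hb h')))
    (mul_nonneg (hg.nonneg 3) (hG.C2 b hb h')) (mul_nonneg (hg.nonneg 4) (hG.C3 b hb h'))

theorem V3.valid {l : Lane} {t : ℝ} (h : l.V3 t 0) : l.Valid t := by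
  intro L hL
  have := h L hL
  unfold F3 at this
  simpa using this

theorem Valid.comb {l m : Lane} {t a b : ℝ} (hl : l.Valid t) (hm : m.Valid t) (ha : 0 ≤ a)
    (hb : 0 ≤ b) : (comb a l b m).Valid t := by
  intro L hL
  rw [F_comb]
  exact add_nonneg (mul_nonneg ha (hl L hL)) (mul_nonneg hb (hm L hL))

end Lane

theorem LD.genOk_sound {l : LD} (h : l.genOk = true) : l.toLane.GenOk := by
  simp only [LD.genOk, Bool.and_eq_true, Nat.ble_eq] at h
  obtain ⟨a1, a2⟩ := h
  have b1 : (6250 * l.b5 + 2300 * l.b3 + 9500 * l.b4 + 1000 * l.nm : ℝ) ≤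
      1000 * l.np + 438 * l.b0 + 490 * l.b1 + 330 * l.b2 := by exact_mod_cast a1
  have b2 : (30000 * l.b5 + 2300 * l.b3 + 9500 * l.b4 + 1000 * l.nm : ℝ) ≤
      1000 * l.np + 457 * l.b0 + 490 * l.b1 + 330 * l.b2 := by exact_mod_cast a2
  refine ⟨fun j => ?_, ?_, ?_⟩
  · fin_cases j <;> simp [LD.toLane]
  · simp only [LD.toLane, Matrix.cons_val]
    linarith
  · simp only [LD.toLane, Matrix.cons_val]
    linarith

theorem LD.small_sound {l : LD} (h : l.small = true) : l.toLane.Small := by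
  simp only [LD.small, Nat.beq_eq] at h
  have h1 : l.b1 = 0 := by omega
  have h2 : l.b2 = 0 := by omega
  have h3 : l.b3 = 0 := by omega
  have h4 : l.b4 = 0 := by omega
  simp [Lane.Small, LD.toLane, h1, h2, h3, h4]

theorem ared2_tan {O : Off} {κ : ℝ} (hO : O.Cls1 κ) {α β w : ℝ} (hα : 0 ≤ α) (h0 : 0 ≤ w)
    (h1 : w ≤ 1) (hβ : α * (1 - κ * w + κ ^ 2 * w ^ 2 / 2) ≤ β) :
    ∀ x ∈ Set.Icc (-1 / 2 : ℝ) 1,
      α * (1 - O.gen x) ≤ β * (O.d * (1 - x)) + α * κ * w ^ 2 / 2 := by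
  intro x hx
  have hd : 0 ≤ O.d * (1 - x) := mul_nonneg (by linarith [hO.d_ge]) (sub_nonneg.2 hx.2)
  have e1 := mul_le_mul_of_nonneg_left (hO.tan w h0 h1 x hx) hα
  have e2 := mul_le_mul_of_nonneg_right hβ hd
  nlinarith

theorem ared2_beta {A r p q κ z : ℝ} (hA : 0 ≤ A) (hκ : 3 / 4 ≤ κ) (hκ1 : κ ≤ 1)
    (hz : 0 ≤ z) (hz1 : z ≤ 1 / 100) (hp : 100 * p ≤ A * (r - r ^ 2 / 200))
    (hq : 100 * q ≤ A * (3 / 4 * r - 9 / 16 * r ^ 2 / 200)) :
    A * (1 - κ * (r * z) + κ ^ 2 * (r * z) ^ 2 / 2) ≤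
      A - 100 * z * ((4 * κ - 3) * p + (4 - 4 * κ) * q) := by
  have e1 : 0 ≤ A * r ^ 2 := by positivity
  have e2 := mul_le_mul_of_nonneg_left hp (show 0 ≤ 4 * κ - 3 by linarith)
  have e3 := mul_le_mul_of_nonneg_left hq (show 0 ≤ 4 - 4 * κ by linarith)
  have e4 := mul_nonneg e1 (mul_nonneg (sub_nonneg.2 hκ) (sub_nonneg.2 hκ1))
  have e5 := mul_nonneg (mul_nonneg e1 (sq_nonneg κ)) (sub_nonneg.2 hz1)
  have key : 100 * ((4 * κ - 3) * p + (4 - 4 * κ) * q) ≤ A * (κ * r - κ ^ 2 * r ^ 2 * z / 2) := by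
    nlinarith
  have e6 := mul_le_mul_of_nonneg_left key hz
  nlinarith

theorem first_interval (hG : Gens) (hD : ∀ c ∈ dChecks, c.1.toLane.V3 (1 / 2) ((c.2 : ℝ) / 20))
    {O : Off} {κ : ℝ} (hO : O.Cls1 κ) (hκ : 3 / 4 ≤ κ) (hκ1 : κ ≤ 1) {t : ℝ} (ht : 0 < t) (h1 : t ≤ 1 / 2)
    {z : ℝ} (hz : 0 < z) (hz1 : z ≤ 1 / 100) : ∃ l : Lane, l.Valid t ∧ l.Excl O z := by
  have d0 : dN0.toLane.V3 (1 / 2) 0 := by simpa using hD (dN0, 0) (by simp [dChecks])
  have d1 : dN1.toLane.V3 (1 / 2) 0 := by simpa using hD (dN1, 0) (by simp [dChecks])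
  have d2 : dN2.toLane.V3 (1 / 2) 0 := by simpa using hD (dN2, 0) (by simp [dChecks])
  have e10 : (((10 : ℕ) : ℝ) / 20) = 1 / 2 := by norm_num
  have d1' : dN1.toLane.V3 (1 / 2) (1 / 2) := by
    have := hD (dN1, 10) (by simp [dChecks])
    rwa [e10] at this
  have d2' : dN2.toLane.V3 (1 / 2) (1 / 2) := by
    have := hD (dN2, 10) (by simp [dChecks])
    rwa [e10] at this
  have b0 : dN0.toLane.b3 = 0 := by
    simp only [Lane.b3, LD.toLane, dN0, cc3, Fin.sum_univ_six, Matrix.cons_val]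
    norm_num
  have d0' : dN0.toLane.V3 (1 / 2) (1 / 2) := fun L hL => by
    have := d0 L hL
    unfold Lane.F3 at this ⊢
    rw [b0] at this ⊢
    simpa using this
  have v0 := Lane.valid_half hG _ (LD.genOk_sound (l := dN0) (by decide))
    (LD.small_sound (by decide)) d0 d0' ht h1 (by linarith) (by linarith)
  have v1 := Lane.valid_half hG _ (LD.genOk_sound (l := dN1) (by decide))
    (LD.small_sound (by decide)) d1 d1' ht h1 (by linarith) (by linarith)
  have v2 := Lane.valid_half hG _ (LD.genOk_sound (l := dN2) (by decide))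
    (LD.small_sound (by decide)) d2 d2' ht h1 (by linarith) (by linarith)
  refine ⟨Lane.comb (1 - 100 * z) dN0.toLane (100 * z)
    (Lane.comb (4 * κ - 3) dN1.toLane (4 - 4 * κ) dN2.toLane),
    v0.comb (v1.comb v2 (by linarith) (by linarith)) (by linarith) (by linarith), ?_⟩
  have t0 := ared2_tan hO (α := 8589934592) (w := 9 / 16 * z) (by norm_num) (by positivity)
    (by linarith) (ared2_beta (p := 48182476) (q := 36162335) (by norm_num) hκ hκ1 hz.le hz1
      (by norm_num) (by norm_num))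
  have t5 := ared2_tan hO (α := 7087360) (w := 23 / 2 * z) (by norm_num) (by positivity)
    (by linarith) (ared2_beta (p := 768179) (q := 584921) (by norm_num) hκ hκ1 hz.le hz1
      (by norm_num) (by norm_num))
  refine ⟨![8589934592 * κ * (9 / 16 * z) ^ 2 / 2, 0, 0, 0, 0,
    7087360 * κ * (23 / 2 * z) ^ 2 / 2], fun j x hx => ?_, ?_⟩
  · have a0 := t0 x hx
    have a5 := t5 x hx
    fin_cases j
    · simp only [Lane.comb, LD.toLane, dN0, dN1, dN2, Fin.zero_eta, Matrix.cons_val_zero]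
      push_cast
      linarith
    · simp [Lane.comb, LD.toLane, dN0, dN1, dN2]
    · simp [Lane.comb, LD.toLane, dN0, dN1, dN2]
    · simp [Lane.comb, LD.toLane, dN0, dN1, dN2]
    · simp [Lane.comb, LD.toLane, dN0, dN1, dN2]
    · simp only [Lane.comb, LD.toLane, dN0, dN1, dN2, Fin.reduceFinMk, Matrix.cons_val]
      push_cast
      linarith
  · have l0 := hO.low z hz.le (by linarith)
    simp only [Lane.comb, LD.toLane, dN0, dN1, dN2, Fin.sum_univ_six, Matrix.cons_val]
    push_cast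
    have z2 : 0 < z ^ 2 := by positivity
    have e1 := mul_nonneg z2.le (sub_nonneg.2 hκ)
    have e2 := mul_nonneg z2.le (sub_nonneg.2 hκ1)
    nlinarith

end Crest.Agent.R163
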