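import Crest.Agent.R163.E4.Sound
import Crest.Agent.R163.E4.Cert
import Crest.Agent.R163.DE.Main
import Crest.Agent.R163.ALimit

/-!
# R163/Anti: the critical antiferromagnetic cases from the certificates
-/

set_option autoImplicit false

namespace Crest.Agent.R163

open E3 E4

/-- the two-dimensional checks -/
structure CertE3 : Prop where
  h50 : ∀ c ∈ dChecks ++ ls50, c.1.toLane.V3 (1 / 2) ((c.2 : ℝ) / 20)
  h45 : ∀ c ∈ ([] : List (LD × ℕ)) ++ ls45, c.1.toLane.V3 (9 / 20) ((c.2 : ℝ) / 20)

theorem anti_all {f : LD → Bool} {fam : List LD} (h : fam.all f = true) {l : LD} (hl : l ∈ fam) :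
    f l = true := List.all_eq_true.1 h l hl

theorem validU (hG : Gens) (h3 : CertE3) {t : ℝ} (h0 : 0 < t) (h1 : t ≤ 1 / 2) :
    ∀ l ∈ fU, l.toLane.Valid t := fun l hl =>
  Lane.valid_half hG _ (LD.genOk_sound (anti_all (by decide +kernel) hl))
    (LD.small_sound (anti_all (by decide +kernel) hl))
    (h3.h50 (l, 0) (by simp [ls50, hl])) (h3.h50 (l, 10) (by simp [ls50, hl])) h0 h1
    (by push_cast; linarith) (by push_cast; linarith)

theorem validR5 (hG : Gens) (h3 : CertE3) {t : ℝ} (h0 : 9 / 20 ≤ t) (h1 : t ≤ 1 / 2) :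
    ∀ l ∈ fR5, l.toLane.Valid t := fun l hl =>
  Lane.valid_half hG _ (LD.genOk_sound (anti_all (by decide +kernel) hl))
    (LD.small_sound (anti_all (by decide +kernel) hl))
    (h3.h50 (l, 0) (by simp [ls50, hl])) (h3.h50 (l, 1) (by simp [ls50, hl])) (by linarith) h1
    (by push_cast; linarith) (by push_cast; linarith)

theorem validR4 (h3 : CertE3) : ∀ l ∈ fR4, l.toLane.Valid (1 / 2) := fun l hl =>
  Lane.V3.valid (by simpa using h3.h50 (l, 0) (by simp [ls50, hl]))

theorem validA0 (hG : Gens) (h3 : CertE3) {t : ℝ} (h0 : 3 / 10 ≤ t) (h1 : t ≤ 9 / 20) :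
    ∀ l ∈ fA0, l.toLane.Valid t := fun l hl =>
  Lane.valid_45 hG _ (LD.genOk_sound (anti_all (by decide +kernel) hl))
    (h3.h45 (l, 0) (by simp [ls45, hl])) (h3.h45 (l, 3) (by simp [ls45, hl])) (by linarith) h1
    (by push_cast; linarith) (by push_cast; linarith)

theorem validA1 (hG : Gens) (h3 : CertE3) {t : ℝ} (h0 : 3 / 10 ≤ t) (h1 : t ≤ 9 / 20) :
    ∀ l ∈ fA1, l.toLane.Valid t := fun l hl =>
  Lane.valid_45 hG _ (LD.genOk_sound (anti_all (by decide +kernel) hl))
    (h3.h45 (l, 0) (by simp [ls45, hl])) (h3.h45 (l, 3) (by simp [ls45, hl])) (by linarith) h1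
    (by push_cast; linarith) (by push_cast; linarith)

theorem validB (hG : Gens) (h3 : CertE3) {t : ℝ} (h0 : 0 < t) (h1 : t ≤ 3 / 10) :
    ∀ l ∈ fB, l.toLane.Valid t := fun l hl =>
  Lane.valid_45 hG _ (LD.genOk_sound (anti_all (by decide +kernel) hl))
    (h3.h45 (l, 3) (by simp [ls45, hl])) (h3.h45 (l, 9) (by simp [ls45, hl])) h0 (by linarith)
    (by push_cast; linarith) (by push_cast; linarith)

theorem anti_core (hG : Gens) (h3 : CertE3) {O : Off} {κ : ℝ} (hO1 : O.Cls1 κ) (hκ : 3 / 4 ≤ κ)
    (hκ1 : κ ≤ 1) {dL dU zE : ℕ} {fam : List LD} {its : List It}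
    (hc : cover (fU ++ fam) dL dU zE its 10485 = true) (hO : O.Cls dL dU) (hL : 0 < dL)
    (hU : dU = 0 ∨ 4 ≤ dU) {t : ℝ} (h0 : 0 < t) (h : Adm 3 (-t)) (hd : O.d * t ^ 2 = 1)
    (hv : ∀ l ∈ fam, l.toLane.Valid t) {n0 : ℕ} (hZ : zseq O t h n0 ≤ (zE : ℝ) / 2 ^ 20) :
    Filter.Tendsto (fun n => (Exp.bp O (-t) h n).E tv) Filter.atTop (nhds 0) := by
  have h1 : t ≤ 1 / 2 := by
    have := h.2
    push_cast at this
    linarith
  refine anti_of_lanes O h0 h hd hZ fun z hz hz1 => ?_
  rcases le_or_gt z (1 / 100) with h2 | h2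
  · exact first_interval hG (fun c hc => h3.h50 c (List.mem_append_left _ hc)) hO1 hκ hκ1 h0 h1 hz h2
  · refine cover_sound hO hL hU (fun l hl => ?_) hc (lt_of_le_of_lt (by norm_num) h2) hz1
    rcases List.mem_append.1 hl with hl | hl
    · exact validU hG h3 h0 h1 l hl
    · exact hv l hl

theorem antiPois (hG : Gens) (h3 : CertE3) : AntiPois := by
  intro d hd t h0 h hdt
  have h1 : t ≤ 1 / 2 := by
    have := h.2
    push_cast at this
    linarith
  have h4 : 4 ≤ d := by
    by_contra hc
    push Not at hc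
    nlinarith [mul_pos h0 h0]
  have k1 := cls1_pois hd h4
  rcases le_total t (9 / 20) with h2 | h2
  · have hz := (zseq_zero_le (Off.pois d hd) h h0 h2 hdt).trans
      (show (201 / 100 : ℝ) ≤ ((2107638 : ℕ) : ℝ) / 2 ^ 20 by norm_num)
    rcases le_total t (3 / 10) with h5 | h5
    · exact anti_core hG h3 k1 (by norm_num) le_rfl covB251 (cls_pois hd h4 (by norm_num)) (by norm_num)
        (by norm_num) h0 h hdt (validB hG h3 h0 h5) hz
    · exact anti_core hG h3 k1 (by norm_num) le_rfl covPA (cls_pois hd h4 (by norm_num)) (by norm_num)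
        (by norm_num) h0 h hdt (validA0 hG h3 h5 h2) hz
  · obtain ⟨n, hn⟩ := de_pois hd h h2 hdt
    exact anti_core hG h3 k1 (by norm_num) le_rfl covP5 (cls_pois hd h4 (by norm_num)) (by norm_num)
      (by norm_num) h0 h hdt (validR5 hG h3 h2 h1) (hn.trans (by norm_num))

theorem antiReg (hG : Gens) (h3 : CertE3) : AntiReg := by
  intro b hb t h0 h hdt
  have hb' : (4 : ℝ) ≤ b := by exact_mod_cast hb
  have k1 := cls1_reg hb
  have k2 : (3 / 4 : ℝ) ≤ 1 - 1 / b := by
    have : (1 : ℝ) / b ≤ 1 / 4 := one_div_le_one_div_of_le (by norm_num) hb'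
    linarith
  have k3 : (1 - 1 / b : ℝ) ≤ 1 := sub_le_self _ (by positivity)
  rcases hb.eq_or_lt with rfl | hb5
  · obtain rfl : t = 1 / 2 := by
      push_cast at hdt
      nlinarith
    obtain ⟨n, hn⟩ := de_reg4 h
    exact anti_core hG h3 k1 k2 k3 covR4 (cls_reg le_rfl le_rfl (Or.inr le_rfl)) (by norm_num)
      (by norm_num) h0 h hdt (validR4 h3) (hn.trans (by norm_num))
  have hb5' : (5 : ℝ) ≤ b := by exact_mod_cast hb5
  have h2 : t ≤ 9 / 20 := by
    by_contra hc
    push Not at hc
    nlinarith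
  have hz := (zseq_zero_le (Off.reg b) h h0 h2 hdt).trans
    (show (201 / 100 : ℝ) ≤ ((2107638 : ℕ) : ℝ) / 2 ^ 20 by norm_num)
  have key : ∀ {dL dU : ℕ} {fam : List LD} {its : List It},
      cover (fU ++ fam) dL dU 2107638 its 10485 = true → (∀ l ∈ fam, l.toLane.Valid t) → 4 ≤ dL → dL ≤ b →
      (dU = 0 ∨ b ≤ dU) →
      Filter.Tendsto (fun n => (Exp.bp (Off.reg b) (-t) h n).E tv) Filter.atTop (nhds 0) :=
    fun hc hv a1 a2 a3 => anti_core hG h3 k1 k2 k3 hc (cls_reg a1 a2 a3) (by omega) (by omega) h0 h hdt hv hz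
  rcases le_or_gt b 11 with h11 | h11
  · have h11' : (b : ℝ) ≤ 11 := by exact_mod_cast h11
    have h5 : 3 / 10 ≤ t := by
      by_contra hc
      push Not at hc
      nlinarith [mul_pos h0 h0]
    have hv := validA1 hG h3 h5 h2
    rcases le_or_gt b 5 with c | c
    · exact key covA5 hv (by omega) (by omega) (by omega)
    rcases le_or_gt b 6 with c | c
    · exact key covA6 hv (by omega) (by omega) (by omega)
    rcases le_or_gt b 7 with c | c
    · exact key covA7 hv (by omega) (by omega) (by omega)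
    rcases le_or_gt b 8 with c | c
    · exact key covA8 hv (by omega) (by omega) (by omega)
    rcases le_or_gt b 9 with c | c
    · exact key covA9 hv (by omega) (by omega) (by omega)
    rcases le_or_gt b 10 with c | c
    · exact key covA10 hv (by omega) (by omega) (by omega)
    exact key covA11 hv (by omega) (by omega) (by omega)
  have h12 : (12 : ℝ) ≤ b := by exact_mod_cast h11
  have h5 : t ≤ 3 / 10 := by
    by_contra hc
    push Not at hc
    nlinarith
  have hv := validB hG h3 h0 h5
  rcases le_or_gt b 12 with c | c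
  · exact key covB12 hv (by omega) (by omega) (by omega)
  rcases le_or_gt b 13 with c | c
  · exact key covB13 hv (by omega) (by omega) (by omega)
  rcases le_or_gt b 14 with c | c
  · exact key covB14 hv (by omega) (by omega) (by omega)
  rcases le_or_gt b 15 with c | c
  · exact key covB15 hv (by omega) (by omega) (by omega)
  rcases le_or_gt b 16 with c | c
  · exact key covB16 hv (by omega) (by omega) (by omega)
  rcases le_or_gt b 18 with c | c
  · exact key covB17 hv (by omega) (by omega) (by omega)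
  rcases le_or_gt b 20 with c | c
  · exact key covB19 hv (by omega) (by omega) (by omega)
  rcases le_or_gt b 22 with c | c
  · exact key covB21 hv (by omega) (by omega) (by omega)
  rcases le_or_gt b 25 with c | c
  · exact key covB23 hv (by omega) (by omega) (by omega)
  rcases le_or_gt b 29 with c | c
  · exact key covB26 hv (by omega) (by omega) (by omega)
  rcases le_or_gt b 34 with c | c
  · exact key covB30 hv (by omega) (by omega) (by omega)
  rcases le_or_gt b 41 with c | c
  · exact key covB35 hv (by omega) (by omega) (by omega)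
  rcases le_or_gt b 52 with c | c
  · exact key covB42 hv (by omega) (by omega) (by omega)
  rcases le_or_gt b 70 with c | c
  · exact key covB53 hv (by omega) (by omega) (by omega)
  rcases le_or_gt b 110 with c | c
  · exact key covB71 hv (by omega) (by omega) (by omega)
  rcases le_or_gt b 250 with c | c
  · exact key covB111 hv (by omega) (by omega) (by omega)
  exact key covB251 hv (by omega) (by omega) (by omega)

end Crest.Agent.R163
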