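import Crest.Agent.R163.Defs

/-!
# R163/Basic: elementary API for experiments (sums, Fubini, symmetry, positivity)

Recipes.  `Lin ψ` gives summability by comparison with `C * avg (L ω)` (`Exp.hasSum_avg`).
`E_prod`: `Summable.tsum_prod` (summable on the product type since `Lin`).  `hasSum_E_step`:
`HasSum.sigma` (atoms are `π k • atom`, use `Hom`).  `Sym.prod`: `Equiv.prodCongr`; `Sym.step`:
`Equiv.sigmaCongrRight`; `Sym.E_comp`: `Equiv.tsum_eq` (no summability needed).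
You may add any auxiliary lemma; do not change the statements.
-/

set_option autoImplicit false
set_option linter.unusedSectionVars false

namespace Crest.Agent.R163

open Finset

variable {q : ℕ}

/-- realise the equation lemmas of `Exp.pow` once and for all -/
theorem Exp.pow_eqns (μ : Exp q) (k : ℕ) : μ.pow 0 = Exp.unit ∧ μ.pow (k + 1) = μ.prod (μ.pow k) := by
  have _h := @Exp.pow.eq_def
  exact ⟨Exp.pow.eq_1 μ, Exp.pow.eq_2 μ k⟩

theorem bq_pos [NeZero q] : (0 : ℝ) < q := Nat.cast_pos.2 (Nat.pos_of_ne_zero (NeZero.ne q))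
theorem bq_one_le [NeZero q] : (1 : ℝ) ≤ q := Nat.one_le_cast.2 (Nat.pos_of_ne_zero (NeZero.ne q))
theorem avg_nonneg {L : Vec q} (h : NN L) : 0 ≤ avg L :=
  div_nonneg (Finset.sum_nonneg fun i _ => h i) (Nat.cast_nonneg _)
theorem avg_pos [NeZero q] {L : Vec q} (h : PP L) : 0 < avg L :=
  div_pos (Finset.sum_pos (fun i _ => h i) Finset.univ_nonempty) bq_pos
theorem PP.nn {L : Vec q} (h : PP L) : NN L :=
  fun i => (h i).le
theorem le_mul_avg [NeZero q] {L : Vec q} (h : NN L) (i : Fin q) : L i ≤ q * avg L := by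
  unfold avg
  rw [mul_div_cancel₀ _ (bq_pos (q := q)).ne']
  exact Finset.single_le_sum (fun j _ => h j) (Finset.mem_univ i)
theorem avg_smul (c : ℝ) (L : Vec q) : avg (c • L) = c * avg L := by
  simp only [avg, Pi.smul_apply, smul_eq_mul, ← Finset.mul_sum, mul_div_assoc]
theorem avg_add (L L' : Vec q) : avg (L + L') = avg L + avg L' := by
  simp only [avg, Pi.add_apply, Finset.sum_add_distrib, add_div]
theorem avg_one [NeZero q] : avg (1 : Vec q) = 1 := by
  simp [avg, (bq_pos (q := q)).ne']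
theorem avg_const [NeZero q] (c : ℝ) : avg (fun _ : Fin q => c) = c := by
  have := (bq_pos (q := q)).ne'
  simp only [avg, Finset.sum_const, Finset.card_univ, Fintype.card_fin, nsmul_eq_mul]
  field_simp
theorem avg_affine [NeZero q] (c d : ℝ) (L : Vec q) : avg (fun i => c * L i + d) = c * avg L + d := by
  have e : (fun i => c * L i + d) = c • L + fun _ => d := rfl
  rw [e, avg_add, avg_smul, avg_const]
theorem avg_single (j : Fin q) : avg (Pi.single j (1 : ℝ) : Vec q) = 1 / q := by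
  simp [avg]
theorem avg_mono {L L' : Vec q} (h : ∀ i, L i ≤ L' i) : avg L ≤ avg L' :=
  div_le_div_of_nonneg_right (Finset.sum_le_sum fun i _ => h i) (Nat.cast_nonneg _)
theorem avg_mul_le [NeZero q] {L L' : Vec q} (h : NN L) (h' : NN L') :
    avg (L * L') ≤ q * avg L * avg L' := by
  rw [← avg_smul]
  exact avg_mono fun i => mul_le_mul_of_nonneg_right (le_mul_avg h i) (h' i)
theorem avg_comp (L : Vec q) (σ : Equiv.Perm (Fin q)) : avg (L ∘ σ) = avg L := by
  unfold avg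
  rw [← Equiv.sum_comp σ L]
  rfl
theorem avg_Pm [NeZero q] (lam : ℝ) (L : Vec q) : avg (Pm lam L) = avg L := by
  unfold Pm
  rw [avg_affine]
  ring
theorem Pm_Pm [NeZero q] (a b : ℝ) (L : Vec q) : Pm a (Pm b L) = Pm (a * b) L := by
  funext i
  show a * Pm b L i + (1 - a) * avg (Pm b L) = _
  rw [avg_Pm]
  unfold Pm
  ring
theorem Pm_one (L : Vec q) : Pm 1 L = L := by
  funext i
  simp [Pm]
theorem Pm_smul (lam c : ℝ) (L : Vec q) : Pm lam (c • L) = c • Pm lam L := by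
  funext i
  simp only [Pm, avg_smul, Pi.smul_apply, smul_eq_mul]
  ring
theorem Pm_add (lam : ℝ) (L L' : Vec q) : Pm lam (L + L') = Pm lam L + Pm lam L' := by
  funext i
  simp only [Pm, avg_add, Pi.add_apply]
  ring
theorem Pm_comp (lam : ℝ) (L : Vec q) (σ : Equiv.Perm (Fin q)) :
    Pm lam (L ∘ σ) = Pm lam L ∘ σ := by
  funext i
  simp only [Pm, avg_comp, Function.comp_apply]
theorem adm_of_nonneg [NeZero q] {lam : ℝ} (h0 : 0 ≤ lam) (h1 : lam ≤ 1) : Adm q lam := by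
  refine ⟨h1, ?_⟩
  have := mul_nonneg (sub_nonneg.2 (bq_one_le (q := q))) h0
  linarith
/-- for `0 ≤ lam < 1` the channel output is positive with bounded ratios -/
theorem Pm_pos [NeZero q] {lam : ℝ} (h0 : 0 ≤ lam) (h1 : lam < 1) {L : Vec q} (hL : NN L)
    (hz : 0 < avg L) : PP (Pm lam L) := fun i =>
  add_pos_of_nonneg_of_pos (mul_nonneg h0 (hL i)) (mul_pos (sub_pos.2 h1) hz)
theorem Pm_rat [NeZero q] {lam : ℝ} (h0 : 0 ≤ lam) (h1 : lam < 1) {L : Vec q} (hL : NN L) :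
    Rat_le (q / (1 - lam)) (Pm lam L) := by
  intro i j
  have e1 := le_mul_avg (Pm_nonneg (adm_of_nonneg h0 h1.le) hL) i
  rw [avg_Pm] at e1
  have h2 : 0 < 1 - lam := sub_pos.2 h1
  have e2 : (1 - lam) * avg L ≤ Pm lam L j := le_add_of_nonneg_left (mul_nonneg h0 (hL j))
  calc Pm lam L i ≤ q * avg L := e1
    _ = q / (1 - lam) * ((1 - lam) * avg L) := by field_simp
    _ ≤ _ := mul_le_mul_of_nonneg_left e2 (div_nonneg (Nat.cast_nonneg _) h2.le)
/-- the channel does not increase a ratio bound -/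
theorem Pm_rat_of_rat [NeZero q] {lam R : ℝ} (h0 : 0 ≤ lam) (h1 : lam ≤ 1) (hR : 1 ≤ R)
    {L : Vec q} (h : Rat_le R L) (hL : NN L) : Rat_le R (Pm lam L) := by
  intro i j
  unfold Pm
  have e1 := mul_le_mul_of_nonneg_left (h i j) h0
  have e2 := mul_nonneg (sub_nonneg.2 hR) (mul_nonneg (sub_nonneg.2 h1) (avg_nonneg hL))
  nlinarith
theorem Pm_pos_of_pos [NeZero q] {lam : ℝ} (h0 : 0 ≤ lam) (h1 : lam ≤ 1) {L : Vec q} (hL : PP L) :
    PP (Pm lam L) := by
  intro i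
  unfold Pm
  have e1 := hL i
  have e2 := avg_pos hL
  rcases h0.eq_or_lt with rfl | h0
  · simpa using e2
  · exact add_pos_of_pos_of_nonneg (mul_pos h0 e1) (mul_nonneg (sub_nonneg.2 h1) e2.le)

theorem pq_nonneg (L : Vec q) : 0 ≤ pq L :=
  avg_nonneg fun _ => sq_nonneg _
theorem pq_le [NeZero q] {L : Vec q} (h : NN L) : pq L ≤ q := by
  have hq := bq_one_le (q := q)
  rcases (avg_nonneg h).eq_or_lt with h0 | h0
  · unfold pq
    simp only [← h0, div_zero, zero_sub, even_two, Even.neg_pow, one_pow, avg_const]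
    exact hq
  · have e : ∀ i, (L i / avg L - 1) ^ 2 ≤ ((q - 2) / avg L) * L i + 1 := fun i => by
      have e1 : L i / avg L ≤ q := by rw [div_le_iff₀ h0]; exact le_mul_avg h i
      have e2 : 0 ≤ L i / avg L := div_nonneg (h i) h0.le
      have e3 : ((q - 2) / avg L) * L i = (q - 2) * (L i / avg L) := by ring
      rw [e3]
      nlinarith
    refine (avg_mono e).trans ?_
    rw [avg_affine, div_mul_cancel₀ _ h0.ne']
    linarith
theorem pq_smul {c : ℝ} (hc : c ≠ 0) (L : Vec q) : pq (c • L) = pq L := by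
  simp only [pq, avg_smul, Pi.smul_apply, smul_eq_mul, mul_div_mul_left _ _ hc]
theorem p3_smul {c : ℝ} (hc : c ≠ 0) (L : Vec q) : p3 (c • L) = p3 L := by
  simp only [p3, avg_smul, Pi.smul_apply, smul_eq_mul, mul_div_mul_left _ _ hc]
theorem pq_comp (L : Vec q) (σ : Equiv.Perm (Fin q)) : pq (L ∘ σ) = pq L := by
  unfold pq
  rw [avg_comp, ← avg_comp (fun i => (L i / avg L - 1) ^ 2) σ]
  rfl
theorem p3_comp (L : Vec q) (σ : Equiv.Perm (Fin q)) : p3 (L ∘ σ) = p3 L := by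
  unfold p3
  rw [avg_comp, ← avg_comp (fun i => (L i / avg L - 1) ^ 3) σ]
  rfl
theorem pq_Pm [NeZero q] (lam : ℝ) {L : Vec q} (h : avg L ≠ 0) :
    pq (Pm lam L) = lam ^ 2 * pq L := by
  unfold pq
  rw [avg_Pm, ← avg_smul]
  congr 1
  funext i
  simp only [Pm, Pi.smul_apply, smul_eq_mul]
  field_simp
  ring
theorem p3_Pm [NeZero q] (lam : ℝ) {L : Vec q} (h : avg L ≠ 0) :
    p3 (Pm lam L) = lam ^ 3 * p3 L := by
  unfold p3
  rw [avg_Pm, ← avg_smul]
  congr 1
  funext i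
  simp only [Pm, Pi.smul_apply, smul_eq_mul]
  field_simp
  ring
theorem tv_eq (L : Vec q) : tv L = (avg fun i => |L i - avg L|) / 2 := by
  show _ = (∑ i, |L i - avg L|) / q / 2
  rw [tv]
  ring
theorem tv_nonneg (L : Vec q) : 0 ≤ tv L := by
  rw [tv_eq]
  exact div_nonneg (avg_nonneg fun _ => abs_nonneg _) zero_le_two
theorem tv_le_avg [NeZero q] {L : Vec q} (h : NN L) : tv L ≤ avg L := by
  rw [tv_eq]
  have e : ∀ i, |L i - avg L| ≤ 1 * L i + avg L := fun i => by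
    have := h i
    have := avg_nonneg h
    rw [abs_le]
    constructor <;> linarith
  have := avg_mono e
  rw [avg_affine] at this
  linarith
/-- Cauchy–Schwarz: `tv ≤ ā √p / 2` -/
theorem tv_sq_le [NeZero q] {L : Vec q} (h : NN L) : tv L ^ 2 ≤ avg L * (avg L * pq L) := by
  rcases (avg_nonneg h).eq_or_lt with h0 | h0
  · have e : tv L = 0 := le_antisymm (h0 ▸ tv_le_avg h) (tv_nonneg L)
    rw [e, ← h0]
    simp
  · have hq := bq_pos (q := q)
    have e1 : avg L * (avg L * pq L) = (∑ i, |L i - avg L| ^ 2) / q := by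
      rw [← mul_assoc, pq, ← avg_smul]
      unfold avg
      congr 1
      refine Finset.sum_congr rfl fun i _ => ?_
      simp only [Pi.smul_apply, smul_eq_mul, sq_abs]
      change avg L * avg L * (L i / avg L - 1) ^ 2 = (L i - avg L) ^ 2
      field_simp
    have e2 := sq_sum_le_card_mul_sum_sq (s := (Finset.univ : Finset (Fin q)))
      (f := fun i => |L i - avg L|)
    rw [Finset.card_univ, Fintype.card_fin] at e2
    have e3 : 0 ≤ ∑ i, |L i - avg L| ^ 2 := Finset.sum_nonneg fun _ _ => sq_nonneg _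
    rw [e1, tv, le_div_iff₀ hq]
    have e4 : (1 / (2 * (q : ℝ)) * ∑ i, |L i - avg L|) ^ 2 * q =
        (∑ i, |L i - avg L|) ^ 2 / (4 * q) := by field_simp; ring
    rw [e4, div_le_iff₀ (by positivity)]
    nlinarith [mul_nonneg hq.le e3]
/-- `|u_i| ≤ 1 + q`, hence `ā p ≤ 2 (q+1) tv` -/
theorem avg_mul_pq_le_tv [NeZero q] {L : Vec q} (h : NN L) :
    avg L * pq L ≤ 2 * (q + 1) * tv L := by
  have hq := bq_pos (q := q)
  rcases (avg_nonneg h).eq_or_lt with h0 | h0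
  · rw [← h0, zero_mul]
    exact mul_nonneg (by positivity) (tv_nonneg L)
  · rw [tv_eq, pq, ← avg_smul]
    have e : 2 * ((q : ℝ) + 1) * ((avg fun i => |L i - avg L|) / 2) =
        avg (((q : ℝ) + 1) • fun i => |L i - avg L|) := by rw [avg_smul]; ring
    rw [e]
    refine avg_mono fun i => ?_
    simp only [Pi.smul_apply, smul_eq_mul]
    have e1 : L i / avg L ≤ q := by rw [div_le_iff₀ h0]; exact le_mul_avg h i
    have e2 : 0 ≤ L i / avg L := div_nonneg (h i) h0.le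
    have e3 : |L i / avg L - 1| ≤ q + 1 := by rw [abs_le]; constructor <;> linarith
    have e4 : avg L * (L i / avg L - 1) ^ 2 = (L i / avg L - 1) * (L i - avg L) := by
      field_simp
    rw [e4]
    refine (le_abs_self _).trans ?_
    rw [abs_mul]
    exact mul_le_mul_of_nonneg_right e3 (abs_nonneg _)

theorem lin_avg : Lin (avg : Vec q → ℝ) :=
  ⟨1, fun _ hL => by rw [abs_of_nonneg (avg_nonneg hL), one_mul]⟩
theorem hom_avg : Hom (avg : Vec q → ℝ) :=
  fun c L _ _ => avg_smul c L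
theorem lin_tv [NeZero q] : Lin (tv : Vec q → ℝ) :=
  ⟨1, fun L hL => by rw [abs_of_nonneg (tv_nonneg L), one_mul]; exact tv_le_avg hL⟩
theorem hom_tv : Hom (tv : Vec q → ℝ) := by
  intro c L hc _
  simp only [tv, avg_smul, Pi.smul_apply, smul_eq_mul, ← mul_sub, abs_mul, abs_of_pos hc,
    ← Finset.mul_sum]
  ring
theorem lin_mom [NeZero q] (k : ℕ) : Lin fun L : Vec q => avg L * pq L ^ k := by
  refine ⟨(q : ℝ) ^ k, fun L hL => ?_⟩
  rw [abs_of_nonneg (mul_nonneg (avg_nonneg hL) (pow_nonneg (pq_nonneg L) k)), mul_comm]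
  exact mul_le_mul_of_nonneg_right (pow_le_pow_left₀ (pq_nonneg L) (pq_le hL) k) (avg_nonneg hL)
theorem Lin.add {ψ φ : Vec q → ℝ} (h : Lin ψ) (h' : Lin φ) : Lin fun L => ψ L + φ L := by
  obtain ⟨C, hC⟩ := h
  obtain ⟨C', hC'⟩ := h'
  refine ⟨C + C', fun L hL => (abs_add_le _ _).trans ?_⟩
  rw [add_mul]
  exact add_le_add (hC L hL) (hC' L hL)
theorem Lin.sub {ψ φ : Vec q → ℝ} (h : Lin ψ) (h' : Lin φ) : Lin fun L => ψ L - φ L := by
  obtain ⟨C, hC⟩ := h
  obtain ⟨C', hC'⟩ := h'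
  refine ⟨C + C', fun L hL => (abs_sub _ _).trans ?_⟩
  rw [add_mul]
  exact add_le_add (hC L hL) (hC' L hL)
theorem Lin.const_mul {ψ : Vec q → ℝ} (h : Lin ψ) (c : ℝ) : Lin fun L => c * ψ L := by
  obtain ⟨C, hC⟩ := h
  refine ⟨|c| * C, fun L hL => ?_⟩
  rw [abs_mul, mul_assoc]
  exact mul_le_mul_of_nonneg_left (hC L hL) (abs_nonneg _)
theorem Lin.comp_Pm [NeZero q] {ψ : Vec q → ℝ} (h : Lin ψ) {lam : ℝ} (hl : Adm q lam) :
    Lin fun L => ψ (Pm lam L) := by
  obtain ⟨C, hC⟩ := h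
  exact ⟨C, fun L hL => by simpa only [avg_Pm] using hC _ (Pm_nonneg hl hL)⟩

namespace Exp

variable [NeZero q]

theorem summable_of_le (μ : Exp q) {f : μ.Ω → ℝ} {C : ℝ} (h : ∀ ω, |f ω| ≤ C * avg (μ.L ω)) :
    Summable f :=
  Summable.of_norm_bounded (μ.hasSum_avg.summable.mul_left C) h
theorem summable_of_lin (μ : Exp q) {ψ : Vec q → ℝ} (h : Lin ψ) :
    Summable fun ω => ψ (μ.L ω) := by
  obtain ⟨C, hC⟩ := h
  exact μ.summable_of_le fun ω => hC _ (μ.nonneg ω)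
theorem E_avg (μ : Exp q) : μ.E avg = 1 :=
  μ.hasSum_avg.tsum_eq
theorem E_add (μ : Exp q) {ψ φ : Vec q → ℝ} (h : Lin ψ) (h' : Lin φ) :
    μ.E (fun L => ψ L + φ L) = μ.E ψ + μ.E φ :=
  (μ.summable_of_lin h).tsum_add (μ.summable_of_lin h')
theorem E_sub (μ : Exp q) {ψ φ : Vec q → ℝ} (h : Lin ψ) (h' : Lin φ) :
    μ.E (fun L => ψ L - φ L) = μ.E ψ - μ.E φ :=
  (μ.summable_of_lin h).tsum_sub (μ.summable_of_lin h')
theorem E_const_mul (μ : Exp q) (ψ : Vec q → ℝ) (c : ℝ) :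
    μ.E (fun L => c * ψ L) = c * μ.E ψ :=
  tsum_mul_left
theorem E_mono (μ : Exp q) {ψ φ : Vec q → ℝ} (h : Lin ψ) (h' : Lin φ)
    (hle : ∀ L, NN L → ψ L ≤ φ L) : μ.E ψ ≤ μ.E φ :=
  (μ.summable_of_lin h).tsum_le_tsum (fun ω => hle _ (μ.nonneg ω)) (μ.summable_of_lin h')
theorem E_nonneg (μ : Exp q) {ψ : Vec q → ℝ} (h : ∀ L, NN L → 0 ≤ ψ L) : 0 ≤ μ.E ψ :=
  tsum_nonneg fun ω => h _ (μ.nonneg ω)
theorem abs_E_le (μ : Exp q) {ψ : Vec q → ℝ} {C : ℝ} (h : ∀ ω, |ψ (μ.L ω)| ≤ C * avg (μ.L ω)) :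
    |μ.E ψ| ≤ C := by
  simpa [E] using tsum_of_norm_bounded (μ.hasSum_avg.mul_left C) (f := fun ω => ψ (μ.L ω)) h
theorem E_unit (ψ : Vec q → ℝ) : (unit : Exp q).E ψ = ψ 1 := by
  show ∑' _ : Unit, ψ 1 = ψ 1
  simp
theorem E_perfect (ψ : Vec q → ℝ) :
    (perfect : Exp q).E ψ = ∑ j : Fin q, ψ (Pi.single j 1) := by
  show ∑' ω : Fin q, ψ (fun i => if ω = i then 1 else 0) = _
  rw [tsum_fintype]
  refine Finset.sum_congr rfl fun j _ => congrArg ψ (funext fun i => ?_)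
  simp [Pi.single_apply, eq_comm]
theorem E_chan {lam : ℝ} (h : Adm q lam) (μ : Exp q) (ψ : Vec q → ℝ) :
    (chan lam h μ).E ψ = μ.E fun L => ψ (Pm lam L) := rfl
theorem E_prod (μ ν : Exp q) {ψ : Vec q → ℝ} (h : Lin ψ) :
    (prod μ ν).E ψ = μ.E fun L => ν.E fun L' => ψ (L * L') :=
  ((prod μ ν).summable_of_lin h).tsum_prod
theorem E_prod' (μ ν : Exp q) {ψ : Vec q → ℝ} (h : Lin ψ) :
    (prod μ ν).E ψ = ν.E fun L' => μ.E fun L => ψ (L * L') := by
  rw [E_prod μ ν h]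
  exact (Summable.tsum_comm (f := fun ω ω' => ψ (μ.L ω * ν.L ω'))
    ((prod μ ν).summable_of_lin h)).symm
/-- the inner expectation is again of linear growth -/
theorem lin_E_mul (ν : Exp q) {ψ : Vec q → ℝ} (h : Lin ψ) :
    Lin fun L => ν.E fun L' => ψ (L * L') := by
  obtain ⟨C, hC⟩ := h
  refine ⟨|C| * q, fun L hL => ν.abs_E_le fun ω => ?_⟩
  have hm : NN (L * ν.L ω) := fun i => mul_nonneg (hL i) (ν.nonneg ω i)
  calc _ ≤ C * avg (L * ν.L ω) := hC _ hm
    _ ≤ |C| * (q * avg L * avg (ν.L ω)) :=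
        mul_le_mul (le_abs_self C) (avg_mul_le hL (ν.nonneg ω)) (avg_nonneg hm) (abs_nonneg C)
    _ = _ := by ring
theorem _root_.Crest.Agent.R163.Lin.comp_mul {ψ : Vec q → ℝ} (h : Lin ψ) {L' : Vec q}
    (hL' : NN L') : Lin fun L => ψ (L * L') := by
  obtain ⟨C, hC⟩ := h
  refine ⟨|C| * q * avg L', fun L hL => ?_⟩
  have hm : NN (L * L') := fun i => mul_nonneg (hL i) (hL' i)
  calc _ ≤ C * avg (L * L') := hC _ hm
    _ ≤ |C| * (q * avg L * avg L') :=
        mul_le_mul (le_abs_self C) (avg_mul_le hL hL') (avg_nonneg hm) (abs_nonneg C)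
    _ = _ := by ring
theorem hasSum_E_step (O : Off) (μ : Exp q) {ψ : Vec q → ℝ} (h : Lin ψ) (hh : Hom ψ) :
    HasSum (fun k => O.π k * (μ.pow (O.c k)).E ψ) ((step O μ).E ψ) := by
  refine HasSum.sigma (γ := fun k : O.K => (μ.pow (O.c k)).Ω)
    ((step O μ).summable_of_lin h).hasSum fun k => ?_
  have := ((μ.pow (O.c k)).summable_of_lin h).hasSum.mul_left (O.π k)
  have e : (fun ω : (μ.pow (O.c k)).Ω => ψ ((step O μ).L ⟨k, ω⟩)) =
      fun ω => O.π k * ψ ((μ.pow (O.c k)).L ω) :=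
    funext fun ω => hh _ _ (O.pos k) ((μ.pow (O.c k)).nonneg ω)
  rw [e]
  exact this
theorem pow_eq_prodL (μ : Exp q) (k : ℕ) : μ.pow k = prodL (List.replicate k μ) := by
  induction k with
  | zero => rfl
  | succ k ih =>
    show prod μ (μ.pow k) = prod μ (prodL (List.replicate k μ))
    rw [ih]

/-- Jensen / Hölder for the moments `E[ā p^k]` -/
theorem mom_nonneg (μ : Exp q) (k : ℕ) : 0 ≤ μ.mom k :=
  μ.E_nonneg fun L hL => mul_nonneg (avg_nonneg hL) (pow_nonneg (pq_nonneg L) k)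
theorem mom_one_pow_le (μ : Exp q) : μ.mom 1 ^ 3 ≤ μ.mom 3 := by
  have ht := μ.mom_nonneg 1
  set t := μ.mom 1 with hdef
  have h1 := ((lin_mom (q := q) 1).const_mul (3 * t ^ 2))
  have h2 := ((lin_avg (q := q)).const_mul (2 * t ^ 3))
  have := μ.E_mono (h1.sub h2) (lin_mom 3) fun L hL => by
    have := mul_nonneg (avg_nonneg hL) (mul_nonneg (sq_nonneg (pq L - t))
      (add_nonneg (pq_nonneg L) (mul_nonneg zero_le_two ht)))
    nlinarith
  rw [μ.E_sub h1 h2, μ.E_const_mul, μ.E_const_mul, E_avg] at this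
  change 3 * t ^ 2 * t - 2 * t ^ 3 * 1 ≤ μ.mom 3 at this
  nlinarith
theorem tv_sq_le_mom (μ : Exp q) : μ.E tv ^ 2 ≤ μ.mom 1 := by
  set t := μ.E tv with hdef
  have h1 := ((lin_tv (q := q)).const_mul (2 * t))
  have h2 := ((lin_avg (q := q)).const_mul (t ^ 2))
  have := μ.E_mono h1 (h2.add (lin_mom 1)) fun L hL => by
    have e := tv_sq_le hL
    rcases (avg_nonneg hL).eq_or_lt with h0 | h0
    · have e' : tv L = 0 := le_antisymm (h0 ▸ tv_le_avg hL) (tv_nonneg L)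
      rw [e', ← h0]
      simp
    · refine le_of_mul_le_mul_left ?_ h0
      nlinarith [sq_nonneg (t * avg L - tv L)]
  rw [μ.E_add h2 (lin_mom 1), μ.E_const_mul, μ.E_const_mul, E_avg] at this
  change 2 * t * t ≤ t ^ 2 * 1 + μ.mom 1 at this
  nlinarith
theorem mom_one_le_tv (μ : Exp q) : μ.mom 1 ≤ 2 * (q + 1) * μ.E tv := by
  rw [← μ.E_const_mul]
  exact μ.E_mono (lin_mom 1) (lin_tv.const_mul _) fun L hL => by
    simpa only [pow_one] using avg_mul_pq_le_tv hL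
theorem mom_chan {lam : ℝ} (h : Adm q lam) (μ : Exp q) (k : ℕ) :
    (chan lam h μ).mom k = lam ^ (2 * k) * μ.mom k := by
  unfold mom
  rw [E_chan, ← μ.E_const_mul]
  congr 1
  funext L
  rw [avg_Pm]
  by_cases h0 : avg L = 0
  · simp [h0]
  · rw [pq_Pm lam h0, mul_pow, ← pow_mul]
    ring
theorem mom_unit (k : ℕ) (hk : k ≠ 0) : (unit : Exp q).mom k = 0 := by
  unfold mom
  rw [E_unit]
  have : pq (1 : Vec q) = 0 := by
    unfold pq
    simp only [avg_one, Pi.one_apply, div_one, sub_self, avg_const]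
    norm_num
  rw [this, zero_pow hk, mul_zero]
theorem mom_perfect (k : ℕ) : (perfect : Exp q).mom k = ((q : ℝ) - 1) ^ k := by
  unfold mom
  rw [E_perfect]
  have hq := (bq_pos (q := q)).ne'
  have e2 : ∀ j : Fin q, pq (Pi.single j (1 : ℝ) : Vec q) = q - 1 := fun j => by
    have e : (fun i => ((Pi.single j (1 : ℝ) : Vec q) i / (1 / q) - 1) ^ 2) =
        fun i => ((q : ℝ) ^ 2 - 2 * q) * (Pi.single j (1 : ℝ) : Vec q) i + 1 := by
      funext i
      by_cases hij : i = j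
      · subst hij
        simp only [Pi.single_eq_same]
        field_simp
        ring
      · simp [Pi.single_eq_of_ne hij]
    unfold pq
    rw [avg_single, e, avg_affine, avg_single]
    field_simp
    ring
  simp only [avg_single, e2, Finset.sum_const, Finset.card_univ, Fintype.card_fin, nsmul_eq_mul]
  field_simp
theorem E_tv_nonneg (μ : Exp q) : 0 ≤ μ.E tv :=
  μ.E_nonneg fun L _ => tv_nonneg L

omit [NeZero q] in
theorem Sym.E_comp {μ : Exp q} (h : μ.Sym) (ψ : Vec q → ℝ) (σ : Equiv.Perm (Fin q)) :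
    μ.E (fun L => ψ (L ∘ σ)) = μ.E ψ := by
  obtain ⟨e, he⟩ := h σ
  unfold E
  rw [← e.tsum_eq fun ω => ψ (μ.L ω)]
  simp only [he]
omit [NeZero q] in
theorem sym_unit : (unit : Exp q).Sym :=
  fun _ => ⟨Equiv.refl _, fun _ => rfl⟩
omit [NeZero q] in
theorem sym_perfect : (perfect : Exp q).Sym := fun σ => ⟨σ.symm, fun ω : Fin q => by
  funext i
  show (if σ.symm ω = i then (1 : ℝ) else 0) = if ω = σ i then 1 else 0
  simp only [Equiv.symm_apply_eq]⟩
omit [NeZero q] in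
theorem Sym.prod {μ ν : Exp q} (h : μ.Sym) (h' : ν.Sym) : (prod μ ν).Sym := fun σ => by
  obtain ⟨e, he⟩ := h σ
  obtain ⟨e', he'⟩ := h' σ
  refine ⟨Equiv.prodCongr e e', fun ω => ?_⟩
  funext i
  show μ.L (e ω.1) i * ν.L (e' ω.2) i = μ.L ω.1 (σ i) * ν.L ω.2 (σ i)
  rw [he, he']
  rfl
omit [NeZero q] in
theorem Sym.pow {μ : Exp q} (h : μ.Sym) (k : ℕ) : (μ.pow k).Sym := by
  induction k with
  | zero => exact sym_unit
  | succ k ih => exact h.prod ih
omit [NeZero q] in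
theorem Sym.prodL {l : List (Exp q)} (h : ∀ μ ∈ l, μ.Sym) : (prodL l).Sym := by
  induction l with
  | nil => exact sym_unit
  | cons μ l ih =>
    exact (h μ List.mem_cons_self).prod (ih fun ν hν => h ν (List.mem_cons_of_mem _ hν))
theorem Sym.chan {μ : Exp q} (h : μ.Sym) {lam : ℝ} (hl : Adm q lam) : (chan lam hl μ).Sym := fun σ => by
  obtain ⟨e, he⟩ := h σ
  refine ⟨e, fun ω => ?_⟩
  show Pm lam (μ.L (e ω)) = Pm lam (μ.L ω) ∘ σ
  rw [he, Pm_comp]
omit [NeZero q] in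
theorem Sym.step {μ : Exp q} (h : μ.Sym) (O : Off) : (step O μ).Sym := fun σ => by
  choose e he using fun k => h.pow (O.c k) σ
  refine ⟨Equiv.sigmaCongrRight e, fun ω => ?_⟩
  funext i
  show O.π ω.1 * (μ.pow (O.c ω.1)).L (e ω.1 ω.2) i = O.π ω.1 * (μ.pow (O.c ω.1)).L ω.2 (σ i)
  rw [he]
  rfl
theorem sym_bp (O : Off) {lam : ℝ} (hl : Adm q lam) (n : ℕ) : (bp O lam hl n).Sym := by
  induction n with
  | zero => exact sym_perfect
  | succ n ih => exact (ih.chan hl).step O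

theorem Pos.nz {μ : Exp q} (h : μ.Pos) : μ.NZ :=
  fun ω => avg_pos (h ω)
theorem nz_perfect : (perfect : Exp q).NZ := fun ω : Fin q => by
  have e : (perfect : Exp q).L ω = Pi.single (M := fun _ : Fin q => ℝ) ω 1 := by
    funext i
    show (if ω = i then (1 : ℝ) else 0) = _
    by_cases hi : ω = i
    · subst hi; simp
    · rw [if_neg hi, Pi.single_eq_of_ne (Ne.symm hi)]
  rw [e, avg_single]
  exact one_div_pos.2 bq_pos
omit [NeZero q] in
theorem pos_unit : (unit : Exp q).Pos :=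
  fun _ _ => one_pos
omit [NeZero q] in
theorem Pos.prod {μ ν : Exp q} (h : μ.Pos) (h' : ν.Pos) : (prod μ ν).Pos :=
  fun ω i => mul_pos (h ω.1 i) (h' ω.2 i)
omit [NeZero q] in
theorem Pos.pow {μ : Exp q} (h : μ.Pos) (k : ℕ) : (μ.pow k).Pos := by
  induction k with
  | zero => exact pos_unit
  | succ k ih => exact h.prod ih
omit [NeZero q] in
theorem Pos.prodL {l : List (Exp q)} (h : ∀ μ ∈ l, μ.Pos) : (prodL l).Pos := by
  induction l with
  | nil => exact pos_unit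
  | cons μ l ih =>
    exact (h μ List.mem_cons_self).prod (ih fun ν hν => h ν (List.mem_cons_of_mem _ hν))
omit [NeZero q] in
theorem Pos.step {μ : Exp q} (h : μ.Pos) (O : Off) : (step O μ).Pos :=
  fun ω i => mul_pos (O.pos ω.1) (h.pow _ ω.2 i)
theorem NZ.pos_chan {μ : Exp q} (h : μ.NZ) {lam : ℝ} (hl : Adm q lam) (h0 : 0 ≤ lam)
    (h1 : lam < 1) : (chan lam hl μ).Pos :=
  fun ω => Pm_pos h0 h1 (μ.nonneg ω) (h ω)
theorem nz_bp (O : Off) {lam : ℝ} (hl : Adm q lam) (h0 : 0 ≤ lam) (h1 : lam < 1) (n : ℕ) :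
    (bp O lam hl n).NZ := by
  induction n with
  | zero => exact nz_perfect
  | succ n ih => exact ((ih.pos_chan hl h0 h1).step O).nz
theorem rb_chan (μ : Exp q) {lam : ℝ} (hl : Adm q lam) (h0 : 0 ≤ lam) (h1 : lam < 1) :
    (chan lam hl μ).RB (q / (1 - lam)) :=
  fun ω => Pm_rat h0 h1 (μ.nonneg ω)
omit [NeZero q] in
theorem RB.mono {μ : Exp q} {R R' : ℝ} (h : μ.RB R) (hR : R ≤ R') : μ.RB R' :=
  fun ω i j => (h ω i j).trans (mul_le_mul_of_nonneg_right hR (μ.nonneg ω j))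
omit [NeZero q] in
theorem RB.prod {μ ν : Exp q} {R R' : ℝ} (h : μ.RB R) (h' : ν.RB R') (hR : 0 ≤ R) :
    (prod μ ν).RB (R * R') := fun ω i j => by
  show μ.L ω.1 i * ν.L ω.2 i ≤ R * R' * (μ.L ω.1 j * ν.L ω.2 j)
  calc _ ≤ R * μ.L ω.1 j * (R' * ν.L ω.2 j) :=
        mul_le_mul (h _ i j) (h' _ i j) (ν.nonneg _ i) (mul_nonneg hR (μ.nonneg _ j))
    _ = _ := by ring
omit [NeZero q] in
theorem RB.prodL {l : List (Exp q)} {R : ℝ} (hR : 1 ≤ R) (h : ∀ μ ∈ l, μ.RB R) :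
    (prodL l).RB (R ^ l.length) := by
  induction l with
  | nil => intro ω i j; show (1 : ℝ) ≤ R ^ 0 * 1; simp
  | cons μ l ih =>
    rw [List.length_cons, pow_succ']
    exact (h μ List.mem_cons_self).prod (ih fun ν hν => h ν (List.mem_cons_of_mem _ hν))
      (zero_le_one.trans hR)

end Exp

end Crest.Agent.R163
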