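import Crest.Agent.R163.Sort
import Crest.Agent.R163.E2.Norm
import Crest.Agent.R163.E2.Inst

/-!
# R163/Bridge3: the exponential sums for `q = 3`

Same recipe as `Bridge4.lean` (see its header and `E2/Norm.lean`), with `perms3`.  For the generators first prove one
generic lemma: for an exponent `s` with `12 * s k ∈ ℤ[i]` a list `wEL` with
`(wEL.val y1 y2 0).re = N * (wS s c3 L * avg L ^ 2)`, `L = Lq3 12 y1 y2`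
(`wS * ā² = m ā² + k ā³ - 2 ā³ + c3 <(L - ā)³>`, `<(L-ā)³> = <L³> - 3 <L²> ā + 2 ā³`), then multiply by the pure exponential.
-/

set_option autoImplicit false

namespace Crest.Agent.R163

open E2

/-- gap coordinates of the three entries -/
def b3a (i : Fin 3) : ℤ := if i = 0 then 0 else 1
def b3b (i : Fin 3) : ℤ := if i = 2 then 1 else 0

def b3z : Cx := ⟨0, 0⟩
def b3r (n : ℤ) : Cx := ⟨n, 0⟩

@[simp] theorem b3z_toC : b3z.toC = 0 := by simp [b3z, Cx.toC]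
@[simp] theorem b3r_toC (n : ℤ) : (b3r n).toC = (n : ℂ) := by simp [b3r, Cx.toC]

theorem b3_L_eq (D y1 y2 : ℝ) (i : Fin 3) :
    Lq3 D y1 y2 i = Real.exp (-(D * ((b3a i : ℝ) * y1 + (b3b i : ℝ) * y2))) := by
  fin_cases i <;> simp [Lq3, b3a, b3b]

theorem b3_log (D y1 y2 : ℝ) (i : Fin 3) :
    Real.log (Lq3 D y1 y2 i) = -(D * ((b3a i : ℝ) * y1 + (b3b i : ℝ) * y2)) := by
  rw [b3_L_eq, Real.log_exp]

theorem b3_pos (D y1 y2 : ℝ) (i : Fin 3) : 0 < Lq3 D y1 y2 i := by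
  rw [b3_L_eq]; exact Real.exp_pos _

/-- `c * L i` -/
def b3lT (D : ℤ) (c : Cx) (i : Fin 3) : ET :=
  ⟨b3r (-D * b3a i), b3r (-D * b3b i), b3z, c, b3z, b3z, b3z⟩
/-- `c / L i` -/
def b3iT (D : ℤ) (c : Cx) (i : Fin 3) : ET :=
  ⟨b3r (D * b3a i), b3r (D * b3b i), b3z, c, b3z, b3z, b3z⟩
/-- `log (L i)` -/
def b3gT (D : ℤ) (i : Fin 3) : ET :=
  ⟨b3z, b3z, b3z, b3z, b3r (-D * b3a i), b3r (-D * b3b i), b3z⟩
/-- weighted sums of the gap coordinates -/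
def b3w (f : Fin 3 → ℤ) (S0 S1 S2 : Cx) (i j k : Fin 3) : Cx :=
  ((Cx.smul (-f i) S0).add (Cx.smul (-f j) S1)).add (Cx.smul (-f k) S2)
/-- the monomial -/
def b3mT (S0 S1 S2 : Cx) (i j k : Fin 3) : ET :=
  ⟨b3w b3a S0 S1 S2 i j k, b3w b3b S0 S1 S2 i j k, b3z, b3r 1, b3z, b3z, b3z⟩
/-- `c +` the linear form -/
def b3nT (c H0 H1 H2 : Cx) (i j k : Fin 3) : ET :=
  ⟨b3z, b3z, b3z, c, b3w b3a H0 H1 H2 i j k, b3w b3b H0 H1 H2 i j k, b3z⟩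
/-- pure exponential `exp (-(n (y1 + y2)))` -/
def b3eT (n : ℤ) : ET := ⟨b3r (-n), b3r (-n), b3z, b3r 1, b3z, b3z, b3z⟩

theorem b3lT_val (D : ℤ) (c : Cx) (i : Fin 3) (y1 y2 : ℝ) :
    (b3lT D c i).val y1 y2 0 = c.toC * ((Lq3 D y1 y2 i : ℝ) : ℂ) := by
  rw [b3_L_eq, Complex.ofReal_exp]
  simp only [b3lT, ET.val, b3z_toC, b3r_toC]
  push_cast
  rw [mul_comm]
  congr 1
  · ring
  · congr 1; ring

theorem b3iT_val (D : ℤ) (c : Cx) (i : Fin 3) (y1 y2 : ℝ) :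
    (b3iT D c i).val y1 y2 0 = c.toC / ((Lq3 D y1 y2 i : ℝ) : ℂ) := by
  rw [b3_L_eq, Complex.ofReal_exp, div_eq_mul_inv, ← Complex.exp_neg]
  simp only [b3iT, ET.val, b3z_toC, b3r_toC]
  push_cast
  rw [mul_comm]
  congr 1
  · ring
  · congr 1; ring

theorem b3gT_val (D : ℤ) (i : Fin 3) (y1 y2 : ℝ) :
    (b3gT D i).val y1 y2 0 = ((Real.log (Lq3 D y1 y2 i) : ℝ) : ℂ) := by
  rw [b3_log]
  simp only [b3gT, ET.val, b3z_toC, b3r_toC]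
  push_cast
  simp
  ring

theorem b3_lin (D : ℝ) (s : Fin 3 → ℂ) (i j k : Fin 3) (y1 y2 : ℝ) :
    lin s (Lq3 D y1 y2 ∘ ![i, j, k]) =
      -(D * s 0 * ((b3a i : ℂ) * y1 + (b3b i : ℂ) * y2) +
        D * s 1 * ((b3a j : ℂ) * y1 + (b3b j : ℂ) * y2) +
        D * s 2 * ((b3a k : ℂ) * y1 + (b3b k : ℂ) * y2)) := by
  simp only [lin, Fin.sum_univ_three, Function.comp_apply, Matrix.cons_val_zero, Matrix.cons_val_one,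
    Matrix.cons_val, b3_log]
  push_cast
  ring

theorem b3mT_val {D : ℝ} {s : Fin 3 → ℂ} {S0 S1 S2 : Cx} (h0 : S0.toC = D * s 0)
    (h1 : S1.toC = D * s 1) (h2 : S2.toC = D * s 2) (i j k : Fin 3) (y1 y2 : ℝ) :
    (b3mT S0 S1 S2 i j k).val y1 y2 0 = mon s (Lq3 D y1 y2 ∘ ![i, j, k]) := by
  rw [mon_eq_exp s (L := Lq3 D y1 y2 ∘ ![i, j, k]) fun _ => b3_pos _ _ _ _, b3_lin]
  simp only [b3mT, ET.val, b3z_toC, b3r_toC, b3w, Cx.toC_add, Cx.toC_smul, h0, h1, h2]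
  push_cast
  simp only [zero_mul, add_zero, mul_one, mul_zero]
  congr 1
  ring

theorem b3nT_val {D : ℝ} {N : ℂ} {η : Fin 3 → ℂ} {H0 H1 H2 : Cx} (c : Cx) (h0 : H0.toC = N * (D * η 0))
    (h1 : H1.toC = N * (D * η 1)) (h2 : H2.toC = N * (D * η 2)) (i j k : Fin 3) (y1 y2 : ℝ) :
    (b3nT c H0 H1 H2 i j k).val y1 y2 0 = c.toC + N * lin η (Lq3 D y1 y2 ∘ ![i, j, k]) := by
  rw [b3_lin]
  simp only [b3nT, ET.val, b3z_toC, b3w, Cx.toC_add, Cx.toC_smul, h0, h1, h2]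
  push_cast
  simp only [zero_mul, add_zero, mul_zero, Complex.exp_zero]
  ring

theorem b3eT_val (n : ℤ) (y1 y2 : ℝ) :
    (b3eT n).val y1 y2 0 = ((Real.exp (-(n * (y1 + y2))) : ℝ) : ℂ) := by
  rw [Complex.ofReal_exp]
  simp only [b3eT, ET.val, b3z_toC, b3r_toC]
  push_cast
  simp only [zero_mul, add_zero, mul_one, mul_zero]
  congr 1
  ring

/-- sum over the six permutations -/
def b3P (G : Fin 3 → Fin 3 → Fin 3 → EL) : EL :=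
  G 0 1 2 ++ (G 0 2 1 ++ (G 1 0 2 ++ (G 1 2 0 ++ (G 2 0 1 ++ G 2 1 0))))

theorem b3P_val (G : Fin 3 → Fin 3 → Fin 3 → EL) (F : (Fin 3 → Fin 3) → ℂ) (y1 y2 : ℝ)
    (h : ∀ i j k, (G i j k).val y1 y2 0 = F ![i, j, k]) :
    (b3P G).val y1 y2 0 = ∑ π : Equiv.Perm (Fin 3), F π := by
  rw [sum_perm3 F]
  simp only [b3P, EL.val_append, h, perms3, List.map_cons, List.map_nil, List.sum_cons, List.sum_nil,
    add_zero]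

theorem b3P_pure (G : Fin 3 → Fin 3 → Fin 3 → EL) (h : ∀ i j k, (G i j k).pure = true) :
    (b3P G).pure = true := by
  have h' : ∀ i j k, (G i j k).all ET.pure = true := h
  simp only [b3P, EL.pure, List.all_append, h', Bool.and_self]

/-- `∑ L i` -/
def b3S (D : ℤ) : EL := [b3lT D (b3r 1) 0, b3lT D (b3r 1) 1, b3lT D (b3r 1) 2]

theorem b3S_val (D : ℤ) (y1 y2 : ℝ) :
    (b3S D).val y1 y2 0 = ((3 * avg (Lq3 D y1 y2) : ℝ) : ℂ) := by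
  simp only [b3S, EL.val_cons, EL.val_nil, b3lT_val, b3r_toC, avg, Fin.sum_univ_three]
  push_cast
  ring

theorem b3S_pure (D : ℤ) : (b3S D).pure = true := rfl

theorem b3_fin {I : Inst} {p : EL} (n : ℤ)
    (h : EL.reZero (p ++ EL.smul (b3r (-n)) I.toEL) = true) (y1 y2 y3 : ℝ) :
    n * I.val y1 y2 y3 = (p.val y1 y2 y3).re := by
  have := EL.re_eq_zero h y1 y2 y3
  rw [EL.val_append, EL.val_smul, b3r_toC, Complex.add_re] at this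
  rw [Inst.val_eq]
  simp only [Int.cast_neg, neg_mul, Complex.neg_re, Complex.mul_re, Complex.intCast_re,
    Complex.intCast_im, zero_mul, sub_zero] at this
  linarith

/-- `6 mS` -/
def b3M (S0 S1 S2 : Cx) : EL := b3P fun i j k => [b3mT S0 S1 S2 i j k]
/-- `6 D kM` -/
def b3K (D : ℤ) (S0 S1 S2 : Cx) : EL := b3P fun i j k =>
  EL.mul [b3iT D S0 i, b3iT D S1 j, b3iT D S2 k] [b3mT S0 S1 S2 i j k]

theorem b3M_val {D : ℝ} {s : Fin 3 → ℂ} {S0 S1 S2 : Cx} (h0 : S0.toC = D * s 0)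
    (h1 : S1.toC = D * s 1) (h2 : S2.toC = D * s 2) (y1 y2 : ℝ) :
    ((b3M S0 S1 S2).val y1 y2 0).re = 6 * mS s (Lq3 D y1 y2) := by
  rw [b3M, b3P_val _ (fun π => mon s (Lq3 D y1 y2 ∘ π)) y1 y2 fun i j k => by
    rw [EL.val_cons, EL.val_nil, add_zero, b3mT_val h0 h1 h2], Complex.re_sum, mS]
  simp only [Nat.factorial, Nat.succ_eq_add_one]
  push_cast
  ring

theorem b3K_val {D : ℤ} {s : Fin 3 → ℂ} {S0 S1 S2 : Cx} (h0 : S0.toC = (D : ℝ) * s 0)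
    (h1 : S1.toC = (D : ℝ) * s 1) (h2 : S2.toC = (D : ℝ) * s 2) (y1 y2 : ℝ) :
    ((b3K D S0 S1 S2).val y1 y2 0).re = 6 * D * kM s (Lq3 D y1 y2) := by
  rw [b3K, b3P_val _ (fun π => ((D : ℝ) : ℂ) * ((∑ i, s i / ((Lq3 D y1 y2 (π i) : ℝ) : ℂ)) *
    mon s (Lq3 D y1 y2 ∘ π))) y1 y2 fun i j k => by
    rw [EL.val_mul rfl]
    simp only [EL.val_cons, EL.val_nil, add_zero, b3mT_val h0 h1 h2, b3iT_val, h0, h1, h2,
      Fin.sum_univ_three, Matrix.cons_val_zero, Matrix.cons_val_one, Matrix.cons_val]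
    ring, ← Finset.mul_sum, Complex.re_ofReal_mul, Complex.re_sum, kM]
  simp only [Nat.factorial, Nat.succ_eq_add_one]
  push_cast
  ring

/-- `c * L 1 ^ j * L 2 ^ k` -/
def b3Q (c : ℤ) (j k : ℕ) : ET :=
  ⟨b3r (-12 * ((j : ℤ) + k)), b3r (-12 * (k : ℤ)), b3z, b3r c, b3z, b3z, b3z⟩

theorem b3Q_val (c : ℤ) (j k : ℕ) (y1 y2 : ℝ) : (b3Q c j k).val y1 y2 0 =
    ((c * (Lq3 12 y1 y2 1 ^ j * Lq3 12 y1 y2 2 ^ k) : ℝ) : ℂ) := by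
  rw [b3_L_eq, b3_L_eq, ← Real.exp_nat_mul, ← Real.exp_nat_mul, ← Real.exp_add, Complex.ofReal_mul,
    Complex.ofReal_exp]
  simp only [b3Q, ET.val, b3z_toC, b3r_toC]
  have e1 : b3a 1 = 1 := rfl
  have e2 : b3a 2 = 1 := rfl
  have e3 : b3b 1 = 0 := rfl
  have e4 : b3b 2 = 1 := rfl
  rw [e1, e2, e3, e4]
  push_cast
  rw [mul_comm]
  congr 1
  · ring
  · congr 1; ring

/-- `(∑ L i) ^ 2` -/
def b3S2 : EL := [b3Q 1 0 0, b3Q 2 1 0, b3Q 2 0 1, b3Q 1 2 0, b3Q 2 1 1, b3Q 1 0 2]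
/-- a symmetric cubic form -/
def b3S3 (a b c : ℤ) : EL := [b3Q a 0 0, b3Q a 3 0, b3Q a 0 3, b3Q b 1 0, b3Q b 0 1, b3Q b 2 0, b3Q b 0 2,
  b3Q b 2 1, b3Q b 1 2, b3Q c 1 1]

theorem b3_avg3 (D y1 y2 : ℝ) : 3 * avg (Lq3 D y1 y2) = 1 + Lq3 D y1 y2 1 + Lq3 D y1 y2 2 := by
  have : Lq3 D y1 y2 0 = 1 := rfl
  simp only [avg, Fin.sum_univ_three, this]
  push_cast
  ring

theorem b3S2_val (y1 y2 : ℝ) :
    b3S2.val y1 y2 0 = (((3 * avg (Lq3 12 y1 y2)) ^ 2 : ℝ) : ℂ) := by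
  rw [b3_avg3]
  simp only [b3S2, EL.val_cons, EL.val_nil, b3Q_val]
  push_cast
  ring

theorem b3S3_val (y1 y2 : ℝ) :
    (b3S3 1 3 6).val y1 y2 0 = (((3 * avg (Lq3 12 y1 y2)) ^ 3 : ℝ) : ℂ) := by
  rw [b3_avg3]
  simp only [b3S3, EL.val_cons, EL.val_nil, b3Q_val]
  push_cast
  ring

theorem b3C_val (C : ℤ) (y1 y2 : ℝ) :
    (b3S3 (6 * C - 1152) (-9 * C - 3456) (36 * C - 6912)).val y1 y2 0 =
      ((-1152 * (3 * avg (Lq3 12 y1 y2)) ^ 3 + C * ((3 * Lq3 12 y1 y2 0 - 3 * avg (Lq3 12 y1 y2)) ^ 3 +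
        ((3 * Lq3 12 y1 y2 1 - 3 * avg (Lq3 12 y1 y2)) ^ 3 +
          (3 * Lq3 12 y1 y2 2 - 3 * avg (Lq3 12 y1 y2)) ^ 3)) : ℝ) : ℂ) := by
  have : Lq3 12 y1 y2 0 = 1 := rfl
  rw [b3_avg3, this]
  simp only [b3S3, EL.val_cons, EL.val_nil, b3Q_val]
  push_cast
  ring

/-- `15552 wS ā²` -/
def b3W (S0 S1 S2 : Cx) (C : ℤ) : EL :=
  EL.smul (b3r 288) (b3S2.mul (b3M S0 S1 S2)) ++
  (EL.smul (b3r 8) ((b3S3 1 3 6).mul (b3K 12 S0 S1 S2)) ++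
  b3S3 (6 * C - 1152) (-9 * C - 3456) (36 * C - 6912))

theorem b3_avg_ne (D y1 y2 : ℝ) : avg (Lq3 D y1 y2) ≠ 0 := by
  have h0 := b3_pos D y1 y2 0
  have h1 := b3_pos D y1 y2 1
  have h2 := b3_pos D y1 y2 2
  simp only [avg, Fin.sum_univ_three]
  positivity

theorem b3_p3 {L : Vec 3} (h : avg L ≠ 0) : 81 * (avg L ^ 3 * p3 L) =
    (3 * L 0 - 3 * avg L) ^ 3 + ((3 * L 1 - 3 * avg L) ^ 3 + (3 * L 2 - 3 * avg L) ^ 3) := by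
  unfold p3
  generalize avg L = a at h ⊢
  simp only [avg, Fin.sum_univ_three]
  push_cast
  field_simp
  ring

theorem b3W_val {s : Fin 3 → ℂ} {c3 : ℝ} {S0 S1 S2 : Cx} {C : ℤ} (h0 : S0.toC = (12 : ℝ) * s 0)
    (h1 : S1.toC = (12 : ℝ) * s 1) (h2 : S2.toC = (12 : ℝ) * s 2) (hC : (C : ℝ) = 192 * c3)
    (y1 y2 : ℝ) : ((b3W S0 S1 S2 C).val y1 y2 0).re =
      15552 * (wS s c3 (Lq3 12 y1 y2) * avg (Lq3 12 y1 y2) ^ 2) := by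
  have hM := b3M_val h0 h1 h2 y1 y2
  have hK := b3K_val (D := 12) (s := s) (S0 := S0) (S1 := S1) (S2 := S2) (by exact_mod_cast h0)
    (by exact_mod_cast h1) (by exact_mod_cast h2) y1 y2
  have hp := b3_p3 (b3_avg_ne 12 y1 y2)
  simp only [Int.cast_ofNat] at hK
  rw [b3W, EL.val_append, EL.val_append, EL.val_smul, EL.val_smul, EL.val_mul rfl, EL.val_mul rfl,
    b3S2_val, b3S3_val, b3C_val]
  simp only [b3r_toC, Complex.add_re, ← Complex.ofReal_intCast, Complex.re_ofReal_mul, hM, hK,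
    Complex.ofReal_re, hC]
  unfold wS
  push_cast
  linear_combination (-192 * c3) * hp

theorem b3_wG (y1 y2 : ℝ) : ((b3W ⟨4, 0⟩ ⟨4, 0⟩ ⟨4, 0⟩ 64).val y1 y2 0).re =
    15552 * (wG (Lq3 12 y1 y2) * avg (Lq3 12 y1 y2) ^ 2) := by
  refine b3W_val ?_ ?_ ?_ (by norm_num) y1 y2 <;> simp [sG, Cx.toC] <;> norm_num
theorem b3_w0 (y1 y2 : ℝ) : ((b3W ⟨3, 0⟩ ⟨9, 0⟩ ⟨0, 0⟩ 27).val y1 y2 0).re =
    15552 * (wJ 0 (Lq3 12 y1 y2) * avg (Lq3 12 y1 y2) ^ 2) := by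
  refine b3W_val ?_ ?_ ?_ ?_ y1 y2 <;> simp [sP, sig, cc3, Cx.toC] <;> ring
theorem b3_w1 (y1 y2 : ℝ) : ((b3W ⟨6, 0⟩ ⟨6, 0⟩ ⟨0, 0⟩ 36).val y1 y2 0).re =
    15552 * (wJ 1 (Lq3 12 y1 y2) * avg (Lq3 12 y1 y2) ^ 2) := by
  refine b3W_val ?_ ?_ ?_ ?_ y1 y2 <;> simp [sP, sig, cc3, Cx.toC] <;> ring
theorem b3_w2 (y1 y2 : ℝ) : ((b3W ⟨6, 6⟩ ⟨6, -6⟩ ⟨0, 0⟩ 72).val y1 y2 0).re =
    15552 * (wJ 2 (Lq3 12 y1 y2) * avg (Lq3 12 y1 y2) ^ 2) := by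
  refine b3W_val ?_ ?_ ?_ ?_ y1 y2 <;> simp [sP, sig, cc3, Cx.toC] <;> ring
theorem b3_w3 (y1 y2 : ℝ) : ((b3W ⟨6, 12⟩ ⟨6, -12⟩ ⟨0, 0⟩ 180).val y1 y2 0).re =
    15552 * (wJ 3 (Lq3 12 y1 y2) * avg (Lq3 12 y1 y2) ^ 2) := by
  refine b3W_val ?_ ?_ ?_ ?_ y1 y2 <;> simp [sP, sig, cc3, Cx.toC] <;> ring
theorem b3_w4 (y1 y2 : ℝ) : ((b3W ⟨6, 18⟩ ⟨6, -18⟩ ⟨0, 0⟩ 360).val y1 y2 0).re =
    15552 * (wJ 4 (Lq3 12 y1 y2) * avg (Lq3 12 y1 y2) ^ 2) := by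
  refine b3W_val ?_ ?_ ?_ ?_ y1 y2 <;> simp [sP, sig, cc3, Cx.toC] <;> ring
theorem b3_w5 (y1 y2 : ℝ) : ((b3W ⟨6, 24⟩ ⟨6, -24⟩ ⟨0, 0⟩ 612).val y1 y2 0).re =
    15552 * (wJ 5 (Lq3 12 y1 y2) * avg (Lq3 12 y1 y2) ^ 2) := by
  refine b3W_val ?_ ?_ ?_ ?_ y1 y2 <;> simp [sP, sig, cc3, Cx.toC] <;> ring

theorem b3_re_eT (n : ℤ) (p : EL) (y1 y2 : ℝ) : ((EL.mul [b3eT n] p).val y1 y2 0).re =
    Real.exp (-(n * (y1 + y2))) * (p.val y1 y2 0).re := by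
  rw [EL.val_mul rfl, EL.val_cons, EL.val_nil, add_zero, b3eT_val, Complex.re_ofReal_mul]

theorem b3_re_comb (a : ℤ) (p q : EL) (y1 y2 : ℝ) : ((EL.smul (b3r a) p ++ q).val y1 y2 0).re =
    a * (p.val y1 y2 0).re + (q.val y1 y2 0).re := by
  rw [EL.val_append, EL.val_smul, b3r_toC, Complex.add_re, ← Complex.ofReal_intCast,
    Complex.re_ofReal_mul]

theorem b3_re_smul (a : ℤ) (p : EL) (y1 y2 : ℝ) : ((EL.smul (b3r a) p).val y1 y2 0).re =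
    a * (p.val y1 y2 0).re := by
  rw [EL.val_smul, b3r_toC, ← Complex.ofReal_intCast, Complex.re_ofReal_mul]

/-! ### the lists for `D = 6` -/

theorem b3_s0 : (⟨2, 0⟩ : Cx).toC = (6 : ℝ) * s3 0 := by simp [s3, Cx.toC]; norm_num
theorem b3_s1 : (⟨2, 3⟩ : Cx).toC = (6 : ℝ) * s3 1 := by simp [s3, Cx.toC]; ring
theorem b3_s2 : (⟨2, -3⟩ : Cx).toC = (6 : ℝ) * s3 2 := by simp [s3, Cx.toC]; ring
theorem b3_e0 : (b3r 16).toC = 3 * ((6 : ℝ) * eta3 0) := by simp [eta3]; norm_num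
theorem b3_e1 : (b3r (-8)).toC = 3 * ((6 : ℝ) * eta3 1) := by simp [eta3]; norm_num
theorem b3_e2 : (b3r (-8)).toC = 3 * ((6 : ℝ) * eta3 2) := by simp [eta3]; norm_num

def b3m6 (i j k : Fin 3) : ET := b3mT ⟨2, 0⟩ ⟨2, 3⟩ ⟨2, -3⟩ i j k
def b3n6 (i j k : Fin 3) : ET := b3nT b3z (b3r 16) (b3r (-8)) (b3r (-8)) i j k

theorem b3m6_val (i j k : Fin 3) (y1 y2 : ℝ) :
    (b3m6 i j k).val y1 y2 0 = mon s3 (Lq3 6 y1 y2 ∘ ![i, j, k]) :=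
  b3mT_val b3_s0 b3_s1 b3_s2 i j k y1 y2
theorem b3n6_val (i j k : Fin 3) (y1 y2 : ℝ) :
    (b3n6 i j k).val y1 y2 0 = 3 * lin eta3 (Lq3 6 y1 y2 ∘ ![i, j, k]) := by
  rw [b3n6, b3nT_val b3z b3_e0 b3_e1 b3_e2, b3z_toC, zero_add]

/-- `18 hS` -/
def b3H : EL := b3P fun i j k => EL.mul [b3m6 i j k] [b3n6 i j k]
/-- `108 kS` -/
def b3KS : EL := b3P fun i j k =>
  EL.mul [b3iT 6 (b3r 16) i, b3iT 6 (b3r (-8)) j, b3iT 6 (b3r (-8)) k] [b3m6 i j k] ++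
  EL.mul [b3iT 6 ⟨2, 0⟩ i, b3iT 6 ⟨2, 3⟩ j, b3iT 6 ⟨2, -3⟩ k] (EL.mul [b3m6 i j k] [b3n6 i j k])

theorem b3H_val (y1 y2 : ℝ) : (b3H.val y1 y2 0).re = 18 * hS s3 eta3 (Lq3 6 y1 y2) := by
  rw [b3H, b3P_val _ (fun π => ((3 : ℝ) : ℂ) * (lin eta3 (Lq3 6 y1 y2 ∘ π) *
    mon s3 (Lq3 6 y1 y2 ∘ π))) y1 y2 fun i j k => by
    rw [EL.val_mul rfl]
    simp only [EL.val_cons, EL.val_nil, add_zero, b3m6_val, b3n6_val]
    push_cast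
    ring, ← Finset.mul_sum, Complex.re_ofReal_mul, Complex.re_sum, hS]
  simp only [Nat.factorial, Nat.succ_eq_add_one]
  push_cast
  ring

theorem b3KS_val (y1 y2 : ℝ) : (b3KS.val y1 y2 0).re = 108 * kS s3 eta3 (Lq3 6 y1 y2) := by
  rw [b3KS, b3P_val _ (fun π => ((18 : ℝ) : ℂ) * ((∑ i, (eta3 i + lin eta3 (Lq3 6 y1 y2 ∘ π) * s3 i) /
    ((Lq3 6 y1 y2 (π i) : ℝ) : ℂ)) * mon s3 (Lq3 6 y1 y2 ∘ π))) y1 y2 fun i j k => by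
    rw [EL.val_append, EL.val_mul rfl, EL.val_mul rfl, EL.val_mul rfl]
    simp only [EL.val_cons, EL.val_nil, add_zero, b3m6_val, b3n6_val, b3iT_val, b3_s0, b3_s1, b3_s2,
      Fin.sum_univ_three, Matrix.cons_val_zero, Matrix.cons_val_one, Matrix.cons_val, Int.cast_ofNat]
    rw [b3_e0]
    nth_rewrite 1 [b3_e1]
    rw [b3_e2]
    push_cast
    ring, ← Finset.mul_sum, Complex.re_ofReal_mul, Complex.re_sum, kS]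
  simp only [Nat.factorial, Nat.succ_eq_add_one]
  push_cast
  ring

/-- `324 psi0` -/
def b3Psi : EL :=
  EL.smul (b3r 12) ((b3S 6).mul ((b3S 6).mul [b3iT 6 (b3r 1) 0, b3iT 6 (b3r 1) 1, b3iT 6 (b3r 1) 2])) ++
  (EL.smul (b3r (-108)) (b3S 6) ++
  (EL.smul (b3r (-108)) (EL.mul [b3lT 6 (b3r 1) 0] [b3gT 6 0] ++ (EL.mul [b3lT 6 (b3r 1) 1] [b3gT 6 1] ++
    EL.mul [b3lT 6 (b3r 1) 2] [b3gT 6 2])) ++
  EL.smul (b3r 36) ((b3S 6).mul [b3gT 6 0, b3gT 6 1, b3gT 6 2])))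

theorem b3Psi_val (y1 y2 : ℝ) : (b3Psi.val y1 y2 0).re = 324 * psi0 (Lq3 6 y1 y2) := by
  have hS := b3S_val 6 y1 y2
  have hl : ∀ (i : Fin 3) (q : EL), (EL.mul [b3lT 6 (b3r 1) i] q).val y1 y2 0 =
      ((Lq3 6 y1 y2 i : ℝ) : ℂ) * q.val y1 y2 0 := fun i q => by
    rw [EL.val_mul rfl, EL.val_cons, EL.val_nil, b3lT_val, b3r_toC]
    simp
  simp only [Int.cast_ofNat] at hS
  have : b3Psi.val y1 y2 0 = ((324 * psi0 (Lq3 6 y1 y2) : ℝ) : ℂ) := by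
    simp only [b3Psi, EL.val_append, EL.val_smul, EL.val_mul (b3S_pure 6), hS, hl, EL.val_cons,
      EL.val_nil, b3iT_val, b3gT_val, b3r_toC, Int.cast_ofNat]
    unfold psi0 Sf
    generalize avg (Lq3 6 y1 y2) = a
    simp only [avg, Fin.sum_univ_three]
    generalize Real.log (Lq3 6 y1 y2 0) = g0
    generalize Real.log (Lq3 6 y1 y2 1) = g1
    generalize Real.log (Lq3 6 y1 y2 2) = g2
    push_cast
    ring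
  rw [this, Complex.ofReal_re]

theorem b3_re_L2 (p : EL) (y1 y2 : ℝ) : ((EL.mul [b3lT 6 (b3r 1) 2] p).val y1 y2 0).re =
    Lq3 6 y1 y2 2 * (p.val y1 y2 0).re := by
  rw [EL.val_mul rfl, EL.val_cons, EL.val_nil, b3lT_val, b3r_toC]
  simp only [Int.cast_one, one_mul, add_zero, Int.cast_ofNat, Complex.re_ofReal_mul]

theorem b3_re_S (p : EL) (y1 y2 : ℝ) : (((b3S 6).mul p).val y1 y2 0).re =
    3 * avg (Lq3 6 y1 y2) * (p.val y1 y2 0).re := by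
  rw [EL.val_mul (b3S_pure 6), b3S_val, Complex.re_ofReal_mul, Int.cast_ofNat]

theorem bridge_q3B (y1 y2 : ℝ) :
    q3B.val y1 y2 0 = 162 * (psiB s3 eta3 (Lq3 6 y1 y2) * Lq3 6 y1 y2 2) := by
  have h := b3_fin (I := q3B) (p := EL.mul [b3lT 6 (b3r 1) 2] (EL.smul (b3r 1) b3Psi ++
    (EL.smul (b3r (-18)) b3H ++ EL.smul (b3r (-1)) ((b3S 6).mul b3KS)))) 2 (by decide +kernel) y1 y2 0
  rw [b3_re_L2, b3_re_comb, b3_re_comb, b3_re_smul, b3_re_S, b3Psi_val, b3H_val, b3KS_val] at h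
  unfold psiB
  push_cast at h
  linear_combination (1 / 2 : ℝ) * h
theorem bridge_q3A (y1 y2 : ℝ) :
    q3A.val y1 y2 0 = 1296 * (psiA s3 eta3 (1 / 8) (Lq3 6 y1 y2) * Lq3 6 y1 y2 2) := by
  have h := b3_fin (I := q3A) (p := EL.mul [b3lT 6 (b3r 1) 2] (EL.smul (b3r 8) b3Psi ++
    (EL.smul (b3r 180) b3H ++ EL.smul (b3r 1) ((b3S 6).mul b3KS)))) 2 (by decide +kernel) y1 y2 0
  rw [b3_re_L2, b3_re_comb, b3_re_comb, b3_re_smul, b3_re_S, b3Psi_val, b3H_val, b3KS_val] at h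
  unfold psiA
  push_cast at h
  linear_combination (1 / 2 : ℝ) * h
theorem bridge_q3C (y1 y2 : ℝ) :
    q3C.val y1 y2 0 = 24 * (mS s3 (Lq3 6 y1 y2) + 1 / 8 * avg (Lq3 6 y1 y2)) := by
  have h := b3_fin (I := q3C) (p := EL.smul (b3r 4) (b3M ⟨2, 0⟩ ⟨2, 3⟩ ⟨2, -3⟩) ++ b3S 6) 1
    (by decide +kernel) y1 y2 0
  rw [b3_re_comb, b3M_val b3_s0 b3_s1 b3_s2, b3S_val, Complex.ofReal_re] at h
  push_cast at h
  linear_combination h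

theorem bridge_gG (y1 y2 : ℝ) : E2.gG.val y1 y2 0 = 81 * (wG (Lq3 12 y1 y2) *
    (avg (Lq3 12 y1 y2) ^ 2 * Real.exp (-(8 * (y1 + y2))))) := by
  have h := b3_fin (I := E2.gG) (p := EL.mul [b3eT 8] (b3W ⟨4, 0⟩ ⟨4, 0⟩ ⟨4, 0⟩ 64)) 192
    (by decide +kernel) y1 y2 0
  rw [b3_re_eT, b3_wG] at h
  push_cast at h
  linear_combination (1 / 192 : ℝ) * h
theorem bridge_gQ (y1 y2 : ℝ) : gQ.val y1 y2 0 =
    648000 * ((wJ 0 (Lq3 12 y1 y2) - 438 / 1000 * wG (Lq3 12 y1 y2)) *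
      (avg (Lq3 12 y1 y2) ^ 2 * Real.exp (-(9 * (y1 + y2))))) := by
  have h := b3_fin (I := gQ) (p := EL.mul [b3eT 9] (EL.smul (b3r 1000) (b3W ⟨3, 0⟩ ⟨9, 0⟩ ⟨0, 0⟩ 27) ++
      (EL.smul (b3r (-438)) (b3W ⟨4, 0⟩ ⟨4, 0⟩ ⟨4, 0⟩ 64)))) 24
    (by decide +kernel) y1 y2 0
  rw [b3_re_eT, b3_re_comb, b3_re_smul, b3_w0, b3_wG] at h
  push_cast at h
  linear_combination (1 / 24 : ℝ) * h
theorem bridge_gQC (y1 y2 : ℝ) : gQC.val y1 y2 0 =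
    3240000 * ((wJ 0 (Lq3 12 y1 y2) + 8 / 10000 * wJ 5 (Lq3 12 y1 y2) -
      433 / 1000 * wG (Lq3 12 y1 y2)) * (avg (Lq3 12 y1 y2) ^ 2 * Real.exp (-(9 * (y1 + y2))))) := by
  have h := b3_fin (I := gQC) (p := EL.mul [b3eT 9] (EL.smul (b3r 10000) (b3W ⟨3, 0⟩ ⟨9, 0⟩ ⟨0, 0⟩ 27) ++
      (EL.smul (b3r 8) (b3W ⟨6, 24⟩ ⟨6, -24⟩ ⟨0, 0⟩ 612) ++
      (EL.smul (b3r (-4330)) (b3W ⟨4, 0⟩ ⟨4, 0⟩ ⟨4, 0⟩ 64))))) 48
    (by decide +kernel) y1 y2 0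
  rw [b3_re_eT, b3_re_comb, b3_re_comb, b3_re_smul, b3_w0, b3_w5, b3_wG] at h
  push_cast at h
  linear_combination (1 / 48 : ℝ) * h
theorem bridge_gH (y1 y2 : ℝ) : gH.val y1 y2 0 =
    32400 * ((wJ 1 (Lq3 12 y1 y2) - 49 / 100 * wG (Lq3 12 y1 y2)) *
      (avg (Lq3 12 y1 y2) ^ 2 * Real.exp (-(8 * (y1 + y2))))) := by
  have h := b3_fin (I := gH) (p := EL.mul [b3eT 8] (EL.smul (b3r 100) (b3W ⟨6, 0⟩ ⟨6, 0⟩ ⟨0, 0⟩ 36) ++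
      (EL.smul (b3r (-49)) (b3W ⟨4, 0⟩ ⟨4, 0⟩ ⟨4, 0⟩ 64)))) 48
    (by decide +kernel) y1 y2 0
  rw [b3_re_eT, b3_re_comb, b3_re_smul, b3_w1, b3_wG] at h
  push_cast at h
  linear_combination (1 / 48 : ℝ) * h
theorem bridge_gC1 (y1 y2 : ℝ) : gC1.val y1 y2 0 =
    16200 * ((wJ 2 (Lq3 12 y1 y2) - 33 / 100 * wG (Lq3 12 y1 y2)) *
      (avg (Lq3 12 y1 y2) ^ 2 * Real.exp (-(8 * (y1 + y2))))) := by
  have h := b3_fin (I := gC1) (p := EL.mul [b3eT 8] (EL.smul (b3r 100) (b3W ⟨6, 6⟩ ⟨6, -6⟩ ⟨0, 0⟩ 72) ++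
      (EL.smul (b3r (-33)) (b3W ⟨4, 0⟩ ⟨4, 0⟩ ⟨4, 0⟩ 64)))) 96
    (by decide +kernel) y1 y2 0
  rw [b3_re_eT, b3_re_comb, b3_re_smul, b3_w2, b3_wG] at h
  push_cast at h
  linear_combination (1 / 96 : ℝ) * h
theorem bridge_gC2 (y1 y2 : ℝ) : gC2.val y1 y2 0 =
    6480 * ((wJ 3 (Lq3 12 y1 y2) + 23 / 10 * wG (Lq3 12 y1 y2)) *
      (avg (Lq3 12 y1 y2) ^ 2 * Real.exp (-(8 * (y1 + y2))))) := by
  have h := b3_fin (I := gC2) (p := EL.mul [b3eT 8] (EL.smul (b3r 10) (b3W ⟨6, 12⟩ ⟨6, -12⟩ ⟨0, 0⟩ 180) ++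
      (EL.smul (b3r 23) (b3W ⟨4, 0⟩ ⟨4, 0⟩ ⟨4, 0⟩ 64)))) 24
    (by decide +kernel) y1 y2 0
  rw [b3_re_eT, b3_re_comb, b3_re_smul, b3_w3, b3_wG] at h
  push_cast at h
  linear_combination (1 / 24 : ℝ) * h
theorem bridge_gC3 (y1 y2 : ℝ) : gC3.val y1 y2 0 =
    648 * ((wJ 4 (Lq3 12 y1 y2) + 19 / 2 * wG (Lq3 12 y1 y2)) *
      (avg (Lq3 12 y1 y2) ^ 2 * Real.exp (-(8 * (y1 + y2))))) := by
  have h := b3_fin (I := gC3) (p := EL.mul [b3eT 8] (EL.smul (b3r 2) (b3W ⟨6, 18⟩ ⟨6, -18⟩ ⟨0, 0⟩ 360) ++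
      (EL.smul (b3r 19) (b3W ⟨4, 0⟩ ⟨4, 0⟩ ⟨4, 0⟩ 64)))) 48
    (by decide +kernel) y1 y2 0
  rw [b3_re_eT, b3_re_comb, b3_re_smul, b3_w4, b3_wG] at h
  push_cast at h
  linear_combination (1 / 48 : ℝ) * h
theorem bridge_gC4 (y1 y2 : ℝ) : gC4.val y1 y2 0 =
    1296 * ((wJ 5 (Lq3 12 y1 y2) + 30 * wG (Lq3 12 y1 y2)) *
      (avg (Lq3 12 y1 y2) ^ 2 * Real.exp (-(8 * (y1 + y2))))) := by
  have h := b3_fin (I := gC4) (p := EL.mul [b3eT 8] (EL.smul (b3r 1) (b3W ⟨6, 24⟩ ⟨6, -24⟩ ⟨0, 0⟩ 612) ++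
      (EL.smul (b3r 30) (b3W ⟨4, 0⟩ ⟨4, 0⟩ ⟨4, 0⟩ 64)))) 12
    (by decide +kernel) y1 y2 0
  rw [b3_re_eT, b3_re_comb, b3_re_smul, b3_w5, b3_wG] at h
  push_cast at h
  linear_combination (1 / 12 : ℝ) * h

end Crest.Agent.R163
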