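import Crest.Agent.R163.Sort
import Crest.Agent.R163.E2.Norm
import Crest.Agent.R163.E2.Inst

/-!
# R163/Bridge4: the exponential sums `q4B, q4A, q4C, q4H` are the functionals in gap coordinates

Recipe (see `E2/Norm.lean`).  With `ℓ i` the integer vector of `log (Lq4 y i) = ℓ i · y` (`ℓ 0 = 0`, `ℓ 1 = (-16,0,0)`, …):
`L i`, `(L i)⁻¹`, `L 3 / L i` are single pure terms; `mon s4 (L ∘ π) = exp (∑ k, s4 k * ℓ (π k) · y)` has Gaussian integer exponent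
(`16 * s4 k ∈ ℤ[i]`, `mon_eq_exp`), `1157 * lin eta4 (L ∘ π)` is a linear term.  Define the lists by `perms4.flatMap`,
prove their values generically in `π` (or by `fin_cases`/`simp`), multiply out the denominators
(`888576 = 24 * 16 * 2 * 1157`, `8885760 = 10 * 888576`, `222144`), and finish with `Inst.val_eq_of_reZero` + `decide +kernel`.
You may scale both sides by an extra integer factor first (`EL.smul`), if more convenient use `EL.re_eq_zero` directly.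
-/

set_option autoImplicit false

namespace Crest.Agent.R163

open E2

/-- `log (Lq4 y i) = -16 * Bridge4g y i` -/
noncomputable def Bridge4g (y1 y2 y3 : ℝ) : Fin 4 → ℝ := ![0, y1, y1 + y2, y1 + y2 + y3]

def Bridge4c (j : ℕ) (i : Fin 4) (a : Cx) : Cx := cond (Nat.ble j i.val) a ⟨0, 0⟩

theorem Bridge4_c (i : Fin 4) (a : Cx) (y1 y2 y3 : ℝ) :
    (Bridge4c 1 i a).toC * y1 + (Bridge4c 2 i a).toC * y2 + (Bridge4c 3 i a).toC * y3 =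
      a.toC * Bridge4g y1 y2 y3 i := by
  have h0 : (⟨0, 0⟩ : Cx).toC = 0 := by simp [Cx.toC]
  fin_cases i <;> simp [Bridge4c, Bridge4g, Nat.ble, h0] <;> ring

theorem Bridge4_L (y1 y2 y3 : ℝ) (i : Fin 4) :
    Lq4 y1 y2 y3 i = Real.exp (-(16 * Bridge4g y1 y2 y3 i)) := by
  fin_cases i <;> simp [Lq4, Bridge4g]

theorem Bridge4_log (y1 y2 y3 : ℝ) (i : Fin 4) :
    Real.log (Lq4 y1 y2 y3 i) = -(16 * Bridge4g y1 y2 y3 i) := by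
  rw [Bridge4_L, Real.log_exp]

theorem Bridge4_pp (y1 y2 y3 : ℝ) : PP (Lq4 y1 y2 y3) := fun i => by
  rw [Bridge4_L]; exact Real.exp_pos _

def Bridge4W (a : Fin 4 → Cx) (π : Fin 4 → Fin 4) (j : ℕ) : Cx :=
  ((Bridge4c j (π 0) (a 0)).add (Bridge4c j (π 1) (a 1))).add
    ((Bridge4c j (π 2) (a 2)).add (Bridge4c j (π 3) (a 3)))

theorem Bridge4_W (a : Fin 4 → Cx) (π : Fin 4 → Fin 4) (y1 y2 y3 : ℝ) :
    (Bridge4W a π 1).toC * y1 + (Bridge4W a π 2).toC * y2 + (Bridge4W a π 3).toC * y3 =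
      ∑ k, (a k).toC * Bridge4g y1 y2 y3 (π k) := by
  simp only [Bridge4W, Cx.toC_add, Fin.sum_univ_four, ← Bridge4_c]
  ring

/-- `-16 s4` -/
def Bridge4s : Fin 4 → Cx := ![⟨-4, -13⟩, ⟨-4, 13⟩, ⟨-7, 0⟩, ⟨-1, 0⟩]
/-- `-16 * 1157 eta4` -/
def Bridge4e : Fin 4 → Cx := ![⟨4992, -3072⟩, ⟨4992, 3072⟩, ⟨-18304, 0⟩, ⟨8320, 0⟩]

theorem Bridge4_s (k : Fin 4) : (Bridge4s k).toC = -16 * s4 k := by
  fin_cases k <;> simp [Bridge4s, s4, Cx.toC] <;> ring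

theorem Bridge4_e (k : Fin 4) : (Bridge4e k).toC = -16 * 1157 * eta4 k := by
  fin_cases k <;> simp [Bridge4e, eta4, Cx.toC] <;> ring

theorem Bridge4_lin_s (π : Fin 4 → Fin 4) (y1 y2 y3 : ℝ) :
    (Bridge4W Bridge4s π 1).toC * y1 + (Bridge4W Bridge4s π 2).toC * y2 +
      (Bridge4W Bridge4s π 3).toC * y3 = lin s4 (Lq4 y1 y2 y3 ∘ π) := by
  rw [Bridge4_W, lin]
  refine Finset.sum_congr rfl fun k _ => ?_
  rw [Function.comp_apply, Bridge4_log, Bridge4_s]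
  push_cast
  ring

theorem Bridge4_lin_e (π : Fin 4 → Fin 4) (y1 y2 y3 : ℝ) :
    (Bridge4W Bridge4e π 1).toC * y1 + (Bridge4W Bridge4e π 2).toC * y2 +
      (Bridge4W Bridge4e π 3).toC * y3 = 1157 * lin eta4 (Lq4 y1 y2 y3 ∘ π) := by
  rw [Bridge4_W, lin, Finset.mul_sum]
  refine Finset.sum_congr rfl fun k _ => ?_
  rw [Function.comp_apply, Bridge4_log, Bridge4_e]
  push_cast
  ring

/-- `L i ^ n` -/
def Bridge4P (n : ℤ) (i : Fin 4) : ET :=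
  ⟨Bridge4c 1 i ⟨-16 * n, 0⟩, Bridge4c 2 i ⟨-16 * n, 0⟩, Bridge4c 3 i ⟨-16 * n, 0⟩, ⟨1, 0⟩, ⟨0, 0⟩,
    ⟨0, 0⟩, ⟨0, 0⟩⟩

theorem Bridge4_exp (n : ℤ) (i : Fin 4) (y1 y2 y3 : ℝ) :
    Complex.exp ((Bridge4c 1 i ⟨-16 * n, 0⟩).toC * y1 + (Bridge4c 2 i ⟨-16 * n, 0⟩).toC * y2 +
      (Bridge4c 3 i ⟨-16 * n, 0⟩).toC * y3) = ((Lq4 y1 y2 y3 i ^ n : ℝ) : ℂ) := by
  rw [Bridge4_c, Bridge4_L, Complex.ofReal_zpow, Complex.ofReal_exp, ← Complex.exp_int_mul]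
  congr 1
  simp only [Cx.toC]
  push_cast
  ring

theorem Bridge4_P (n : ℤ) (i : Fin 4) (y1 y2 y3 : ℝ) :
    (Bridge4P n i).val y1 y2 y3 = ((Lq4 y1 y2 y3 i ^ n : ℝ) : ℂ) := by
  rw [ET.val]
  simp only [Bridge4P]
  rw [Bridge4_exp]
  simp [Cx.toC]

/-- `∑ L i ^ n` -/
def Bridge4S (n : ℤ) : EL := [Bridge4P n 0, Bridge4P n 1, Bridge4P n 2, Bridge4P n 3]

theorem Bridge4_S (n : ℤ) (y1 y2 y3 : ℝ) :
    (Bridge4S n).val y1 y2 y3 = ((∑ i, Lq4 y1 y2 y3 i ^ n : ℝ) : ℂ) := by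
  simp only [Bridge4S, EL.val_cons, EL.val_nil, Bridge4_P, Fin.sum_univ_four]
  push_cast
  ring

theorem Bridge4_S_pure (n : ℤ) : (Bridge4S n).pure = true := rfl

/-- `L 3` -/
def Bridge4T : EL := [Bridge4P 1 3]

theorem Bridge4_T (y1 y2 y3 : ℝ) : Bridge4T.val y1 y2 y3 = ((Lq4 y1 y2 y3 3 : ℝ) : ℂ) := by
  simp only [Bridge4T, EL.val_cons, EL.val_nil, Bridge4_P, zpow_one, add_zero]

theorem Bridge4_T_pure : Bridge4T.pure = true := rfl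

/-- `L i ^ n * log (L i)` -/
def Bridge4Q (n : ℤ) (i : Fin 4) : ET :=
  ⟨Bridge4c 1 i ⟨-16 * n, 0⟩, Bridge4c 2 i ⟨-16 * n, 0⟩, Bridge4c 3 i ⟨-16 * n, 0⟩, ⟨0, 0⟩,
    Bridge4c 1 i ⟨-16, 0⟩, Bridge4c 2 i ⟨-16, 0⟩, Bridge4c 3 i ⟨-16, 0⟩⟩

theorem Bridge4_Q (n : ℤ) (i : Fin 4) (y1 y2 y3 : ℝ) :
    (Bridge4Q n i).val y1 y2 y3 =
      ((Lq4 y1 y2 y3 i ^ n * Real.log (Lq4 y1 y2 y3 i) : ℝ) : ℂ) := by
  rw [ET.val]
  simp only [Bridge4Q]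
  rw [Bridge4_exp, add_assoc, add_assoc, ← add_assoc ((Bridge4c 1 i ⟨-16, 0⟩).toC * y1), Bridge4_c,
    Bridge4_log]
  simp [Cx.toC]

/-- `∑ L i ^ n * log (L i)` -/
def Bridge4G (n : ℤ) : EL := [Bridge4Q n 0, Bridge4Q n 1, Bridge4Q n 2, Bridge4Q n 3]

theorem Bridge4_G (n : ℤ) (y1 y2 y3 : ℝ) :
    (Bridge4G n).val y1 y2 y3 =
      ((∑ i, Lq4 y1 y2 y3 i ^ n * Real.log (Lq4 y1 y2 y3 i) : ℝ) : ℂ) := by
  simp only [Bridge4G, EL.val_cons, EL.val_nil, Bridge4_Q, Fin.sum_univ_four]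
  push_cast
  ring

/-- the monomial -/
def Bridge4M (π : Fin 4 → Fin 4) : EL :=
  [⟨Bridge4W Bridge4s π 1, Bridge4W Bridge4s π 2, Bridge4W Bridge4s π 3, ⟨1, 0⟩, ⟨0, 0⟩, ⟨0, 0⟩,
    ⟨0, 0⟩⟩]

theorem Bridge4_M (π : Fin 4 → Fin 4) (y1 y2 y3 : ℝ) :
    (Bridge4M π).val y1 y2 y3 = mon s4 (Lq4 y1 y2 y3 ∘ π) := by
  rw [mon_eq_exp s4 (L := Lq4 y1 y2 y3 ∘ π) fun i => Bridge4_pp y1 y2 y3 _, ← Bridge4_lin_s]
  simp [Bridge4M, EL.val_cons, EL.val_nil, ET.val, Cx.toC]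

theorem Bridge4_M_pure (π : Fin 4 → Fin 4) : (Bridge4M π).pure = true := rfl

/-- the linear form -/
def Bridge4N (π : Fin 4 → Fin 4) : EL :=
  [⟨⟨0, 0⟩, ⟨0, 0⟩, ⟨0, 0⟩, ⟨0, 0⟩, Bridge4W Bridge4e π 1, Bridge4W Bridge4e π 2,
    Bridge4W Bridge4e π 3⟩]

theorem Bridge4_N (π : Fin 4 → Fin 4) (y1 y2 y3 : ℝ) :
    (Bridge4N π).val y1 y2 y3 = 1157 * lin eta4 (Lq4 y1 y2 y3 ∘ π) := by
  rw [← Bridge4_lin_e]
  simp [Bridge4N, EL.val_cons, EL.val_nil, ET.val, Cx.toC]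

def Bridge4K1 (π : Fin 4 → Fin 4) (k : Fin 4) : ET :=
  ⟨Bridge4c 1 (π k) ⟨-16 * (-1), 0⟩, Bridge4c 2 (π k) ⟨-16 * (-1), 0⟩,
    Bridge4c 3 (π k) ⟨-16 * (-1), 0⟩, Bridge4e k, (Bridge4s k).mul (Bridge4W Bridge4e π 1),
    (Bridge4s k).mul (Bridge4W Bridge4e π 2), (Bridge4s k).mul (Bridge4W Bridge4e π 3)⟩

theorem Bridge4_K1 (π : Fin 4 → Fin 4) (k : Fin 4) (y1 y2 y3 : ℝ) :
    (Bridge4K1 π k).val y1 y2 y3 = -16 * 1157 *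
      ((eta4 k + lin eta4 (Lq4 y1 y2 y3 ∘ π) * s4 k) / ((Lq4 y1 y2 y3 (π k) : ℝ) : ℂ)) := by
  rw [ET.val]
  simp only [Bridge4K1, Cx.toC_mul]
  have h := Bridge4_lin_e π y1 y2 y3
  rw [Bridge4_exp, Bridge4_e, Bridge4_s, zpow_neg_one, Complex.ofReal_inv, div_eq_mul_inv]
  linear_combination (-16 * s4 k * ((Lq4 y1 y2 y3 (π k) : ℝ) : ℂ)⁻¹) * h

def Bridge4K (π : Fin 4 → Fin 4) : EL := [Bridge4K1 π 0, Bridge4K1 π 1, Bridge4K1 π 2, Bridge4K1 π 3]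

theorem Bridge4_K (π : Fin 4 → Fin 4) (y1 y2 y3 : ℝ) :
    (Bridge4K π).val y1 y2 y3 = -16 * 1157 *
      ∑ k, (eta4 k + lin eta4 (Lq4 y1 y2 y3 ∘ π) * s4 k) / ((Lq4 y1 y2 y3 (π k) : ℝ) : ℂ) := by
  simp only [Bridge4K, EL.val_cons, EL.val_nil, Bridge4_K1, Fin.sum_univ_four]
  ring

def Bridge4MM : EL := perms4.flatMap Bridge4M
def Bridge4HH : EL := perms4.flatMap fun π => (Bridge4M π).mul (Bridge4N π)
def Bridge4KK : EL := perms4.flatMap fun π => (Bridge4M π).mul (Bridge4K π)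

theorem Bridge4_MM (y1 y2 y3 : ℝ) :
    (Bridge4MM.val y1 y2 y3).re = 24 * mS s4 (Lq4 y1 y2 y3) := by
  rw [Bridge4MM, EL.val_flatMap, ← sum_perm4 fun π => (Bridge4M π).val y1 y2 y3, Complex.re_sum, mS]
  simp only [Bridge4_M]
  norm_num [Nat.factorial]
  ring

theorem Bridge4_HH (y1 y2 y3 : ℝ) :
    (Bridge4HH.val y1 y2 y3).re = 24 * 1157 * hS s4 eta4 (Lq4 y1 y2 y3) := by
  rw [Bridge4HH, EL.val_flatMap,
    ← sum_perm4 fun π => ((Bridge4M π).mul (Bridge4N π)).val y1 y2 y3, Complex.re_sum, hS]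
  have h : ∀ π : Equiv.Perm (Fin 4), (((Bridge4M π).mul (Bridge4N π)).val y1 y2 y3).re =
      1157 * (lin eta4 (Lq4 y1 y2 y3 ∘ π) * mon s4 (Lq4 y1 y2 y3 ∘ π)).re := fun π => by
    rw [EL.val_mul (Bridge4_M_pure π), Bridge4_M, Bridge4_N, ← Complex.re_ofReal_mul]
    congr 1
    push_cast
    ring
  simp only [h]
  rw [← Finset.mul_sum, show ((Nat.factorial 4 : ℕ) : ℝ) = 24 by norm_num [Nat.factorial]]
  ring

theorem Bridge4_KK (y1 y2 y3 : ℝ) :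
    (Bridge4KK.val y1 y2 y3).re = -(24 * 16 * 1157) * kS s4 eta4 (Lq4 y1 y2 y3) := by
  rw [Bridge4KK, EL.val_flatMap,
    ← sum_perm4 fun π => ((Bridge4M π).mul (Bridge4K π)).val y1 y2 y3, Complex.re_sum, kS]
  have h : ∀ π : Equiv.Perm (Fin 4), (((Bridge4M π).mul (Bridge4K π)).val y1 y2 y3).re =
      -(16 * 1157) * ((∑ k, (eta4 k + lin eta4 (Lq4 y1 y2 y3 ∘ π) * s4 k) /
        ((Lq4 y1 y2 y3 (π k) : ℝ) : ℂ)) * mon s4 (Lq4 y1 y2 y3 ∘ π)).re := fun π => by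
    rw [EL.val_mul (Bridge4_M_pure π), Bridge4_M, Bridge4_K, ← Complex.re_ofReal_mul]
    congr 1
    push_cast
    ring
  simp only [h]
  rw [← Finset.mul_sum, show ((Nat.factorial 4 : ℕ) : ℝ) = 24 by norm_num [Nat.factorial]]
  ring

theorem Bridge4_re_smul (c : ℤ) (p : EL) (y1 y2 y3 : ℝ) :
    ((EL.smul ⟨c, 0⟩ p).val y1 y2 y3).re = c * (p.val y1 y2 y3).re := by
  rw [EL.val_smul]
  simp [Cx.toC]

theorem Bridge4_re_append (p q : EL) (y1 y2 y3 : ℝ) :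
    (EL.val (p ++ q) y1 y2 y3).re = (p.val y1 y2 y3).re + (q.val y1 y2 y3).re := by
  rw [EL.val_append, Complex.add_re]

theorem Bridge4_re_S (n : ℤ) (p : EL) (y1 y2 y3 : ℝ) :
    (((Bridge4S n).mul p).val y1 y2 y3).re = (∑ i, Lq4 y1 y2 y3 i ^ n) * (p.val y1 y2 y3).re := by
  rw [EL.val_mul (Bridge4_S_pure n), Bridge4_S, Complex.re_ofReal_mul]

theorem Bridge4_re_T (p : EL) (y1 y2 y3 : ℝ) :
    ((Bridge4T.mul p).val y1 y2 y3).re = Lq4 y1 y2 y3 3 * (p.val y1 y2 y3).re := by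
  rw [EL.val_mul Bridge4_T_pure, Bridge4_T, Complex.re_ofReal_mul]

/-- `64 psi0` -/
def Bridge4Z : EL :=
  (Bridge4S 1).mul ((Bridge4S 1).mul (Bridge4S (-1))) ++ EL.smul ⟨-16, 0⟩ (Bridge4S 1) ++
    EL.smul ⟨-16, 0⟩ (Bridge4G 1) ++ EL.smul ⟨4, 0⟩ ((Bridge4S 1).mul (Bridge4G 0))

theorem Bridge4_Z (y1 y2 y3 : ℝ) : (Bridge4Z.val y1 y2 y3).re = 64 * psi0 (Lq4 y1 y2 y3) := by
  simp only [Bridge4Z, Bridge4_re_append, Bridge4_re_smul, Bridge4_re_S, Bridge4_S, Bridge4_G,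
    Complex.ofReal_re, zpow_one, zpow_neg_one, zpow_zero, one_mul, psi0, Sf, avg]
  push_cast
  ring

theorem Bridge4_avg (y1 y2 y3 : ℝ) : ∑ i, Lq4 y1 y2 y3 i ^ (1 : ℤ) = 4 * avg (Lq4 y1 y2 y3) := by
  simp only [zpow_one, avg]
  push_cast
  ring

/-- `32 <(L - ā)³>` -/
def Bridge4Y : EL :=
  EL.smul ⟨8, 0⟩ (Bridge4S 3) ++ EL.smul ⟨-6, 0⟩ ((Bridge4S 1).mul (Bridge4S 2)) ++
    (Bridge4S 1).mul ((Bridge4S 1).mul (Bridge4S 1))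

theorem Bridge4_Y (y1 y2 y3 : ℝ) : (Bridge4Y.val y1 y2 y3).re =
    32 * (avg (Lq4 y1 y2 y3) * p3 (Lq4 y1 y2 y3) * avg (Lq4 y1 y2 y3) ^ 2) := by
  simp only [Bridge4Y, Bridge4_re_append, Bridge4_re_smul, Bridge4_re_S, Bridge4_S,
    Complex.ofReal_re, zpow_one, zpow_ofNat]
  have hp := Bridge4_pp y1 y2 y3
  generalize Lq4 y1 y2 y3 = L at hp
  have h0 : avg L ≠ 0 := by
    have := hp 0; have := hp 1; have := hp 2; have := hp 3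
    simp only [avg, Fin.sum_univ_four]
    positivity
  have h1 : avg L * p3 L * avg L ^ 2 = (∑ i, (L i - avg L) ^ 3) / 4 := by
    rw [p3]
    generalize avg L = a at h0
    simp only [avg, Fin.sum_univ_four]
    push_cast
    field_simp
  rw [h1]
  simp only [avg, Fin.sum_univ_four]
  push_cast
  ring

theorem Bridge4_chkB : EL.reZero (Bridge4T.mul (EL.smul ⟨27768, 0⟩ Bridge4Z ++
    EL.smul ⟨-64, 0⟩ Bridge4HH ++ (Bridge4S 1).mul Bridge4KK) ++ EL.smul ⟨-2, 0⟩ q4B.toEL) = true := by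
  decide +kernel

theorem Bridge4_chkA : EL.reZero (Bridge4T.mul (EL.smul ⟨277680, 0⟩ Bridge4Z ++
    EL.smul ⟨1024, 0⟩ Bridge4HH ++ EL.smul ⟨-3, 0⟩ ((Bridge4S 1).mul Bridge4KK)) ++
    EL.smul ⟨-2, 0⟩ q4A.toEL) = true := by
  decide +kernel

theorem Bridge4_chkC : EL.reZero (EL.smul ⟨5, 0⟩ Bridge4MM ++ EL.smul ⟨9, 0⟩ (Bridge4S 1) ++
    EL.smul ⟨-1, 0⟩ q4C.toEL) = true := by
  decide +kernel

theorem Bridge4_chkH : EL.reZero ((Bridge4S 1).mul ((Bridge4S 1).mul Bridge4HH) ++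
    EL.smul ⟨-6942, 0⟩ Bridge4Y ++ EL.smul ⟨-2, 0⟩ q4H.toEL) = true := by
  decide +kernel

theorem bridge_q4B (y1 y2 y3 : ℝ) :
    q4B.val y1 y2 y3 = 888576 * (psiB s4 eta4 (Lq4 y1 y2 y3) * Lq4 y1 y2 y3 3) := by
  have h := EL.re_eq_zero Bridge4_chkB y1 y2 y3
  simp only [Bridge4_re_append, Bridge4_re_smul, Bridge4_re_S, Bridge4_re_T, Bridge4_Z, Bridge4_HH,
    Bridge4_KK, Bridge4_avg, ← Inst.val_eq] at h
  rw [psiB]
  push_cast at h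
  linear_combination (-1 / 2 : ℝ) * h

theorem bridge_q4A (y1 y2 y3 : ℝ) :
    q4A.val y1 y2 y3 = 8885760 * (psiA s4 eta4 (3 / 10) (Lq4 y1 y2 y3) * Lq4 y1 y2 y3 3) := by
  have h := EL.re_eq_zero Bridge4_chkA y1 y2 y3
  simp only [Bridge4_re_append, Bridge4_re_smul, Bridge4_re_S, Bridge4_re_T, Bridge4_Z, Bridge4_HH,
    Bridge4_KK, Bridge4_avg, ← Inst.val_eq] at h
  rw [psiA]
  push_cast at h
  linear_combination (-1 / 2 : ℝ) * h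

theorem bridge_q4C (y1 y2 y3 : ℝ) :
    q4C.val y1 y2 y3 = 120 * (mS s4 (Lq4 y1 y2 y3) + 3 / 10 * avg (Lq4 y1 y2 y3)) := by
  have h := EL.re_eq_zero Bridge4_chkC y1 y2 y3
  simp only [Bridge4_re_append, Bridge4_re_smul, Bridge4_MM, Bridge4_S, Complex.ofReal_re,
    Bridge4_avg, ← Inst.val_eq] at h
  push_cast at h
  linear_combination (-1 : ℝ) * h

theorem bridge_q4H (y1 y2 y3 : ℝ) :
    q4H.val y1 y2 y3 = 222144 * ((hS s4 eta4 (Lq4 y1 y2 y3) -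
      1 / 2 * (avg (Lq4 y1 y2 y3) * p3 (Lq4 y1 y2 y3))) * avg (Lq4 y1 y2 y3) ^ 2) := by
  have h := EL.re_eq_zero Bridge4_chkH y1 y2 y3
  simp only [Bridge4_re_append, Bridge4_re_smul, Bridge4_re_S, Bridge4_Y, Bridge4_HH,
    Bridge4_avg, ← Inst.val_eq] at h
  push_cast at h
  linear_combination (-1 / 2 : ℝ) * h


end Crest.Agent.R163
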