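import Crest.Agent.R163.ALimit
import Crest.Agent.R163.ADefs2

/-!
# R163/DLocal: the degenerate lanes near the uniform vector

By homogeneity (`hom_mS`, `Pm_smul`, `pq_smul`, `p3_smul`; `L = 0` trivial) assume `avg L = 1`, `L i = 1 + u i`, `∑ u = 0`, `p = <u²> ≤ 1/50`,
`q = <u³>`; then `u i ² ≤ 2 p`, `|u i| ≤ 1/5`, `2 q² ≤ p³`, and `Pm (-1/2) L = 1 - u/2`.  For `v = u` or `v = -u/2` (`p_v = p/4`, `q_v = -q/8`):
* `mS (sP σ) (1 + v) = (3 Re (A B) - 1) / 2`, `A = <(1+v)^σ>`, `B = <(1+v)^(1-σ)>` (`alim_mS_sP`, `alim_sum_perm3`; `x^σ x^(1-σ) = x`); for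
  `σ = 1/2 + 2i`, `B = conj A`.
* `(1+v)^σ = ∑_{k<N} binom(σ,k) v^k + R`: e.g. Taylor's theorem with remainder / `Complex.one_add_cpow_hasFPowerSeriesOnBall`-type lemmas, or the
  ODE `(1+v) f' = σ f` with a mean value inequality: if `T` is the Taylor polynomial, `((1+v)^(-σ) T)' = -(N-th term)·N·(1+v)^(-σ-1)/v`.
  Orders: `N = 9` or `10` for `σ = 1/4, 3/4`, `N = 7` or `8` for `σ = 1/2 + 2i` (its coefficient is only `0.00165`).
* power sums `P_k = <v^k>`: `P_k = (3/2) p P_{k-2} + q P_{k-3}` (`P0 = 1, P1 = 0`), since each `v i` is a root of `X³ - (3p/2) X - q`;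
* `mS sG (1 + v) = (1 - 3p/2 + q)^(1/3)` (`mS_sG_eq`), bounded above/below by Taylor polynomials in `w = -3p/2 + q` (check by cubing).
In units of `2^32` the result is, for `dN0`: `0.011483 p² + 0.014453 p q + 0.006432 p³ - 0.015168 q² + 0.010593 p² q + 0.007362 p⁴ - 0.019172 p q² + …`
(terms `p`, `q` cancel exactly); for `dN1`: `1.638e-5 p - 3.52e-4 q (only for s = 0; it cancels exactly for s = 1/2) + 0.010976 p² + 0.01405 p q + …`;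
for `dN2`: `1.515e-5 p - 2.65e-4 q + 0.011098 p² + …`.  On the whole region the value is `≥ 0.0099 p²`, so every term of weight `≥ 5`
(weights `p : 2`, `q : 3`) and all remainders may be bounded crudely by multiples of `p²` (`|q| ≤ p √(p/2) ≤ p/10`; total budget about `0.008 p²`), and
`|q| ≤ a p + p²/(8 a)` handles the linear `q` term (`a = 0.045`).
A clean way: prove two-sided bounds `|gJ 0 (1+v) - (9/32 p - 9/64 q + c20 p² + c11 p q)| ≤ ε p²` etc. for the three functionals `gJ 0`, `gJ 5`, `gG`, once for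
`p ≤ 1/50` and applied to `u` and `-u/2`, then finish the five checks by `nlinarith`/`linarith`.
-/

set_option autoImplicit false

namespace Crest.Agent.R163

theorem dl_exp {a : ℂ} (ha : |a.re| ≤ 1) {y : ℝ} (hy : |y| ≤ 1 / 5) :
    ‖Complex.exp (a * (Real.log (1 + y) : ℝ))‖ ≤ 5 / 4 := by
  obtain ⟨h1, h2⟩ := abs_le.1 hy
  have e1 : Real.log (1 + y) ≤ Real.log (5 / 4) := Real.log_le_log (by linarith) (by linarith)
  have e2 : -Real.log (5 / 4) ≤ Real.log (1 + y) := by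
    rw [← Real.log_inv]
    exact Real.log_le_log (by norm_num) (by norm_num; linarith)
  have e3 : |Real.log (1 + y)| ≤ Real.log (5 / 4) := abs_le.2 ⟨e2, e1⟩
  rw [Complex.norm_exp, ← Real.exp_log (show (0 : ℝ) < 5 / 4 by norm_num), Real.exp_le_exp,
    Complex.re_mul_ofReal]
  calc a.re * Real.log (1 + y) ≤ |a.re * Real.log (1 + y)| := le_abs_self _
    _ = |a.re| * |Real.log (1 + y)| := abs_mul _ _
    _ ≤ 1 * Real.log (5 / 4) := by gcongr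
    _ = _ := one_mul _

theorem dl_cpow (σ : ℂ) {y : ℝ} (hy : |y| ≤ 1 / 5) :
    ((1 + y : ℝ) : ℂ) ^ σ = Complex.exp (σ * (Real.log (1 + y) : ℝ)) := by
  have h : 0 < 1 + y := by linarith [(abs_le.1 hy).1]
  rw [Complex.cpow_def_of_ne_zero (Complex.ofReal_ne_zero.2 h.ne'), Complex.ofReal_log h.le, mul_comm]

/-- approximate solutions of `(1 + y) f' = σ f` -/
theorem dl_ode {σ : ℂ} (hσ : |σ.re| ≤ 1) {T T' : ℝ → ℂ} (hT : ∀ y, HasDerivAt T (T' y) y)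
    (hT0 : T 0 = 1) {K : ℂ} {n : ℕ} (hK : ∀ y : ℝ, (1 + y) * T' y - σ * T y = K * y ^ n)
    {x : ℝ} (hx : |x| ≤ 1 / 5) :
    ‖((1 + x : ℝ) : ℂ) ^ σ - T x‖ ≤ 2 * ‖K‖ / (n + 1) * |x| ^ (n + 1) := by
  have hσ' : |(-σ).re| ≤ 1 := by rwa [Complex.neg_re, abs_neg]
  have hy : ∀ t ∈ Set.Icc (0 : ℝ) 1, |t * x| ≤ 1 / 5 := fun t ht => by
    rw [abs_mul, abs_of_nonneg ht.1]
    nlinarith [ht.1, ht.2, abs_nonneg x]
  have hd : ∀ t ∈ Set.Icc (0 : ℝ) 1, HasDerivAt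
      (fun t : ℝ => Complex.exp (-σ * (Real.log (1 + t * x) : ℝ)) * T (t * x) - 1)
      (Complex.exp (-σ * (Real.log (1 + t * x) : ℝ)) * ((x / (1 + t * x) : ℝ) : ℂ) *
        (K * ((t * x : ℝ) : ℂ) ^ n)) t := fun t ht => by
    have h0 : 0 < 1 + t * x := by linarith [(abs_le.1 (hy t ht)).1]
    have a1 : HasDerivAt (fun t : ℝ => t * x) x t := by simpa using (hasDerivAt_id t).mul_const x
    have a2 := ((((a1.const_add 1).log h0.ne').ofReal_comp).const_mul (-σ)).cexp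
    have a3 : HasDerivAt (fun t : ℝ => T (t * x)) (x • T' (t * x)) t := (hT (t * x)).scomp t a1
    have a4 := (a2.mul a3).sub_const 1
    refine a4.congr_deriv ?_
    rw [← hK (t * x), Complex.real_smul]
    have h0' : (1 : ℂ) + t * x ≠ 0 := by exact_mod_cast h0.ne'
    push_cast
    generalize Complex.exp (-σ * (Real.log (1 + t * x) : ℝ)) = E
    generalize (1 : ℂ) + t * x = D at h0' ⊢
    field_simp
    ring
  have hB : ∀ t : ℝ, HasDerivAt (fun t : ℝ => 25 / 16 * ‖K‖ * |x| ^ (n + 1) / (n + 1) * t ^ (n + 1))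
      (25 / 16 * ‖K‖ * |x| ^ (n + 1) * t ^ n) t := fun t => by
    refine ((hasDerivAt_pow (n + 1) t).const_mul
      (25 / 16 * ‖K‖ * |x| ^ (n + 1) / (n + 1))).congr_deriv ?_
    have : (n : ℝ) + 1 ≠ 0 := by positivity
    simp only [Nat.add_sub_cancel]
    push_cast
    field_simp
  have key := image_norm_le_of_norm_deriv_right_le_deriv_boundary (a := 0) (b := 1)
    (fun t ht => (hd t ht).continuousAt.continuousWithinAt)
    (fun t ht => (hd t (Set.Ico_subset_Icc_self ht)).hasDerivWithinAt) (by simp [hT0]) hB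
    (fun t ht => by
      have ht' := Set.Ico_subset_Icc_self ht
      have h0 : 4 / 5 ≤ 1 + t * x := by linarith [(abs_le.1 (hy t ht')).1]
      have b1 := dl_exp hσ' (hy t ht')
      have b2 : |x / (1 + t * x)| ≤ 5 / 4 * |x| := by
        rw [abs_div, abs_of_pos (show 0 < 1 + t * x by linarith), div_le_iff₀ (by linarith)]
        nlinarith [abs_nonneg x]
      rw [norm_mul, norm_mul, norm_mul, norm_pow, Complex.norm_real, Complex.norm_real,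
        Real.norm_eq_abs, Real.norm_eq_abs, abs_mul t x, abs_of_nonneg ht.1]
      calc _ ≤ 5 / 4 * (5 / 4 * |x|) * (‖K‖ * (t * |x|) ^ n) := by
            have := ht.1
            gcongr
        _ = _ := by ring)
    (show (1 : ℝ) ∈ Set.Icc (0 : ℝ) 1 by simp)
  simp only [one_mul, one_pow, mul_one] at key
  have b1 := dl_exp hσ hx
  rw [dl_cpow σ hx]
  have e : Complex.exp (σ * (Real.log (1 + x) : ℝ)) - T x =
      -(Complex.exp (σ * (Real.log (1 + x) : ℝ)) *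
        (Complex.exp (-σ * (Real.log (1 + x) : ℝ)) * T x - 1)) := by
    rw [mul_sub, ← mul_assoc, ← Complex.exp_add]
    simp
  rw [e, norm_neg, norm_mul]
  have b2 : 0 ≤ ‖K‖ * |x| ^ (n + 1) / (n + 1) := by positivity
  calc _ ≤ 5 / 4 * (25 / 16 * ‖K‖ * |x| ^ (n + 1) / (n + 1)) := by gcongr
    _ = 125 / 64 * (‖K‖ * |x| ^ (n + 1) / (n + 1)) := by ring
    _ ≤ 2 * (‖K‖ * |x| ^ (n + 1) / (n + 1)) := by linarith
    _ = _ := by ring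

/-- binomial coefficients `c k = binom (σ, k)`, `k ≤ 6`, and a bound for `binom (σ, 7)` -/
structure dl_Bin (σ c2 c3 c4 c5 c6 : ℂ) (C : ℝ) : Prop where
  re : |σ.re| ≤ 1
  h2 : 2 * c2 = (σ - 1) * σ
  h3 : 3 * c3 = (σ - 2) * c2
  h4 : 4 * c4 = (σ - 3) * c3
  h5 : 5 * c5 = (σ - 4) * c4
  h6 : 6 * c6 = (σ - 5) * c5
  h7 : ‖(6 - σ) * c6‖ ≤ 7 * C

theorem dl_pow7 {σ c2 c3 c4 c5 c6 : ℂ} {C : ℝ} (h : dl_Bin σ c2 c3 c4 c5 c6 C) {x : ℝ}
    (hx : |x| ≤ 1 / 5) :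
    ‖((1 + x : ℝ) : ℂ) ^ σ - (1 + σ * x + c2 * x ^ 2 + c3 * x ^ 3 + c4 * x ^ 4 + c5 * x ^ 5 +
      c6 * x ^ 6)‖ ≤ 2 * C / 125 * x ^ 4 := by
  have hT : ∀ y : ℝ, HasDerivAt (fun y : ℝ => 1 + σ * y + c2 * y ^ 2 + c3 * y ^ 3 + c4 * y ^ 4 +
      c5 * y ^ 5 + c6 * (y : ℂ) ^ 6) (σ + 2 * c2 * y + 3 * c3 * y ^ 2 + 4 * c4 * y ^ 3 +
      5 * c5 * y ^ 4 + 6 * c6 * y ^ 5) y := fun y => by
    have a := fun k : ℕ => (hasDerivAt_pow k (y : ℂ)).comp_ofReal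
    have a1 : HasDerivAt (fun y : ℝ => (y : ℂ)) 1 y := (hasDerivAt_id (y : ℂ)).comp_ofReal
    refine (((((((a1.const_mul σ).const_add 1).add ((a 2).const_mul c2)).add
      ((a 3).const_mul c3)).add ((a 4).const_mul c4)).add ((a 5).const_mul c5)).add
      ((a 6).const_mul c6)).congr_deriv ?_
    push_cast
    ring
  have := dl_ode h.re hT (by simp) (K := (6 - σ) * c6) (n := 6) (fun y => by
    linear_combination (y : ℂ) * h.h2 + (y : ℂ) ^ 2 * h.h3 + (y : ℂ) ^ 3 * h.h4 +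
      (y : ℂ) ^ 4 * h.h5 + (y : ℂ) ^ 5 * h.h6) hx
  refine this.trans ?_
  have b0 : 0 ≤ 7 * C := (norm_nonneg _).trans h.h7
  have b1 : |x| ^ (6 + 1) ≤ (1 / 5) ^ 3 * x ^ 4 := by
    rw [show |x| ^ (6 + 1) = |x| ^ 3 * |x| ^ 4 by ring, Even.pow_abs (by decide : Even 4)]
    gcongr
  have b2 := h.h7
  calc _ ≤ 2 * (7 * C) / ((6 : ℕ) + 1) * ((1 / 5) ^ 3 * x ^ 4) := by gcongr
    _ = _ := by push_cast; ring

/-- the centred coordinates of a vector of average one -/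
structure dl_Loc (L : Vec 3) (a b p q : ℝ) : Prop where
  e0 : L 0 = 1 + a
  e1 : L 1 = 1 + b
  e2 : L 2 = 1 + (-a - b)
  ep : p = (a ^ 2 + b ^ 2 + (-a - b) ^ 2) / 3
  eq : q = (a ^ 3 + b ^ 3 + (-a - b) ^ 3) / 3
  hp : p ≤ 1 / 50

theorem dl_loc {L : Vec 3} (h1 : avg L = 1) (hp : pq L ≤ 1 / 50) :
    dl_Loc L (L 0 - 1) (L 1 - 1) (pq L) (p3 L) := by
  have e : L 2 = 1 + (-(L 0 - 1) - (L 1 - 1)) := by
    simp only [avg, Fin.sum_univ_three] at h1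
    push_cast at h1
    linarith
  refine ⟨by ring, by ring, e, ?_, ?_, hp⟩
  · unfold pq
    rw [h1]
    simp only [avg, Fin.sum_univ_three, div_one, e]
    push_cast
    ring
  · unfold p3
    rw [h1]
    simp only [avg, Fin.sum_univ_three, div_one, e]
    push_cast
    ring

namespace dl_Loc

variable {L : Vec 3} {a b p q : ℝ}

theorem p0 (h : dl_Loc L a b p q) : 0 ≤ p := by rw [h.ep]; positivity

theorem ha (h : dl_Loc L a b p q) : |a| ≤ 1 / 5 := by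
  have h1 := h.hp
  rw [h.ep] at h1
  exact abs_le_of_sq_le_sq (by nlinarith [sq_nonneg (a + 2 * b)]) (by norm_num)

theorem hb (h : dl_Loc L a b p q) : |b| ≤ 1 / 5 := by
  have h1 := h.hp
  rw [h.ep] at h1
  exact abs_le_of_sq_le_sq (by nlinarith [sq_nonneg (2 * a + b)]) (by norm_num)

theorem hc (h : dl_Loc L a b p q) : |-a - b| ≤ 1 / 5 := by
  have h1 := h.hp
  rw [h.ep] at h1
  exact abs_le_of_sq_le_sq (by nlinarith [sq_nonneg (a - b)]) (by norm_num)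

theorem disc (h : dl_Loc L a b p q) : 2 * q ^ 2 ≤ p ^ 3 := by
  have : p ^ 3 - 2 * q ^ 2 = 2 / 27 * ((a - b) * (a + 2 * b) * (2 * a + b)) ^ 2 := by
    rw [h.ep, h.eq]; ring
  nlinarith [sq_nonneg ((a - b) * (a + 2 * b) * (2 * a + b))]

theorem hq (h : dl_Loc L a b p q) : |q| ≤ p / 10 := by
  have h0 := h.p0
  have h1 := mul_le_mul_of_nonneg_left h.hp (sq_nonneg p)
  exact abs_le_of_sq_le_sq (by nlinarith [h.disc]) (by linarith)

theorem hq' (h : dl_Loc L a b p q) : |q| ≤ 9 / 200 * p + 25 / 9 * p ^ 2 := by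
  have h0 := h.p0
  exact abs_le_of_sq_le_sq (by nlinarith [h.disc, sq_nonneg (9 / 200 * p - 25 / 9 * p ^ 2)])
    (by positivity)

theorem mono (h : dl_Loc L a b p q) (i j k : ℕ) (hk : i + j = k + 2) :
    |p ^ i * q ^ j| ≤ (1 / 50) ^ k * (1 / 10) ^ j * p ^ 2 := by
  have h0 := h.p0
  have h1 := h.hp
  have h2 := h.hq
  rw [abs_mul, abs_pow, abs_pow, abs_of_nonneg h0]
  calc p ^ i * |q| ^ j ≤ p ^ i * (p / 10) ^ j := by gcongr
    _ = p ^ (i + j) * (1 / 10) ^ j := by ring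
    _ = p ^ k * (1 / 10) ^ j * p ^ 2 := by rw [hk]; ring
    _ ≤ _ := by gcongr

theorem pos (h : dl_Loc L a b p q) : PP L := by
  intro i
  fin_cases i
  · have := h.e0; have := (abs_le.1 h.ha).1; show 0 < L 0; linarith
  · have := h.e1; have := (abs_le.1 h.hb).1; show 0 < L 1; linarith
  · have := h.e2; have := (abs_le.1 h.hc).1; show 0 < L 2; linarith

theorem norm_A (h : dl_Loc L a b p q) {σ : ℂ} (hσ : |σ.re| ≤ 1) :
    ‖(((L 0 : ℝ) : ℂ) ^ σ + ((L 1 : ℝ) : ℂ) ^ σ + ((L 2 : ℝ) : ℂ) ^ σ) / 3‖ ≤ 5 / 4 := by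
  rw [h.e0, h.e1, h.e2, dl_cpow σ h.ha, dl_cpow σ h.hb, dl_cpow σ h.hc, norm_div]
  have a1 := dl_exp hσ h.ha
  have a2 := dl_exp hσ h.hb
  have a3 := dl_exp hσ h.hc
  have a4 := (norm_add₃_le (a := Complex.exp (σ * (Real.log (1 + a) : ℝ)))
    (b := Complex.exp (σ * (Real.log (1 + b) : ℝ)))
    (c := Complex.exp (σ * (Real.log (1 + (-a - b)) : ℝ))))
  rw [Complex.norm_ofNat]
  linarith

theorem approx_A (h : dl_Loc L a b p q) {σ c2 c3 c4 c5 c6 : ℂ} {C : ℝ}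
    (hb : dl_Bin σ c2 c3 c4 c5 c6 C) :
    ‖(((L 0 : ℝ) : ℂ) ^ σ + ((L 1 : ℝ) : ℂ) ^ σ + ((L 2 : ℝ) : ℂ) ^ σ) / 3 -
      (1 + c2 * p + c3 * q + c4 * (3 / 2 * p ^ 2) + c5 * (5 / 2 * p * q) +
        c6 * (9 / 4 * p ^ 3 + q ^ 2))‖ ≤ 3 * C / 125 * p ^ 2 := by
  have a1 := dl_pow7 hb h.ha
  have a2 := dl_pow7 hb h.hb
  have a3 := dl_pow7 hb h.hc
  rw [h.e0, h.e1, h.e2]
  generalize ((1 + a : ℝ) : ℂ) ^ σ = X at *
  generalize ((1 + b : ℝ) : ℂ) ^ σ = Y at *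
  generalize ((1 + (-a - b) : ℝ) : ℂ) ^ σ = Z at *
  have a4 := (norm_add₃_le.trans (add_le_add (add_le_add a1 a2) a3))
  have e : ∀ U V : ℂ, U = 3 * V → ‖V‖ = ‖U‖ / 3 := fun U V e => by rw [e]; simp
  rw [e _ _ ?_]
  · refine (div_le_div_of_nonneg_right a4 (by norm_num)).trans (le_of_eq ?_)
    rw [h.ep]
    ring
  · rw [h.ep, h.eq]
    push_cast
    ring

theorem gS_eq (h : dl_Loc L a b p q) (σ : ℂ) : gS (sP σ) L = 3 / 2 * (1 -
    ((((L 0 : ℝ) : ℂ) ^ σ + ((L 1 : ℝ) : ℂ) ^ σ + ((L 2 : ℝ) : ℂ) ^ σ) / 3 *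
      ((((L 0 : ℝ) : ℂ) ^ (1 - σ) + ((L 1 : ℝ) : ℂ) ^ (1 - σ) + ((L 2 : ℝ) : ℂ) ^ (1 - σ)) / 3)).re) := by
  have d : ∀ i, (((L i : ℝ) : ℂ) ^ σ * ((L i : ℝ) : ℂ) ^ (1 - σ)).re = L i := fun i => by
    rw [← Complex.cpow_add _ _ (Complex.ofReal_ne_zero.2 (h.pos i).ne')]
    simp
  have d0 := d 0
  have d1 := d 1
  have d2 := d 2
  have e : avg L = 1 := by
    simp only [avg, Fin.sum_univ_three, h.e0, h.e1, h.e2]
    push_cast
    ring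
  have e' : L 0 + L 1 + L 2 = 3 := by rw [h.e0, h.e1, h.e2]; ring
  unfold gS
  rw [alim_mS_sP, alim_sum_perm3 fun i k => (((L i : ℝ) : ℂ) ^ σ * ((L k : ℝ) : ℂ) ^ (1 - σ)).re, e]
  simp only [Complex.mul_re, Complex.add_re, Complex.add_im, Complex.div_ofNat_re,
    Complex.div_ofNat_im] at *
  linarith

end dl_Loc

theorem dl_prod {A B a b : ℂ} {ε δ : ℝ} (hA : ‖A - a‖ ≤ ε) (hB : ‖B - b‖ ≤ δ) (hA1 : ‖A‖ ≤ 5 / 4)
    (hB1 : ‖B‖ ≤ 5 / 4) (hδ : δ ≤ 1 / 20) : |(A * B).re - (a * b).re| ≤ 5 / 4 * δ + ε * (13 / 10) := by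
  have h1 : ‖b‖ ≤ 13 / 10 := by
    have := norm_sub_le B (B - b)
    rw [sub_sub_cancel] at this
    linarith
  have h2 : 0 ≤ ε := (norm_nonneg _).trans hA
  rw [← Complex.sub_re]
  refine (Complex.abs_re_le_norm _).trans ?_
  rw [show A * B - a * b = A * (B - b) + (A - a) * b by ring]
  refine (norm_add_le _ _).trans ?_
  rw [norm_mul, norm_mul]
  gcongr

theorem dl_bin14 : dl_Bin (1 / 4) (-3 / 32) (7 / 128) (-77 / 2048) (231 / 8192) (-1463 / 65536)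
    (184 / 10000) := by
  refine ⟨by norm_num [abs_le], by norm_num, by norm_num, by norm_num, by norm_num, by norm_num, ?_⟩
  norm_num

theorem dl_bin34 : dl_Bin (1 - 1 / 4) (-3 / 32) (5 / 128) (-45 / 2048) (117 / 8192) (-663 / 65536)
    (76 / 10000) := by
  refine ⟨by norm_num [abs_le], by norm_num, by norm_num, by norm_num, by norm_num, by norm_num, ?_⟩
  norm_num

theorem dl_binC : dl_Bin (1 / 2 + 2 * Complex.I) (-17 / 8) (17 / 16 - 17 / 12 * Complex.I)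
    (17 / 384 + 17 / 12 * Complex.I) (-153 / 256 - 187 / 192 * Complex.I)
    (7123 / 9216 + 17 / 32 * Complex.I) 1 := by
  refine ⟨by norm_num [abs_le], ?_, ?_, ?_, ?_, ?_, ?_⟩
  · linear_combination (-4) * Complex.I_sq
  · ring
  · linear_combination (17 / 6) * Complex.I_sq
  · linear_combination (-17 / 6) * Complex.I_sq
  · linear_combination (187 / 96) * Complex.I_sq
  · refine (Complex.norm_le_abs_re_add_abs_im _).trans ?_
    norm_num [abs_of_pos]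

theorem dl_binC' : dl_Bin (1 - (1 / 2 + 2 * Complex.I)) (-17 / 8) (17 / 16 + 17 / 12 * Complex.I)
    (17 / 384 - 17 / 12 * Complex.I) (-153 / 256 + 187 / 192 * Complex.I)
    (7123 / 9216 - 17 / 32 * Complex.I) 1 := by
  refine ⟨by norm_num [abs_le], ?_, ?_, ?_, ?_, ?_, ?_⟩
  · linear_combination (-4) * Complex.I_sq
  · ring
  · linear_combination (17 / 6) * Complex.I_sq
  · linear_combination (-17 / 6) * Complex.I_sq
  · linear_combination (187 / 96) * Complex.I_sq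
  · refine (Complex.norm_le_abs_re_add_abs_im _).trans ?_
    norm_num [abs_of_pos, abs_of_neg]

namespace dl_Loc

variable {L : Vec 3} {a b p q : ℝ}

theorem gQ (h : dl_Loc L a b p q) : |gJ 0 L - (9 / 32 * p - 9 / 64 * q + 495 / 4096 * p ^ 2 -
    1197 / 8192 * (p * q) + 2979 / 65536 * q ^ 2 + 25407 / 262144 * p ^ 3)| ≤ 1 / 750 * p ^ 2 := by
  have hp2 : p ^ 2 ≤ 1 / 2500 := by nlinarith [h.p0, h.hp]
  have k := dl_prod (h.approx_A dl_bin14) (h.approx_A dl_bin34) (h.norm_A dl_bin14.re)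
    (h.norm_A dl_bin34.re) (by linarith)
  have e : gJ 0 L = gS (sP (1 / 4)) L := rfl
  rw [e, h.gS_eq]
  generalize (((((L 0 : ℝ) : ℂ) ^ (1 / 4 : ℂ) + ((L 1 : ℝ) : ℂ) ^ (1 / 4 : ℂ) +
    ((L 2 : ℝ) : ℂ) ^ (1 / 4 : ℂ)) / 3 * ((((L 0 : ℝ) : ℂ) ^ (1 - 1 / 4 : ℂ) +
    ((L 1 : ℝ) : ℂ) ^ (1 - 1 / 4 : ℂ) + ((L 2 : ℝ) : ℂ) ^ (1 - 1 / 4 : ℂ)) / 3)).re) = R at *
  have e2 : ∀ (z : ℂ) (r : ℝ), z = r → z.re = r := fun z r e => by rw [e, Complex.ofReal_re]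
  rw [e2 _ ((1 + -3 / 32 * p + 7 / 128 * q + -77 / 2048 * (3 / 2 * p ^ 2) +
    231 / 8192 * (5 / 2 * p * q) + -1463 / 65536 * (9 / 4 * p ^ 3 + q ^ 2)) *
    (1 + -3 / 32 * p + 5 / 128 * q + -45 / 2048 * (3 / 2 * p ^ 2) +
    117 / 8192 * (5 / 2 * p * q) + -663 / 65536 * (9 / 4 * p ^ 3 + q ^ 2)))
    (by push_cast; ring)] at k
  obtain ⟨k1, k2⟩ := abs_le.1 k
  obtain ⟨m1, m1'⟩ := abs_le.1 (h.mono 2 1 1 rfl)
  obtain ⟨m2, m2'⟩ := abs_le.1 (h.mono 1 2 1 rfl)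
  obtain ⟨m3, m3'⟩ := abs_le.1 (h.mono 4 0 2 rfl)
  obtain ⟨m4, m4'⟩ := abs_le.1 (h.mono 0 3 1 rfl)
  obtain ⟨m5, m5'⟩ := abs_le.1 (h.mono 3 1 2 rfl)
  obtain ⟨m6, m6'⟩ := abs_le.1 (h.mono 2 2 2 rfl)
  obtain ⟨m7, m7'⟩ := abs_le.1 (h.mono 5 0 3 rfl)
  obtain ⟨m8, m8'⟩ := abs_le.1 (h.mono 1 3 2 rfl)
  obtain ⟨m9, m9'⟩ := abs_le.1 (h.mono 4 1 3 rfl)
  obtain ⟨m10, m10'⟩ := abs_le.1 (h.mono 0 4 2 rfl)
  obtain ⟨m11, m11'⟩ := abs_le.1 (h.mono 3 2 3 rfl)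
  obtain ⟨m12, m12'⟩ := abs_le.1 (h.mono 6 0 4 rfl)
  have := sq_nonneg p
  rw [abs_le]
  constructor <;> linarith

theorem gC (h : dl_Loc L a b p q) : |gJ 5 L - (51 / 8 * p - 51 / 16 * q - 1785 / 256 * p ^ 2 +
    5763 / 512 * (p * q) - 7191 / 1024 * q ^ 2 - 19635 / 4096 * p ^ 3)| ≤ 1 / 10 * p ^ 2 := by
  have hp2 : p ^ 2 ≤ 1 / 2500 := by nlinarith [h.p0, h.hp]
  have k := dl_prod (h.approx_A dl_binC) (h.approx_A dl_binC') (h.norm_A dl_binC.re)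
    (h.norm_A dl_binC'.re) (by linarith)
  have e : gJ 5 L = gS (sP (1 / 2 + 2 * Complex.I)) L := rfl
  rw [e, h.gS_eq]
  generalize (((((L 0 : ℝ) : ℂ) ^ (1 / 2 + 2 * Complex.I) + ((L 1 : ℝ) : ℂ) ^ (1 / 2 + 2 * Complex.I) +
    ((L 2 : ℝ) : ℂ) ^ (1 / 2 + 2 * Complex.I)) / 3 *
    ((((L 0 : ℝ) : ℂ) ^ (1 - (1 / 2 + 2 * Complex.I)) +
    ((L 1 : ℝ) : ℂ) ^ (1 - (1 / 2 + 2 * Complex.I)) +
    ((L 2 : ℝ) : ℂ) ^ (1 - (1 / 2 + 2 * Complex.I))) / 3)).re) = R at *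
  have e2 : ∀ (z w : ℂ) (r s : ℝ), z = r + s * Complex.I → w = r - s * Complex.I →
      (z * w).re = r ^ 2 + s ^ 2 := fun z w r s e e' => by
    rw [e, e']
    simp
    ring
  rw [e2 _ _ (1 + -17 / 8 * p + 17 / 16 * q + 17 / 384 * (3 / 2 * p ^ 2) +
    -153 / 256 * (5 / 2 * p * q) + 7123 / 9216 * (9 / 4 * p ^ 3 + q ^ 2))
    (-17 / 12 * q + 17 / 12 * (3 / 2 * p ^ 2) +
    -187 / 192 * (5 / 2 * p * q) + 17 / 32 * (9 / 4 * p ^ 3 + q ^ 2))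
    (by push_cast; ring) (by push_cast; ring)] at k
  obtain ⟨k1, k2⟩ := abs_le.1 k
  obtain ⟨m1, m1'⟩ := abs_le.1 (h.mono 2 1 1 rfl)
  obtain ⟨m2, m2'⟩ := abs_le.1 (h.mono 1 2 1 rfl)
  obtain ⟨m3, m3'⟩ := abs_le.1 (h.mono 4 0 2 rfl)
  obtain ⟨m4, m4'⟩ := abs_le.1 (h.mono 0 3 1 rfl)
  obtain ⟨m5, m5'⟩ := abs_le.1 (h.mono 3 1 2 rfl)
  obtain ⟨m6, m6'⟩ := abs_le.1 (h.mono 2 2 2 rfl)
  obtain ⟨m7, m7'⟩ := abs_le.1 (h.mono 5 0 3 rfl)
  obtain ⟨m8, m8'⟩ := abs_le.1 (h.mono 1 3 2 rfl)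
  obtain ⟨m9, m9'⟩ := abs_le.1 (h.mono 4 1 3 rfl)
  obtain ⟨m10, m10'⟩ := abs_le.1 (h.mono 0 4 2 rfl)
  obtain ⟨m11, m11'⟩ := abs_le.1 (h.mono 3 2 3 rfl)
  obtain ⟨m12, m12'⟩ := abs_le.1 (h.mono 6 0 4 rfl)
  have := sq_nonneg p
  rw [abs_le]
  constructor <;> linarith

end dl_Loc

theorem dl_cbrt {w : ℝ} (hw : |w| ≤ 1 / 5) :
    |(1 + w) ^ (1 / 3 : ℝ) - (1 + w / 3 - w ^ 2 / 9 + 5 / 81 * w ^ 3)| ≤ 20 / 243 * w ^ 4 := by
  have hT : ∀ y : ℝ, HasDerivAt (fun y : ℝ => ((1 + y / 3 - y ^ 2 / 9 + 5 / 81 * y ^ 3 : ℝ) : ℂ))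
      ((1 / 3 - 2 * y / 9 + 5 / 27 * y ^ 2 : ℝ) : ℂ) y := fun y => by
    refine HasDerivAt.ofReal_comp ?_
    refine (((((hasDerivAt_id y).div_const 3).const_add 1).sub
      ((hasDerivAt_pow 2 y).div_const 9)).add ((hasDerivAt_pow 3 y).const_mul (5 / 81))).congr_deriv ?_
    push_cast
    ring
  have := dl_ode (σ := ((1 / 3 : ℝ) : ℂ)) (by rw [Complex.ofReal_re]; norm_num [abs_le]) hT (by simp)
    (K := ((40 / 243 : ℝ) : ℂ)) (n := 3) (fun y => by push_cast; ring) hw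
  rw [← Complex.ofReal_cpow (by linarith [(abs_le.1 hw).1]), ← Complex.ofReal_sub,
    Complex.norm_real, Complex.norm_real, Real.norm_eq_abs, Real.norm_eq_abs,
    Even.pow_abs (by decide : Even (3 + 1))] at this
  refine this.trans (le_of_eq ?_)
  norm_num

theorem dl_Loc.gG {L : Vec 3} {a b p q : ℝ} (h : dl_Loc L a b p q) :
    |gG L - (1 / 2 * p - 1 / 3 * q + 1 / 4 * p ^ 2 - 1 / 3 * (p * q) + 1 / 9 * q ^ 2 +
      5 / 24 * p ^ 3)| ≤ 3 / 2500 * p ^ 2 := by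
  have e : avg L = 1 := by
    simp only [avg, Fin.sum_univ_three, h.e0, h.e1, h.e2]
    push_cast
    ring
  have e1 : L 0 * L 1 * L 2 = 1 + (-3 / 2 * p + q) := by
    rw [h.e0, h.e1, h.e2, h.ep, h.eq]; ring
  obtain ⟨q1, q2⟩ := abs_le.1 h.hq
  have p0 := h.p0
  have p1 := h.hp
  have hw : |-3 / 2 * p + q| ≤ 8 / 5 * p := abs_le.2 ⟨by linarith, by linarith⟩
  have hw4 : (-3 / 2 * p + q) ^ 4 ≤ (8 / 5 * p) ^ 4 := by
    rw [← Even.pow_abs (by decide : Even 4)]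
    gcongr
  obtain ⟨k1, k2⟩ := abs_le.1 (dl_cbrt (hw.trans (by linarith)))
  have e2 : Crest.Agent.R163.gG L = 1 - (1 + (-3 / 2 * p + q)) ^ (1 / 3 : ℝ) := by
    rw [← e1, ← mS_sG_eq h.pos.nn, ← e]
    rfl
  rw [e2]
  generalize (1 + (-3 / 2 * p + q)) ^ (1 / 3 : ℝ) = G at *
  generalize (-3 / 2 * p + q) ^ 4 = W at *
  obtain ⟨m1, m1'⟩ := abs_le.1 (h.mono 2 1 1 rfl)
  obtain ⟨m2, m2'⟩ := abs_le.1 (h.mono 1 2 1 rfl)
  obtain ⟨m3, m3'⟩ := abs_le.1 (h.mono 4 0 2 rfl)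
  obtain ⟨m4, m4'⟩ := abs_le.1 (h.mono 0 3 1 rfl)
  have := sq_nonneg p
  rw [abs_le]
  constructor <;> linarith

theorem dl_adm : Adm 3 (-(1 / 2)) := adm3_neg (by norm_num) le_rfl

theorem dl_one : ∀ c ∈ dChecks, ∀ L : Vec 3, avg L = 1 → pq L ≤ 1 / 50 →
    0 ≤ c.1.toLane.F3 (1 / 2) ((c.2 : ℝ) / 20) L := by
  intro c hc L h1 hp
  have h := dl_loc h1 hp
  have e1 : pq (Pm (-(1 / 2)) L) = pq L / 4 := by rw [pq_Pm _ (by rw [h1]; norm_num)]; ring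
  have e2 : p3 (Pm (-(1 / 2)) L) = -(p3 L / 8) := by rw [p3_Pm _ (by rw [h1]; norm_num)]; ring
  have h' := dl_loc (L := Pm (-(1 / 2)) L) (by rw [avg_Pm, h1]) (by rw [e1]; linarith [h.p0])
  rw [e1, e2] at h'
  obtain ⟨a1, -⟩ := abs_le.1 h.gQ
  obtain ⟨a2, -⟩ := abs_le.1 h.gC
  obtain ⟨-, a3⟩ := abs_le.1 h.gG
  obtain ⟨-, b1⟩ := abs_le.1 h'.gQ
  obtain ⟨-, b2⟩ := abs_le.1 h'.gC
  obtain ⟨b3, -⟩ := abs_le.1 h'.gG
  obtain ⟨q1, q2⟩ := abs_le.1 h.hq'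
  obtain ⟨m1, -⟩ := abs_le.1 (h.mono 1 1 0 rfl)
  obtain ⟨-, m2⟩ := abs_le.1 (h.mono 0 2 0 rfl)
  have p0 := h.p0
  have p2 := pow_nonneg p0 2
  have p3' := pow_nonneg p0 3
  have e4 : ∀ x : ℝ, x / (1 / 2) ^ 2 = 4 * x := fun x => by ring
  simp only [dChecks, List.mem_cons, List.not_mem_nil, or_false] at hc
  rcases hc with rfl | rfl | rfl | rfl | rfl <;>
  · simp only [Lane.F3, Lane.F, Lane.A, Lane.B, Lane.b3, LD.toLane, dN0, dN1, dN2, cc3,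
      Fin.sum_univ_six, Matrix.cons_val, h1, e4]
    push_cast
    linarith

theorem dl_gS_smul {s : Fin 3 → ℂ} (hs : SAdm s) {c : ℝ} (hc : 0 < c) {L : Vec 3} (hL : NN L) :
    gS s (c • L) = c * gS s L := by
  unfold gS
  rw [avg_smul, hom_mS hs c L hc hL, mul_sub]

theorem dl_F3_smul (l : Lane) (s : ℝ) {c : ℝ} (hc : 0 < c) {L : Vec 3} (hL : NN L) :
    l.F3 (1 / 2) s (c • L) = c * l.F3 (1 / 2) s L := by
  have hL' := Pm_nonneg dl_adm hL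
  simp only [Lane.F3, Lane.F, Lane.A, Lane.B, gJ, gG, Pm_smul, avg_smul, p3_smul hc.ne',
    Fin.sum_univ_six, dl_gS_smul (sAdm_sig _) hc hL, dl_gS_smul (sAdm_sig _) hc hL',
    dl_gS_smul sAdm_sG hc hL, dl_gS_smul sAdm_sG hc hL']
  ring

theorem dlocal : ∀ c ∈ dChecks, ∀ L : Vec 3, NN L → pq L ≤ 1 / 50 →
    0 ≤ c.1.toLane.F3 (1 / 2) ((c.2 : ℝ) / 20) L := by
  intro c hc L hL hp
  rcases (avg_nonneg hL).eq_or_lt with h0 | h0
  · have e : (2 : ℝ) • L = L := by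
      funext i
      have a1 := le_mul_avg hL i
      have a2 := hL i
      rw [← h0, mul_zero] at a1
      simp only [Pi.smul_apply, smul_eq_mul]
      linarith
    have := dl_F3_smul c.1.toLane ((c.2 : ℝ) / 20) (show (0 : ℝ) < 2 by norm_num) hL
    rw [e] at this
    linarith
  · have hi : 0 < (avg L)⁻¹ := inv_pos.2 h0
    have h1 := dl_one c hc ((avg L)⁻¹ • L) (by rw [avg_smul, inv_mul_cancel₀ h0.ne'])
      (by rwa [pq_smul hi.ne'])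
    rw [dl_F3_smul _ _ hi hL] at h1
    exact (mul_nonneg_iff_of_pos_left hi).1 h1

end Crest.Agent.R163
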