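import Crest.Agent.R163.E3.Cert50
import Crest.Agent.R163.E3.Cert45
import Crest.Agent.R163.DLocal
import Crest.Agent.R163.Anti

/-! # R163/CertAll: the two-dimensional checks hold -/

set_option autoImplicit false

namespace Crest.Agent.R163

theorem certE3 : CertE3 :=
  ⟨E3.Holds.v3 (by norm_num) le_rfl E3.holds50 dlocal,
    E3.Holds.v3 (ds := []) (by norm_num) (by norm_num) E3.holds45 (by simp)⟩

end Crest.Agent.R163
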