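import Crest.Agent.R163.WProd

/-!
# R163/Chan: contraction of `W` through the channel (one-variable calculus, atom by atom)

Fix a positive `L`, `L_x = Pm x L` (`0 < x ≤ 1`), `ā = avg L`, `p = pq L`; `pq L_x = x² p`;
`d/dx (L_x i) = L i - ā = (L_x i - ā)/x`.  By direct differentiation (use `mon_eq_exp`):
`x * d/dx Sf L_x = Sf L_x - ā + ā² <1/L_x>`, `x * d/dx hS L_x = hS L_x - ā * kS L_x`
(uses `∑ s = 1`, `∑ η = 0`), `x * d/dx mS L_x = mS L_x - ā * kM L_x`.  Hence with `φ₊ = Sf + hS`, `φ₋ = Sf - eN hS`: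
`d/dx (φ₊ L_x / x²) = psiB L_x / x³`, `d/dx (φ₋ L_x / x³) = (psiA L_x - φ₊ L_x) / x⁴`.
So `φ₊ L_x / x² - δ ā p³ x⁴ / 4` is monotone, in particular `φ₊ L_x ≤ x² φ₊ L`; then
`φ₋ L_x / x³ - φ₊ L / x - δ ā p³ x³ / 3` is monotone (`monotoneOn_of_deriv_nonneg` on `Icc lam 1`).
Sum over atoms (`Nice.summable_Sf`, `Pos.summable_hS`, `nice_chan`).
-/

set_option autoImplicit false

namespace Crest.Agent.R163

open Finset

variable {q : ℕ} [NeZero q]

omit [NeZero q] in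
theorem chan_hasDerivAt_Pm (L : Vec q) {x : ℝ} (hx : x ≠ 0) (i : Fin q) :
    HasDerivAt (fun y => Pm y L i) ((Pm x L i - avg L) / x) x := by
  have h := ((hasDerivAt_id x).mul_const (L i)).add
    (((hasDerivAt_id x).const_sub 1).mul_const (avg L))
  refine HasDerivAt.congr_deriv h ?_
  unfold Pm
  field_simp
  ring

omit [NeZero q] in
theorem chan_hasDerivAt_log (L : Vec q) {x : ℝ} (hx : x ≠ 0) (hp : PP (Pm x L)) (i : Fin q) :
    HasDerivAt (fun y => Real.log (Pm y L i)) ((1 - avg L * (Pm x L i)⁻¹) / x) x := by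
  refine ((chan_hasDerivAt_Pm L hx i).log (hp i).ne').congr_deriv ?_
  have := (hp i).ne'
  field_simp

omit [NeZero q] in
theorem chan_eventually_pos (L : Vec q) {x : ℝ} (hp : PP (Pm x L)) :
    ∀ᶠ y in nhds x, PP (Pm y L) := by
  refine Filter.eventually_all.2 fun i => ?_
  have : Continuous fun y => Pm y L i := by unfold Pm; fun_prop
  exact this.continuousAt.eventually (lt_mem_nhds (hp i))

omit [NeZero q] in
theorem chan_hasDerivAt_lin (η : Fin q → ℂ) (L : Vec q) {x : ℝ} (hx : x ≠ 0) (hp : PP (Pm x L))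
    (π : Equiv.Perm (Fin q)) :
    HasDerivAt (fun y => lin η (Pm y L ∘ π))
      ((∑ i, η i - (avg L : ℂ) * ∑ i, η i / ((Pm x L (π i) : ℝ) : ℂ)) / (x : ℂ)) x := by
  have h := HasDerivAt.fun_sum (u := Finset.univ) fun i _ =>
    ((chan_hasDerivAt_log L hx hp (π i)).ofReal_comp).const_mul (η i)
  refine HasDerivAt.congr_deriv h ?_
  rw [Finset.mul_sum, ← Finset.sum_sub_distrib, Finset.sum_div]
  refine Finset.sum_congr rfl fun i _ => ?_
  push_cast
  ring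

omit [NeZero q] in
theorem chan_hasDerivAt_mon (s : Fin q → ℂ) (hs : ∑ i, s i = 1) (L : Vec q) {x : ℝ} (hx : x ≠ 0)
    (hp : PP (Pm x L)) (π : Equiv.Perm (Fin q)) :
    HasDerivAt (fun y => mon s (Pm y L ∘ π))
      (mon s (Pm x L ∘ π) *
        ((1 - (avg L : ℂ) * ∑ i, s i / ((Pm x L (π i) : ℝ) : ℂ)) / (x : ℂ))) x := by
  have h := (chan_hasDerivAt_lin s L hx hp π).cexp
  rw [hs, ← mon_eq_exp s (L := Pm x L ∘ π) fun i => hp (π i)] at h
  refine h.congr_of_eventuallyEq ?_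
  filter_upwards [chan_eventually_pos L hp] with y hy
  exact mon_eq_exp s fun i => hy (π i)

theorem chan_hasDerivAt_re {f : ℝ → ℂ} {f' : ℂ} {x : ℝ} (h : HasDerivAt f f' x) :
    HasDerivAt (fun y => (f y).re) f'.re x :=
  Complex.reCLM.hasFDerivAt.comp_hasDerivAt x h

theorem chan_re_aux (a b : ℂ) (c x : ℝ) :
    ((a - (c : ℂ) * b) / (x : ℂ)).re = (a.re - c * b.re) / x := by
  rw [Complex.div_ofReal_re, Complex.sub_re, Complex.re_ofReal_mul]

theorem chan_le_of_deriv {f f' : ℝ → ℝ} {a b : ℝ} (hab : a ≤ b)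
    (h : ∀ x ∈ Set.Icc a b, HasDerivAt f (f' x) x) (h0 : ∀ x ∈ Set.Icc a b, 0 ≤ f' x) :
    f a ≤ f b :=
  monotoneOn_of_deriv_nonneg (convex_Icc a b)
    (fun x hx => (h x hx).continuousAt.continuousWithinAt)
    (fun x hx => (h x (interior_subset hx)).differentiableAt.differentiableWithinAt)
    (fun x hx => by rw [(h x (interior_subset hx)).deriv]; exact h0 x (interior_subset hx))
    (Set.left_mem_Icc.2 hab) (Set.right_mem_Icc.2 hab) hab

/-- derivatives along the channel semigroup, at any parameter `x` where `Pm x L` is positive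
(`L` arbitrary, `x` of any sign) -/
theorem hasDerivAt_mS (s : Fin q → ℂ) (hs : ∑ i, s i = 1) (L : Vec q) {x : ℝ} (hx : x ≠ 0)
    (hp : PP (Pm x L)) :
    HasDerivAt (fun y => mS s (Pm y L)) ((mS s (Pm x L) - avg L * kM s (Pm x L)) / x) x := by
  have h := (HasDerivAt.fun_sum (u := Finset.univ) fun π _ =>
    chan_hasDerivAt_re (chan_hasDerivAt_mon s hs L hx hp π)).div_const (q.factorial : ℝ)
  refine HasDerivAt.congr_deriv h (Eq.symm ?_)
  unfold mS kM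
  rw [← mul_div_assoc, ← sub_div, div_right_comm, Finset.mul_sum, ← Finset.sum_sub_distrib,
    Finset.sum_div]
  congr 1
  refine Finset.sum_congr rfl fun π _ => ?_
  rw [← chan_re_aux]
  congr 1
  ring

theorem hasDerivAt_hS {s η : Fin q → ℂ} (h : HAdm s η) (L : Vec q) {x : ℝ} (hx : x ≠ 0)
    (hp : PP (Pm x L)) :
    HasDerivAt (fun y => hS s η (Pm y L)) ((hS s η (Pm x L) - avg L * kS s η (Pm x L)) / x) x := by
  have h1 := (HasDerivAt.fun_sum (u := Finset.univ) fun π _ =>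
    chan_hasDerivAt_re ((chan_hasDerivAt_lin η L hx hp π).fun_mul
      (chan_hasDerivAt_mon s h.sum_one L hx hp π))).div_const (q.factorial : ℝ)
  refine HasDerivAt.congr_deriv h1 (Eq.symm ?_)
  unfold hS kS
  rw [← mul_div_assoc, ← sub_div, div_right_comm, Finset.mul_sum, ← Finset.sum_sub_distrib,
    Finset.sum_div]
  congr 1
  refine Finset.sum_congr rfl fun π _ => ?_
  rw [← chan_re_aux, h.sum_zero]
  congr 1
  have e : ∑ i, (η i + lin η (Pm x L ∘ π) * s i) / ((Pm x L (π i) : ℝ) : ℂ) =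
      ∑ i, η i / ((Pm x L (π i) : ℝ) : ℂ) +
        lin η (Pm x L ∘ π) * ∑ i, s i / ((Pm x L (π i) : ℝ) : ℂ) := by
    rw [Finset.mul_sum, ← Finset.sum_add_distrib]
    exact Finset.sum_congr rfl fun i _ => by ring
  rw [e]
  ring

theorem hasDerivAt_Sf (L : Vec q) {x : ℝ} (hx : x ≠ 0) (hp : PP (Pm x L)) :
    HasDerivAt (fun y => Sf (Pm y L)) ((psi0 (Pm x L) + 2 * Sf (Pm x L)) / x) x := by
  have hq : (q : ℝ) ≠ 0 := Nat.cast_ne_zero.2 (NeZero.ne q)
  have h1 := (HasDerivAt.fun_sum (u := Finset.univ) fun i _ =>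
    (chan_hasDerivAt_Pm L hx i).fun_mul (chan_hasDerivAt_log L hx hp i)).div_const (q : ℝ)
  have h2 := ((HasDerivAt.fun_sum (u := Finset.univ) fun i _ =>
    chan_hasDerivAt_log L hx hp i).div_const (q : ℝ)).const_mul (avg L)
  have e0 : (fun y => Sf (Pm y L)) = fun y => (∑ i, Pm y L i * Real.log (Pm y L i)) / (q : ℝ) -
      avg L * ((∑ i, Real.log (Pm y L i)) / (q : ℝ)) := by
    funext y
    rw [Sf, avg_Pm]
    rfl
  rw [e0]
  refine (h1.fun_sub h2).congr_deriv ?_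
  have hs : ∑ i, Pm x L i = q * avg L := by
    rw [← avg_Pm x L, avg]
    field_simp
  have e1 : ∑ i, ((Pm x L i - avg L) / x * Real.log (Pm x L i) +
      Pm x L i * ((1 - avg L * (Pm x L i)⁻¹) / x)) =
      ((∑ i, Pm x L i * Real.log (Pm x L i)) - avg L * ∑ i, Real.log (Pm x L i)) / x := by
    have e2 : ∀ i ∈ (Finset.univ : Finset (Fin q)), (Pm x L i - avg L) / x * Real.log (Pm x L i) +
        Pm x L i * ((1 - avg L * (Pm x L i)⁻¹) / x) =
        (Pm x L i * Real.log (Pm x L i) - avg L * Real.log (Pm x L i) + Pm x L i - avg L) / x :=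
      fun i _ => by
        have := (hp i).ne'
        field_simp
        ring
    rw [Finset.sum_congr rfl e2, ← Finset.sum_div, Finset.sum_sub_distrib, Finset.sum_add_distrib,
      Finset.sum_sub_distrib, hs, ← Finset.mul_sum, Finset.sum_const, Finset.card_univ,
      Fintype.card_fin, nsmul_eq_mul, add_sub_cancel_right]
  have e3 : ∑ i, (1 - avg L * (Pm x L i)⁻¹) / x = (q - avg L * ∑ i, (Pm x L i)⁻¹) / x := by
    rw [← Finset.sum_div, Finset.sum_sub_distrib, ← Finset.mul_sum, Finset.sum_const,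
      Finset.card_univ, Fintype.card_fin, nsmul_eq_mul, mul_one]
  rw [e1, e3, psi0, Sf, avg_Pm]
  generalize avg L = a
  unfold avg
  field_simp
  ring

namespace WData

variable (D : WData q)

theorem chan_deriv_plus {L : Vec q} (hL : PP L) (C : ℝ) {x : ℝ} (h0 : 0 < x) (h1 : x ≤ 1) :
    HasDerivAt (fun y => (Sf (Pm y L) + hS D.s D.η (Pm y L)) / y ^ 2 -
      C * (avg L * pq L ^ 3) / 4 * y ^ 4)
      ((psiB D.s D.η (Pm x L) - C * (avg (Pm x L) * pq (Pm x L) ^ 3)) / x ^ 3) x := by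
  have hp := Pm_pos_of_pos h0.le h1 hL
  have h := (((hasDerivAt_Sf L h0.ne' hp).fun_add (hasDerivAt_hS D.adm L h0.ne' hp)).fun_div
    (hasDerivAt_pow 2 x) (pow_ne_zero 2 h0.ne')).fun_sub
      ((hasDerivAt_pow 4 x).const_mul (C * (avg L * pq L ^ 3) / 4))
  refine h.congr_deriv ?_
  rw [psiB, pq_Pm x (avg_pos hL).ne', avg_Pm]
  have := h0.ne'
  norm_num
  field_simp
  ring

theorem chan_deriv_minus {L : Vec q} (hL : PP L) (a : ℝ) {x : ℝ} (h0 : 0 < x) (h1 : x ≤ 1) :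
    HasDerivAt (fun y => (Sf (Pm y L) - D.eN * hS D.s D.η (Pm y L)) / y ^ 3 - a / y -
      D.δ * (avg L * pq L ^ 3) / 3 * y ^ 3)
      ((psiA D.s D.η D.eN (Pm x L) - D.δ * (avg (Pm x L) * pq (Pm x L) ^ 3) +
        (x ^ 2 * a - (Sf (Pm x L) + hS D.s D.η (Pm x L)))) / x ^ 4) x := by
  have hp := Pm_pos_of_pos h0.le h1 hL
  have h := ((((hasDerivAt_Sf L h0.ne' hp).fun_sub
    ((hasDerivAt_hS D.adm L h0.ne' hp).const_mul D.eN)).fun_div
    (hasDerivAt_pow 3 x) (pow_ne_zero 3 h0.ne')).fun_sub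
      ((hasDerivAt_const x a).fun_div (hasDerivAt_id' x) h0.ne')).fun_sub
      ((hasDerivAt_pow 3 x).const_mul (D.δ * (avg L * pq L ^ 3) / 3))
  refine h.congr_deriv ?_
  rw [psiA, pq_Pm x (avg_pos hL).ne', avg_Pm]
  have := h0.ne'
  norm_num
  field_simp
  ring

theorem phi_plus_le {L : Vec q} (hL : PP L) {lam : ℝ} (h0 : 0 < lam) (h1 : lam ≤ 1) :
    Sf (Pm lam L) + hS D.s D.η (Pm lam L) ≤
      lam ^ 2 * (Sf L + hS D.s D.η L - D.δ * (1 - lam ^ 4) / 4 * (avg L * pq L ^ 3)) := by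
  have h := chan_le_of_deriv h1 (fun x hx => D.chan_deriv_plus hL D.δ (h0.trans_le hx.1) hx.2)
    fun x hx => div_nonneg
      (sub_nonneg.2 (D.hB _ (Pm_pos_of_pos (h0.trans_le hx.1).le hx.2 hL)))
      (pow_nonneg (h0.trans_le hx.1).le 3)
  simp only [Pm_one, one_pow, div_one, mul_one] at h
  rw [sub_le_iff_le_add, div_le_iff₀ (pow_pos h0 2)] at h
  refine h.trans (le_of_eq ?_)
  ring

theorem phi_minus_le {L : Vec q} (hL : PP L) {lam : ℝ} (h0 : 0 < lam) (h1 : lam ≤ 1) :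
    Sf (Pm lam L) - D.eN * hS D.s D.η (Pm lam L) ≤
      lam ^ 2 * (lam * (Sf L - D.eN * hS D.s D.η L) + (1 - lam) * (Sf L + hS D.s D.η L)
        - D.δ * (lam * (1 - lam ^ 3)) / 3 * (avg L * pq L ^ 3)) := by
  have hA : 0 ≤ avg L * pq L ^ 3 := mul_nonneg (avg_pos hL).le (pow_nonneg (pq_nonneg L) 3)
  have h := chan_le_of_deriv h1
    (fun x hx => D.chan_deriv_minus hL (Sf L + hS D.s D.η L) (h0.trans_le hx.1) hx.2)
    fun x hx => by
      have hx0 := h0.trans_le hx.1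
      refine div_nonneg (add_nonneg
        (sub_nonneg.2 (D.hA _ (Pm_pos_of_pos hx0.le hx.2 hL))) (sub_nonneg.2 ?_))
        (pow_nonneg hx0.le 4)
      refine (D.phi_plus_le hL hx0 hx.2).trans (mul_le_mul_of_nonneg_left ?_ (sq_nonneg x))
      have h2 : x ^ 4 ≤ 1 := pow_le_one₀ hx0.le hx.2
      have := mul_nonneg (div_nonneg (mul_nonneg D.δ_pos.le (sub_nonneg.2 h2))
        (by norm_num : (0 : ℝ) ≤ 4)) hA
      linarith
  simp only [Pm_one, one_pow, div_one, mul_one] at h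
  rw [sub_le_iff_le_add, sub_le_iff_le_add, div_le_iff₀ (pow_pos h0 3)] at h
  refine h.trans (le_of_eq ?_)
  field_simp
  ring

theorem phi_plus_ge {L : Vec q} (hL : PP L) {R C : ℝ} (hR : 1 ≤ R) (hC : 0 ≤ C) (hLR : Rat_le R L)
    (hup : ∀ L' : Vec q, PP L' → Rat_le R L' → psiB D.s D.η L' ≤ C * (avg L' * pq L' ^ 3))
    {lam : ℝ} (h0 : 0 < lam) (h1 : lam ≤ 1) :
    lam ^ 2 * (Sf L + hS D.s D.η L - C * (avg L * pq L ^ 3)) ≤
      Sf (Pm lam L) + hS D.s D.η (Pm lam L) := by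
  have hA : 0 ≤ C * (avg L * pq L ^ 3) :=
    mul_nonneg hC (mul_nonneg (avg_pos hL).le (pow_nonneg (pq_nonneg L) 3))
  have h := chan_le_of_deriv h1
    (fun x hx => (D.chan_deriv_plus hL C (h0.trans_le hx.1) hx.2).fun_neg)
    fun x hx => by
      have hx0 := h0.trans_le hx.1
      refine neg_nonneg.2 (div_nonpos_of_nonpos_of_nonneg (sub_nonpos.2 ?_) (pow_nonneg hx0.le 3))
      exact hup _ (Pm_pos_of_pos hx0.le hx.2 hL) (Pm_rat_of_rat hx0.le hx.2 hR hLR hL.nn)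
  simp only [Pm_one, one_pow, div_one, mul_one] at h
  rw [neg_le_neg_iff, le_sub_iff_add_le, le_div_iff₀ (pow_pos h0 2)] at h
  refine le_trans ?_ h
  rw [mul_comm]
  refine mul_le_mul_of_nonneg_right ?_ (sq_nonneg lam)
  have := mul_nonneg hA (pow_nonneg h0.le 4)
  linarith

theorem chan_hasSum {μ : Exp q} (hμ : μ.Nice) :
    HasSum (fun ω => Sf (μ.L ω)) (μ.E Sf) ∧
      HasSum (fun ω => hS D.s D.η (μ.L ω)) (μ.E (hS D.s D.η)) ∧
      HasSum (fun ω => avg (μ.L ω) * pq (μ.L ω) ^ 3) (μ.mom 3) :=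
  ⟨hμ.summable_Sf.hasSum, (hμ.pos.summable_hS D.adm).hasSum,
    (μ.summable_of_lin (lin_mom 3)).hasSum⟩

theorem chan_hasSum' {lam : ℝ} (hl : Adm q lam) (h0 : 0 < lam) (h1 : lam < 1) {μ : Exp q}
    (hμ : μ.Nice) :
    HasSum (fun ω : μ.Ω => Sf (Pm lam (μ.L ω))) ((Exp.chan lam hl μ).E Sf) ∧
      HasSum (fun ω : μ.Ω => hS D.s D.η (Pm lam (μ.L ω))) ((Exp.chan lam hl μ).E (hS D.s D.η)) :=
  ⟨(D.chan_hasSum (Exp.nice_chan hμ.sym hμ.pos.nz hl h0.le h1)).1,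
    (D.chan_hasSum (Exp.nice_chan hμ.sym hμ.pos.nz hl h0.le h1)).2.1⟩

theorem exists_W_chan_le {lam : ℝ} (hl : Adm q lam) (h0 : 0 < lam) (h1 : lam < 1) :
    ∃ c : ℝ, 0 < c ∧ ∀ μ : Exp q, μ.Nice →
      D.W (Exp.chan lam hl μ) ≤ lam ^ 2 * (D.W μ - c * μ.mom 3) := by
  have h4 : lam ^ 4 < 1 := pow_lt_one₀ h0.le h1 (by norm_num)
  have h3 : lam ^ 3 < 1 := pow_lt_one₀ h0.le h1 (by norm_num)
  have hδ := D.δ_pos
  refine ⟨min (D.δ * (1 - lam ^ 4) / 4) (D.δ * (lam * (1 - lam ^ 3)) / 3),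
    lt_min (div_pos (mul_pos hδ (sub_pos.2 h4)) (by norm_num))
      (div_pos (mul_pos hδ (mul_pos h0 (sub_pos.2 h3))) (by norm_num)), fun μ hμ => ?_⟩
  obtain ⟨a1, a2, a3⟩ := D.chan_hasSum hμ
  obtain ⟨b1, b2⟩ := D.chan_hasSum' hl h0 h1 hμ
  have c1 := hasSum_le (fun ω => D.phi_plus_le (hμ.pos ω) h0 h1.le) (b1.add b2)
    (((a1.add a2).sub (a3.mul_left (D.δ * (1 - lam ^ 4) / 4))).mul_left (lam ^ 2))
  have c2 := hasSum_le (fun ω => D.phi_minus_le (hμ.pos ω) h0 h1.le) (b1.sub (b2.mul_left D.eN))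
    (((((a1.sub (a2.mul_left D.eN)).mul_left lam).add ((a1.add a2).mul_left (1 - lam))).sub
      (a3.mul_left (D.δ * (lam * (1 - lam ^ 3)) / 3))).mul_left (lam ^ 2))
  have hm := μ.mom_nonneg 3
  have w1 : μ.E Sf + μ.E (hS D.s D.η) ≤ D.W μ := add_le_add le_rfl (le_max_left _ _)
  have w2 : μ.E Sf - D.eN * μ.E (hS D.s D.η) ≤ D.W μ := by
    have := le_max_right (μ.E (hS D.s D.η)) (-D.eN * μ.E (hS D.s D.η))
    unfold W
    linarith
  have m1 := mul_le_mul_of_nonneg_right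
    (min_le_left (D.δ * (1 - lam ^ 4) / 4) (D.δ * (lam * (1 - lam ^ 3)) / 3)) hm
  have m2 := mul_le_mul_of_nonneg_right
    (min_le_right (D.δ * (1 - lam ^ 4) / 4) (D.δ * (lam * (1 - lam ^ 3)) / 3)) hm
  rw [W, ← max_add_add_left]
  refine max_le (c1.trans (mul_le_mul_of_nonneg_left (by linarith) (sq_nonneg lam))) ?_
  rw [neg_mul, ← sub_eq_add_neg]
  refine c2.trans (mul_le_mul_of_nonneg_left ?_ (sq_nonneg lam))
  have := mul_le_mul_of_nonneg_left w2 h0.le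
  have := mul_le_mul_of_nonneg_left w1 (sub_nonneg.2 h1.le)
  linarith

theorem F_chan_ge {lam : ℝ} (hl : Adm q lam) (h0 : 0 < lam) (h1 : lam < 1) {R C : ℝ} (hR : 1 ≤ R)
    (hC : 0 ≤ C)
    (hup : ∀ L' : Vec q, PP L' → Rat_le R L' → psiB D.s D.η L' ≤ C * (avg L' * pq L' ^ 3))
    {μ : Exp q} (hμ : μ.Nice) (hμR : μ.RB R) :
    lam ^ 2 * (D.F μ - C * μ.mom 3) ≤ D.F (Exp.chan lam hl μ) := by
  obtain ⟨a1, a2, a3⟩ := D.chan_hasSum hμ
  obtain ⟨b1, b2⟩ := D.chan_hasSum' hl h0 h1 hμ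
  exact hasSum_le (fun ω => D.phi_plus_ge (hμ.pos ω) hR hC (hμR ω) hup h0 h1.le)
    (((a1.add a2).sub (a3.mul_left C)).mul_left (lam ^ 2)) (b1.add b2)

end WData

end Crest.Agent.R163
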