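import Mathlib
import Crest.Prelude.Def_Broadcast
import Crest.Prelude.Def_TreeBroadcast

/-!
# Row 163: definitions (experiments = families of unnormalised likelihood vectors)

An *experiment* on `q` hypotheses is a family of nonnegative vectors `L ω : Fin q → ℝ`
(`L ω i = P(ω | root spin i)`) with `∑ ω, L ω i = 1`.  `μ.E ψ = ∑' ω, ψ (L ω)` is used for
`ψ` homogeneous of degree one.  `prod` = two conditionally independent observations,
`chan` = observe through the symmetric channel, `step` = random number of i.i.d. children.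
-/

set_option autoImplicit false

namespace Crest.Agent.R163

open Finset

abbrev Vec (q : ℕ) := Fin q → ℝ

/-- average of the coordinates -/
noncomputable def avg {q : ℕ} (L : Vec q) : ℝ := (∑ i, L i) / q

/-- nonnegative / positive vectors -/
def NN {q : ℕ} (L : Vec q) : Prop := ∀ i, 0 ≤ L i
def PP {q : ℕ} (L : Vec q) : Prop := ∀ i, 0 < L i

/-- likelihood ratios bounded by `R` -/
def Rat_le {q : ℕ} (R : ℝ) (L : Vec q) : Prop := ∀ i j, L i ≤ R * L j

/-- the symmetric channel acting on likelihood vectors -/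
noncomputable def Pm {q : ℕ} (lam : ℝ) (L : Vec q) : Vec q :=
  fun i => lam * L i + (1 - lam) * avg L

/-- admissible channel parameter -/
def Adm (q : ℕ) (lam : ℝ) : Prop := lam ≤ 1 ∧ 0 ≤ 1 + ((q : ℝ) - 1) * lam

/-- total variation distance of the posterior from uniform, weighted by the probability of `ω` -/
noncomputable def tv {q : ℕ} (L : Vec q) : ℝ := (1 / (2 * q)) * ∑ i, |L i - avg L|

/-- `p = <u^2>` with `u = L / avg L - 1` (homogeneous of degree zero) -/
noncomputable def pq {q : ℕ} (L : Vec q) : ℝ := avg fun i => (L i / avg L - 1) ^ 2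

/-- `p3 = <u^3>` -/
noncomputable def p3 {q : ℕ} (L : Vec q) : ℝ := avg fun i => (L i / avg L - 1) ^ 3

structure Exp (q : ℕ) where
  Ω : Type
  L : Ω → Vec q
  nonneg : ∀ ω, NN (L ω)
  hasSum : ∀ i, HasSum (fun ω => L ω i) 1

namespace Exp

variable {q : ℕ}

noncomputable def E (μ : Exp q) (ψ : Vec q → ℝ) : ℝ := ∑' ω, ψ (μ.L ω)

/-- no information -/
def unit : Exp q where
  Ω := Unit
  L := fun _ _ => 1
  nonneg := fun _ _ => zero_le_one
  hasSum := fun _ => by simp

/-- the spin itself is observed -/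
def perfect : Exp q where
  Ω := Fin q
  L := fun ω i => if ω = i then 1 else 0
  nonneg := fun ω i => by dsimp only; split_ifs <;> norm_num
  hasSum := fun i => by
    simpa using hasSum_fintype (fun ω : Fin q => (if ω = i then (1 : ℝ) else 0))

/-- two conditionally independent observations -/
def prod (μ ν : Exp q) : Exp q where
  Ω := μ.Ω × ν.Ω
  L := fun ω i => μ.L ω.1 i * ν.L ω.2 i
  nonneg := fun ω i => mul_nonneg (μ.nonneg _ i) (ν.nonneg _ i)
  hasSum := fun i => by
    have h := (μ.hasSum i).mul (ν.hasSum i)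
      ((μ.hasSum i).summable.mul_of_nonneg (ν.hasSum i).summable
        (fun ω => μ.nonneg ω i) (fun ω => ν.nonneg ω i))
    simpa using h

def prodL : List (Exp q) → Exp q
  | [] => unit
  | μ :: l => prod μ (prodL l)

def pow (μ : Exp q) : ℕ → Exp q
  | 0 => unit
  | k + 1 => prod μ (pow μ k)

theorem hasSum_avg [NeZero q] (μ : Exp q) : HasSum (fun ω => avg (μ.L ω)) 1 := by
  have h := (hasSum_sum (s := Finset.univ) (fun i _ => μ.hasSum i)).div_const (q : ℝ)
  have hq : (q : ℝ) ≠ 0 := Nat.cast_ne_zero.2 (NeZero.ne q)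
  simpa [avg, hq] using h

end Exp

theorem Pm_nonneg {q : ℕ} [NeZero q] {lam : ℝ} (h : Adm q lam) {L : Vec q} (hL : NN L) :
    NN (Pm lam L) := by
  intro i
  have hq : (0 : ℝ) < q := Nat.cast_pos.2 (Nat.pos_of_ne_zero (NeZero.ne q))
  have h1 : L i ≤ ∑ j, L j := Finset.single_le_sum (fun j _ => hL j) (Finset.mem_univ i)
  have h2 : lam * L i + (1 - lam) * avg L
      = ((1 + ((q : ℝ) - 1) * lam) * L i + (1 - lam) * (∑ j, L j - L i)) / q := by
    unfold avg; field_simp; ring
  unfold Pm; rw [h2]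
  exact div_nonneg (add_nonneg (mul_nonneg h.2 (hL i))
    (mul_nonneg (sub_nonneg.2 h.1) (sub_nonneg.2 h1))) hq.le

namespace Exp

variable {q : ℕ}

/-- the observation seen from the parent, through one edge -/
noncomputable def chan [NeZero q] (lam : ℝ) (h : Adm q lam) (μ : Exp q) : Exp q where
  Ω := μ.Ω
  L := fun ω => Pm lam (μ.L ω)
  nonneg := fun ω => Pm_nonneg h (μ.nonneg ω)
  hasSum := fun i => by
    have := ((μ.hasSum i).mul_left lam).add (μ.hasSum_avg.mul_left (1 - lam))
    simpa [Pm] using this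

/-- invariance under permutations of the spins -/
def Sym (μ : Exp q) : Prop :=
  ∀ σ : Equiv.Perm (Fin q), ∃ e : μ.Ω ≃ μ.Ω, ∀ ω, μ.L (e ω) = μ.L ω ∘ σ

/-- all atoms are positive -/
def Pos (μ : Exp q) : Prop := ∀ ω, PP (μ.L ω)

/-- no atom is the zero vector -/
def NZ (μ : Exp q) : Prop := ∀ ω, 0 < avg (μ.L ω)

/-- all atoms have likelihood ratios at most `R` -/
def RB (μ : Exp q) (R : ℝ) : Prop := ∀ ω, Rat_le R (μ.L ω)

end Exp

/-- offspring law: child number `c k` with probability `π k`, mean `d` -/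
structure Off where
  K : Type
  π : K → ℝ
  c : K → ℕ
  d : ℝ
  pos : ∀ k, 0 < π k
  sum_one : HasSum π 1
  mean : HasSum (fun k => π k * (c k : ℝ)) d

namespace Off

/-- exactly `b` children -/
def reg (b : ℕ) : Off where
  K := Unit
  π := fun _ => 1
  c := fun _ => b
  d := b
  pos := fun _ => one_pos
  sum_one := by simp
  mean := by simp

theorem hasSum_exp (x : ℝ) : HasSum (fun k : ℕ => x ^ k / (k.factorial : ℝ)) (Real.exp x) := by
  rw [Real.exp_eq_exp_ℝ]; exact NormedSpace.expSeries_div_hasSum_exp x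

/-- Poisson(`d`) children -/
noncomputable def pois (d : ℝ) (hd : 0 < d) : Off where
  K := ℕ
  π := fun k => Real.exp (-d) * d ^ k / (k.factorial : ℝ)
  c := fun k => k
  d := d
  pos := fun k => by positivity
  sum_one := by
    have := (hasSum_exp d).mul_left (Real.exp (-d))
    rw [← Real.exp_add, neg_add_cancel, Real.exp_zero] at this
    simpa [mul_div_assoc] using this
  mean := by
    rw [← hasSum_nat_add_iff' 1]
    have := (hasSum_exp d).mul_left (Real.exp (-d) * d)
    rw [mul_right_comm, ← Real.exp_add, neg_add_cancel, Real.exp_zero, one_mul] at this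
    simp only [Finset.sum_range_one, Nat.cast_zero, mul_zero, sub_zero]
    have e : (fun k : ℕ => Real.exp (-d) * d ^ (k + 1) / ((k + 1).factorial : ℝ) * ((k + 1 : ℕ) : ℝ))
        = fun k : ℕ => Real.exp (-d) * d * (d ^ k / (k.factorial : ℝ)) := by
      funext k
      rw [Nat.factorial_succ]
      have : (k.factorial : ℝ) ≠ 0 := by positivity
      push_cast
      field_simp
      ring
    rw [e]; exact this

/-- generating function -/
noncomputable def gen (O : Off) (x : ℝ) : ℝ := ∑' k, O.π k * x ^ O.c k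

end Off

namespace Exp

variable {q : ℕ}

/-- a random number of i.i.d. copies of `μ` (the number is observed) -/
def step (O : Off) (μ : Exp q) : Exp q where
  Ω := Σ k : O.K, (μ.pow (O.c k)).Ω
  L := fun ω i => O.π ω.1 * (μ.pow (O.c ω.1)).L ω.2 i
  nonneg := fun ω i => mul_nonneg (O.pos _).le ((μ.pow _).nonneg _ i)
  hasSum := fun i => by
    have h1 : ∀ k, HasSum (fun ω : (μ.pow (O.c k)).Ω => O.π k * (μ.pow (O.c k)).L ω i) (O.π k) :=
      fun k => by simpa using ((μ.pow (O.c k)).hasSum i).mul_left (O.π k)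
    have h2 : Summable (fun ω : (Σ k : O.K, (μ.pow (O.c k)).Ω) =>
        O.π ω.1 * (μ.pow (O.c ω.1)).L ω.2 i) := by
      refine (summable_sigma_of_nonneg
        (fun ω => mul_nonneg (O.pos _).le ((μ.pow _).nonneg _ i))).2 ⟨fun k => (h1 k).summable, ?_⟩
      simp only [fun k => (h1 k).tsum_eq]
      exact O.sum_one.summable
    have h3 := h2.hasSum.sigma h1
    exact (O.sum_one.unique h3).symm ▸ h2.hasSum

/-- the depth-`n` observation of the broadcast process on the Galton–Watson tree -/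
noncomputable def bp [NeZero q] (O : Off) (lam : ℝ) (h : Adm q lam) : ℕ → Exp q
  | 0 => perfect
  | n + 1 => step O (chan lam h (bp O lam h n))

end Exp

/-- nonnegative, superadditive, homogeneous (= concave homogeneous) functionals on the orthant -/
structure Good {q : ℕ} (ψ : Vec q → ℝ) : Prop where
  nonneg : ∀ L, NN L → 0 ≤ ψ L
  add : ∀ L L', NN L → NN L' → ψ L + ψ L' ≤ ψ (L + L')
  smul : ∀ (c : ℝ) L, 0 ≤ c → NN L → ψ (c • L) = c * ψ L

/-- `μ` is less informative than `ν` -/
def Exp.Le {q : ℕ} (μ ν : Exp q) : Prop := ∀ ψ, Good ψ → ν.E ψ ≤ μ.E ψ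

/-- linear growth on the orthant -/
def Lin {q : ℕ} (ψ : Vec q → ℝ) : Prop := ∃ C : ℝ, ∀ L, NN L → |ψ L| ≤ C * avg L

/-- homogeneity on the orthant -/
def Hom {q : ℕ} (ψ : Vec q → ℝ) : Prop := ∀ (c : ℝ) L, 0 < c → NN L → ψ (c • L) = c * ψ L

/-! ## Multiplicative moment functionals -/

section Mom
variable {q : ℕ}

/-- `∏ L_i ^ s_i` -/
noncomputable def mon (s : Fin q → ℂ) (L : Vec q) : ℂ := ∏ i, ((L i : ℝ) : ℂ) ^ s i

/-- `∑ η_i log L_i` -/
noncomputable def lin (η : Fin q → ℂ) (L : Vec q) : ℂ := ∑ i, η i * ((Real.log (L i) : ℝ) : ℂ)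

/-- symmetrised monomial -/
noncomputable def mS (s : Fin q → ℂ) (L : Vec q) : ℝ :=
  (∑ π : Equiv.Perm (Fin q), (mon s (L ∘ π)).re) / (q.factorial : ℝ)

/-- derivative of `mS` in the exponent, in direction `η` -/
noncomputable def hS (s η : Fin q → ℂ) (L : Vec q) : ℝ :=
  (∑ π : Equiv.Perm (Fin q), (lin η (L ∘ π) * mon s (L ∘ π)).re) / (q.factorial : ℝ)

/-- `∑ i, ∂_i hS` (for positive `L`) -/
noncomputable def kS (s η : Fin q → ℂ) (L : Vec q) : ℝ :=
  (∑ π : Equiv.Perm (Fin q),
    ((∑ i, (η i + lin η (L ∘ π) * s i) / ((L (π i) : ℝ) : ℂ)) * mon s (L ∘ π)).re) /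
      (q.factorial : ℝ)

/-- `∑ i, ∂_i mS` (for positive `L`) -/
noncomputable def kM (s : Fin q → ℂ) (L : Vec q) : ℝ :=
  (∑ π : Equiv.Perm (Fin q), ((∑ i, s i / ((L (π i) : ℝ) : ℂ)) * mon s (L ∘ π)).re) /
      (q.factorial : ℝ)

/-- symmetrised Kullback–Leibler integrand `<L log L> - <L><log L>` -/
noncomputable def Sf (L : Vec q) : ℝ :=
  avg (fun i => L i * Real.log (L i)) - avg L * avg (fun i => Real.log (L i))

/-- admissible exponent: sum one, real parts positive (or exponent zero), conjugation symmetric -/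
structure SAdm (s : Fin q → ℂ) : Prop where
  sum_one : ∑ i, s i = 1
  re_pos : ∀ i, s i = 0 ∨ 0 < (s i).re
  conj : ∃ τ : Equiv.Perm (Fin q), ∀ i, s (τ i) = (starRingEnd ℂ) (s i)

/-- admissible pair (exponent, direction) -/
structure HAdm (s η : Fin q → ℂ) : Prop where
  sum_one : ∑ i, s i = 1
  re_pos : ∀ i, 0 < (s i).re
  sum_zero : ∑ i, η i = 0
  conj : ∃ τ : Equiv.Perm (Fin q), ∀ i, s (τ i) = (starRingEnd ℂ) (s i) ∧
    η (τ i) = (starRingEnd ℂ) (η i)

/-- `ā² <1/L> - ā - S` -/
noncomputable def psi0 (L : Vec q) : ℝ := avg L ^ 2 * avg (fun i => (L i)⁻¹) - avg L - Sf L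

noncomputable def psiB (s η : Fin q → ℂ) (L : Vec q) : ℝ :=
  psi0 L - hS s η L - avg L * kS s η L

noncomputable def psiA (s η : Fin q → ℂ) (eN : ℝ) (L : Vec q) : ℝ :=
  psi0 L + hS s η L + eN * (2 * hS s η L + avg L * kS s η L)

/-- the data of the potential `W = S + max (H, -eN H)` with its three pointwise inequalities -/
structure WData (q : ℕ) where
  s : Fin q → ℂ
  η : Fin q → ℂ
  eN : ℝ
  δ : ℝ
  adm : HAdm s η
  eN_nonneg : 0 ≤ eN
  eN_le : eN ≤ 1
  δ_pos : 0 < δ
  hB : ∀ L, PP L → δ * (avg L * pq L ^ 3) ≤ psiB s η L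
  hA : ∀ L, PP L → δ * (avg L * pq L ^ 3) ≤ psiA s η eN L
  hC : ∀ L, PP L → 0 ≤ mS s L + eN * avg L

/-- finiteness of the Kullback–Leibler sums -/
def Exp.FinS (μ : Exp q) : Prop :=
  ∀ i j, Summable fun ω => μ.L ω i * (Real.log (μ.L ω i) - Real.log (μ.L ω j))

/-- the class of experiments on which `W` is used -/
structure Exp.Nice (μ : Exp q) : Prop where
  sym : μ.Sym
  pos : μ.Pos
  finS : μ.FinS

noncomputable def WData.W (D : WData q) (μ : Exp q) : ℝ :=
  μ.E Sf + max (μ.E (hS D.s D.η)) (-D.eN * μ.E (hS D.s D.η))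

/-- `F₊ = S + H` -/
noncomputable def WData.F (D : WData q) (μ : Exp q) : ℝ := μ.E Sf + μ.E (hS D.s D.η)

/-- moments `E[ā p^k]` -/
noncomputable def Exp.mom (μ : Exp q) (k : ℕ) : ℝ := μ.E fun L => avg L * pq L ^ k

end Mom

/-! ## The concrete exponents -/

noncomputable def s4 : Fin 4 → ℂ :=
  ![1 / 4 + 13 / 16 * Complex.I, 1 / 4 - 13 / 16 * Complex.I, 7 / 16, 1 / 16]
noncomputable def eta4 : Fin 4 → ℂ :=
  ![-24 / 89 + 192 / 1157 * Complex.I, -24 / 89 - 192 / 1157 * Complex.I, 88 / 89, -40 / 89]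
noncomputable def s3 : Fin 3 → ℂ := ![1 / 3, 1 / 3 + 1 / 2 * Complex.I, 1 / 3 - 1 / 2 * Complex.I]
noncomputable def eta3 : Fin 3 → ℂ := ![8 / 9, -4 / 9, -4 / 9]

/-! ## Finite trees -/

open Crest.ProbabilityR.TreeBroadcast in
/-- the observation of the subtree of `v` down to `m` levels below `v`, leaf `w` seen via `leaf w` -/
noncomputable def treeExp {q : ℕ} [NeZero q] {V : Type*} [DecidableEq V] (T : LocFinTree V)
    (lam : ℝ) (h : Adm q lam) (leaf : V → Exp q) : ℕ → V → Exp q
  | 0, v => leaf v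
  | m + 1, v => Exp.prodL ((T.children v).toList.map fun c =>
      Exp.chan lam h (treeExp T lam h leaf m c))

end Crest.Agent.R163
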