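import Crest.Agent.R163.Order

/-!
# R163/Extinct: Poisson mean `d ≤ 1` (the tree dies out)

Recipe.  `mn L = inf_i L i` is `Good`, `mn 1 = 1`, `mn (L * L') ≥ mn L * mn L'`,
`mn (Pm lam L) ≥ mn L` for `0 ≤ lam ≤ 1`.  So `m n = (bp n).E mn ∈ [0,1]` satisfies
`m (n+1) ≥ ∑ π k (m n)^k = exp (-d (1 - m n)) ≥ exp (-(1 - m n))`.  With `x = 1 - m ∈ [0,1]`:
`x (n+1) ≤ 1 - exp (-x n) ≤ x n - (x n)^2 / 3`, hence `x n → 0`; finally
`tv L ≤ avg L - mn L` (`|L i - ā| ≤ (L i - mn) + (ā - mn)`), so `E tv ≤ x n`.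
-/

set_option autoImplicit false

namespace Crest.Agent.R163

variable {q : ℕ} [NeZero q]

/-- the smallest coordinate -/
noncomputable def extMn (L : Vec q) : ℝ := Finset.univ.inf' Finset.univ_nonempty L

theorem extMn_le (L : Vec q) (i : Fin q) : extMn L ≤ L i := Finset.inf'_le _ (Finset.mem_univ i)

theorem le_extMn {L : Vec q} {c : ℝ} (h : ∀ i, c ≤ L i) : c ≤ extMn L :=
  Finset.le_inf' _ _ fun i _ => h i

theorem extMn_le_avg (L : Vec q) : extMn L ≤ avg L := by
  simpa only [avg_const] using avg_mono (L := fun _ => extMn L) (extMn_le L)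

theorem good_extMn : Good (extMn : Vec q → ℝ) where
  nonneg L h := le_extMn h
  add L L' _ _ := le_extMn fun i => add_le_add (extMn_le L i) (extMn_le L' i)
  smul c L hc _ := by
    refine le_antisymm ?_ (le_extMn fun i => mul_le_mul_of_nonneg_left (extMn_le L i) hc)
    obtain ⟨i, -, hi⟩ := Finset.exists_mem_eq_inf' Finset.univ_nonempty L
    rw [show extMn L = L i from hi]
    exact extMn_le (c • L) i

theorem extMn_one : extMn (1 : Vec q) = 1 := le_antisymm (extMn_le _ 0) (le_extMn fun _ => le_rfl)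

theorem extMn_prod (μ ν : Exp q) : μ.E extMn * ν.E extMn ≤ (μ.prod ν).E extMn := by
  have hl := (good_extMn (q := q)).lin
  rw [Exp.E_prod μ ν hl, mul_comm, ← Exp.E_const_mul]
  refine μ.E_mono (hl.const_mul _) (ν.lin_E_mul hl) fun L hL => ?_
  rw [mul_comm, ← Exp.E_const_mul]
  refine ν.E_mono (hl.const_mul _) (by simpa only [mul_comm L] using hl.comp_mul hL)
    fun L' hL' => le_extMn fun i => ?_
  exact mul_le_mul (extMn_le L i) (extMn_le L' i) (le_extMn hL') (hL i)

theorem extMn_pow (μ : Exp q) (k : ℕ) : μ.E extMn ^ k ≤ (μ.pow k).E extMn := by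
  induction k with
  | zero => rw [pow_zero, Exp.pow, Exp.E_unit, extMn_one]
  | succ k ih =>
    rw [pow_succ']
    exact (mul_le_mul_of_nonneg_left ih (μ.E_nonneg good_extMn.nonneg)).trans (extMn_prod _ _)

theorem extMn_chan {lam : ℝ} (h : Adm q lam) (h0 : 0 ≤ lam) (μ : Exp q) :
    μ.E extMn ≤ (μ.chan lam h).E extMn := by
  have hl := (good_extMn (q := q)).lin
  rw [Exp.E_chan]
  refine μ.E_mono hl (hl.comp_Pm h) fun L _ => le_extMn fun i => ?_
  have h1 := mul_le_mul_of_nonneg_left (extMn_le L i) h0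
  have h2 := mul_le_mul_of_nonneg_left (extMn_le_avg L) (sub_nonneg.2 h.1)
  unfold Pm
  linarith

theorem extMn_step {d : ℝ} (hd : 0 < d) (μ : Exp q) :
    Real.exp (-(d * (1 - μ.E extMn))) ≤ (Exp.step (Off.pois d hd) μ).E extMn := by
  have h1 : HasSum (fun k : ℕ => (Off.pois d hd).π k * (μ.pow k).E extMn) _ :=
    Exp.hasSum_E_step (Off.pois d hd) μ good_extMn.lin good_extMn.hom
  refine hasSum_le (fun k => ?_) (f := fun k : ℕ =>
    Real.exp (-d) * ((d * μ.E extMn) ^ k / (k.factorial : ℝ))) ?_ h1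
  · refine le_trans (le_of_eq ?_) (mul_le_mul_of_nonneg_left (extMn_pow μ k)
      ((Off.pois d hd).pos k).le)
    change _ = Real.exp (-d) * d ^ k / (k.factorial : ℝ) * _
    rw [mul_pow]; ring
  · have := (Off.hasSum_exp (d * μ.E extMn)).mul_left (Real.exp (-d))
    rwa [← Real.exp_add, show -d + d * μ.E extMn = -(d * (1 - μ.E extMn)) by ring] at this

theorem tv_le_avg_sub_extMn (L : Vec q) : tv L ≤ avg L - extMn L := by
  have hq : (0 : ℝ) < q := Nat.cast_pos.2 (Nat.pos_of_ne_zero (NeZero.ne q))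
  have h1 : ∑ i, |L i - avg L| ≤ ∑ i, (L i + (avg L - 2 * extMn L)) :=
    Finset.sum_le_sum fun i _ => abs_le.mpr
      ⟨by linarith [extMn_le L i], by linarith [extMn_le_avg L]⟩
  have h2 : ∑ i, L i = q * avg L := by unfold avg; field_simp
  rw [Finset.sum_add_distrib, h2, Finset.sum_const, Finset.card_univ, Fintype.card_fin,
    nsmul_eq_mul] at h1
  rw [tv, one_div_mul_eq_div, div_le_iff₀ (by positivity)]
  linarith

theorem extinct {d : ℝ} (hd : 0 < d) (hd1 : d ≤ 1) {lam : ℝ} (h : Adm q lam) (h0 : 0 ≤ lam) :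
    Filter.Tendsto (fun n => (Exp.bp (Off.pois d hd) lam h n).E tv) Filter.atTop (nhds 0) := by
  have hl := (good_extMn (q := q)).lin
  set x : ℕ → ℝ := fun n => 1 - (Exp.bp (Off.pois d hd) lam h n).E extMn with hx
  have x0 : ∀ n, 0 ≤ x n := fun n =>
    sub_nonneg.2 ((Exp.E_le_of_good _ good_extMn).trans extMn_one.le)
  have x1 : ∀ n, x (n + 1) ≤ 1 - Real.exp (-x n) := fun n => by
    refine sub_le_sub_left (le_trans (Real.exp_le_exp.2 ?_) (extMn_step hd _)) 1
    have h1 := extMn_chan h h0 (Exp.bp (Off.pois d hd) lam h n)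
    have h2 := x0 n
    simp only [hx] at h2 ⊢
    nlinarith
  have hanti : Antitone x := antitone_nat_of_succ_le fun n => by
    linarith [x1 n, Real.add_one_le_exp (-x n)]
  have hlim := tendsto_atTop_ciInf hanti ⟨0, by rintro _ ⟨n, rfl⟩; exact x0 n⟩
  generalize ⨅ n, x n = l at hlim
  have h1 : l ≤ 1 - Real.exp (-l) :=
    le_of_tendsto_of_tendsto' (hlim.comp (Filter.tendsto_add_atTop_nat 1))
      (hlim.neg.rexp.const_sub 1) x1
  obtain rfl : l = 0 := by
    by_contra hne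
    linarith [Real.add_one_lt_exp (neg_ne_zero.2 hne)]
  refine squeeze_zero (fun n => Exp.E_tv_nonneg _) (fun n => ?_) hlim
  simp only [hx]
  rw [← Exp.E_avg (Exp.bp (Off.pois d hd) lam h n), ← Exp.E_sub _ lin_avg hl]
  exact Exp.E_mono _ lin_tv (lin_avg.sub hl) fun L _ => tv_le_avg_sub_extMn L


end Crest.Agent.R163
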