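import Crest.Agent.R163.Basic

/-!
# R163/Order: the information order `Exp.Le` (tested on `Good` functionals)

Recipes.  `Good.mono`: `L' = L + (L' - L)`.  `Good.lin`: `ψ L ≤ ψ ((q * avg L) • 1)`.
`Good.tsum_le`: finite partial sums `∑ ψ (f ω) ≤ ψ (∑ f ω) ≤ ψ (total)` by monotonicity.
`Le.prod`: `E_prod`, `E_prod'` and `Good.comp_mul`.  `chan_le`: `Pm τ L = τ • L + ((1-τ) ā) • 1`,
then `E ψ ≤ ψ 1`.  `prod_le`: `∑' ψ (L * L' ω') ≤ ψ L`.  `step_pois_mono`: `a k = (pow μ k).E ψ` is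
antitone and bounded; Poisson(d') = Poisson(d) * Poisson(d' - d) (Cauchy product over
antidiagonals, `add_pow`/`Finset.Nat.antidiagonal`, or `Summable.tsum_mul_tsum_eq_tsum_sum_antidiagonal`).
-/

set_option autoImplicit false
set_option linter.unusedSectionVars false

namespace Crest.Agent.R163

open Finset

variable {q : ℕ} [NeZero q]

theorem Good.mono {ψ : Vec q → ℝ} (h : Good ψ) {L L' : Vec q} (hL : NN L) (hle : ∀ i, L i ≤ L' i) :
    ψ L ≤ ψ L' := by
  have h1 : NN (L' - L) := fun i => sub_nonneg.2 (hle i)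
  have h2 := h.add L (L' - L) hL h1
  rw [add_sub_cancel] at h2
  linarith [h.nonneg _ h1]

theorem Good.lin {ψ : Vec q → ℝ} (h : Good ψ) : Lin ψ := by
  have h1 : NN (1 : Vec q) := fun _ => zero_le_one
  refine ⟨q * ψ 1, fun L hL => ?_⟩
  rw [abs_of_nonneg (h.nonneg L hL)]
  have h2 : 0 ≤ (q : ℝ) * avg L := mul_nonneg (Nat.cast_nonneg _) (avg_nonneg hL)
  have h3 := h.mono (L' := ((q : ℝ) * avg L) • (1 : Vec q)) hL fun i => by
    simpa using le_mul_avg hL i
  rw [h.smul _ _ h2 h1] at h3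
  linarith

theorem Good.hom {ψ : Vec q → ℝ} (h : Good ψ) : Hom ψ :=
  fun c L hc hL => h.smul c L hc.le hL

theorem Good.sum_le {ψ : Vec q → ℝ} (h : Good ψ) {ι : Type*} (s : Finset ι) (f : ι → Vec q)
    (hf : ∀ i ∈ s, NN (f i)) : ∑ i ∈ s, ψ (f i) ≤ ψ (∑ i ∈ s, f i) := by
  classical
  induction s using Finset.induction_on with
  | empty => simpa using h.nonneg 0 fun _ => le_rfl
  | insert a s ha ih =>
    rw [Finset.sum_insert ha, Finset.sum_insert ha]
    have h1 := ih fun i hi => hf i (Finset.mem_insert_of_mem hi)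
    have h2 : NN (∑ i ∈ s, f i) := fun j => by
      rw [Finset.sum_apply]
      exact Finset.sum_nonneg fun i hi => hf i (Finset.mem_insert_of_mem hi) j
    linarith [h.add (f a) _ (hf a (Finset.mem_insert_self _ _)) h2]

theorem Good.tsum_le {ψ : Vec q → ℝ} (h : Good ψ) {ι : Type*} (f : ι → Vec q) (hf : ∀ ω, NN (f ω))
    (L : Vec q) (hs : ∀ i, HasSum (fun ω => f ω i) (L i)) : ∑' ω, ψ (f ω) ≤ ψ L := by
  have hL : NN L := fun i => (hs i).nonneg fun ω => hf ω i
  refine tsum_le_of_sum_le' (h.nonneg L hL) fun s => ?_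
  refine (h.sum_le s f fun i _ => hf i).trans (h.mono (fun j => ?_) fun j => ?_)
  · rw [Finset.sum_apply]
    exact Finset.sum_nonneg fun i _ => hf i j
  · rw [Finset.sum_apply]
    exact sum_le_hasSum s (fun ω _ => hf ω j) (hs j)

theorem Good.comp_mul {ψ : Vec q → ℝ} (h : Good ψ) {L' : Vec q} (hL' : NN L') :
    Good fun L => ψ (L * L') := by
  have hm : ∀ L : Vec q, NN L → NN (L * L') := fun L hL i => mul_nonneg (hL i) (hL' i)
  refine ⟨fun L hL => h.nonneg _ (hm L hL), fun L M hL hM => ?_, fun c L hc hL => ?_⟩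
  · rw [add_mul]; exact h.add _ _ (hm L hL) (hm M hM)
  · rw [smul_mul_assoc]; exact h.smul c _ hc (hm L hL)

theorem Good.comp_Pm {ψ : Vec q → ℝ} (h : Good ψ) {lam : ℝ} (hl : Adm q lam) :
    Good fun L => ψ (Pm lam L) := by
  refine ⟨fun L hL => h.nonneg _ (Pm_nonneg hl hL), fun L M hL hM => ?_, fun c L hc hL => ?_⟩
  · rw [Pm_add]; exact h.add _ _ (Pm_nonneg hl hL) (Pm_nonneg hl hM)
  · rw [Pm_smul]; exact h.smul c _ hc (Pm_nonneg hl hL)

theorem Good.comp_perm {ψ : Vec q → ℝ} (h : Good ψ) (σ : Equiv.Perm (Fin q)) :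
    Good fun L => ψ (L ∘ σ) :=
  ⟨fun L hL => h.nonneg _ fun i => hL (σ i),
    fun L M hL hM => h.add (L ∘ σ) (M ∘ σ) (fun i => hL (σ i)) fun i => hM (σ i),
    fun c L hc hL => h.smul c (L ∘ σ) hc fun i => hL (σ i)⟩

/-- averaging a good functional against an experiment gives a good functional -/
theorem Good.E_mul {ψ : Vec q → ℝ} (h : Good ψ) (ν : Exp q) :
    Good fun L => ν.E fun L' => ψ (L * L') := by
  have hm : ∀ L L' : Vec q, NN L → NN L' → NN (L * L') := fun L L' hL hL' i =>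
    mul_nonneg (hL i) (hL' i)
  have hlin : ∀ L : Vec q, NN L → Lin fun L' => ψ (L * L') := fun L hL => by
    simpa only [mul_comm L] using (h.comp_mul hL).lin
  refine ⟨fun L hL => ν.E_nonneg fun L' hL' => h.nonneg _ (hm _ _ hL hL'),
    fun L M hL hM => ?_, fun c L hc hL => ?_⟩
  · rw [← ν.E_add (hlin L hL) (hlin M hM)]
    refine ν.E_mono ((hlin L hL).add (hlin M hM))
      (hlin _ fun i => add_nonneg (hL i) (hM i)) fun L' hL' => ?_
    rw [add_mul]; exact h.add _ _ (hm _ _ hL hL') (hm _ _ hM hL')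
  · rw [← ν.E_const_mul]
    refine tsum_congr fun ω => ?_
    dsimp only
    rw [smul_mul_assoc]; exact h.smul c _ hc (hm _ _ hL (ν.nonneg ω))

theorem good_avg_sub_tv : Good fun L : Vec q => avg L - tv L := by
  have hq : (0 : ℝ) ≤ 1 / (2 * q) := by positivity
  refine ⟨fun L hL => sub_nonneg.2 (tv_le_avg hL), fun L M _ _ => ?_, fun c L hc _ => ?_⟩
  · have h1 : tv (L + M) ≤ tv L + tv M := by
      unfold tv
      rw [← mul_add, ← Finset.sum_add_distrib]
      refine mul_le_mul_of_nonneg_left (Finset.sum_le_sum fun i _ => ?_) hq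
      rw [avg_add, Pi.add_apply]
      refine le_trans (le_of_eq ?_) (abs_add_le _ _)
      congr 1; ring
    rw [avg_add]; linarith
  · have h1 : tv (c • L) = c * tv L := by
      unfold tv
      rw [avg_smul, mul_left_comm, Finset.mul_sum Finset.univ _ c]
      congr 1
      refine Finset.sum_congr rfl fun i _ => ?_
      rw [Pi.smul_apply, smul_eq_mul, ← mul_sub, abs_mul, abs_of_nonneg hc]
    rw [avg_smul, h1]; ring


/-- Poisson averages of a nonnegative antitone sequence decrease with the mean -/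
theorem order_pois_aux {a : ℕ → ℝ} (ha : Antitone a) (ha0 : ∀ k, 0 ≤ a k) {d d' s s' : ℝ}
    (hd : 0 ≤ d) (h : d ≤ d')
    (hs : HasSum (fun k : ℕ => Real.exp (-d) * d ^ k / (k.factorial : ℝ) * a k) s)
    (hs' : HasSum (fun k : ℕ => Real.exp (-d') * d' ^ k / (k.factorial : ℝ) * a k) s') :
    s' ≤ s := by
  obtain ⟨e, he, rfl⟩ : ∃ e, 0 ≤ e ∧ d' = d + e := ⟨d' - d, sub_nonneg.2 h, by ring⟩
  have hρ : HasSum (fun k : ℕ => Real.exp (-e) * e ^ k / (k.factorial : ℝ)) 1 := by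
    have := (Off.hasSum_exp e).mul_left (Real.exp (-e))
    rw [← Real.exp_add, neg_add_cancel, Real.exp_zero] at this
    simpa [mul_div_assoc] using this
  have h1 := hs.summable.norm
  have h2 := hρ.summable.norm
  have h3 := tsum_mul_tsum_eq_tsum_sum_antidiagonal_of_summable_norm h1 h2
  have h4 := (summable_norm_sum_mul_antidiagonal_of_summable_norm h1 h2).of_norm
  rw [hs.tsum_eq, hρ.tsum_eq, mul_one] at h3
  rw [h3]
  refine hasSum_le (fun n => ?_) hs' h4.hasSum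
  rw [(Commute.all d e).add_pow', Finset.mul_sum, Finset.sum_div, Finset.sum_mul]
  refine Finset.sum_le_sum fun p hp => ?_
  obtain rfl : p.1 + p.2 = n := Finset.HasAntidiagonal.mem_antidiagonal.1 hp
  have e1 : Real.exp (-(d + e)) * (p.1 + p.2).choose p.1 • (d ^ p.1 * e ^ p.2) /
      ((p.1 + p.2).factorial : ℝ) = (Real.exp (-d) * d ^ p.1 / (p.1.factorial : ℝ)) *
        (Real.exp (-e) * e ^ p.2 / (p.2.factorial : ℝ)) := by
    rw [nsmul_eq_mul, Nat.cast_add_choose, neg_add, Real.exp_add]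
    have f1 : ((p.1 + p.2).factorial : ℝ) ≠ 0 := by positivity
    field_simp
  rw [e1, mul_right_comm _ (a p.1)]
  exact mul_le_mul_of_nonneg_left (ha (Nat.le_add_right _ _)) (by positivity)

namespace Exp

theorem E_le_of_good (μ : Exp q) {ψ : Vec q → ℝ} (h : Good ψ) : μ.E ψ ≤ ψ 1 :=
  h.tsum_le μ.L μ.nonneg 1 μ.hasSum

theorem Le.refl (μ : Exp q) : μ.Le μ :=
  fun _ _ => le_rfl

theorem Le.trans {μ ν ρ : Exp q} (h : μ.Le ν) (h' : ν.Le ρ) : μ.Le ρ :=
  fun ψ hψ => (h' ψ hψ).trans (h ψ hψ)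

theorem Le.tv_le {μ ν : Exp q} (h : μ.Le ν) : μ.E tv ≤ ν.E tv := by
  have h1 := h _ good_avg_sub_tv
  rw [E_sub _ lin_avg lin_tv, E_sub _ lin_avg lin_tv, E_avg, E_avg] at h1
  linarith

theorem le_perfect (μ : Exp q) : μ.Le perfect := by
  intro ψ hψ
  rw [E_perfect]
  have hn : ∀ j : Fin q, NN (Pi.single j 1 : Vec q) := fun j i => by
    rw [Pi.single_apply]; split_ifs <;> norm_num
  have h1 : HasSum (fun ω => ∑ j : Fin q, μ.L ω j * ψ (Pi.single j 1))
      (∑ j : Fin q, ψ (Pi.single j 1)) :=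
    hasSum_sum fun j _ => by simpa using (μ.hasSum j).mul_right (ψ (Pi.single j 1))
  refine hasSum_le (fun ω => ?_) h1 (μ.summable_of_lin hψ.lin).hasSum
  have h2 := hψ.sum_le Finset.univ (fun j : Fin q => μ.L ω j • (Pi.single j 1 : Vec q))
    fun j _ i => mul_nonneg (μ.nonneg ω j) (hn j i)
  have h3 : ∑ j : Fin q, μ.L ω j • (Pi.single j 1 : Vec q) = μ.L ω := by
    funext i
    simp [Finset.sum_apply, Pi.single_apply]
  rw [h3] at h2
  refine le_trans (le_of_eq (Finset.sum_congr rfl fun j _ => ?_)) h2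
  exact (hψ.smul _ _ (μ.nonneg ω j) (hn j)).symm

theorem Le.prod {μ μ' ν ν' : Exp q} (h : μ.Le μ') (h' : ν.Le ν') :
    (prod μ ν).Le (prod μ' ν') := by
  intro ψ hψ
  have h1 : Good fun L' => μ.E fun L => ψ (L * L') := by
    simpa only [mul_comm] using hψ.E_mul μ
  calc (Exp.prod μ' ν').E ψ = μ'.E fun L => ν'.E fun L' => ψ (L * L') := E_prod _ _ hψ.lin
    _ ≤ μ.E fun L => ν'.E fun L' => ψ (L * L') := h _ (hψ.E_mul ν')
    _ = (Exp.prod μ ν').E ψ := (E_prod _ _ hψ.lin).symm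
    _ = ν'.E fun L' => μ.E fun L => ψ (L * L') := E_prod' _ _ hψ.lin
    _ ≤ ν.E fun L' => μ.E fun L => ψ (L * L') := h' _ h1
    _ = (Exp.prod μ ν).E ψ := (E_prod' _ _ hψ.lin).symm

theorem Le.pow {μ μ' : Exp q} (h : μ.Le μ') (k : ℕ) : (μ.pow k).Le (μ'.pow k) := by
  induction k with
  | zero => exact Le.refl _
  | succ k ih => exact Le.prod h ih

theorem Le.prodL_map {ι : Type*} (l : List ι) {f g : ι → Exp q} (h : ∀ i ∈ l, (f i).Le (g i)) :
    (prodL (l.map f)).Le (prodL (l.map g)) := by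
  induction l with
  | nil => exact Le.refl _
  | cons a l ih =>
    exact Le.prod (h a List.mem_cons_self) (ih fun i hi => h i (List.mem_cons_of_mem _ hi))

theorem Le.chan {μ μ' : Exp q} (h : μ.Le μ') {lam : ℝ} (hl : Adm q lam) :
    (chan lam hl μ).Le (chan lam hl μ') :=
  fun ψ hψ => h _ (hψ.comp_Pm hl)

theorem Le.step {μ μ' : Exp q} (h : μ.Le μ') (O : Off) : (step O μ).Le (step O μ') :=
  fun ψ hψ =>
  hasSum_le (fun k => mul_le_mul_of_nonneg_left (h.pow (O.c k) ψ hψ) (O.pos k).le)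
    (hasSum_E_step O μ' hψ.lin hψ.hom) (hasSum_E_step O μ hψ.lin hψ.hom)

theorem chan_le (μ : Exp q) {τ : ℝ} (hl : Adm q τ) (h0 : 0 ≤ τ) : (chan τ hl μ).Le μ := by
  intro ψ hψ
  have h1 : NN (1 : Vec q) := fun _ => zero_le_one
  have hτ : 0 ≤ 1 - τ := sub_nonneg.2 hl.1
  rw [E_chan]
  have h2 : μ.E (fun L => τ * ψ L + ((1 - τ) * ψ 1) * avg L) ≤ μ.E fun L => ψ (Pm τ L) := by
    refine μ.E_mono ((hψ.lin.const_mul _).add (lin_avg.const_mul _)) (hψ.comp_Pm hl).lin
      fun L hL => ?_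
    have h3 : 0 ≤ (1 - τ) * avg L := mul_nonneg hτ (avg_nonneg hL)
    have h4 := hψ.add (τ • L) (((1 - τ) * avg L) • (1 : Vec q))
      (fun i => mul_nonneg h0 (hL i)) fun i => mul_nonneg h3 (h1 i)
    have h5 : τ • L + ((1 - τ) * avg L) • (1 : Vec q) = Pm τ L := by
      funext i; simp [Pm]
    rw [h5, hψ.smul _ _ h0 hL, hψ.smul _ _ h3 h1] at h4
    linarith
  rw [E_add _ (hψ.lin.const_mul _) (lin_avg.const_mul _), E_const_mul, E_const_mul, E_avg] at h2
  have h6 := mul_le_mul_of_nonneg_left (μ.E_le_of_good hψ) hτ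
  linarith

theorem chan_mono (μ : Exp q) {lam lam' τ : ℝ} (hl : Adm q lam) (hl' : Adm q lam') (h0 : 0 ≤ τ)
    (h1 : τ ≤ 1) (he : lam = τ * lam') : (chan lam hl μ).Le (chan lam' hl' μ) := by
  intro ψ hψ
  have h2 := chan_le (chan lam' hl' μ) (adm_of_nonneg h0 h1) h0 ψ hψ
  rw [E_chan (adm_of_nonneg h0 h1), E_chan hl' μ fun L => ψ (Pm τ L)] at h2
  simp only [Pm_Pm, ← he] at h2
  exact h2

theorem le_prod (μ ν : Exp q) : ν.Le (prod μ ν) := by
  intro ψ hψ
  have h1 : Good fun L' => μ.E fun L => ψ (L * L') := by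
    simpa only [mul_comm] using hψ.E_mul μ
  rw [E_prod' _ _ hψ.lin]
  refine ν.E_mono h1.lin hψ.lin fun L' hL' => ?_
  simpa using μ.E_le_of_good (hψ.comp_mul hL')

theorem pow_mono (μ : Exp q) {k k' : ℕ} (h : k ≤ k') : (μ.pow k).Le (μ.pow k') := by
  induction k', h using Nat.le_induction with
  | base => exact Le.refl _
  | succ k' _ ih => exact ih.trans (le_prod μ _)

theorem step_reg_mono (μ : Exp q) {b b' : ℕ} (h : b ≤ b') :
    (step (Off.reg b) μ).Le (step (Off.reg b') μ) := by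
  intro ψ hψ
  refine hasSum_le (fun k => ?_) (hasSum_E_step (Off.reg b') μ hψ.lin hψ.hom)
    (hasSum_E_step (Off.reg b) μ hψ.lin hψ.hom)
  exact mul_le_mul_of_nonneg_left (pow_mono μ h ψ hψ) zero_le_one

theorem step_pois_mono (μ : Exp q) {d d' : ℝ} (hd : 0 < d) (hd' : 0 < d') (h : d ≤ d') :
    (step (Off.pois d hd) μ).Le (step (Off.pois d' hd') μ) := by
  intro ψ hψ
  exact order_pois_aux (a := fun k => (μ.pow k).E ψ) (fun k k' hk => pow_mono μ hk ψ hψ)
    (fun k => E_nonneg _ hψ.nonneg) hd.le h (hasSum_E_step (Off.pois d hd) μ hψ.lin hψ.hom)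
    (hasSum_E_step (Off.pois d' hd') μ hψ.lin hψ.hom)

theorem bp_succ_le (O : Off) {lam : ℝ} (hl : Adm q lam) (n : ℕ) :
    (bp O lam hl (n + 1)).Le (bp O lam hl n) := by
  induction n with
  | zero => exact le_perfect _
  | succ n ih => exact (ih.chan hl).step O

theorem bp_anti (O : Off) {lam : ℝ} (hl : Adm q lam) {m n : ℕ} (h : m ≤ n) :
    (bp O lam hl n).Le (bp O lam hl m) := by
  induction n, h using Nat.le_induction with
  | base => exact Le.refl _
  | succ n _ ih => exact (bp_succ_le O hl n).trans ih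

/-- domination in the parameters -/
theorem bp_mono {O O' : Off} (hO : ∀ μ : Exp q, (step O μ).Le (step O' μ)) {lam lam' τ : ℝ}
    (hl : Adm q lam) (hl' : Adm q lam') (h0 : 0 ≤ τ) (h1 : τ ≤ 1) (he : lam = τ * lam') (n : ℕ) :
    (bp O lam hl n).Le (bp O' lam' hl' n) := by
  induction n with
  | zero => exact Le.refl _
  | succ n ih =>
    exact (((ih.chan hl).trans (chan_mono _ hl hl' h0 h1 he)).step O).trans (hO _)


end Exp

open Crest.ProbabilityR.TreeBroadcast in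
theorem treeExp_le {V : Type*} [DecidableEq V] (T : LocFinTree V) {lam : ℝ} (h : Adm q lam)
    {leaf leaf' : V → Exp q} (hle : ∀ v, (leaf v).Le (leaf' v)) (m : ℕ) (v : V) :
    (treeExp T lam h leaf m v).Le (treeExp T lam h leaf' m v) := by
  induction m generalizing v with
  | zero => exact hle v
  | succ m ih => exact Exp.Le.prodL_map _ fun c _ => (ih c).chan h


end Crest.Agent.R163
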