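import Crest.Agent.R163.Chan
import Crest.Agent.R163.Order

/-!
# R163/Ferro: non-reconstruction for `0 ≤ lam < 1`, `d lam² ≤ 1`, from a potential `WData`

Recipe.  `lam > 0`: `μ n = bp O lam h n`, `ν n = chan (μ n)` is `Nice` (`nice_chan`, `sym_bp`, `nz_bp`), `μ (n+1)` is
`Nice`, `W (μ (n+2)) ≤ d W (ν (n+1)) ≤ d lam² (W (μ (n+1)) - c mom3 (μ (n+1))) ≤ W (μ (n+1)) - c mom3`
(the bracket is `≥ 0` because `W (ν _) ≥ 0`; `O.d ≥ 0`).  Telescoping: `mom3 (μ n) → 0`, then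
`mom_one_pow_le`, `tv_sq_le_mom`.  `lam = 0`: `mom_chan` gives `mom 1 (ν n) = 0`; simplest is domination
`bp_mono` (`τ = 0`) by `lam' = 1 / (2 (1 + d))`.
-/

set_option autoImplicit false

namespace Crest.Agent.R163

variable {q : ℕ} [NeZero q]

open Filter Topology

theorem Off.d_nonneg_ferro (O : Off) : 0 ≤ O.d :=
  O.mean.nonneg fun k => mul_nonneg (O.pos k).le (Nat.cast_nonneg _)

theorem ferro_pos (D : WData q) (O : Off) {lam : ℝ} (h : Adm q lam) (h0 : 0 < lam) (h1 : lam < 1)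
    (hd : O.d * lam ^ 2 ≤ 1) :
    Tendsto (fun n => (Exp.bp O lam h n).E tv) atTop (𝓝 0) := by
  obtain ⟨c, hc, hW⟩ := D.exists_W_chan_le h h0 h1
  have hν : ∀ n, (Exp.chan lam h (Exp.bp O lam h n)).Nice := fun n =>
    Exp.nice_chan (Exp.sym_bp O h n) (Exp.nz_bp O h h0.le h1 n) h h0.le h1
  have hμ : ∀ n, (Exp.bp O lam h (n + 1)).Nice := fun n => (hν n).step O
  have hd0 := O.d_nonneg_ferro
  have hl2 : 0 < lam ^ 2 := by positivity
  set w : ℕ → ℝ := fun n => D.W (Exp.bp O lam h (n + 1)) with hw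
  set m : ℕ → ℝ := fun n => (Exp.bp O lam h (n + 1)).mom 3 with hm
  have hstep : ∀ n, w (n + 1) + c * m n ≤ w n := by
    intro n
    have a1 : w (n + 1) ≤ O.d * D.W (Exp.chan lam h (Exp.bp O lam h (n + 1))) :=
      D.W_step_le (hν (n + 1)) O
    have a2 := hW _ (hμ n)
    have a3 := D.W_nonneg (hν (n + 1))
    have a4 : 0 ≤ w n - c * m n := by
      by_contra hneg
      have := mul_neg_of_pos_of_neg hl2 (not_le.1 hneg)
      exact absurd (a3.trans a2) (not_le.2 this)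
    have a5 : O.d * D.W (Exp.chan lam h (Exp.bp O lam h (n + 1))) ≤
        O.d * (lam ^ 2 * (w n - c * m n)) := mul_le_mul_of_nonneg_left a2 hd0
    have a6 : O.d * (lam ^ 2 * (w n - c * m n)) ≤ w n - c * m n := by
      rw [← mul_assoc]; exact mul_le_of_le_one_left a4 hd
    linarith
  have hm0 : ∀ n, 0 ≤ m n := fun n => Exp.mom_nonneg _ _
  have hsum : ∀ n, c * ∑ i ∈ Finset.range n, m i + w n ≤ w 0 := by
    intro n
    induction n with
    | zero => simp
    | succ n ih => rw [Finset.sum_range_succ, mul_add]; linarith [hstep n]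
  have hs : Summable m := by
    refine summable_of_sum_range_le (c := w 0 / c) hm0 fun n => ?_
    rw [le_div_iff₀ hc, mul_comm]
    have : 0 ≤ w n := D.W_nonneg (hμ n)
    linarith [hsum n]
  have ht := hs.tendsto_atTop_zero
  rw [← tendsto_add_atTop_iff_nat 1]
  have hle : ∀ n, (Exp.bp O lam h (n + 1)).E tv ^ 6 ≤ m n := by
    intro n
    have b1 := Exp.tv_sq_le_mom (Exp.bp O lam h (n + 1))
    have b2 := Exp.mom_one_pow_le (Exp.bp O lam h (n + 1))
    calc (Exp.bp O lam h (n + 1)).E tv ^ 6 = ((Exp.bp O lam h (n + 1)).E tv ^ 2) ^ 3 := by ring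
      _ ≤ (Exp.bp O lam h (n + 1)).mom 1 ^ 3 := by gcongr
      _ ≤ m n := b2
  rw [Metric.tendsto_atTop] at ht ⊢
  intro ε hε
  obtain ⟨N, hN⟩ := ht (ε ^ 6) (by positivity)
  refine ⟨N, fun n hn => ?_⟩
  have b1 := hN n hn
  rw [Real.dist_eq, sub_zero, abs_of_nonneg (hm0 n)] at b1
  rw [Real.dist_eq, sub_zero, abs_of_nonneg (Exp.E_tv_nonneg _)]
  exact lt_of_pow_lt_pow_left₀ 6 hε.le ((hle n).trans_lt b1)

theorem ferro (D : WData q) (O : Off) {lam : ℝ} (h : Adm q lam) (h0 : 0 ≤ lam) (h1 : lam < 1)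
    (hd : O.d * lam ^ 2 ≤ 1) :
    Filter.Tendsto (fun n => (Exp.bp O lam h n).E tv) Filter.atTop (nhds 0) := by
  rcases h0.lt_or_eq with hpos | hz
  · exact ferro_pos D O h hpos h1 hd
  · have hd0 := O.d_nonneg_ferro
    set l : ℝ := 1 / (2 * (1 + O.d)) with hl
    have l0 : 0 < l := by positivity
    have l1 : l * (2 * (1 + O.d)) = 1 := by rw [hl]; field_simp
    have l2 : l < 1 := by nlinarith
    have l3 : O.d * l ^ 2 ≤ 1 := by nlinarith [mul_nonneg hd0 l0.le]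
    have hl' : Adm q l := adm_of_nonneg l0.le l2.le
    refine squeeze_zero (fun n => Exp.E_tv_nonneg _) (fun n => ?_) (ferro_pos D O hl' l0 l2 l3)
    exact (Exp.bp_mono (fun μ => Exp.Le.refl _) h hl' le_rfl zero_le_one
      (by rw [← hz, zero_mul]) n).tv_le

end Crest.Agent.R163
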