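import Crest.Agent.R163.Defs

/-!
# R163/FlowEnergy: the error estimate for the converse direction (pure real analysis)

`exists_budget`: put `a v = θ v / lam^(2 depth v)` (`a root = flowMass`), and
`Bud v = 1 - ∑ of (a w)² over the ancestors w ≠ root of v, v included` (recursion on the depth).  If
`θ v > 0`, `v ≠ root`, there is a ray through `v` (ancestors, then keep choosing a child with `θ > 0`), and the
potential bound gives `Bud v ≥ 0` (and `a v ≤ 1`).

`err_bound`: with `t = H / a`, `e = (c0 a - F) / a` and `avg` the average over children with weights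
`lam² a c / a v`: `t v ≤ avg (lam t c + C a c / lam²)`, so by convexity
`t v ² ≤ avg (lam t c ² + (C a c / lam²)² / (1 - lam))`; `e v ≤ avg (e c + C a c²) + C (a v² + t v²)/2`.
With `κ = C lam / (2 (1 - lam))`, induction on `m` gives
`e v + κ t v² ≤ C2 * Bud v + (C/2) a v² + κ C ε` whenever `a v > 0` (and `F ≥ 0`, `H = 0` when `a v = 0`).
It is convenient to state it multiplied by `a v`: `(c0 a - F) + κ H² / a ≤ a (…)`.
-/

set_option autoImplicit false

namespace Crest.Agent.R163

open Crest.ProbabilityR Crest.ProbabilityR.TreeBroadcast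

section aux
variable {V : Type*} [DecidableEq V] (T : LocFinTree V)

theorem fe_mem_children {v c : V} :
    c ∈ T.children v ↔ T.depth c = T.depth v + 1 ∧ T.parent c = v := by
  simp [LocFinTree.children, T.mem_level_iff]

theorem fe_ne_root {v c : V} (h : c ∈ T.children v) : c ≠ T.root := fun e => by
  have h1 := ((fe_mem_children T).1 h).1
  have h2 := (T.depth_eq_zero_iff c).2 e
  omega

theorem fe_mem_parent {c : V} (h : c ≠ T.root) : c ∈ T.children (T.parent c) :=
  (fe_mem_children T).2 ⟨(T.depth_parent c h).symm, rfl⟩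

omit [DecidableEq V] in
theorem fe_depth_iter (v : V) (k : ℕ) : T.depth (T.parent^[k] v) = T.depth v - k := by
  induction k with
  | zero => rfl
  | succ k ih =>
    rw [Function.iterate_succ_apply']
    by_cases h : T.parent^[k] v = T.root
    · have h0 := (T.depth_eq_zero_iff _).2 h
      rw [h, T.parent_root, (T.depth_eq_zero_iff _).2 rfl]
      omega
    · have := T.depth_parent _ h
      omega

theorem fe_depth_ray {ξ : ℕ → V} (h : T.IsRay ξ) (k : ℕ) : T.depth (ξ k) = k := by
  induction k with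
  | zero => exact (T.depth_eq_zero_iff _).2 h.1
  | succ k ih => rw [((fe_mem_children T).1 (h.2 k)).1, ih]

/-- a ray through `v` -/
theorem fe_exists_ray {P : V → Prop} (hP : ∀ v, P v → ∃ c ∈ T.children v, P c) {v : V}
    (hv : P v) : ∃ ξ, T.IsRay ξ ∧ ξ (T.depth v) = v := by
  choose! nx hnx hnxP using hP
  have h1 : ∀ j, P (nx^[j] v) := fun j => by
    induction j with
    | zero => exact hv
    | succ j ih => rw [Function.iterate_succ_apply']; exact hnxP _ ih
  refine ⟨fun k => nx^[k - T.depth v] (T.parent^[T.depth v - k] v), ⟨?_, fun k => ?_⟩, by simp⟩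
  · simp only [Nat.zero_sub, Function.iterate_zero, id, Nat.sub_zero]
    rw [← T.depth_eq_zero_iff, fe_depth_iter, Nat.sub_self]
  · by_cases hk : k < T.depth v
    · have e1 : k + 1 - T.depth v = 0 := by omega
      have e2 : k - T.depth v = 0 := by omega
      have e3 : T.depth v - k = T.depth v - (k + 1) + 1 := by omega
      simp only [e1, e2, Function.iterate_zero, id]
      rw [e3, Function.iterate_succ_apply']
      refine fe_mem_parent T fun h => ?_
      have := (T.depth_eq_zero_iff _).2 h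
      rw [fe_depth_iter] at this
      omega
    · have e1 : T.depth v - (k + 1) = 0 := by omega
      have e2 : T.depth v - k = 0 := by omega
      have e3 : k + 1 - T.depth v = k - T.depth v + 1 := by omega
      simp only [e1, e2, Function.iterate_zero, id]
      rw [e3, Function.iterate_succ_apply']
      exact hnx _ (h1 _)

end aux

theorem exists_budget {V : Type*} [DecidableEq V] (T : LocFinTree V) {B : ℕ}
    (hB : ∀ v, (T.children v).card ≤ B) {lam : ℝ} (h0 : 0 < lam) (h1 : lam < 1) {θ : V → ℝ}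
    (hθ : IsFlow T θ) (hpot : ∀ ξ : ℕ → V, T.IsRay ξ → rayPotential lam θ ξ ≤ 1) :
    ∃ a Bud : V → ℝ, a T.root = flowMass T θ ∧ (∀ v, 0 ≤ a v) ∧ (∀ v, a v ≤ B + 1) ∧
      (∀ v, a v = ∑ c ∈ T.children v, lam ^ 2 * a c) ∧ Bud T.root = 1 ∧
      (∀ v, ∀ c ∈ T.children v, Bud c = Bud v - a c ^ 2) ∧ (∀ v, 0 < a v → 0 ≤ Bud v) := by
  set a : V → ℝ := fun v => if v = T.root then flowMass T θ else θ v / lam ^ (2 * T.depth v)
    with ha
  set Bud : V → ℝ := fun v => 1 - ∑ k ∈ Finset.range (T.depth v), a (T.parent^[k] v) ^ 2 with hBud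
  have hr : T.depth T.root = 0 := (T.depth_eq_zero_iff _).2 rfl
  have ha1 : ∀ v, v ≠ T.root → a v = θ v / lam ^ (2 * T.depth v) := fun v hv => if_neg hv
  have ha0 : ∀ v, 0 ≤ a v := fun v => by
    simp only [ha]
    split_ifs
    · exact Finset.sum_nonneg fun w _ => hθ.1 w
    · exact div_nonneg (hθ.1 v) (by positivity)
  have hsum : ∀ v, a v = ∑ c ∈ T.children v, lam ^ 2 * a c := fun v => by
    have e : ∀ c ∈ T.children v, lam ^ 2 * a c = θ c / lam ^ (2 * T.depth v) := fun c hc => by
      rw [ha1 c (fe_ne_root T hc), ((fe_mem_children T).1 hc).1, mul_add, mul_one, pow_add]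
      field_simp
    rw [Finset.sum_congr rfl e, ← Finset.sum_div]
    by_cases hv : v = T.root
    · subst hv
      simp [ha, hr, flowMass]
    · rw [ha1 v hv, ← hθ.2 v hv]
  have hB0 : Bud T.root = 1 := by simp [hBud, hr]
  have hstep : ∀ v, ∀ c ∈ T.children v, Bud c = Bud v - a c ^ 2 := fun v c hc => by
    obtain ⟨e1, e2⟩ := (fe_mem_children T).1 hc
    simp only [hBud]
    rw [e1, Finset.sum_range_succ']
    simp only [Function.iterate_succ_apply, e2, Function.iterate_zero, id]
    ring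
  have hle : ∀ v, Bud v ≤ 1 := fun v =>
    sub_le_self _ (Finset.sum_nonneg fun _ _ => sq_nonneg _)
  have hpos : ∀ v, 0 < a v → 0 ≤ Bud v := fun v hv => by
    obtain ⟨ξ, hξ, hξv⟩ := fe_exists_ray T (P := fun v => 0 < a v) (fun w hw => by
      by_contra hc
      push Not at hc
      rw [hsum w] at hw
      exact absurd hw (not_lt.2 (Finset.sum_nonpos fun c hc' =>
        mul_nonpos_of_nonneg_of_nonpos (by positivity) (hc c hc')))) hv
    have e : ∀ n, Bud (ξ n) =
        1 - ∑ k ∈ Finset.range n, (θ (ξ (k + 1)) / lam ^ (2 * (k + 1))) ^ 2 := fun n => by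
      induction n with
      | zero => rw [hξ.1, hB0]; simp
      | succ n ih =>
        rw [hstep _ _ (hξ.2 n), ih, Finset.sum_range_succ, ha1 _ (fe_ne_root T (hξ.2 n)),
          fe_depth_ray T hξ]
        ring
    rw [← hξv, e, sub_nonneg, ← ENNReal.ofReal_le_one,
      ENNReal.ofReal_sum_of_nonneg fun _ _ => sq_nonneg _]
    exact (ENNReal.sum_le_tsum _).trans (hpot ξ hξ)
  have hone : ∀ v, v ≠ T.root → a v ≤ 1 := fun v hv => by
    by_contra hc
    push Not at hc
    have h2 := hpos v (by linarith)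
    rw [hstep _ _ (fe_mem_parent T hv)] at h2
    nlinarith [hle (T.parent v)]
  refine ⟨a, Bud, if_pos rfl, ha0, fun v => ?_, hsum, hB0, hstep, hpos⟩
  rw [hsum v]
  have h2 : ∑ c ∈ T.children v, lam ^ 2 * a c ≤ ∑ _c ∈ T.children v, (1 : ℝ) :=
    Finset.sum_le_sum fun c hc =>
      mul_le_one₀ (pow_le_one₀ h0.le h1.le) (ha0 c) (hone c (fe_ne_root T hc))
  have h3 : ((T.children v).card : ℝ) ≤ B := by exact_mod_cast hB v
  simp only [Finset.sum_const, nsmul_eq_mul, mul_one] at h2
  linarith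

theorem err_bound {V : Type*} [DecidableEq V] (T : LocFinTree V) {lam C A : ℝ} (h0 : 0 < lam)
    (h1 : lam < 1) (hC : 0 ≤ C) (hA : 0 ≤ A) :
    ∃ C3 : ℝ, 0 ≤ C3 ∧ ∀ (ε c0 : ℝ) (a Bud : V → ℝ) (n : ℕ) (F H : ℕ → V → ℝ), 0 < ε → ε ≤ 1 →
      (∀ v, 0 ≤ a v) → (∀ v, a v ≤ A * ε) → (∀ v, a v = ∑ c ∈ T.children v, lam ^ 2 * a c) →
      Bud T.root = ε ^ 2 → (∀ v, ∀ c ∈ T.children v, Bud c = Bud v - a c ^ 2) →
      (∀ v, 0 < a v → 0 ≤ Bud v) →
      (∀ m v, 0 ≤ H m v) →
      (∀ v, c0 * a v ≤ F 0 v) → (∀ v, H 0 v ^ 2 ≤ C * a v ^ 3) →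
      (∀ m v, ∑ c ∈ T.children v, lam ^ 2 * (F m c - C * a c ^ 3) - C * a v * H (m + 1) v
        ≤ F (m + 1) v) →
      (∀ m v, H (m + 1) v ≤ ∑ c ∈ T.children v, (lam ^ 3 * H m c + C * a c ^ 2)) →
      (c0 - C3 * ε) * a T.root ≤ F n T.root := by
  have h1' : 0 < 1 - lam := sub_pos.2 h1
  obtain ⟨β, hβ, hCβ⟩ : ∃ β : ℝ, 0 ≤ β ∧ C = 2 * β * (1 - lam) :=
    ⟨C / (2 * (1 - lam)), by positivity, by field_simp⟩
  obtain ⟨K, hK, hKe⟩ : ∃ K : ℝ, 0 ≤ K ∧ lam ^ 2 * (1 - lam) * (lam ^ 2 * K) = C ^ 2 :=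
    ⟨C ^ 2 / (lam ^ 4 * (1 - lam)), by positivity, by field_simp⟩
  set C2 := β * (1 - lam) + C + β * K with hC2
  have hC20 : 0 ≤ C2 := by positivity
  refine ⟨C2 + β * (1 - lam) * A ^ 2 + β * lam * C * A, by positivity, ?_⟩
  intro ε c0 a Bud n F H hε hε1 ha0 haA hsum hB0 hstep hpos hH0 hF0 hHb hF hH
  set D := β * lam * C * A * ε with hD
  have key : ∀ m v s, 0 ≤ s → c0 * a v - F m v + β * lam * (2 * s * H m v - s ^ 2 * a v) ≤
      a v * (C2 * Bud v + D) + β * (1 - lam) * a v ^ 3 := by
    intro m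
    induction m with
    | zero =>
      intro v s _
      have a1 := hF0 v
      have a2 : 0 ≤ β * (1 - lam) * a v ^ 3 := by have := ha0 v; positivity
      rcases (ha0 v).eq_or_lt with h | h
      · have a3 := hHb v
        rw [← h] at a1 a3 ⊢
        have a4 : H 0 v = 0 := by
          have : H 0 v ^ 2 ≤ 0 := by simpa using a3
          exact pow_eq_zero_iff two_ne_zero |>.1 (le_antisymm this (sq_nonneg _))
        rw [a4]
        linarith
      · have a3 : 2 * s * H 0 v - s ^ 2 * a v ≤ C * a v ^ 2 := by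
          refine le_of_mul_le_mul_left ?_ h
          nlinarith [hHb v, sq_nonneg (H 0 v - s * a v)]
        have a4 : C * a v ^ 2 ≤ C * (a v * (A * ε)) := by
          rw [sq]; gcongr; exact haA v
        have a5 : β * lam * (2 * s * H 0 v - s ^ 2 * a v) ≤ β * lam * (C * (a v * (A * ε))) := by
          gcongr; exact a3.trans a4
        have a6 : 0 ≤ a v * (C2 * Bud v) := by have := hpos v h; positivity
        have a7 : a v * (C2 * Bud v + D) = a v * (C2 * Bud v) + β * lam * (C * (a v * (A * ε))) := by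
          rw [hD]; ring
        linarith
    | succ m ih =>
      intro v s hs
      set t := lam * s + (1 - lam) * a v with ht
      have ht0 : 0 ≤ t := by have := ha0 v; positivity
      have hc : ∀ c ∈ T.children v,
          c0 * (lam ^ 2 * a c) - lam ^ 2 * (F m c - C * a c ^ 3) +
            2 * β * t * (lam ^ 3 * H m c + C * a c ^ 2) - β * t ^ 2 * (lam ^ 2 * a c) ≤
          lam ^ 2 * a c * (C2 * Bud v + D) := fun c hc => by
        have b1 := mul_le_mul_of_nonneg_left (ih c t ht0) (sq_nonneg lam)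
        have b2 : 2 * t * C * a c ^ 2 - t ^ 2 * (lam ^ 2 * (1 - lam)) * a c ≤
            lam ^ 2 * K * a c ^ 3 := by
          refine le_of_mul_le_mul_left ?_ (show 0 < lam ^ 2 * (1 - lam) by positivity)
          have b3 : 0 ≤ a c * (C * a c - t * (lam ^ 2 * (1 - lam))) ^ 2 :=
            mul_nonneg (ha0 c) (sq_nonneg _)
          have b4 : lam ^ 2 * (1 - lam) * (lam ^ 2 * K * a c ^ 3) = C ^ 2 * a c ^ 3 := by
            rw [← hKe]; ring
          rw [b4]
          linarith
        have b5 := mul_le_mul_of_nonneg_left b2 hβ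
        rw [hstep v c hc, hC2] at b1
        rw [hC2]
        linarith
      have b6 := Finset.sum_le_sum hc
      rw [Finset.sum_sub_distrib, Finset.sum_add_distrib, Finset.sum_sub_distrib, ← Finset.mul_sum,
        ← Finset.mul_sum (a := 2 * β * t), ← Finset.mul_sum (a := β * t ^ 2), ← Finset.sum_mul,
        ← hsum v] at b6
      have b7 := mul_le_mul_of_nonneg_left (hH m v) (show 0 ≤ 2 * β * t by positivity)
      have b8 := hF m v
      have b9 : 0 ≤ β * a v * (lam * (1 - lam) * (s - a v) ^ 2) := by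
        have := ha0 v; positivity
      have b10 : C * a v * H (m + 1) v + β * lam * (2 * s * H (m + 1) v - s ^ 2 * a v) =
          2 * β * t * H (m + 1) v - β * t ^ 2 * a v + β * (1 - lam) * a v ^ 3 -
            β * a v * (lam * (1 - lam) * (s - a v) ^ 2) := by
        rw [ht, hCβ]; ring
      linarith
  have k := key n T.root 0 le_rfl
  rw [hB0] at k
  have r0 := ha0 T.root
  have c1 : ε ^ 2 ≤ ε := by nlinarith
  have c2 : a T.root ^ 2 ≤ A ^ 2 * ε :=
    calc a T.root ^ 2 ≤ (A * ε) ^ 2 := by gcongr; exact haA _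
      _ = A ^ 2 * ε ^ 2 := by ring
      _ ≤ A ^ 2 * ε := by gcongr
  have c3 : a T.root * (C2 * ε ^ 2) ≤ a T.root * (C2 * ε) := by gcongr
  have c4 : β * (1 - lam) * a T.root * a T.root ^ 2 ≤ β * (1 - lam) * a T.root * (A ^ 2 * ε) := by
    gcongr
  rw [hD] at k
  linarith

end Crest.Agent.R163
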