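import Crest.Agent.R163.WProd

/-!
# R163/Loc: crude local bounds on sets of bounded likelihood ratio

Recipe.  For positive `L` with `Rat_le R L` put `a i = L i / avg L ∈ [1/R, R]`, `u = a - 1`,
`l i = log (a i)`: `|l i| ≤ R |u i|`, `l i ≥ u i - R u i²` (`log a ≥ 1 - 1/a`), `∑ u = 0`,
`∑ u i ^ 2 = q * pq L`.  By homogeneity reduce to `a`.  `mon s (a ∘ π) = exp z`, `z = lin s (a ∘ π)`,
`‖z‖ ≤ K √p` bounded, `‖exp z - 1 - z‖ ≤ C ‖z‖²`, and `∑ π, lin s (a ∘ π) = (q-1)! (∑ s) ∑ l`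
(each coordinate `π i` is uniformly distributed: `∑ π, f (π i)` does not depend on `i`).
-/

set_option autoImplicit false

namespace Crest.Agent.R163

open Finset

variable {q : ℕ} [NeZero q]

/-- normalised vectors -/
structure LocN (R : ℝ) (a : Vec q) : Prop where
  pos : PP a
  avg_eq : avg a = 1
  le : ∀ i, a i ≤ R
  ge : ∀ i, 1 ≤ R * a i

theorem Loc_norm {R : ℝ} {L : Vec q} (hL : PP L) (hR : Rat_le R L) :
    ∃ a : Vec q, LocN R a ∧ L = avg L • a ∧ pq a = pq L := by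
  have h0 := avg_pos hL
  refine ⟨(avg L)⁻¹ • L, ⟨fun i => mul_pos (inv_pos.2 h0) (hL i), ?_, fun i => ?_, fun i => ?_⟩,
    ?_, pq_smul (inv_ne_zero h0.ne') L⟩
  · rw [avg_smul, inv_mul_cancel₀ h0.ne']
  · have h1 : avg (fun _ : Fin q => L i) ≤ avg (R • L) := avg_mono fun j => hR i j
    rw [avg_const, avg_smul] at h1
    show (avg L)⁻¹ * L i ≤ R
    rw [inv_mul_le_iff₀ h0]
    linarith
  · have h1 : avg L ≤ avg (fun _ : Fin q => R * L i) := avg_mono fun j => hR j i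
    rw [avg_const] at h1
    show 1 ≤ R * ((avg L)⁻¹ * L i)
    rw [mul_left_comm, le_inv_mul_iff₀ h0]
    linarith
  · rw [smul_smul, mul_inv_cancel₀ h0.ne', one_smul]

namespace LocN

variable {R : ℝ} {a : Vec q} (h : LocN R a)
include h

theorem one_le : 1 ≤ R := by
  have h1 : avg a ≤ avg (fun _ : Fin q => R) := avg_mono h.le
  rwa [avg_const, h.avg_eq] at h1

theorem inv_le (i : Fin q) : (a i)⁻¹ ≤ R := by
  rw [inv_le_iff_one_le_mul₀ (h.pos i)]
  exact h.ge i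

theorem sum_sub : ∑ i, (a i - 1) = 0 := by
  have hq : (q : ℝ) ≠ 0 := Nat.cast_ne_zero.2 (NeZero.ne q)
  have h1 := h.avg_eq
  unfold avg at h1
  rw [div_eq_one_iff_eq hq] at h1
  simp [Finset.sum_sub_distrib, h1]

theorem sum_sq : ∑ i, (a i - 1) ^ 2 = q * pq a := by
  have hq : (q : ℝ) ≠ 0 := Nat.cast_ne_zero.2 (NeZero.ne q)
  unfold pq
  rw [h.avg_eq]
  unfold avg
  field_simp

theorem log_sub (i : Fin q) : |Real.log (a i) - (a i - 1)| ≤ R * (a i - 1) ^ 2 := by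
  have h1 := Real.log_le_sub_one_of_pos (h.pos i)
  have h2 := Real.one_sub_inv_le_log_of_pos (h.pos i)
  have h3 : 1 - (a i)⁻¹ = (a i - 1) - (a i)⁻¹ * (a i - 1) ^ 2 := by
    have := (h.pos i).ne'
    field_simp
    ring
  have h4 := mul_le_mul_of_nonneg_right (h.inv_le i) (sq_nonneg (a i - 1))
  rw [abs_sub_comm, abs_of_nonneg (by linarith)]
  linarith

theorem abs_log (i : Fin q) : |Real.log (a i)| ≤ R * |a i - 1| := by
  have h1 := Real.log_le_sub_one_of_pos (h.pos i)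
  have h2 := Real.one_sub_inv_le_log_of_pos (h.pos i)
  have hR := h.one_le
  rcases le_total 1 (a i) with h3 | h3
  · rw [abs_of_nonneg (Real.log_nonneg h3), abs_of_nonneg (by linarith)]
    nlinarith
  · rw [abs_of_nonpos (Real.log_nonpos (h.pos i).le h3), abs_of_nonpos (by linarith)]
    have h4 : (a i)⁻¹ - 1 = (a i)⁻¹ * (1 - a i) := by
      have := (h.pos i).ne'
      field_simp
    have h5 := mul_le_mul_of_nonneg_right (h.inv_le i) (sub_nonneg.2 h3)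
    linarith

theorem abs_sub_le (i : Fin q) : |a i - 1| ≤ R := by
  have := h.one_le
  have := h.le i
  have := h.pos i
  rw [abs_le]
  constructor <;> linarith

theorem abs_sub_le_sqrt (i : Fin q) : |a i - 1| ≤ √(q * pq a) := by
  refine Real.abs_le_sqrt ?_
  rw [← h.sum_sq]
  exact Finset.single_le_sum (f := fun i => (a i - 1) ^ 2) (fun j _ => sq_nonneg _)
    (Finset.mem_univ i)

theorem abs_sum_log : |∑ i, Real.log (a i)| ≤ R * (q * pq a) := by
  have h1 : ∑ i, Real.log (a i) = ∑ i, (Real.log (a i) - (a i - 1)) := by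
    rw [Finset.sum_sub_distrib, h.sum_sub, sub_zero]
  rw [h1, ← h.sum_sq, Finset.mul_sum]
  exact (Finset.abs_sum_le_sum_abs _ _).trans (Finset.sum_le_sum fun i _ => h.log_sub i)

theorem norm_lin_le (s : Fin q → ℂ) (π : Equiv.Perm (Fin q)) {t : ℝ}
    (ht : ∀ i, |a i - 1| ≤ t) : ‖lin s (a ∘ π)‖ ≤ (∑ i, ‖s i‖) * (R * t) := by
  unfold lin
  rw [Finset.sum_mul]
  refine (norm_sum_le _ _).trans (Finset.sum_le_sum fun i _ => ?_)
  rw [norm_mul, Complex.norm_real, Real.norm_eq_abs]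
  refine mul_le_mul_of_nonneg_left ((h.abs_log _).trans ?_) (norm_nonneg _)
  exact mul_le_mul_of_nonneg_left (ht _) (by linarith [h.one_le])

theorem Sf_le : Sf a ≤ |R| * pq a := by
  have hq : (0 : ℝ) < q := Nat.cast_pos.2 (Nat.pos_of_ne_zero (NeZero.ne q))
  have h1 : Sf a = (∑ i, (a i - 1) * Real.log (a i)) / q := by
    unfold Sf
    rw [h.avg_eq, one_mul]
    unfold avg
    rw [← sub_div, ← Finset.sum_sub_distrib]
    congr 1
    exact Finset.sum_congr rfl fun i _ => by ring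
  rw [h1, div_le_iff₀ hq, abs_of_nonneg (by linarith [h.one_le]), mul_assoc, mul_comm (pq a),
    ← h.sum_sq, Finset.mul_sum]
  refine Finset.sum_le_sum fun i _ => (le_abs_self _).trans ?_
  rw [abs_mul, ← sq_abs (a i - 1)]
  nlinarith [h.abs_log i, abs_nonneg (a i - 1)]

end LocN

/-- the sum over all permutations of a linear form in the logarithms -/
theorem Loc_sum_lin (a : Vec q) : ∃ c : ℝ, |c| ≤ q.factorial * |∑ i, Real.log (a i)| ∧
    ∀ s : Fin q → ℂ, ∑ π : Equiv.Perm (Fin q), lin s (a ∘ π) = (∑ i, s i) * c := by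
  have hq : (1 : ℝ) ≤ q := Nat.one_le_cast.2 (Nat.pos_of_ne_zero (NeZero.ne q))
  have key : ∀ i : Fin q, ∑ π : Equiv.Perm (Fin q), Real.log (a (π i)) =
      ∑ π : Equiv.Perm (Fin q), Real.log (a (π 0)) := by
    intro i
    refine Fintype.sum_equiv (Equiv.mulRight (Equiv.swap 0 i)) _ _ fun π => ?_
    simp
  refine ⟨∑ π : Equiv.Perm (Fin q), Real.log (a (π 0)), ?_, fun s => ?_⟩
  · have h1 : (q : ℝ) * ∑ π : Equiv.Perm (Fin q), Real.log (a (π 0)) =
        q.factorial * ∑ i, Real.log (a i) := by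
      calc (q : ℝ) * ∑ π : Equiv.Perm (Fin q), Real.log (a (π 0))
          = ∑ i : Fin q, ∑ π : Equiv.Perm (Fin q), Real.log (a (π i)) := by
            rw [Finset.sum_congr rfl fun i _ => key i]
            simp
        _ = ∑ π : Equiv.Perm (Fin q), ∑ i : Fin q, Real.log (a i) := by
            rw [Finset.sum_comm]
            exact Finset.sum_congr rfl fun π _ => Equiv.sum_comp π fun i => Real.log (a i)
        _ = _ := by simp [Fintype.card_perm]
    have h2 := congrArg abs h1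
    rw [abs_mul, abs_mul, Nat.abs_cast, Nat.abs_cast] at h2
    nlinarith [abs_nonneg (∑ π : Equiv.Perm (Fin q), Real.log (a (π 0)))]
  · unfold lin
    rw [Finset.sum_comm, Finset.sum_mul]
    refine Finset.sum_congr rfl fun i _ => ?_
    rw [← Finset.mul_sum, ← key i]
    push_cast
    rfl

theorem Loc_exp1 {z : ℂ} {K : ℝ} (hz : ‖z‖ ≤ K) : ‖Complex.exp z - 1‖ ≤ ‖z‖ * Real.exp K := by
  have := Complex.norm_exp_sub_sum_le_norm_mul_exp z 1
  simp only [Finset.sum_range_one, pow_zero, Nat.factorial_zero, Nat.cast_one, div_one,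
    pow_one] at this
  exact this.trans (mul_le_mul_of_nonneg_left (Real.exp_le_exp.2 hz) (norm_nonneg _))

theorem Loc_exp2 {z : ℂ} {K : ℝ} (hz : ‖z‖ ≤ K) :
    ‖Complex.exp z - 1 - z‖ ≤ ‖z‖ ^ 2 * Real.exp K := by
  have := Complex.norm_exp_sub_sum_le_norm_mul_exp z 2
  simp only [Finset.sum_range_succ, Finset.sum_range_zero, pow_zero, Nat.factorial_zero,
    Nat.cast_one, div_one, pow_one, Nat.factorial_one, zero_add] at this
  rw [sub_sub]
  exact this.trans (mul_le_mul_of_nonneg_left (Real.exp_le_exp.2 hz) (sq_nonneg _))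

theorem LocN.abs_hS_le {R : ℝ} {a : Vec q} (h : LocN R a) (s : Fin q → ℂ) {η : Fin q → ℂ}
    (hη : ∑ i, η i = 0) : |hS s η a| ≤ ((∑ i, ‖η i‖) * (∑ i, ‖s i‖) * R ^ 2 *
      Real.exp ((∑ i, ‖s i‖) * (R * R)) * q) * pq a := by
  obtain ⟨c, -, hc⟩ := Loc_sum_lin a
  have hf : (0 : ℝ) < q.factorial := Nat.cast_pos.2 q.factorial_pos
  have hp : 0 ≤ (q : ℝ) * pq a := mul_nonneg (Nat.cast_nonneg _) (pq_nonneg a)
  have h1 : ∑ π : Equiv.Perm (Fin q), (lin η (a ∘ π) * mon s (a ∘ π)).re =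
      ∑ π : Equiv.Perm (Fin q), (lin η (a ∘ π) * (Complex.exp (lin s (a ∘ π)) - 1)).re := by
    have h2 : ∑ π : Equiv.Perm (Fin q), (lin η (a ∘ π)).re = 0 := by
      rw [← Complex.re_sum, hc, hη, zero_mul, Complex.zero_re]
    rw [← sub_zero (∑ π : Equiv.Perm (Fin q), (lin η (a ∘ π) * mon s (a ∘ π)).re), ← h2,
      ← Finset.sum_sub_distrib]
    refine Finset.sum_congr rfl fun π _ => ?_
    rw [mon_eq_exp s (L := a ∘ π) fun i => h.pos _, mul_sub, mul_one, Complex.sub_re]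
  unfold hS
  rw [h1, abs_div, abs_of_pos hf, div_le_iff₀ hf]
  refine (Finset.abs_sum_le_sum_abs _ _).trans ?_
  refine (Finset.sum_le_card_nsmul _ _ (((∑ i, ‖η i‖) * (∑ i, ‖s i‖) * R ^ 2 *
      Real.exp ((∑ i, ‖s i‖) * (R * R)) * q) * pq a) fun π _ => ?_).trans (by
    simp [Fintype.card_perm, mul_comm])
  refine (Complex.abs_re_le_norm _).trans ?_
  rw [norm_mul]
  have e1 := h.norm_lin_le η π h.abs_sub_le_sqrt
  have e2 := h.norm_lin_le s π h.abs_sub_le_sqrt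
  have e3 := Loc_exp1 (h.norm_lin_le s π h.abs_sub_le)
  have e4 := e3.trans (mul_le_mul_of_nonneg_right e2 (Real.exp_pos _).le)
  refine (mul_le_mul e1 e4 (norm_nonneg _) ((norm_nonneg _).trans e1)).trans (le_of_eq ?_)
  have e5 := Real.mul_self_sqrt hp
  linear_combination ((∑ i, ‖η i‖) * (∑ i, ‖s i‖) * R ^ 2 * Real.exp ((∑ i, ‖s i‖) * (R * R))) * e5

theorem LocN.one_sub_mS_le {R : ℝ} {a : Vec q} (h : LocN R a) {s : Fin q → ℂ}
    (hs : ∑ i, s i = 1) : 1 - mS s a ≤ (((∑ i, ‖s i‖) ^ 2 * R ^ 2 *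
      Real.exp ((∑ i, ‖s i‖) * (R * R)) + |R|) * q) * pq a := by
  obtain ⟨c, hc1, hc⟩ := Loc_sum_lin a
  have hf : (0 : ℝ) < q.factorial := Nat.cast_pos.2 q.factorial_pos
  have hp : 0 ≤ (q : ℝ) * pq a := mul_nonneg (Nat.cast_nonneg _) (pq_nonneg a)
  have h2 : ∑ π : Equiv.Perm (Fin q), (lin s (a ∘ π)).re = c := by
    rw [← Complex.re_sum, hc, hs, one_mul, Complex.ofReal_re]
  have h1 : ∑ π : Equiv.Perm (Fin q), (mon s (a ∘ π)).re = ∑ π : Equiv.Perm (Fin q),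
      (Complex.exp (lin s (a ∘ π)) - 1 - lin s (a ∘ π)).re + q.factorial + c := by
    have h3 : (q.factorial : ℝ) = ∑ _π : Equiv.Perm (Fin q), (1 : ℝ) := by
      simp [Fintype.card_perm]
    rw [← h2, h3, ← Finset.sum_add_distrib, ← Finset.sum_add_distrib]
    refine Finset.sum_congr rfl fun π _ => ?_
    rw [mon_eq_exp s (L := a ∘ π) fun i => h.pos _, Complex.sub_re, Complex.sub_re, Complex.one_re]
    ring
  have h4 : |∑ π : Equiv.Perm (Fin q), (Complex.exp (lin s (a ∘ π)) - 1 - lin s (a ∘ π)).re| ≤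
      q.factorial * ((∑ i, ‖s i‖) ^ 2 * R ^ 2 * Real.exp ((∑ i, ‖s i‖) * (R * R)) *
        (q * pq a)) := by
    refine (Finset.abs_sum_le_sum_abs _ _).trans ?_
    refine (Finset.sum_le_card_nsmul _ _ ((∑ i, ‖s i‖) ^ 2 * R ^ 2 *
      Real.exp ((∑ i, ‖s i‖) * (R * R)) * (q * pq a)) fun π _ => ?_).trans (by
        simp [Fintype.card_perm])
    refine (Complex.abs_re_le_norm _).trans ?_
    have e2 := h.norm_lin_le s π h.abs_sub_le_sqrt
    have e3 := Loc_exp2 (h.norm_lin_le s π h.abs_sub_le)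
    have e4 := pow_le_pow_left₀ (norm_nonneg _) e2 2
    refine (e3.trans (mul_le_mul_of_nonneg_right e4 (Real.exp_pos _).le)).trans (le_of_eq ?_)
    have e5 := Real.sq_sqrt hp
    linear_combination ((∑ i, ‖s i‖) ^ 2 * R ^ 2 * Real.exp ((∑ i, ‖s i‖) * (R * R))) * e5
  have h5 := hc1.trans (mul_le_mul_of_nonneg_left h.abs_sum_log hf.le)
  unfold mS
  rw [h1, sub_le_comm, le_div_iff₀ hf, abs_of_nonneg (by linarith [h.one_le] : (0 : ℝ) ≤ R)]
  have h6 := neg_abs_le c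
  have h7 := neg_abs_le
    (∑ π : Equiv.Perm (Fin q), (Complex.exp (lin s (a ∘ π)) - 1 - lin s (a ∘ π)).re)
  nlinarith

theorem exists_Sf_le (R : ℝ) : ∃ C : ℝ, 0 ≤ C ∧ ∀ L : Vec q, PP L → Rat_le R L →
    Sf L ≤ C * (avg L * pq L) := by
  refine ⟨|R|, abs_nonneg _, fun L hL hR => ?_⟩
  obtain ⟨a, ha, h1, h2⟩ := Loc_norm hL hR
  have h0 := avg_pos hL
  have h3 : Sf L = avg L * Sf a := by
    conv_lhs => rw [h1]
    exact Sf_smul h0 ha.pos
  rw [h3, ← h2, mul_left_comm]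
  exact mul_le_mul_of_nonneg_left ha.Sf_le h0.le

theorem exists_abs_hS_le_pq {s η : Fin q → ℂ} (h : HAdm s η) (R : ℝ) : ∃ C : ℝ, 0 ≤ C ∧
    ∀ L : Vec q, PP L → Rat_le R L → |hS s η L| ≤ C * (avg L * pq L) := by
  refine ⟨(∑ i, ‖η i‖) * (∑ i, ‖s i‖) * R ^ 2 * Real.exp ((∑ i, ‖s i‖) * (R * R)) * q,
    by positivity, fun L hL hR => ?_⟩
  obtain ⟨a, ha, h1, h2⟩ := Loc_norm hL hR
  have h0 := avg_pos hL
  have h3 : hS s η L = avg L * hS s η a := by
    conv_lhs => rw [h1]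
    exact hS_smul h h0 ha.pos
  rw [h3, ← h2, mul_left_comm, abs_mul, abs_of_pos h0]
  exact mul_le_mul_of_nonneg_left (ha.abs_hS_le s h.sum_zero) h0.le

theorem exists_avg_sub_mS_le {s : Fin q → ℂ} (h : SAdm s) (R : ℝ) : ∃ C : ℝ, 0 ≤ C ∧
    ∀ L : Vec q, PP L → Rat_le R L → avg L - mS s L ≤ C * (avg L * pq L) := by
  refine ⟨((∑ i, ‖s i‖) ^ 2 * R ^ 2 * Real.exp ((∑ i, ‖s i‖) * (R * R)) + |R|) * q,
    by positivity, fun L hL hR => ?_⟩
  obtain ⟨a, ha, h1, h2⟩ := Loc_norm hL hR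
  have h0 := avg_pos hL
  have h3 : mS s L = avg L * mS s a := by
    conv_lhs => rw [h1]
    exact hom_mS h _ _ h0 ha.pos.nn
  rw [h3, ← h2, mul_left_comm, ← mul_one_sub]
  exact mul_le_mul_of_nonneg_left (ha.one_sub_mS_le h.sum_one) h0.le

theorem Loc_hasSum_mom (μ : Exp q) (C : ℝ) :
    HasSum (fun ω => C * (avg (μ.L ω) * pq (μ.L ω))) (C * μ.mom 1) := by
  have h := (μ.summable_of_lin (lin_mom 1)).hasSum.mul_left C
  simpa [Exp.mom, Exp.E] using h

theorem WData.exists_W_le (D : WData q) (R : ℝ) : ∃ C : ℝ, 0 < C ∧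
    ∀ μ : Exp q, μ.Nice → μ.RB R → D.W μ ≤ C * μ.mom 1 := by
  obtain ⟨C₁, h₁, k₁⟩ := exists_Sf_le (q := q) R
  obtain ⟨C₂, h₂, k₂⟩ := exists_abs_hS_le_pq D.adm R
  refine ⟨C₁ + C₂ + 1, by positivity, fun μ hμ hR => ?_⟩
  have e1 : μ.E Sf ≤ C₁ * μ.mom 1 :=
    hasSum_le (fun ω => k₁ _ (hμ.pos ω) (hR ω)) hμ.summable_Sf.hasSum (Loc_hasSum_mom μ C₁)
  have hs := (hμ.pos.summable_hS D.adm).hasSum
  have e2 : μ.E (hS D.s D.η) ≤ C₂ * μ.mom 1 :=
    hasSum_le (fun ω => (le_abs_self _).trans (k₂ _ (hμ.pos ω) (hR ω))) hs (Loc_hasSum_mom μ C₂)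
  have e3 : -μ.E (hS D.s D.η) ≤ C₂ * μ.mom 1 :=
    hasSum_le (fun ω => (neg_le_abs _).trans (k₂ _ (hμ.pos ω) (hR ω))) hs.neg
      (Loc_hasSum_mom μ C₂)
  have e0 := μ.mom_nonneg 1
  have e4 : -D.eN * μ.E (hS D.s D.η) ≤ C₂ * μ.mom 1 := by
    have := D.eN_nonneg
    have := D.eN_le
    have : 0 ≤ C₂ * μ.mom 1 := by positivity
    nlinarith
  unfold WData.W
  have := max_le e2 e4
  nlinarith

theorem WData.exists_one_sub_M_le (D : WData q) (R : ℝ) : ∃ C : ℝ, 0 < C ∧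
    ∀ μ : Exp q, μ.Nice → μ.RB R → 1 - μ.E (mS D.s) ≤ C * μ.mom 1 := by
  obtain ⟨C₁, h₁, k₁⟩ := exists_avg_sub_mS_le (q := q) D.adm.sAdm R
  refine ⟨C₁ + 1, by positivity, fun μ hμ hR => ?_⟩
  have hs := μ.hasSum_avg.sub (μ.summable_of_lin (lin_mS D.adm.sAdm)).hasSum
  have e1 : 1 - μ.E (mS D.s) ≤ C₁ * μ.mom 1 :=
    hasSum_le (fun ω => k₁ _ (hμ.pos ω) (hR ω)) hs (Loc_hasSum_mom μ C₁)
  have e0 := μ.mom_nonneg 1
  nlinarith

end Crest.Agent.R163
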