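import Crest.Agent.R163.Basic

/-!
# R163/Moments: fourth and sixth moments under products

Recipe.  Atoms `L = ā (1 + u)`, `L' = ā' (1 + v)` (`<u> = <v> = 0`, `p = <u²>`, `p' = <v²>`), `z = <u v>`,
`avg (L * L') = ā ā' (1 + z)`, `1 + z ≥ 1/R` (indeed `1 + v i ≥ 1/R`), and
`pq (L * L') = |N|² / (1+z)²` with `N = u + v + u v - z`,
`|N|² = <N²> = P + Δ`, `P = p + p'`, `Δ = Δ₁ + ρ`, `Δ₁ = 2 z + 2 <u² v> + 2 <u v²>`, `ρ = <(u v - z)²> = <u² v²> - z²`.
Bounds: `z² ≤ p p'`, `0 ≤ ρ ≤ q p p'`, `Δ² ≤ C p p'`, `P ≤ 2 q`.  A two-variable Taylor inequality gives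
`(P + Δ)^k / (1+z)^(2k-1) ≤ P^k + k P^(k-1) Δ₁ - (2k-1) P^k z + C p p' P^(k-2)` (`k = 2, 3`), e.g. from
`1/(1+z)^m ≤ 1 - m z + K z²` on `1 + z ≥ 1/R`, `|z| ≤ q`.
The terms with `Δ₁` and `z` have zero expectation: replace `L'` by `L' ∘ σ` and average over all `σ`
(`Sym.E_comp`): `∑ σ, v (σ i) = 0`, `∑ σ, v (σ i)²` does not depend on `i` and `<u> = 0`, while `p'`, `ā'` are invariant.
So `mom k (prod) ≤ E E ā ā' ((p + p')^k + C p p' (p + p')^(k-2))`.
-/

set_option autoImplicit false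

namespace Crest.Agent.R163

variable {q : ℕ} [NeZero q]

theorem Moments_taylor (c : ℝ) {r : ℝ} (hr : 0 < r) (m : ℕ) : ∃ K : ℝ, 0 ≤ K ∧
    ∀ z : ℝ, |z| ≤ c → r ≤ 1 + z → 1 / (1 + z) ^ m ≤ 1 - m * z + K * z ^ 2 := by
  induction m with
  | zero => exact ⟨0, le_rfl, fun z _ _ => by simp⟩
  | succ m ih =>
    obtain ⟨K, hK, h⟩ := ih
    refine ⟨m + K + K * |c| + (1 + m * |c| + K * |c| ^ 2) / r, by positivity, fun z hz hz' => ?_⟩
    have hw : 0 < 1 + z := by linarith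
    have hzc : |z| ≤ |c| := hz.trans (le_abs_self c)
    have h1 : 1 / (1 + z) ^ (m + 1) ≤ (1 - m * z + K * z ^ 2) / (1 + z) := by
      rw [pow_succ, ← div_div]
      gcongr
      exact h z hz hz'
    have h2 : (1 - m * z + K * z ^ 2) / (1 + z) = 1 - (m + 1) * z +
        (m + K - K * z + (1 - m * z + K * z ^ 2) / (1 + z)) * z ^ 2 := by
      field_simp
      ring
    have h3 : (1 - m * z + K * z ^ 2) / (1 + z) ≤ (1 + m * |c| + K * |c| ^ 2) / r := by
      have e1 : -z ≤ |c| := (neg_le_abs z).trans hzc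
      have e2 : z ^ 2 ≤ |c| ^ 2 := by rw [← sq_abs z]; gcongr
      have e3 : 1 - m * z + K * z ^ 2 ≤ 1 + m * |c| + K * |c| ^ 2 := by
        have : (0 : ℝ) ≤ m := by positivity
        nlinarith
      calc _ ≤ (1 + m * |c| + K * |c| ^ 2) / (1 + z) := by gcongr
        _ ≤ _ := by gcongr
    have h4 : -(K * z) ≤ K * |c| := by
      have e1 : -z ≤ |c| := (neg_le_abs z).trans hzc
      nlinarith
    refine h1.trans (h2.le.trans ?_)
    push_cast
    gcongr
    linarith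

theorem Moments_scal {Q P s z D E A y K c C₁ m k : ℝ} (hQ : 0 ≤ Q) (hP : 0 ≤ P) (hPc : P ≤ c)
    (hz : |z| ≤ s) (hs : s ≤ c) (hD : |D| ≤ c * s) (hA : A = P ^ 2 * Q + k * P * Q * D + E)
    (hE : |E| ≤ C₁ * s ^ 2 * Q) (hA0 : 0 ≤ A) (hA1 : A ≤ C₁ * Q) (hy : y ≤ 1 - m * z + K * z ^ 2)
    (hK : 0 ≤ K) (hm : 0 ≤ m) (hk : 0 ≤ k) :
    A * y ≤ P ^ 2 * Q + k * P * Q * D - m * P ^ 2 * Q * z +
      (C₁ * (1 + m * c) + m * k * c ^ 2 + K * C₁) * s ^ 2 * Q := by
  have hs0 : 0 ≤ s := (abs_nonneg z).trans hz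
  have hc : 0 ≤ c := hP.trans hPc
  have h1 : A * y ≤ A * (1 - m * z + K * z ^ 2) := by gcongr
  have h2 : A * (K * z ^ 2) ≤ (C₁ * Q) * (K * s ^ 2) := by
    have : z ^ 2 ≤ s ^ 2 := by rw [← sq_abs z]; gcongr
    gcongr
    linarith
  have h3 : E * (1 - m * z) ≤ (C₁ * s ^ 2 * Q) * (1 + m * c) := by
    refine (le_abs_self _).trans ?_
    rw [abs_mul]
    gcongr
    · exact (abs_nonneg E).trans hE
    · refine (abs_sub _ _).trans ?_
      rw [abs_one, abs_mul, abs_of_nonneg hm]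
      gcongr
      linarith
  have h4 : -(z * D) ≤ s * (c * s) := by
    refine (neg_le_abs _).trans ?_
    rw [abs_mul]
    gcongr
  have h5 : m * k * P * Q * (-(z * D)) ≤ m * k * c * Q * (s * (c * s)) := by
    calc _ ≤ m * k * P * Q * (s * (c * s)) := by gcongr
      _ ≤ _ := by gcongr
  have e : A * (1 - m * z + K * z ^ 2) = P ^ 2 * Q + k * P * Q * D - m * P ^ 2 * Q * z +
      (E * (1 - m * z) + m * k * P * Q * (-(z * D)) + A * (K * z ^ 2)) := by
    rw [hA]; ring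
  rw [e] at h1
  linarith

theorem Moments_scal23 {c r : ℝ} (hc : 0 ≤ c) (hr : 0 < r) : ∃ C : ℝ, 0 ≤ C ∧
    ∀ P s z D ρ : ℝ, s ≤ P → P ≤ c → |z| ≤ s → |D| ≤ c * s → 0 ≤ ρ → ρ ≤ c * s ^ 2 →
      r ≤ 1 + z → 0 ≤ P + D + ρ →
      (P + D + ρ) ^ 2 / (1 + z) ^ 3 ≤ P ^ 2 + 2 * P * D - 3 * P ^ 2 * z + C * s ^ 2 ∧
      (P + D + ρ) ^ 3 / (1 + z) ^ 5 ≤ P ^ 3 + 3 * P ^ 2 * D - 5 * P ^ 3 * z + C * s ^ 2 * P := by
  obtain ⟨K3, hK3, h3⟩ := Moments_taylor c hr 3
  obtain ⟨K5, hK5, h5⟩ := Moments_taylor c hr 5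
  obtain ⟨d, hd⟩ : ∃ d, d = c + c ^ 2 := ⟨_, rfl⟩
  have hd0 : 0 ≤ d := by rw [hd]; positivity
  obtain ⟨C₁, hC₁⟩ : ∃ C₁, C₁ = 3 * c ^ 2 + 3 * d ^ 2 + d ^ 3 + ((1 + d) * c) ^ 2 * (1 + d) :=
    ⟨_, rfl⟩
  have hC0 : 0 ≤ C₁ := by rw [hC₁]; positivity
  refine ⟨(C₁ * (1 + 3 * c) + 3 * 2 * c ^ 2 + K3 * C₁) + (C₁ * (1 + 5 * c) + 5 * 3 * c ^ 2 + K5 * C₁),
    by positivity, fun P s z D ρ hsP hPc hz hD hρ0 hρ hr' hS => ?_⟩
  have hs0 : 0 ≤ s := (abs_nonneg z).trans hz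
  have hP : 0 ≤ P := hs0.trans hsP
  have hsc : s ≤ c := hsP.trans hPc
  have hΔ : |D + ρ| ≤ d * s := by
    refine (abs_add_le _ _).trans ?_
    rw [abs_of_nonneg hρ0, hd]
    have : c * s ^ 2 ≤ c * (c * s) := by rw [sq]; gcongr
    linarith
  have hΔ2 : (D + ρ) ^ 2 ≤ d ^ 2 * s ^ 2 := by rw [← sq_abs, ← mul_pow]; gcongr
  have hS1 : P + D + ρ ≤ (1 + d) * P := by
    have : d * s ≤ d * P := by gcongr
    linarith [le_abs_self (D + ρ)]
  have hS2 : (P + D + ρ) ^ 2 ≤ ((1 + d) * c) ^ 2 := by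
    gcongr
    exact hS1.trans (by gcongr)
  have hPρ : P * ρ ≤ c ^ 2 * s ^ 2 := by
    calc _ ≤ c * (c * s ^ 2) := by gcongr
      _ = _ := by ring
  have hx : 0 ≤ ((1 + d) * c) ^ 2 := by positivity
  have hx2 : 0 ≤ c ^ 2 * s ^ 2 := by positivity
  have hx3 : 0 ≤ d ^ 2 * s ^ 2 := by positivity
  have hx4 : 0 ≤ d ^ 3 * s ^ 2 := by positivity
  have hx5 : 0 ≤ ((1 + d) * c) ^ 2 * (1 + d) * s ^ 2 := by positivity
  constructor
  · have h := Moments_scal (Q := 1) (k := 2) (m := 3) (A := (P + D + ρ) ^ 2) (C₁ := C₁)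
      (E := 2 * (P * ρ) + (D + ρ) ^ 2) zero_le_one hP hPc hz hsc hD (by ring)
      (by rw [abs_of_nonneg (by positivity), hC₁]; linarith) (by positivity)
      (by rw [hC₁]; linarith [sq_nonneg c, sq_nonneg d, pow_nonneg hd0 3, mul_nonneg hx hd0])
      (by exact_mod_cast h3 z (hz.trans hsc) hr') hK3 (by norm_num) (by norm_num)
    rw [mul_one_div] at h
    refine h.trans ?_
    have : 0 ≤ (C₁ * (1 + 5 * c) + 5 * 3 * c ^ 2 + K5 * C₁) * s ^ 2 := by positivity
    linarith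
  · have hE : |3 * (P * ρ) * P + 3 * (D + ρ) ^ 2 * P + (D + ρ) ^ 2 * (D + ρ)| ≤
        C₁ * s ^ 2 * P := by
      refine (abs_add_le _ _).trans ?_
      rw [abs_of_nonneg (by positivity), abs_mul, abs_of_nonneg (sq_nonneg _)]
      have e1 : (D + ρ) ^ 2 * |D + ρ| ≤ d ^ 2 * s ^ 2 * (d * P) := by
        gcongr
        exact hΔ.trans (by gcongr)
      have e2 : 3 * (P * ρ) * P ≤ 3 * (c ^ 2 * s ^ 2) * P := by gcongr
      have e3 : 3 * (D + ρ) ^ 2 * P ≤ 3 * (d ^ 2 * s ^ 2) * P := by gcongr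
      rw [hC₁]
      linarith [mul_nonneg hx5 hP]
    have hA1 : (P + D + ρ) ^ 3 ≤ C₁ * P := by
      calc (P + D + ρ) ^ 3 = (P + D + ρ) ^ 2 * (P + D + ρ) := by ring
        _ ≤ ((1 + d) * c) ^ 2 * ((1 + d) * P) := by gcongr
        _ = ((1 + d) * c) ^ 2 * (1 + d) * P := by ring
        _ ≤ C₁ * P := by
          gcongr
          rw [hC₁]
          linarith [sq_nonneg c, sq_nonneg d, pow_nonneg hd0 3]
    have h := Moments_scal (Q := P) (k := 3) (m := 5) (A := (P + D + ρ) ^ 3) (C₁ := C₁)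
      hP hP hPc hz hsc hD (by ring) hE (by positivity) hA1
      (by exact_mod_cast h5 z (hz.trans hsc) hr') hK5 (by norm_num) (by norm_num)
    rw [mul_one_div] at h
    refine h.trans ?_
    have : 0 ≤ (C₁ * (1 + 3 * c) + 3 * 2 * c ^ 2 + K3 * C₁) * s ^ 2 * P := by positivity
    linarith

/-- the centred normalised vector -/
noncomputable def Moments_u (L : Vec q) : Vec q := fun i => L i / avg L - 1

omit [NeZero q] in
theorem Moments_avg_add (f g : Vec q) : avg (fun i => f i + g i) = avg f + avg g := avg_add f g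

omit [NeZero q] in
theorem Moments_avg_mul (c : ℝ) (f : Vec q) : avg (fun i => c * f i) = c * avg f := avg_smul c f

theorem Moments_cs (f g : Vec q) :
    avg (fun i => f i * g i) ^ 2 ≤ avg (fun i => f i ^ 2) * avg (fun i => g i ^ 2) := by
  have hq : (0 : ℝ) < q := Nat.cast_pos.2 (Nat.pos_of_ne_zero (NeZero.ne q))
  simp only [avg]
  rw [div_pow, div_mul_div_comm, ← sq]
  gcongr
  exact Finset.sum_mul_sq_le_sq_mul_sq _ _ _

theorem Moments_avg_u {L : Vec q} (h : PP L) : avg (Moments_u L) = 0 := by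
  have h0 := (avg_pos h).ne'
  have : Moments_u L = fun i => (avg L)⁻¹ * L i + (-1) := by
    funext i; simp only [Moments_u]; ring
  rw [this, Moments_avg_add, Moments_avg_mul, avg_const, inv_mul_cancel₀ h0, add_neg_cancel]

theorem Moments_abs_u {L : Vec q} (h : PP L) (i : Fin q) : |Moments_u L i| ≤ q := by
  have h0 := avg_pos h
  have hq : (1 : ℝ) ≤ q := Nat.one_le_cast.2 (Nat.pos_of_ne_zero (NeZero.ne q))
  have h1 : L i / avg L ≤ q := (div_le_iff₀ h0).2 (le_mul_avg h.nn i)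
  have h2 : 0 ≤ L i / avg L := div_nonneg (h i).le h0.le
  rw [abs_le]
  simp only [Moments_u]
  constructor <;> linarith

omit [NeZero q] in
theorem Moments_u_comp (L : Vec q) (σ : Equiv.Perm (Fin q)) (i : Fin q) :
    Moments_u (L ∘ σ) i = Moments_u L (σ i) := by
  simp only [Moments_u, avg_comp, Function.comp_apply]

theorem Moments_div2 {w : ℝ} (hw : w ≠ 0) (a S : ℝ) :
    a * w * (S / w ^ 2) ^ 2 = a * (S ^ 2 / w ^ 3) := by
  field_simp

theorem Moments_div3 {w : ℝ} (hw : w ≠ 0) (a S : ℝ) :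
    a * w * (S / w ^ 2) ^ 3 = a * (S ^ 3 / w ^ 5) := by
  field_simp

/-- the pointwise inequality -/
theorem Moments_point (q : ℕ) [NeZero q] {R : ℝ} (hR : 0 < R) : ∃ C : ℝ, 0 ≤ C ∧
    ∀ L L' : Vec q, PP L → PP L' → Rat_le R L' → ∀ z D : ℝ,
      z = avg (fun i => Moments_u L i * Moments_u L' i) →
      D = 2 * z + 2 * avg (fun i => Moments_u L i ^ 2 * Moments_u L' i) +
        2 * avg (fun i => Moments_u L i * Moments_u L' i ^ 2) →
      avg (L * L') * pq (L * L') ^ 2 ≤ avg L * avg L' * ((pq L + pq L') ^ 2 +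
        2 * (pq L + pq L') * D - 3 * (pq L + pq L') ^ 2 * z + C * (pq L * pq L')) ∧
      avg (L * L') * pq (L * L') ^ 3 ≤ avg L * avg L' * ((pq L + pq L') ^ 3 +
        3 * (pq L + pq L') ^ 2 * D - 5 * (pq L + pq L') ^ 3 * z +
          C * (pq L * pq L') * (pq L + pq L')) := by
  have hq : (1 : ℝ) ≤ q := Nat.one_le_cast.2 (Nat.pos_of_ne_zero (NeZero.ne q))
  obtain ⟨C, hC, H⟩ := Moments_scal23 (c := 6 * q) (r := 1 / R) (by positivity) (by positivity)
  refine ⟨C, hC, fun L L' hL hL' hRat z D hz hD => ?_⟩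
  have ha := avg_pos hL
  have ha' := avg_pos hL'
  have hu0 := Moments_avg_u hL
  have hv0 := Moments_avg_u hL'
  have hu1 := Moments_abs_u hL
  have hv1 := Moments_abs_u hL'
  have hp : pq L = avg fun i => Moments_u L i ^ 2 := rfl
  have hp' : pq L' = avg fun i => Moments_u L' i ^ 2 := rfl
  have hp0 := pq_nonneg L
  have hp0' := pq_nonneg L'
  have hp1 := pq_le hL.nn
  have hp1' := pq_le hL'.nn
  have hLu : ∀ i, L i = avg L * (1 + Moments_u L i) := fun i => by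
    simp only [Moments_u]; field_simp; ring
  have hLv : ∀ i, L' i = avg L' * (1 + Moments_u L' i) := fun i => by
    simp only [Moments_u]; field_simp; ring
  have hu2 : ∀ i, 0 ≤ 1 + Moments_u L i := fun i => by
    have := div_nonneg (hL i).le ha.le
    simp only [Moments_u]; linarith
  have hv2 : ∀ i, 1 / R ≤ 1 + Moments_u L' i := fun i => by
    have h1 : avg L' ≤ R * L' i := (avg_mono fun j => hRat j i).trans_eq (avg_const _)
    have h2 : 1 / R ≤ L' i / avg L' := by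
      rw [div_le_div_iff₀ hR ha']; linarith
    simp only [Moments_u]; linarith
  generalize Moments_u L = u at *
  generalize Moments_u L' = v at *
  have e0 : avg (fun i => (1 + u i) * (1 + v i)) = 1 + z := by
    have : (fun i => (1 + u i) * (1 + v i)) = fun i => 1 + (u i + (v i + u i * v i)) := by
      funext i; ring
    rw [this, Moments_avg_add, Moments_avg_add, Moments_avg_add, avg_const, hu0, hv0, hz]
    ring
  have hw : 1 / R ≤ 1 + z := by
    rw [← e0]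
    refine le_trans (le_of_eq ?_) (avg_mono (L := fun i => 1 / R * (1 + u i)) fun i => ?_)
    · rw [Moments_avg_mul, Moments_avg_add, avg_const, hu0]; ring
    · rw [mul_comm]; gcongr
      · exact hu2 i
      · exact hv2 i
  have hw0 : 0 < 1 + z := lt_of_lt_of_le (by positivity) hw
  have e1 : avg (L * L') = avg L * avg L' * (1 + z) := by
    rw [← e0, ← Moments_avg_mul]
    congr 1
    funext i
    rw [Pi.mul_apply, hLu i, hLv i]
    ring
  obtain ⟨ρ, hρ⟩ : ∃ ρ, ρ = avg (fun i => u i ^ 2 * v i ^ 2) - z ^ 2 := ⟨_, rfl⟩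
  have e2 : avg (fun i => (u i + v i + u i * v i - z) ^ 2) = pq L + pq L' + D + ρ := by
    have : (fun i => (u i + v i + u i * v i - z) ^ 2) = fun i => u i ^ 2 + (v i ^ 2 +
        (u i ^ 2 * v i ^ 2 + (z ^ 2 + ((2 - 2 * z) * (u i * v i) + (2 * (u i ^ 2 * v i) +
          (2 * (u i * v i ^ 2) + ((-2 * z) * u i + (-2 * z) * v i))))))) := by
      funext i; ring
    rw [this]
    simp only [Moments_avg_add, Moments_avg_mul, avg_const]
    rw [hu0, hv0, ← hz, hD, hρ, hp, hp']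
    ring
  have e3 : pq (L * L') = (pq L + pq L' + D + ρ) / (1 + z) ^ 2 := by
    rw [← e2, pq, e1, div_eq_inv_mul, ← Moments_avg_mul ((1 + z) ^ 2)⁻¹]
    congr 1
    funext i
    rw [Pi.mul_apply]
    nth_rw 1 [hLu i, hLv i]
    field_simp
    ring
  have hS : 0 ≤ pq L + pq L' + D + ρ := by
    rw [← e2]; exact avg_nonneg fun i => sq_nonneg _
  have hs2 : √(pq L * pq L') ^ 2 = pq L * pq L' := Real.sq_sqrt (by positivity)
  have hz1 : |z| ≤ √(pq L * pq L') := by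
    rw [hz, hp, hp']; exact Real.abs_le_sqrt (Moments_cs u v)
  have h4 : ∀ w : Vec q, (∀ i, |w i| ≤ q) →
      avg (fun i => (w i ^ 2) ^ 2) ≤ q ^ 2 * avg fun i => w i ^ 2 := fun w hw => by
    rw [← Moments_avg_mul]
    refine avg_mono fun i => ?_
    have : w i ^ 2 ≤ q ^ 2 := by rw [← sq_abs]; gcongr; exact hw i
    nlinarith [sq_nonneg (w i)]
  have hz2 : |avg fun i => u i ^ 2 * v i| ≤ q * √(pq L * pq L') := by
    refine abs_le_of_sq_le_sq' ?_ (by positivity) |> abs_le.2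
    rw [mul_pow, hs2, ← mul_assoc]
    refine (Moments_cs (fun i => u i ^ 2) v).trans ?_
    rw [← hp']
    gcongr
    rw [hp]; exact h4 u hu1
  have hz3 : |avg fun i => u i * v i ^ 2| ≤ q * √(pq L * pq L') := by
    refine abs_le_of_sq_le_sq' ?_ (by positivity) |> abs_le.2
    rw [mul_pow, hs2, mul_left_comm]
    refine (Moments_cs u (fun i => v i ^ 2)).trans ?_
    rw [← hp]
    gcongr
    rw [hp']; exact h4 v hv1
  have hs0 := Real.sqrt_nonneg (pq L * pq L')
  have hD1 : |D| ≤ 6 * q * √(pq L * pq L') := by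
    have := abs_le.1 hz1
    have := abs_le.1 hz2
    have := abs_le.1 hz3
    have : √(pq L * pq L') ≤ q * √(pq L * pq L') := le_mul_of_one_le_left hs0 hq
    rw [abs_le, hD]
    constructor <;> linarith
  have hρ0 : 0 ≤ ρ := by
    have := Moments_cs (fun i => u i * v i) (fun _ => 1)
    simp only [mul_one, one_pow, avg_const, mul_pow] at this
    rw [hρ, hz]; linarith
  have hρ1 : ρ ≤ 6 * q * √(pq L * pq L') ^ 2 := by
    have h1 : avg (fun i => u i ^ 2 * v i ^ 2) ≤ q * pq L * pq L' := by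
      rw [hp', ← Moments_avg_mul]
      refine avg_mono fun i => ?_
      gcongr
      rw [hp]
      exact le_mul_avg (L := fun i => u i ^ 2) (fun i => sq_nonneg _) i
    rw [hs2, hρ]
    have : 0 ≤ q * pq L * pq L' := by positivity
    linarith [sq_nonneg z]
  have hsP : √(pq L * pq L') ≤ pq L + pq L' :=
    Real.sqrt_le_iff.2 ⟨by positivity, by nlinarith [mul_nonneg hp0 hp0']⟩
  obtain ⟨H2, H3⟩ := H (pq L + pq L') _ z D ρ hsP (by linarith) hz1 hD1 hρ0 hρ1 hw hS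
  rw [hs2] at H2 H3
  rw [e1, e3]
  constructor
  · exact le_trans (le_of_eq (Moments_div2 hw0.ne' _ _))
      (mul_le_mul_of_nonneg_left H2 (mul_pos ha ha').le)
  · exact le_trans (le_of_eq (Moments_div3 hw0.ne' _ _))
      (mul_le_mul_of_nonneg_left H3 (mul_pos ha ha').le)

theorem Moments_vanish {ν : Exp q} (hν : ν.Sym) (Φ : Vec q → Fin q → ℝ)
    (hΦ : ∀ L (σ : Equiv.Perm (Fin q)) i, Φ (L ∘ σ) i = Φ L (σ i))
    (hs : ∀ i, Summable fun ω => Φ (ν.L ω) i) (w : Vec q)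
    (h : avg w = 0 ∨ ∀ ω, avg (Φ (ν.L ω)) = 0) :
    HasSum (fun ω => avg fun i => w i * Φ (ν.L ω) i) 0 := by
  have hE : ∀ i, ν.E (fun L => Φ L i) = ν.E (fun L => Φ L 0) := fun i => by
    rw [← hν.E_comp (fun L => Φ L 0) (Equiv.swap 0 i)]
    simp only [hΦ, Equiv.swap_apply_left]
  have key : ∀ w : Vec q, HasSum (fun ω => avg fun i => w i * Φ (ν.L ω) i)
      (ν.E (fun L => Φ L 0) * avg w) := fun w => by
    have h1 := (hasSum_sum (s := Finset.univ) fun i _ => (hs i).hasSum.mul_left (w i)).div_const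
      (q : ℝ)
    have h2 : ν.E (fun L => Φ L 0) * avg w = (∑ i, w i * ∑' ω, Φ (ν.L ω) i) / q := by
      rw [← Moments_avg_mul, avg]
      congr 1
      refine Finset.sum_congr rfl fun i _ => ?_
      rw [mul_comm, ← hE i]
      rfl
    rw [h2]
    exact h1
  rcases h with h | h
  · simpa [h] using key w
  · have h1 := key fun _ => 1
    simp only [one_mul, avg_const, mul_one] at h1
    have h2 : (fun ω => avg fun i => Φ (ν.L ω) i) = fun _ => 0 := funext h
    rw [h2] at h1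
    have h3 := h1.unique hasSum_zero
    simpa [h3] using key w

theorem Moments_vanish' {ν : Exp q} (hν : ν.Sym) (hp : ν.Pos) {p : ℝ} (hp0 : 0 ≤ p) (k : ℕ)
    (w : Vec q) : HasSum (fun ω => avg (ν.L ω) * (p + pq (ν.L ω)) ^ k *
        avg fun i => w i * Moments_u (ν.L ω) i) 0 ∧
      (avg w = 0 → HasSum (fun ω => avg (ν.L ω) * (p + pq (ν.L ω)) ^ k *
        avg fun i => w i * Moments_u (ν.L ω) i ^ 2) 0) := by
  have hs : ∀ (j : ℕ) i, Summable fun ω =>
      avg (ν.L ω) * (p + pq (ν.L ω)) ^ k * Moments_u (ν.L ω) i ^ j := fun j i => by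
    refine ν.summable_of_le (C := (p + q) ^ k * q ^ j) fun ω => ?_
    have h1 := avg_pos (hp ω)
    have h2 := pq_nonneg (ν.L ω)
    have h3 := pq_le (ν.nonneg ω)
    have h4 := Moments_abs_u (hp ω) i
    rw [abs_mul, abs_of_nonneg (by positivity), abs_pow]
    calc _ ≤ avg (ν.L ω) * (p + q) ^ k * q ^ j := by gcongr
      _ = _ := by ring
  have key : ∀ j : ℕ, (avg w = 0 ∨ j = 1) → HasSum (fun ω => avg (ν.L ω) * (p + pq (ν.L ω)) ^ k *
        avg fun i => w i * Moments_u (ν.L ω) i ^ j) 0 := fun j hj => by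
    have := Moments_vanish hν (fun L i => avg L * (p + pq L) ^ k * Moments_u L i ^ j)
      (fun L σ i => by rw [avg_comp, pq_comp, Moments_u_comp]) (hs j) w
      (hj.imp_right fun hj ω => by
        subst hj
        simp only [pow_one]
        rw [Moments_avg_mul, Moments_avg_u (hp ω), mul_zero])
    convert this using 2 with ω
    rw [← Moments_avg_mul]
    congr 1
    funext i
    ring
  exact ⟨by simpa using key 1 (Or.inr rfl), fun h => key 2 (Or.inl h)⟩

theorem Moments_hasSum (μ : Exp q) (k : ℕ) :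
    HasSum (fun ω => avg (μ.L ω) * pq (μ.L ω) ^ k) (μ.mom k) :=
  (μ.summable_of_lin (lin_mom k)).hasSum

theorem Moments_inner_summable (ν : Exp q) {L : Vec q} (hL : NN L) (k : ℕ) :
    Summable fun ω => avg (L * ν.L ω) * pq (L * ν.L ω) ^ k := by
  have := ν.summable_of_lin ((lin_mom k).comp_mul hL)
  simpa only [mul_comm L] using this

theorem exists_mom_prod_le (q : ℕ) [NeZero q] (R : ℝ) : ∃ C : ℝ, 0 ≤ C ∧
    ∀ μ ν : Exp q, μ.Sym → ν.Sym → μ.Pos → ν.Pos → μ.RB R → ν.RB R →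
      (Exp.prod μ ν).mom 2 ≤ μ.mom 2 + ν.mom 2 + C * (μ.mom 1 * ν.mom 1) ∧
      (Exp.prod μ ν).mom 3 ≤ μ.mom 3 + ν.mom 3 + C * (μ.mom 2 * ν.mom 1 + μ.mom 1 * ν.mom 2) :=
  by
  obtain ⟨C, hC, H⟩ := Moments_point q (R := max R 1) (by positivity)
  refine ⟨C + 3, by positivity, fun μ ν _ hν hμp hνp _ hνR => ?_⟩
  have hνR' := hνR.mono (le_max_left R 1)
  have hm := ν.mom_nonneg
  have inner : ∀ L : Vec q, PP L →
      (ν.E fun L' => avg (L * L') * pq (L * L') ^ 2) ≤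
        avg L * pq L ^ 2 + ν.mom 2 * avg L + (C + 2) * ν.mom 1 * (avg L * pq L ^ 1) ∧
      (ν.E fun L' => avg (L * L') * pq (L * L') ^ 3) ≤
        avg L * pq L ^ 3 + ν.mom 3 * avg L + (C + 3) * ν.mom 1 * (avg L * pq L ^ 2) +
          (C + 3) * ν.mom 2 * (avg L * pq L ^ 1) := by
    intro L hL
    have hp0 := pq_nonneg L
    have hu0 := Moments_avg_u hL
    have A := fun k => (Moments_vanish' hν hνp hp0 k (Moments_u L)).1
    have B := fun k => (Moments_vanish' hν hνp hp0 k fun i => Moments_u L i ^ 2).1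
    have D := fun k => (Moments_vanish' hν hνp hp0 k (Moments_u L)).2 hu0
    have M0 := ν.hasSum_avg
    have M := Moments_hasSum ν
    constructor
    · have h1 := (((((((M0.mul_left (pq L ^ 2)).add (M 2)).add
        ((M 1).mul_left ((C + 2) * pq L))).add ((A 1).mul_left 4)).add ((B 1).mul_left 4)).add
          ((D 1).mul_left 4)).add ((A 2).mul_left (-3))).mul_left (avg L)
      refine (hasSum_le (fun ω => ?_) (Moments_inner_summable ν hL.nn 2).hasSum h1).trans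
        (le_of_eq (by ring))
      exact (H L _ hL (hνp ω) (hνR' ω) _ _ rfl rfl).1.trans (le_of_eq (by ring))
    · have h1 := ((((((((M0.mul_left (pq L ^ 3)).add (M 3)).add
        ((M 1).mul_left ((C + 3) * pq L ^ 2))).add ((M 2).mul_left ((C + 3) * pq L))).add
          ((A 2).mul_left 6)).add ((B 2).mul_left 6)).add
          ((D 2).mul_left 6)).add ((A 3).mul_left (-5))).mul_left (avg L)
      refine (hasSum_le (fun ω => ?_) (Moments_inner_summable ν hL.nn 3).hasSum h1).trans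
        (le_of_eq (by ring))
      exact (H L _ hL (hνp ω) (hνR' ω) _ _ rfl rfl).2.trans (le_of_eq (by ring))
  have M0 := μ.hasSum_avg
  have M := Moments_hasSum μ
  have hm' := μ.mom_nonneg
  constructor
  · rw [Exp.mom, Exp.E_prod μ ν (lin_mom 2)]
    have h1 := ((M 2).add (M0.mul_left (ν.mom 2))).add ((M 1).mul_left ((C + 2) * ν.mom 1))
    refine (hasSum_le (fun ω => (inner _ (hμp ω)).1)
      (μ.summable_of_lin (ν.lin_E_mul (lin_mom 2))).hasSum h1).trans ?_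
    nlinarith [mul_nonneg (hm' 1) (hm 1)]
  · rw [Exp.mom, Exp.E_prod μ ν (lin_mom 3)]
    have h1 := (((M 3).add (M0.mul_left (ν.mom 3))).add
      ((M 2).mul_left ((C + 3) * ν.mom 1))).add ((M 1).mul_left ((C + 3) * ν.mom 2))
    exact (hasSum_le (fun ω => (inner _ (hμp ω)).2)
      (μ.summable_of_lin (ν.lin_E_mul (lin_mom 3))).hasSum h1).trans (le_of_eq (by ring))

end Crest.Agent.R163
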