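import Crest.Agent.R163.Basic

/-!
# R163/TreeLink: `treeAdvantage` is `E tv` of `treeExp` with perfect leaves

Suggested route.  For `f : V → Vec q` let `G f 0 v = f v`, `G f (m+1) v = ∏ c ∈ children v, Pm lam (G f m c)`
(pointwise product).  (1) `∑ τ, levelLaw n i τ * ∏ w : level n, f w (τ w) = G f n root i` (induction on `n`
for all `f`: `G f (n+1) root = G f' n root` where `f' v = ∏ c ∈ children v, Pm lam (f c)`; `Finset.prod_univ_sum`,
`level (n+1)` is the disjoint union of the `children v`, `v ∈ level n`), hence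
`levelLaw n i τ = G (δ τ) n root i` with `δ τ w = Pi.single (τ w) 1` on `level n`.
(2) For `depth v + m = n` and every `ψ` which is `Lin` and `Hom`:
`(treeExp .. perfect m v).E ψ = (1/q^N) ∑ τ : level n → Fin q, ψ (G (q • δ τ) m v)`, `N = card (level n)`
(uniform average over `τ`; `G (..) m v` depends only on the coordinates below `v`; for a list of distinct
children use `E_prod` and independence via the bijection `(τ, τ') ↦ (piecewise D τ τ', piecewise D τ' τ)`).
Alternatively build directly a bijection between `level n → Fin q` and the atoms, level by level.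
Any proof is welcome.
-/

set_option autoImplicit false

namespace Crest.Agent.R163

open Crest.ProbabilityR Crest.ProbabilityR.TreeBroadcast

variable {q : ℕ} [NeZero q]

namespace TreeLink

omit [NeZero q] in
theorem prodL_list {V : Type*} (F : V → Exp q) (l : List V) :
    ∃ e : (Π k : Fin l.length, (F (l.get k)).Ω) ≃ (Exp.prodL (l.map F)).Ω,
      ∀ ω i, (Exp.prodL (l.map F)).L (e ω) i = ∏ k, (F (l.get k)).L (ω k) i := by
  induction l with
  | nil =>
    refine ⟨⟨fun _ => (), fun _ k => k.elim0, fun ω => ?_, fun _ => rfl⟩, fun ω i => ?_⟩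
    · funext k; exact k.elim0
    · exact (Finset.prod_empty).symm
  | cons a l ih =>
    obtain ⟨e, he⟩ := ih
    refine ⟨(Fin.consEquiv (fun k : Fin (l.length + 1) => (F ((a :: l).get k)).Ω)).symm.trans
      (Equiv.prodCongr (Equiv.refl _) e), fun ω i => ?_⟩
    have h1 := Fin.prod_univ_succ (n := l.length)
      (fun k : Fin (l.length + 1) => (F ((a :: l).get k)).L (ω k) i)
    refine Eq.trans ?_ h1.symm
    exact congrArg (fun x => (F a).L (ω 0) i * x) (he (fun k => ω k.succ) i)

omit [NeZero q] in
theorem prodL_finset {V : Type*} [DecidableEq V] (F : V → Exp q) (s : Finset V) :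
    ∃ e : (Π c : s, (F c).Ω) ≃ (Exp.prodL (s.toList.map F)).Ω,
      ∀ ω i, (Exp.prodL (s.toList.map F)).L (e ω) i = ∏ c : s, (F c).L (ω c) i := by
  obtain ⟨e, he⟩ := prodL_list F s.toList
  let g : Fin s.toList.length ≃ s :=
    (List.Nodup.getEquiv s.toList s.nodup_toList).trans
      (Equiv.subtypeEquivRight fun x => Finset.mem_toList)
  refine ⟨(Equiv.piCongrLeft (fun c : s => (F c).Ω) g).symm.trans e, fun ω i => ?_⟩
  refine (he _ i).trans ?_
  exact Fintype.prod_equiv g _ _ fun k => rfl

variable {V : Type*} [DecidableEq V] (T : LocFinTree V)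

omit [DecidableEq V] in
theorem par_mem {n : ℕ} {v : V} (hv : v ∈ T.level (n + 1)) : T.parent v ∈ T.level n := by
  have hd : T.depth v = n + 1 := (T.mem_level_iff _ _).1 hv
  have hne : v ≠ T.root := fun h => by
    have := (T.depth_eq_zero_iff v).2 h; omega
  have := T.depth_parent v hne
  exact (T.mem_level_iff _ _).2 (by omega)

theorem mem_children_par {n : ℕ} {v : V} (hv : v ∈ T.level (n + 1)) :
    v ∈ T.children (T.parent v) := by
  have h1 := (T.mem_level_iff _ _).1 (par_mem T hv)
  unfold LocFinTree.children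
  rw [h1]
  exact Finset.mem_filter.2 ⟨hv, rfl⟩

theorem child_mem {n : ℕ} {w c : V} (hw : w ∈ T.level n) (hc : c ∈ T.children w) :
    c ∈ T.level (n + 1) := by
  have h1 := (T.mem_level_iff _ _).1 hw
  unfold LocFinTree.children at hc
  rw [h1] at hc
  exact (Finset.mem_filter.1 hc).1

theorem par_child {w c : V} (hc : c ∈ T.children w) : T.parent c = w :=
  (Finset.mem_filter.1 hc).2

/-- level `n + 1` is the disjoint union of the children of the vertices of level `n` -/
def lev (n : ℕ) : (Σ w : T.level n, T.children w) ≃ T.level (n + 1) where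
  toFun x := ⟨x.2.1, child_mem T x.1.2 x.2.2⟩
  invFun c := ⟨⟨T.parent c, par_mem T c.2⟩, ⟨c, mem_children_par T c.2⟩⟩
  left_inv := by
    rintro ⟨⟨w, hw⟩, ⟨c, hc⟩⟩
    obtain rfl := par_child T hc
    rfl
  right_inv c := rfl

def cur (n : ℕ) (X : V → Type) :
    (Π c : T.level (n + 1), X c) ≃ (Π w : T.level n, Π c : T.children w, X c) where
  toFun ω w c := ω ⟨c.1, child_mem T w.2 c.2⟩
  invFun ω c := ω ⟨T.parent c, par_mem T c.2⟩ ⟨c, mem_children_par T c.2⟩
  left_inv ω := rfl
  right_inv ω := by
    funext w c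
    obtain ⟨w, hw⟩ := w
    obtain ⟨c, hc⟩ := c
    obtain rfl := par_child T hc
    rfl

theorem treeExp_succ {lam : ℝ} (h : Adm q lam) (leaf : V → Exp q) (n : ℕ) (v : V) :
    treeExp T lam h leaf (n + 1) v = treeExp T lam h
      (fun w => Exp.prodL ((T.children w).toList.map fun c => Exp.chan lam h (leaf c))) n v := by
  induction n generalizing v with
  | zero => rfl
  | succ n ih =>
    rw [treeExp]
    conv_rhs => rw [treeExp]
    simp only [ih]

omit [NeZero q] in
theorem Pm_eq (lam : ℝ) (L : Vec q) (i : Fin q) :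
    Pm lam L i = ∑ j, Broadcast.channel q lam i j * L j := by
  unfold Pm avg Broadcast.channel
  simp only [add_mul, Finset.sum_add_distrib, ite_mul, zero_mul, Finset.sum_ite_eq,
    Finset.mem_univ, if_true, ← Finset.mul_sum]
  ring

theorem rep {lam : ℝ} (h : Adm q lam) (n : ℕ) (leaf : V → Exp q) :
    ∃ e : (Π w : T.level n, (leaf w).Ω) ≃ (treeExp T lam h leaf n T.root).Ω,
      ∀ ω i, (treeExp T lam h leaf n T.root).L (e ω) i =
        ∑ τ : T.level n → Fin q, levelLaw q T lam n i τ *
          ∏ w : T.level n, (leaf w).L (ω w) (τ w) := by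
  induction n generalizing leaf with
  | zero =>
    have hr : T.root ∈ T.level 0 :=
      (T.mem_level_iff 0 T.root).2 ((T.depth_eq_zero_iff T.root).2 rfl)
    let U : Unique (T.level 0) :=
      ⟨⟨⟨T.root, hr⟩⟩, fun w => Subtype.ext
        ((T.depth_eq_zero_iff _).1 ((T.mem_level_iff 0 _).1 w.2))⟩
    refine ⟨Equiv.piUnique (fun w : T.level 0 => (leaf w).Ω), fun ω i => ?_⟩
    rw [Finset.sum_eq_single (fun _ => i)]
    · rw [Fintype.prod_unique]
      simp only [levelLaw, if_true, one_mul]
      rfl
    · intro τ _ hτ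
      have : τ ⟨T.root, hr⟩ ≠ i := by
        intro hh
        apply hτ
        funext w
        rw [Subsingleton.elim w ⟨T.root, hr⟩, hh]
      simp only [levelLaw]
      rw [if_neg this, zero_mul]
    · simp
  | succ n ih =>
    rw [treeExp_succ]
    obtain ⟨e, he⟩ := ih
      (fun w => Exp.prodL ((T.children w).toList.map fun c => Exp.chan lam h (leaf c)))
    choose f hf using fun w : T.level n =>
      prodL_finset (fun c => Exp.chan lam h (leaf c)) (T.children w)
    refine ⟨((cur T n fun c => (leaf c).Ω).trans (Equiv.piCongrRight f)).trans e, fun ω i => ?_⟩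
    rw [Equiv.trans_apply, he]
    simp only [levelLaw, Finset.sum_mul]
    rw [Finset.sum_comm]
    refine Finset.sum_congr rfl fun τ' _ => ?_
    simp only [mul_assoc, ← Finset.mul_sum]
    congr 1
    simp only [← Finset.prod_mul_distrib]
    have h1 : ∀ w : T.level n,
        (Exp.prodL ((T.children w).toList.map fun c => Exp.chan lam h (leaf c))).L
          (((cur T n fun c => (leaf c).Ω).trans (Equiv.piCongrRight f)) ω w) (τ' w)
        = ∏ c : T.children w, ∑ j, Broadcast.channel q lam (τ' w) j *
            (leaf c).L (ω ⟨c.1, child_mem T w.2 c.2⟩) j := by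
      intro w
      refine (hf w _ _).trans (Finset.prod_congr rfl fun c _ => ?_)
      exact Pm_eq lam _ _
    rw [Finset.prod_congr rfl fun w _ => h1 w, ← Fintype.prod_sigma']
    rw [Fintype.prod_equiv (lev T n) _ (fun c : T.level (n + 1) =>
      ∑ j, Broadcast.channel q lam (τ' ⟨T.parent c, par_mem T c.2⟩) j * (leaf c).L (ω c) j)]
    · rw [Finset.prod_univ_sum, Fintype.piFinset_univ]
    · rintro ⟨⟨w, hw⟩, ⟨c, hc⟩⟩
      obtain rfl := par_child T hc
      rfl

end TreeLink

theorem treeAdvantage_eq {V : Type*} [DecidableEq V] (T : LocFinTree V) {lam : ℝ} (h : Adm q lam)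
    (n : ℕ) :
    treeAdvantage q T lam n = (treeExp T lam h (fun _ => Exp.perfect) n T.root).E tv := by
  obtain ⟨e, he⟩ := TreeLink.rep T h n (fun _ => Exp.perfect)
  have he' : ∀ (ω : T.level n → Fin q) i,
      (treeExp T lam h (fun _ => Exp.perfect) n T.root).L (e ω) i = levelLaw q T lam n i ω := by
    intro ω i
    rw [he, Finset.sum_eq_single ω]
    · simp [Exp.perfect]
    · intro τ _ hτ
      obtain ⟨w, hw⟩ := Function.ne_iff.1 hτ
      rw [Finset.prod_eq_zero (Finset.mem_univ w), mul_zero]
      exact if_neg (Ne.symm hw)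
    · simp
  unfold Exp.E treeAdvantage
  rw [← e.tsum_eq]
  change _ = ∑' ω : T.level n → Fin q, _
  rw [tsum_fintype, Finset.mul_sum]
  refine Finset.sum_congr rfl fun ω _ => ?_
  unfold tv avg
  simp only [he']
  congr 1
  refine Finset.sum_congr rfl fun i _ => ?_
  congr 2
  ring

end Crest.Agent.R163
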