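import Crest.Agent.R163.Chan
import Crest.Agent.R163.Loc
import Crest.Agent.R163.Order
import Crest.Agent.R163.TreeLink
import Crest.Agent.R163.FlowEnergy
import Crest.Agent.R163.Moments

/-!
# R163/TreeLow: positive cubic capacity implies reconstruction

Recipe.  Take `a⁰, Bud⁰` from `exists_budget`, `a = ε a⁰`, `Bud = ε² Bud⁰`, `R = (2 q / (1 - lam))^(B+1)`.
Noisy leaves `leaf v = chan (κ v) perfect`, `κ v = √(a v / C0)` with `C0 = C_W (q - 1) + 1`, `κ v ≤ 1/2` for small `ε`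
(`mom_chan`, `mom_perfect`: `mom k (leaf v) = (κ² (q-1))^k`).  `X m v = treeExp T lam h leaf m v` is `Nice`, `RB R`.
By induction on `m` (and on the list of children, all partial products being `RB R`):
`W (X m v) ≤ a v`, `mom 1 ≤ q a v`, `mom 2 ≤ K2 (a v)²`, `mom 3 ≤ K3 (a v)³` (`exists_mom_prod_le`,
`K2 ≥ C q²`, `K3 ≥ C q K2`; `mom_chan` scales exactly like `lam² a c`).
From `hcub`: `|H (chan μ) - lam³ H μ| ≤ 2 C mom 2 μ` (`p3_Pm`, `pq_Pm`, `Pm_rat_of_rat`), and for leaves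
`|H| ≤ C κ³` (`E (avg * p3)` scales with `κ³`), `F (leaf) ≥ mom 1 / q - |H| ≥ c0 a`.
Put `F m v = D.F (X m v)`, `H 0 v = |H (leaf v)|`, `H (m+1) v = ∑ c, |H (chan (X m c))|` (`abs_H_prodL_le`),
use `F_prodL_ge`, `exists_one_sub_M_le`, `F_chan_ge` to get the hypotheses of `err_bound`.  Conclude
`c0 ε mass / 2 ≤ F ≤ W ≤ C mom 1 ≤ C' E tv (X n root) ≤ C' treeAdvantage` (`mom_one_le_tv`, `treeExp_le`,
`chan_le`, `Le.tv_le`, `treeAdvantage_eq`).
-/

set_option autoImplicit false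

namespace Crest.Agent.R163

open Crest.ProbabilityR Crest.ProbabilityR.TreeBroadcast

variable {q : ℕ} [NeZero q]

/-- the three size bounds propagated along the tree -/
structure TLBnd (D : WData q) (K2 K3 : ℝ) (μ : Exp q) (α : ℝ) : Prop where
  w : D.W μ ≤ α
  m2 : μ.mom 2 ≤ K2 * α ^ 2
  m3 : μ.mom 3 ≤ K3 * α ^ 3

theorem TLBnd.chan {D : WData q} {K2 K3 : ℝ} {μ : Exp q} {α : ℝ} (h : TLBnd D K2 K3 μ α)
    (hμ : μ.Nice) {lam : ℝ} (hl : Adm q lam) (h0 : 0 < lam) (h1 : lam < 1) :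
    TLBnd D K2 K3 (Exp.chan lam hl μ) (lam ^ 2 * α) := by
  obtain ⟨c, hc, hW⟩ := D.exists_W_chan_le hl h0 h1
  refine ⟨(hW μ hμ).trans ?_, ?_, ?_⟩
  · have := mul_nonneg hc.le (μ.mom_nonneg 3)
    have h2 := h.w
    gcongr; linarith
  · rw [Exp.mom_chan]
    calc lam ^ (2 * 2) * μ.mom 2 ≤ lam ^ (2 * 2) * (K2 * α ^ 2) := by gcongr; exact h.m2
      _ = _ := by ring
  · rw [Exp.mom_chan]
    calc lam ^ (2 * 3) * μ.mom 3 ≤ lam ^ (2 * 3) * (K3 * α ^ 3) := by gcongr; exact h.m3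
      _ = _ := by ring

theorem TLBnd.prod {D : WData q} {C K2 K3 : ℝ} (hC : 0 ≤ C) (hK2 : C * q ^ 2 ≤ K2)
    (hK3 : C * q * K2 ≤ K3) {μ ν : Exp q} {α β : ℝ} (hα : 0 ≤ α) (hβ : 0 ≤ β)
    (h : TLBnd D K2 K3 μ α) (h' : TLBnd D K2 K3 ν β) (hμ : μ.Nice) (hν : ν.Nice)
    (hp : (Exp.prod μ ν).mom 2 ≤ μ.mom 2 + ν.mom 2 + C * (μ.mom 1 * ν.mom 1) ∧
      (Exp.prod μ ν).mom 3 ≤ μ.mom 3 + ν.mom 3 + C * (μ.mom 2 * ν.mom 1 + μ.mom 1 * ν.mom 2)) :
    TLBnd D K2 K3 (Exp.prod μ ν) (α + β) := by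
  have hq : (0 : ℝ) ≤ q := Nat.cast_nonneg q
  have hK20 : 0 ≤ K2 := le_trans (by positivity) hK2
  have hK30 : 0 ≤ K3 := le_trans (by positivity) hK3
  have a1 : μ.mom 1 ≤ q * α := (D.mom_one_le_W hμ).trans (by gcongr; exact h.w)
  have b1 : ν.mom 1 ≤ q * β := (D.mom_one_le_W hν).trans (by gcongr; exact h'.w)
  have a0 := μ.mom_nonneg 1
  have b0 := ν.mom_nonneg 1
  have a2 := h.m2
  have b2 := h'.m2
  have hab : 0 ≤ α * β := mul_nonneg hα hβ
  refine ⟨(D.W_prod_le hμ hν).trans (add_le_add h.w h'.w), hp.1.trans ?_, hp.2.trans ?_⟩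
  · have e1 : C * (μ.mom 1 * ν.mom 1) ≤ K2 * (α * β) :=
      calc C * (μ.mom 1 * ν.mom 1) ≤ C * (q * α * (q * β)) := by gcongr
        _ = C * q ^ 2 * (α * β) := by ring
        _ ≤ _ := by gcongr
    nlinarith [mul_nonneg hK20 hab]
  · have e1 : C * (μ.mom 2 * ν.mom 1 + μ.mom 1 * ν.mom 2) ≤ K3 * (α * β * (α + β)) :=
      calc C * (μ.mom 2 * ν.mom 1 + μ.mom 1 * ν.mom 2)
          ≤ C * (K2 * α ^ 2 * (q * β) + q * α * (K2 * β ^ 2)) := by
            have := ν.mom_nonneg 2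
            gcongr
        _ = C * q * K2 * (α * β * (α + β)) := by ring
        _ ≤ _ := by gcongr
    have e2 : 0 ≤ K3 * (α * β * (α + β)) := by positivity
    nlinarith [h.m3, h'.m3]

theorem TLBnd.prodL {D : WData q} {C K2 K3 R1 : ℝ} {N : ℕ} (hC : 0 ≤ C) (hK2 : C * q ^ 2 ≤ K2)
    (hK3 : C * q * K2 ≤ K3) (hR1 : 1 ≤ R1)
    (hp : ∀ μ ν : Exp q, μ.Sym → ν.Sym → μ.Pos → ν.Pos → μ.RB (R1 ^ (N + 1)) →
      ν.RB (R1 ^ (N + 1)) →
      (Exp.prod μ ν).mom 2 ≤ μ.mom 2 + ν.mom 2 + C * (μ.mom 1 * ν.mom 1) ∧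
      (Exp.prod μ ν).mom 3 ≤ μ.mom 3 + ν.mom 3 + C * (μ.mom 2 * ν.mom 1 + μ.mom 1 * ν.mom 2))
    {ι : Type*} (l : List ι) (hl : l.length ≤ N) (f : ι → Exp q) (α : ι → ℝ) (hα : ∀ i, 0 ≤ α i)
    (hn : ∀ i, (f i).Nice) (hr : ∀ i, (f i).RB R1) (hb : ∀ i, TLBnd D K2 K3 (f i) (α i)) :
    TLBnd D K2 K3 (Exp.prodL (l.map f)) (l.map α).sum := by
  induction l with
  | nil =>
    refine ⟨by simp [Exp.prodL, D.W_unit], ?_, ?_⟩
    · simp [Exp.prodL, Exp.mom_unit]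
    · simp [Exp.prodL, Exp.mom_unit]
  | cons i l ih =>
    have hl' : l.length ≤ N := by simp at hl; omega
    have hnl : (Exp.prodL (l.map f)).Nice := Exp.Nice.prodL fun μ hμ => by
      obtain ⟨j, -, rfl⟩ := List.mem_map.1 hμ
      exact hn j
    have hrl : (Exp.prodL (l.map f)).RB (R1 ^ (N + 1)) := by
      refine (Exp.RB.prodL hR1 fun μ hμ => ?_).mono ?_
      · obtain ⟨j, -, rfl⟩ := List.mem_map.1 hμ
        exact hr j
      · rw [List.length_map]; exact pow_le_pow_right₀ hR1 (by omega)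
    have hri : (f i).RB (R1 ^ (N + 1)) := (hr i).mono (le_self_pow₀ hR1 (by omega))
    have hs : 0 ≤ (l.map α).sum := List.sum_nonneg fun x hx => by
      obtain ⟨j, -, rfl⟩ := List.mem_map.1 hx
      exact hα j
    simp only [List.map_cons, List.sum_cons, Exp.prodL]
    exact TLBnd.prod hC hK2 hK3 (hα i) hs (hb i) (ih hl') (hn i) hnl
      (hp _ _ (hn i).sym hnl.sym (hn i).pos hnl.pos hri hrl)

/-- `H` contracts like `lam³` up to the fourth moment -/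
theorem tl_H_chan (D : WData q) {h3 R C : ℝ} (hR : 1 ≤ R) (hC : 0 ≤ C)
    (hcub : ∀ L : Vec q, PP L → Rat_le R L →
      |hS D.s D.η L - h3 * (avg L * p3 L)| ≤ C * (avg L * pq L ^ 2))
    {lam : ℝ} (hl : Adm q lam) (h0 : 0 < lam) (h1 : lam < 1) {μ : Exp q} (hμ : μ.Pos)
    (hμR : μ.RB R) :
    |(Exp.chan lam hl μ).E (hS D.s D.η)| ≤ lam ^ 3 * |μ.E (hS D.s D.η)| + 2 * C * μ.mom 2 := by
  have hpc : (Exp.chan lam hl μ).Pos := hμ.nz.pos_chan hl h0.le h1
  have s1 : Summable fun ω => hS D.s D.η (Pm lam (μ.L ω)) := hpc.summable_hS D.adm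
  have s2 : Summable fun ω => hS D.s D.η (μ.L ω) := hμ.summable_hS D.adm
  have s3 : Summable fun ω => avg (μ.L ω) * pq (μ.L ω) ^ 2 := μ.summable_of_lin (lin_mom 2)
  have hpt : ∀ ω, |hS D.s D.η (Pm lam (μ.L ω)) - lam ^ 3 * hS D.s D.η (μ.L ω)| ≤
      2 * C * (avg (μ.L ω) * pq (μ.L ω) ^ 2) := fun ω => by
    have hL := hμ ω
    have ha := avg_pos hL
    have e1 := hcub _ hL (hμR ω)
    have e2 := hcub _ (Pm_pos_of_pos h0.le h1.le hL)
      (Pm_rat_of_rat h0.le h1.le hR (hμR ω) hL.nn)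
    rw [avg_Pm, pq_Pm lam ha.ne', p3_Pm lam ha.ne'] at e2
    have hP : 0 ≤ C * (avg (μ.L ω) * pq (μ.L ω) ^ 2) := by positivity
    have l3 : lam ^ 3 ≤ 1 := pow_le_one₀ h0.le h1.le
    have l4 : lam ^ 4 ≤ 1 := pow_le_one₀ h0.le h1.le
    have e3 : C * (avg (μ.L ω) * (lam ^ 2 * pq (μ.L ω)) ^ 2) ≤
        C * (avg (μ.L ω) * pq (μ.L ω) ^ 2) :=
      calc _ = lam ^ 4 * (C * (avg (μ.L ω) * pq (μ.L ω) ^ 2)) := by ring
        _ ≤ _ := mul_le_of_le_one_left hP l4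
    have e4 : |lam ^ 3 * (hS D.s D.η (μ.L ω) - h3 * (avg (μ.L ω) * p3 (μ.L ω)))| ≤
        C * (avg (μ.L ω) * pq (μ.L ω) ^ 2) := by
      rw [abs_mul, abs_of_nonneg (by positivity)]
      exact (mul_le_of_le_one_left (abs_nonneg _) l3).trans e1
    have e5 : hS D.s D.η (Pm lam (μ.L ω)) - lam ^ 3 * hS D.s D.η (μ.L ω) =
        (hS D.s D.η (Pm lam (μ.L ω)) - h3 * (avg (μ.L ω) * (lam ^ 3 * p3 (μ.L ω)))) -
          lam ^ 3 * (hS D.s D.η (μ.L ω) - h3 * (avg (μ.L ω) * p3 (μ.L ω))) := by ring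
    rw [e5]
    refine (abs_sub _ _).trans ?_
    linarith
  have e6 : (Exp.chan lam hl μ).E (hS D.s D.η) - lam ^ 3 * μ.E (hS D.s D.η) =
      ∑' ω, (hS D.s D.η (Pm lam (μ.L ω)) - lam ^ 3 * hS D.s D.η (μ.L ω)) := by
    rw [s1.tsum_sub (s2.mul_left _), tsum_mul_left]; rfl
  have e7 : |(Exp.chan lam hl μ).E (hS D.s D.η) - lam ^ 3 * μ.E (hS D.s D.η)| ≤
      2 * C * μ.mom 2 := by
    rw [e6, ← Real.norm_eq_abs]
    refine tsum_of_norm_bounded (s3.hasSum.mul_left (2 * C)) fun ω => ?_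
    rw [Real.norm_eq_abs]; exact hpt ω
  have e8 := abs_add_le ((Exp.chan lam hl μ).E (hS D.s D.η) - lam ^ 3 * μ.E (hS D.s D.η))
    (lam ^ 3 * μ.E (hS D.s D.η))
  rw [sub_add_cancel, abs_mul, abs_of_nonneg (by positivity : (0 : ℝ) ≤ lam ^ 3)] at e8
  linarith

/-- `H` of a noisy leaf is of order `κ³` -/
theorem tl_H_leaf (D : WData q) {h3 R C : ℝ} (hR : 2 * (q : ℝ) ≤ R) (hC : 0 ≤ C)
    (hcub : ∀ L : Vec q, PP L → Rat_le R L →
      |hS D.s D.η L - h3 * (avg L * p3 L)| ≤ C * (avg L * pq L ^ 2)) :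
    ∃ Cl : ℝ, 0 ≤ Cl ∧ ∀ (κ : ℝ) (hl : Adm q κ), 0 ≤ κ → κ ≤ 1 / 2 →
      |(Exp.chan κ hl Exp.perfect).E (hS D.s D.η)| ≤ Cl * κ ^ 3 := by
  let P : Fin q → Vec q := (Exp.perfect : Exp q).L
  have hPn : ∀ j, NN (P j) := (Exp.perfect : Exp q).nonneg
  have hPz : ∀ j, 0 < avg (P j) := Exp.nz_perfect
  refine ⟨∑ j : Fin q, (|h3| * (avg (P j) * |p3 (P j)|) + C * (avg (P j) * pq (P j) ^ 2)),
    Finset.sum_nonneg fun j _ => by have := hPz j; positivity, fun κ hl h0 h1 => ?_⟩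
  have e : (Exp.chan κ hl Exp.perfect).E (hS D.s D.η) = ∑ j : Fin q, hS D.s D.η (Pm κ (P j)) :=
    (show (∑' j : Fin q, hS D.s D.η (Pm κ (P j))) = _ from tsum_fintype _)
  rw [e, Finset.sum_mul]
  refine (Finset.abs_sum_le_sum_abs _ _).trans (Finset.sum_le_sum fun j _ => ?_)
  have ha := hPz j
  have hq : (0 : ℝ) ≤ q := Nat.cast_nonneg q
  have hrat : Rat_le R (Pm κ (P j)) := fun i i' => by
    refine (Pm_rat h0 (by linarith) (hPn j) i i').trans ?_
    refine mul_le_mul_of_nonneg_right ?_ (Pm_nonneg hl (hPn j) i')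
    rw [div_le_iff₀ (by linarith)]
    nlinarith
  have e2 := hcub _ (Pm_pos h0 (by linarith) (hPn j) ha) hrat
  rw [avg_Pm, pq_Pm κ ha.ne', p3_Pm κ ha.ne'] at e2
  have e3 : C * (avg (P j) * (κ ^ 2 * pq (P j)) ^ 2) ≤ C * (avg (P j) * pq (P j) ^ 2) * κ ^ 3 :=
    calc _ = κ * (C * (avg (P j) * pq (P j) ^ 2) * κ ^ 3) := by ring
      _ ≤ _ := mul_le_of_le_one_left (by positivity) (by linarith)
  have e4 : |h3 * (avg (P j) * (κ ^ 3 * p3 (P j)))| = |h3| * (avg (P j) * |p3 (P j)|) * κ ^ 3 := by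
    rw [abs_mul, abs_mul, abs_mul, abs_of_pos ha, abs_of_nonneg (by positivity : 0 ≤ κ ^ 3)]; ring
  have e5 := abs_add_le (hS D.s D.η (Pm κ (P j)) - h3 * (avg (P j) * (κ ^ 3 * p3 (P j))))
    (h3 * (avg (P j) * (κ ^ 3 * p3 (P j))))
  rw [sub_add_cancel, e4] at e5
  linarith

set_option maxHeartbeats 800000 in
theorem tree_low (hq : 2 ≤ q) (D : WData q)
    (hup : ∀ R : ℝ, ∃ C : ℝ, 0 ≤ C ∧ ∀ L : Vec q, PP L → Rat_le R L →
      psiB D.s D.η L ≤ C * (avg L * pq L ^ 3))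
    (hcub : ∃ h3 : ℝ, ∀ R : ℝ, ∃ C : ℝ, 0 ≤ C ∧ ∀ L : Vec q, PP L → Rat_le R L →
      |hS D.s D.η L - h3 * (avg L * p3 L)| ≤ C * (avg L * pq L ^ 2))
    {V : Type*} [DecidableEq V] (T : LocFinTree V) {B : ℕ}
    (hB : ∀ v, (T.children v).card ≤ B) {lam : ℝ} (h0 : 0 < lam) (h1 : lam < 1) {θ : V → ℝ}
    (hθ : IsFlow T θ) (hm : 0 < flowMass T θ)
    (hpot : ∀ ξ : ℕ → V, T.IsRay ξ → rayPotential lam θ ξ ≤ 1) :
    ∃ ε : ℝ, 0 < ε ∧ ∀ n, ε ≤ treeAdvantage q T lam n := by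
  have hq2 : (2 : ℝ) ≤ q := by exact_mod_cast hq
  have hl : Adm q lam := adm_of_nonneg h0.le h1.le
  obtain ⟨a0, Bud0, ha0r, ha0n, ha0B, ha0s, hB0r, hB0s, hB0n⟩ := exists_budget T hB h0 h1 hθ hpot
  -- ratio bounds
  set R1 : ℝ := 2 * q / (1 - lam) with hR1def
  have hR1q : 2 * (q : ℝ) ≤ R1 := by
    rw [hR1def, le_div_iff₀ (by linarith)]; nlinarith
  have hR1 : 1 ≤ R1 := by linarith
  have hR01 : (q : ℝ) / (1 - lam) ≤ R1 := by
    rw [hR1def]; gcongr; linarith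
  set R : ℝ := R1 ^ (B + 1) with hRdef
  have hR1R : R1 ≤ R := le_self_pow₀ hR1 (by omega)
  have hR : 1 ≤ R := hR1.trans hR1R
  -- constants
  obtain ⟨CW, hCW, hW⟩ := D.exists_W_le R
  obtain ⟨CM, hCM, hM⟩ := D.exists_one_sub_M_le R
  obtain ⟨Cu, hCu, hu⟩ := hup R
  obtain ⟨h3, hcub⟩ := hcub
  obtain ⟨Ch, hCh, hh⟩ := hcub R
  obtain ⟨Cp, hCp, hp⟩ := exists_mom_prod_le q R
  obtain ⟨Cl, hCl, hleafH⟩ := tl_H_leaf D (hR1q.trans hR1R) hCh hh
  set K2 : ℝ := (Cp + 1) * q ^ 2 with hK2def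
  set K3 : ℝ := (Cp + 1) * q * K2 with hK3def
  have hK20 : 0 ≤ K2 := by positivity
  have hK30 : 0 ≤ K3 := by positivity
  have hK2 : Cp * q ^ 2 ≤ K2 := by rw [hK2def]; gcongr; linarith
  have hK3 : Cp * q * K2 ≤ K3 := by rw [hK3def]; gcongr; linarith
  have hK2' : (q : ℝ) ^ 2 ≤ K2 := le_mul_of_one_le_left (by positivity) (by linarith)
  have hK3' : (q : ℝ) ^ 3 ≤ K3 :=
    calc (q : ℝ) ^ 3 = 1 * q * q ^ 2 := by ring
      _ ≤ _ := by rw [hK3def]; gcongr; linarith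
  set C0 : ℝ := CW * (q - 1) + 1 with hC0def
  have hC0 : 1 ≤ C0 := by rw [hC0def]; nlinarith
  set C : ℝ := Cl ^ 2 + Cu * K3 + CM * q + 2 * Ch * K2 with hCdef
  have hc1 : 0 ≤ Cl ^ 2 := by positivity
  have hc2 : 0 ≤ Cu * K3 := by positivity
  have hc3 : 0 ≤ CM * q := by positivity
  have hc4 : 0 ≤ 2 * Ch * K2 := by positivity
  set A : ℝ := B + 1 with hAdef
  have hA : 0 < A := by positivity
  obtain ⟨C3, hC3, herr⟩ := err_bound T (C := C) (A := A) h0 h1 (by linarith) hA.le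
  set c0 : ℝ := 1 / (4 * C0) with hc0def
  have hc0 : 0 < c0 := by positivity
  obtain ⟨ε, hε0, hε1, hε2, hε3⟩ : ∃ ε : ℝ, 0 < ε ∧ ε ≤ 1 ∧ A * ε ≤ (1 / (4 * (Cl + 1))) ^ 2 ∧
      C3 * ε ≤ c0 / 2 := by
    refine ⟨min 1 (min ((1 / (4 * (Cl + 1))) ^ 2 / A) (c0 / 2 / (C3 + 1))), by positivity,
      min_le_left _ _, ?_, ?_⟩
    · rw [← le_div_iff₀' hA]
      exact (min_le_right _ _).trans (min_le_left _ _)
    · calc _ ≤ (C3 + 1) * (c0 / 2 / (C3 + 1)) := by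
            gcongr
            · linarith
            · exact (min_le_right _ _).trans (min_le_right _ _)
        _ = _ := by field_simp
  set a : V → ℝ := fun v => ε * a0 v with hadef
  have han : ∀ v, 0 ≤ a v := fun v => mul_nonneg hε0.le (ha0n v)
  have haA : ∀ v, a v ≤ A * ε := fun v => by
    rw [mul_comm]; exact mul_le_mul_of_nonneg_left (ha0B v) hε0.le
  have has : ∀ v, a v = ∑ c ∈ T.children v, lam ^ 2 * a c := fun v => by
    simp only [hadef]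
    rw [ha0s v, Finset.mul_sum]
    exact Finset.sum_congr rfl fun c _ => by ring
  -- noisy leaves
  set κ : V → ℝ := fun v => √(a v / C0) with hκdef
  have hκ0 : ∀ v, 0 ≤ κ v := fun v => Real.sqrt_nonneg _
  have hκ2 : ∀ v, κ v ^ 2 = a v / C0 := fun v => Real.sq_sqrt (div_nonneg (han v) (by linarith))
  have hκa : ∀ v, κ v ^ 2 ≤ a v := fun v => by rw [hκ2]; exact div_le_self (han v) hC0
  have hκs : ∀ v, κ v ≤ 1 / (4 * (Cl + 1)) := fun v =>
    (pow_le_pow_iff_left₀ (hκ0 v) (by positivity) two_ne_zero).1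
      (((hκa v).trans (haA v)).trans hε2)
  have hκh : ∀ v, κ v ≤ 1 / 2 := fun v =>
    (hκs v).trans (one_div_le_one_div_of_le (by norm_num) (by linarith))
  have hκadm : ∀ v, Adm q (κ v) := fun v => adm_of_nonneg (hκ0 v) (by linarith [hκh v])
  let leaf : V → Exp q := fun v => Exp.chan (κ v) (hκadm v) Exp.perfect
  have hleafN : ∀ v, (leaf v).Nice := fun v =>
    Exp.nice_chan Exp.sym_perfect Exp.nz_perfect _ (hκ0 v) (by linarith [hκh v])
  have hleafR : ∀ v, (leaf v).RB R := fun v => by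
    refine (Exp.rb_chan _ _ (hκ0 v) (by linarith [hκh v])).mono ?_
    rw [div_le_iff₀ (by linarith [hκh v])]
    nlinarith [hκh v]
  have hleafM : ∀ v k, (leaf v).mom k = (κ v ^ 2 * (q - 1)) ^ k := fun v k => by
    rw [Exp.mom_chan, Exp.mom_perfect, mul_pow, pow_mul]
  have hleafq : ∀ v, κ v ^ 2 * (q - 1) ≤ q * a v := fun v => by
    nlinarith [hκa v, sq_nonneg (κ v)]
  have hleafq0 : ∀ v, 0 ≤ κ v ^ 2 * ((q : ℝ) - 1) := fun v =>
    mul_nonneg (sq_nonneg _) (by linarith)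
  have hleafB : ∀ v, TLBnd D K2 K3 (leaf v) (a v) := fun v => by
    refine ⟨(hW _ (hleafN v) (hleafR v)).trans ?_, ?_, ?_⟩
    · rw [hleafM, pow_one, hκ2]
      calc CW * (a v / C0 * (q - 1)) = a v * (CW * (q - 1) / C0) := by ring
        _ ≤ a v := by
          refine mul_le_of_le_one_right (han v) ?_
          rw [div_le_one (by linarith)]; linarith
    · rw [hleafM]
      calc _ ≤ (q * a v) ^ 2 := pow_le_pow_left₀ (hleafq0 v) (hleafq v) 2
        _ = q ^ 2 * a v ^ 2 := by ring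
        _ ≤ _ := by gcongr
    · rw [hleafM]
      calc _ ≤ (q * a v) ^ 3 := pow_le_pow_left₀ (hleafq0 v) (hleafq v) 3
        _ = q ^ 3 * a v ^ 3 := by ring
        _ ≤ _ := by have := han v; gcongr
  -- the experiments
  let X : ℕ → V → Exp q := treeExp T lam hl leaf
  have hXs : ∀ m v, X (m + 1) v =
      Exp.prodL ((T.children v).toList.map fun c => Exp.chan lam hl (X m c)) := fun _ _ => rfl
  have hchN : ∀ μ : Exp q, μ.Nice → (Exp.chan lam hl μ).Nice := fun μ hμ =>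
    Exp.nice_chan hμ.sym hμ.pos.nz hl h0.le h1
  have hchR : ∀ μ : Exp q, (Exp.chan lam hl μ).RB R1 := fun μ =>
    (Exp.rb_chan μ hl h0.le h1).mono hR01
  have hX : ∀ m v, (X m v).Nice ∧ (X m v).RB R ∧ TLBnd D K2 K3 (X m v) (a v) := by
    intro m
    induction m with
    | zero => exact fun v => ⟨hleafN v, hleafR v, hleafB v⟩
    | succ m ih =>
      intro v
      have hlen : (T.children v).toList.length ≤ B := by rw [Finset.length_toList]; exact hB v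
      rw [hXs]
      refine ⟨Exp.Nice.prodL fun μ hμ => ?_, (Exp.RB.prodL hR1 fun μ hμ => ?_).mono ?_, ?_⟩
      · obtain ⟨j, -, rfl⟩ := List.mem_map.1 hμ
        exact hchN _ (ih j).1
      · obtain ⟨j, -, rfl⟩ := List.mem_map.1 hμ
        exact hchR _
      · rw [List.length_map]; exact pow_le_pow_right₀ hR1 (by omega)
      · have := TLBnd.prodL hCp hK2 hK3 hR1 hp _ hlen (fun c => Exp.chan lam hl (X m c))
          (fun c => lam ^ 2 * a c) (fun c => mul_nonneg (sq_nonneg _) (han c))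
          (fun c => hchN _ (ih c).1) (fun c => hchR _)
          (fun c => (ih c).2.2.chan (ih c).1 hl h0 h1)
        rwa [Finset.sum_map_toList, ← has v] at this
  have hlistN : ∀ m v, ∀ μ ∈ (T.children v).toList.map fun c => Exp.chan lam hl (X m c),
      μ.Nice := fun m v μ hμ => by
    obtain ⟨j, -, rfl⟩ := List.mem_map.1 hμ
    exact hchN _ (hX m j).1
  let H : ℕ → V → ℝ := fun m v => match m with
    | 0 => |(leaf v).E (hS D.s D.η)|
    | m + 1 => ∑ c ∈ T.children v, |(Exp.chan lam hl (X m c)).E (hS D.s D.η)|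
  have hH0 : ∀ m v, 0 ≤ H m v := fun m v => by
    cases m with
    | zero => exact abs_nonneg _
    | succ m => exact Finset.sum_nonneg fun c _ => abs_nonneg _
  have hHX : ∀ m v, |(X m v).E (hS D.s D.η)| ≤ H m v := fun m v => by
    cases m with
    | zero => exact le_rfl
    | succ m =>
      have := D.abs_H_prodL_le (hlistN m v)
      rwa [List.map_map, Finset.sum_map_toList] at this
  have hmain : ∀ n, (c0 - C3 * ε) * a T.root ≤ D.F (X n T.root) := fun n => by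
    refine herr ε c0 a (fun v => ε ^ 2 * Bud0 v) n (fun m v => D.F (X m v)) H hε0 hε1 han haA has
      (by simp [hB0r]) (fun v c hc => ?_) (fun v hv => ?_) hH0 (fun v => ?_) (fun v => ?_)
      (fun m v => ?_) (fun m v => ?_)
    · simp only [hadef, hB0s v c hc]; ring
    · exact mul_nonneg (sq_nonneg _) (hB0n v ((mul_pos_iff_of_pos_left hε0).1 hv))
    · -- lower bound for `F` at a leaf
      have e1 := (hleafN v).mom_one_le
      have e2 := hleafH _ (hκadm v) (hκ0 v) (hκh v)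
      have e3 := neg_abs_le ((leaf v).E (hS D.s D.η))
      rw [hleafM, pow_one] at e1
      have e4 : κ v ^ 2 / 2 ≤ (leaf v).E Sf := by
        refine le_of_mul_le_mul_left (le_trans ?_ e1) (by linarith : (0 : ℝ) < q)
        nlinarith [sq_nonneg (κ v)]
      have e5 : Cl * κ v ≤ 1 / 4 := by
        have := hκs v
        rw [le_div_iff₀ (by positivity)] at this
        nlinarith [hκ0 v]
      have e6 : Cl * κ v ^ 3 ≤ κ v ^ 2 / 4 := by nlinarith [sq_nonneg (κ v)]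
      have e7 : c0 * a v = κ v ^ 2 / 4 := by rw [hκ2, hc0def]; field_simp
      change c0 * a v ≤ (leaf v).E Sf + (leaf v).E (hS D.s D.η)
      change |(leaf v).E (hS D.s D.η)| ≤ _ at e2
      linarith
    · have e2 := hleafH _ (hκadm v) (hκ0 v) (hκh v)
      calc H 0 v ^ 2 ≤ (Cl * κ v ^ 3) ^ 2 := pow_le_pow_left₀ (abs_nonneg _) e2 2
        _ = Cl ^ 2 * (κ v ^ 2) ^ 3 := by ring
        _ ≤ C * a v ^ 3 := by
          gcongr
          · linarith
          · exact hκa v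
    · have e1 := D.F_prodL_ge (hlistN m v)
      rw [List.map_map, List.map_map, List.map_map, Finset.sum_map_toList, Finset.sum_map_toList,
        Finset.sum_map_toList] at e1
      refine le_trans (sub_le_sub (Finset.sum_le_sum fun c _ => ?_) ?_) e1
      · refine le_trans ?_ (D.F_chan_ge hl h0 h1 hR hCu hu (hX m c).1 (hX m c).2.1)
        have e2 := (hX m c).2.2.m3
        have e3 : Cu * (X m c).mom 3 ≤ C * a c ^ 3 :=
          calc Cu * (X m c).mom 3 ≤ Cu * (K3 * a c ^ 3) := by gcongr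
            _ = Cu * K3 * a c ^ 3 := by ring
            _ ≤ _ := by have := han c; gcongr; linarith
        gcongr
      · refine mul_le_mul_of_nonneg_right ?_ (hH0 (m + 1) v)
        rw [has v, Finset.mul_sum]
        refine Finset.sum_le_sum fun c _ => ?_
        have e2 := hM _ (hchN _ (hX m c).1) ((hchR (X m c)).mono hR1R)
        have e3 := D.mom_one_le_W (hchN _ (hX m c).1)
        have e4 := ((hX m c).2.2.chan (hX m c).1 hl h0 h1).w
        have e5 : 0 ≤ lam ^ 2 * a c := mul_nonneg (sq_nonneg _) (han c)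
        refine e2.trans ?_
        calc CM * (Exp.chan lam hl (X m c)).mom 1 ≤ CM * (q * (lam ^ 2 * a c)) := by
              gcongr
              exact e3.trans (by gcongr)
          _ = CM * q * (lam ^ 2 * a c) := by ring
          _ ≤ _ := by gcongr; linarith
    · refine Finset.sum_le_sum fun c _ => ?_
      refine (tl_H_chan D hR hCh hh hl h0 h1 (hX m c).1.pos (hX m c).2.1).trans (add_le_add ?_ ?_)
      · gcongr; exact hHX m c
      · calc 2 * Ch * (X m c).mom 2 ≤ 2 * Ch * (K2 * a c ^ 2) := by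
              gcongr; exact (hX m c).2.2.m2
          _ = 2 * Ch * K2 * a c ^ 2 := by ring
          _ ≤ _ := by gcongr; linarith
  refine ⟨c0 / 2 * (ε * flowMass T θ) / (CW * (2 * (q + 1))), by positivity, fun n => ?_⟩
  rw [div_le_iff₀ (by positivity), treeAdvantage_eq T hl n]
  have e1 : (X n T.root).E tv ≤ (treeExp T lam hl (fun _ => Exp.perfect) n T.root).E tv :=
    (treeExp_le T hl (fun v => Exp.le_perfect _) n T.root).tv_le
  have e2 : a T.root = ε * flowMass T θ := by simp only [hadef, ha0r]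
  calc c0 / 2 * (ε * flowMass T θ) ≤ (c0 - C3 * ε) * a T.root := by
        rw [e2]; gcongr; linarith
    _ ≤ D.F (X n T.root) := hmain n
    _ ≤ D.W (X n T.root) := D.F_le_W _
    _ ≤ CW * (X n T.root).mom 1 := hW _ (hX n _).1 (hX n _).2.1
    _ ≤ CW * (2 * (q + 1) * (X n T.root).E tv) := by gcongr; exact Exp.mom_one_le_tv _
    _ ≤ CW * (2 * (q + 1) * (treeExp T lam hl (fun _ => Exp.perfect) n T.root).E tv) := by gcongr
    _ = _ := by ring

end Crest.Agent.R163
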