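import Crest.Agent.R163.Defs

/-!
# R163/FlowBuild: from a cubic recursion to a flow of finite cubic energy (pure real analysis)

Recipe.  Fix `n`, `b c = lam² (w n c - c1 (w n c)³) ≥ 0`.  Define by recursion on the depth
`θ root = √c1 * w n root`, `θ c = θ (parent c) * b c / ∑ c' ∈ children (parent c), b c'`.  Invariant for
`depth v < n`: `θ v = r v * lam^(2 depth v) * w n v` with `0 ≤ r c ≤ r (parent c) * (1 - c1 (w n c)²)`,
`r root = √c1` (define `r` first: `r c = r v * w v * (1 - c1 w_c²) / ∑ b`, and `w v ≤ ∑ b`; if `∑ b = 0` then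
`w v = 0 = θ v`).  Conservation holds at `depth v + 1 < n`; along a ray
`c1 (r c * w c)² ≤ (r v)² - (r c)²`, so partial sums of `(θ / lam^(2 depth))²` are `≤ 1`.
Then pass to the limit along an ultrafilter (`Filter.hyperfilter ℕ`, compactness of `Icc 0 (√c1 M)`,
`IsCompact.ultrafilter_le_nhds`), `ENNReal.tsum_eq_iSup_nat`/`ENNReal.tsum_le_of_sum_range_le`.
A vertex `ξ k` of a ray has depth `k`.
-/

set_option autoImplicit false

namespace Crest.Agent.R163

open Crest.ProbabilityR Crest.ProbabilityR.TreeBroadcast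

section FlowBuildAux

variable {V : Type*} [DecidableEq V]

theorem fb_child {T : LocFinTree V} {v c : V} (h : c ∈ T.children v) :
    T.depth c = T.depth v + 1 ∧ T.parent c = v := by
  unfold LocFinTree.children at h
  rw [Finset.mem_filter, T.mem_level_iff] at h
  exact h

theorem fb_ray_depth {T : LocFinTree V} {ξ : ℕ → V} (h : T.IsRay ξ) (k : ℕ) :
    T.depth (ξ k) = k := by
  induction k with
  | zero => rw [h.1]; exact (T.depth_eq_zero_iff _).2 rfl
  | succ k ih => rw [(fb_child (h.2 k)).1, ih]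

/-- the ratio function, by recursion on the depth -/
noncomputable def fbR (T : LocFinTree V) (a : ℝ) (p q : V → ℝ) : ℕ → V → ℝ
  | 0, _ => a
  | k + 1, c => fbR T a p q k (T.parent c) * p (T.parent c) * q c

theorem fbR_mem (T : LocFinTree V) {a : ℝ} {p q : V → ℝ} (ha : 0 ≤ a) (hp : ∀ v, p v ∈ Set.Icc (0 : ℝ) 1)
    (hq : ∀ v, q v ∈ Set.Icc (0 : ℝ) 1) (k : ℕ) (v : V) : fbR T a p q k v ∈ Set.Icc 0 a := by
  induction k generalizing v with
  | zero => exact ⟨ha, le_rfl⟩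
  | succ k ih =>
    have h := ih (T.parent v)
    have h1 := mul_nonneg h.1 (hp (T.parent v)).1
    exact ⟨mul_nonneg h1 (hq v).1, (mul_le_of_le_one_right h1 (hq v).2).trans
      ((mul_le_of_le_one_right h.1 (hp _).2).trans h.2)⟩

theorem fb_fin (T : LocFinTree V) (lam : ℝ) {c1 : ℝ} (hc : 0 < c1) (u : V → ℝ) (hu0 : ∀ v, 0 ≤ u v)
    (hu1 : ∀ v, c1 * u v ^ 2 ≤ 1) : ∃ φ : V → ℝ, (∀ v, φ v ∈ Set.Icc (0 : ℝ) 1) ∧
      φ T.root = √c1 * u T.root ∧
      (∀ v, u v ≤ ∑ c ∈ T.children v, lam ^ 2 * (u c - c1 * u c ^ 3) →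
        φ v = lam ^ 2 * ∑ c ∈ T.children v, φ c) ∧
      ∀ ξ : ℕ → V, T.IsRay ξ → ∀ N, ∑ k ∈ Finset.range N, φ (ξ (k + 1)) ^ 2 ≤ 1 := by
  set B : V → ℝ := fun v => ∑ c ∈ T.children v, lam ^ 2 * (u c - c1 * u c ^ 3) with hB
  set p : V → ℝ := fun v => u v / max (B v) (u v) with hp
  set q : V → ℝ := fun v => 1 - c1 * u v ^ 2 with hq
  have hp1 : ∀ v, p v ∈ Set.Icc (0 : ℝ) 1 := fun v =>
    ⟨div_nonneg (hu0 v) ((hu0 v).trans (le_max_right _ _)),
      div_le_one_of_le₀ (le_max_right _ _) ((hu0 v).trans (le_max_right _ _))⟩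
  have hq1 : ∀ v, q v ∈ Set.Icc (0 : ℝ) 1 := fun v =>
    ⟨sub_nonneg.2 (hu1 v), sub_le_self _ (by positivity)⟩
  set r : V → ℝ := fun v => fbR T (√c1) p q (T.depth v) v with hr
  have hr1 : ∀ v, r v ∈ Set.Icc 0 (√c1) := fun v => fbR_mem T (Real.sqrt_nonneg _) hp1 hq1 _ v
  have hr0 : r T.root = √c1 := by
    simp only [hr, (T.depth_eq_zero_iff _).2 rfl, fbR]
  have hrc : ∀ v, ∀ c ∈ T.children v, r c = r v * p v * q c := fun v c hc' => by
    simp only [hr, (fb_child hc').1, fbR, (fb_child hc').2]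
  refine ⟨fun v => r v * u v, fun v => ⟨mul_nonneg (hr1 v).1 (hu0 v), ?_⟩, by simp only [hr0],
    fun v hv => ?_, fun ξ hξ N => ?_⟩
  · refine (mul_le_mul_of_nonneg_right (hr1 v).2 (hu0 v)).trans ?_
    refine (pow_le_one_iff_of_nonneg (mul_nonneg (Real.sqrt_nonneg _) (hu0 v)) two_ne_zero).1 ?_
    rw [mul_pow, Real.sq_sqrt hc.le]
    exact hu1 v
  · have e : lam ^ 2 * ∑ c ∈ T.children v, r c * u c = r v * (p v * B v) := by
      rw [hB]
      simp only [Finset.mul_sum]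
      refine Finset.sum_congr rfl fun c hc' => ?_
      rw [hrc v c hc', hq]
      ring
    simp only
    rw [e]
    congr 1
    have hv' : u v ≤ B v := hv
    simp only [hp, max_eq_left hv']
    by_cases h0 : B v = 0
    · rw [h0, mul_zero]
      exact le_antisymm (h0 ▸ hv') (hu0 v)
    · rw [div_mul_cancel₀ _ h0]
  · have key : ∀ N, c1 * ∑ k ∈ Finset.range N, (r (ξ (k + 1)) * u (ξ (k + 1))) ^ 2 +
        r (ξ N) ^ 2 ≤ c1 := by
      intro N
      induction N with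
      | zero => simp [hξ.1, hr0, Real.sq_sqrt hc.le]
      | succ N ih =>
        rw [Finset.sum_range_succ, mul_add]
        have a0 := (hr1 (ξ N)).1
        have a1 := (hr1 (ξ (N + 1))).1
        have a2 : r (ξ (N + 1)) ≤ r (ξ N) * q (ξ (N + 1)) := by
          rw [hrc _ _ (hξ.2 N)]
          exact mul_le_mul_of_nonneg_right (mul_le_of_le_one_right a0 (hp1 _).2) (hq1 _).1
        have a3 : r (ξ (N + 1)) ^ 2 ≤ r (ξ N) ^ 2 * q (ξ (N + 1)) ^ 2 := by
          rw [← mul_pow]; exact pow_le_pow_left₀ a1 a2 2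
        have a4 := hq1 (ξ (N + 1))
        have a5 : c1 * u (ξ (N + 1)) ^ 2 = 1 - q (ξ (N + 1)) := by simp only [hq]; ring
        have a6 : q (ξ (N + 1)) ^ 2 * (2 - q (ξ (N + 1))) ≤ 1 := by
          nlinarith [a4.1, a4.2, mul_nonneg a4.1 (sq_nonneg (1 - q (ξ (N + 1))))]
        have a7 : r (ξ (N + 1)) ^ 2 * (2 - q (ξ (N + 1))) ≤ r (ξ N) ^ 2 :=
          calc _ ≤ r (ξ N) ^ 2 * q (ξ (N + 1)) ^ 2 * (2 - q (ξ (N + 1))) :=
                mul_le_mul_of_nonneg_right a3 (by linarith [a4.2])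
            _ = r (ξ N) ^ 2 * (q (ξ (N + 1)) ^ 2 * (2 - q (ξ (N + 1)))) := by ring
            _ ≤ _ := mul_le_of_le_one_right (sq_nonneg _) a6
        have a8 : c1 * (r (ξ (N + 1)) * u (ξ (N + 1))) ^ 2 =
            r (ξ (N + 1)) ^ 2 * (1 - q (ξ (N + 1))) := by rw [← a5]; ring
        rw [a8]
        linarith
    have h1 := key N
    have h2 := sq_nonneg (r (ξ N))
    refine le_of_mul_le_mul_left ?_ hc
    linarith

end FlowBuildAux

theorem flow_of_recursion {V : Type*} [DecidableEq V] (T : LocFinTree V) {lam c1 M ε : ℝ}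
    (h0 : 0 < lam) (h1 : lam ≤ 1) (hc : 0 < c1) (hε : 0 < ε) (hcM : c1 * M ^ 2 ≤ 1)
    (w : ℕ → V → ℝ) (hw0 : ∀ n v, 0 ≤ w n v) (hwM : ∀ n v, w n v ≤ M)
    (hroot : ∀ n, 2 ≤ n → ε ≤ w n T.root)
    (hrec : ∀ n v, T.depth v + 1 < n →
      w n v ≤ ∑ c ∈ T.children v, lam ^ 2 * (w n c - c1 * w n c ^ 3)) :
    ∃ θ : V → ℝ, IsFlow T θ ∧ 0 < flowMass T θ ∧
      ∀ ξ : ℕ → V, T.IsRay ξ → rayPotential lam θ ξ ≤ 1 := by
  have hu1 : ∀ n v, c1 * w n v ^ 2 ≤ 1 := fun n v =>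
    (mul_le_mul_of_nonneg_left (pow_le_pow_left₀ (hw0 n v) (hwM n v) 2) hc.le).trans hcM
  choose φ hφ1 hφ2 hφ3 hφ4 using fun n => fb_fin T lam hc (w n) (hw0 n) (hu1 n)
  have hlim : ∀ v, ∃ a ∈ Set.Icc (0 : ℝ) 1,
      Filter.Tendsto (fun n => φ n v) (Filter.hyperfilter ℕ) (nhds a) := fun v => by
    obtain ⟨a, ha, h⟩ := isCompact_Icc.ultrafilter_le_nhds
      ((Filter.hyperfilter ℕ).map fun n => φ n v)
      (by
        rw [Ultrafilter.coe_map, Filter.le_principal_iff, Filter.mem_map]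
        exact Filter.univ_mem' fun n => hφ1 n v)
    exact ⟨a, ha, h⟩
  choose ψ hψ1 hψ using hlim
  have hev : ∀ {P : ℕ → Prop}, (∀ᶠ n in Filter.atTop, P n) →
      ∀ᶠ n in (Filter.hyperfilter ℕ : Filter ℕ), P n := fun h =>
    Filter.Eventually.filter_mono Nat.hyperfilter_le_atTop h
  have hcons : ∀ v, ψ v = lam ^ 2 * ∑ c ∈ T.children v, ψ c := fun v => by
    refine tendsto_nhds_unique_of_eventuallyEq (hψ v)
      ((tendsto_finsetSum _ fun c _ => hψ c).const_mul (lam ^ 2)) (hev ?_)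
    filter_upwards [Filter.eventually_gt_atTop (T.depth v + 1)] with n hn
    exact hφ3 n v (hrec n v hn)
  have hcons' : ∀ v, lam ^ (2 * T.depth v) * ψ v =
      ∑ c ∈ T.children v, lam ^ (2 * T.depth c) * ψ c := fun v => by
    rw [hcons v, Finset.mul_sum, Finset.mul_sum]
    refine Finset.sum_congr rfl fun c hc' => ?_
    rw [(fb_child hc').1]
    ring
  refine ⟨fun v => lam ^ (2 * T.depth v) * ψ v,
    ⟨fun v => mul_nonneg (pow_nonneg h0.le _) (hψ1 v).1, fun v _ => hcons' v⟩, ?_, fun ξ hξ => ?_⟩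
  · unfold flowMass
    rw [← hcons']
    refine mul_pos (pow_pos h0 _) (lt_of_lt_of_le (mul_pos (Real.sqrt_pos.2 hc) hε) ?_)
    refine ge_of_tendsto (hψ T.root) (hev ?_)
    filter_upwards [Filter.eventually_ge_atTop 2] with n hn
    rw [hφ2]
    exact mul_le_mul_of_nonneg_left (hroot n hn) (Real.sqrt_nonneg _)
  · unfold rayPotential
    refine ENNReal.tsum_le_of_sum_range_le fun N => ?_
    have e : ∀ k, lam ^ (2 * T.depth (ξ (k + 1))) * ψ (ξ (k + 1)) / lam ^ (2 * (k + 1)) =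
        ψ (ξ (k + 1)) := fun k => by
      rw [fb_ray_depth hξ, mul_div_cancel_left₀ _ (pow_pos h0 _).ne']
    simp only [e]
    rw [← ENNReal.ofReal_sum_of_nonneg fun k _ => sq_nonneg _, ENNReal.ofReal_le_one]
    exact le_of_tendsto' (tendsto_finsetSum _ fun k _ => (hψ (ξ (k + 1))).pow 2)
      fun n => hφ4 n ξ hξ N

end Crest.Agent.R163
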