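import Crest.Agent.R163.Chan
import Crest.Agent.R163.Loc
import Crest.Agent.R163.TreeLink
import Crest.Agent.R163.FlowBuild

/-!
# R163/TreeUp: reconstruction implies positive cubic capacity

Recipe.  `X m v = treeExp T lam h (fun _ => perfect) m v`.  For `m ≥ 1`, `X m v` is `Nice` with
`RB (R0 ^ B)`, `R0 = q / (1 - lam)` (all `X m v` are `Sym` and `NZ`; `chan (X m c)` is `Nice`, `RB R0`).
`w n v = if depth v < n then W (X (n - depth v) v) else 0`.  `W ≤ C mom 1 ≤ C q =: M` (`exists_W_le`, `pq_le`),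
`W (X (m+2) v) ≤ ∑ c, W (chan (X (m+1) c)) ≤ ∑ lam² (W - c mom 3)`, `mom 3 ≥ (mom 1)³ ≥ (W / C)³`;
take `c1 = min (c / C³) (1 / M²)`.  At the root `ε² ≤ (E tv)² ≤ mom 1 ≤ q W`.  Apply `flow_of_recursion`.
A child has depth `depth v + 1`.
-/

set_option autoImplicit false

namespace Crest.Agent.R163

open Crest.ProbabilityR Crest.ProbabilityR.TreeBroadcast

variable {q : ℕ} [NeZero q]

theorem treeUp_mom_one_le (μ : Exp q) : μ.mom 1 ≤ q := by
  refine (le_abs_self _).trans (μ.abs_E_le fun ω => ?_)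
  have h1 := avg_nonneg (μ.nonneg ω)
  have h2 := pq_nonneg (μ.L ω)
  have h3 := pq_le (μ.nonneg ω)
  rw [pow_one, abs_of_nonneg (mul_nonneg h1 h2), mul_comm]
  exact mul_le_mul_of_nonneg_right h3 h1

theorem treeUp_sym_nz {V : Type*} [DecidableEq V] (T : LocFinTree V) {lam : ℝ} (h : Adm q lam)
    (h0 : 0 ≤ lam) (h1 : lam < 1) (m : ℕ) (v : V) :
    (treeExp T lam h (fun _ => Exp.perfect) m v).Sym ∧
      (treeExp T lam h (fun _ => Exp.perfect) m v).NZ := by
  induction m generalizing v with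
  | zero => exact ⟨Exp.sym_perfect, Exp.nz_perfect⟩
  | succ m ih =>
    have : (treeExp T lam h (fun _ => Exp.perfect) (m + 1) v).Nice := by
      refine Exp.Nice.prodL fun μ hμ => ?_
      obtain ⟨c, -, rfl⟩ := List.mem_map.1 hμ
      exact Exp.nice_chan (ih c).1 (ih c).2 h h0 h1
    exact ⟨this.sym, this.pos.nz⟩

theorem treeUp_nice_chan {V : Type*} [DecidableEq V] (T : LocFinTree V) {lam : ℝ} (h : Adm q lam)
    (h0 : 0 ≤ lam) (h1 : lam < 1) (m : ℕ) (v : V) :
    (Exp.chan lam h (treeExp T lam h (fun _ => Exp.perfect) m v)).Nice :=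
  Exp.nice_chan (treeUp_sym_nz T h h0 h1 m v).1 (treeUp_sym_nz T h h0 h1 m v).2 h h0 h1

theorem treeUp_nice {V : Type*} [DecidableEq V] (T : LocFinTree V) {lam : ℝ} (h : Adm q lam)
    (h0 : 0 ≤ lam) (h1 : lam < 1) {m : ℕ} (hm : 1 ≤ m) (v : V) :
    (treeExp T lam h (fun _ => Exp.perfect) m v).Nice := by
  obtain ⟨m, rfl⟩ : ∃ k, m = k + 1 := ⟨m - 1, by omega⟩
  refine Exp.Nice.prodL fun μ hμ => ?_
  obtain ⟨c, -, rfl⟩ := List.mem_map.1 hμ
  exact treeUp_nice_chan T h h0 h1 m c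

theorem treeUp_rb {V : Type*} [DecidableEq V] (T : LocFinTree V) {B : ℕ}
    (hB : ∀ v, (T.children v).card ≤ B) {lam : ℝ} (h : Adm q lam)
    (h0 : 0 ≤ lam) (h1 : lam < 1) {m : ℕ} (hm : 1 ≤ m) (v : V) :
    (treeExp T lam h (fun _ => Exp.perfect) m v).RB ((q / (1 - lam)) ^ B) := by
  obtain ⟨m, rfl⟩ : ∃ k, m = k + 1 := ⟨m - 1, by omega⟩
  have hq : (1 : ℝ) ≤ q := by exact_mod_cast Nat.pos_of_ne_zero (NeZero.ne q)
  have hR : (1 : ℝ) ≤ q / (1 - lam) := by
    rw [le_div_iff₀ (by linarith)]; linarith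
  refine (Exp.RB.prodL hR fun μ hμ => ?_).mono ?_
  · obtain ⟨c, -, rfl⟩ := List.mem_map.1 hμ
    exact Exp.rb_chan _ h h0 h1
  · refine pow_le_pow_right₀ hR ?_
    rw [List.length_map, Finset.length_toList]
    exact hB v

theorem tree_up (D : WData q) {V : Type*} [DecidableEq V] (T : LocFinTree V) {B : ℕ}
    (hB : ∀ v, (T.children v).card ≤ B) {lam : ℝ} (h0 : 0 < lam) (h1 : lam < 1)
    (hrec : ∃ ε : ℝ, 0 < ε ∧ ∀ n, ε ≤ treeAdvantage q T lam n) :
    ∃ θ : V → ℝ, IsFlow T θ ∧ 0 < flowMass T θ ∧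
      ∀ ξ : ℕ → V, T.IsRay ξ → rayPotential lam θ ξ ≤ 1 := by
  obtain ⟨ε, hε, hrec⟩ := hrec
  have h : Adm q lam := adm_of_nonneg h0.le h1.le
  have hq : (0 : ℝ) < q := by exact_mod_cast Nat.pos_of_ne_zero (NeZero.ne q)
  obtain ⟨C, hC, hWC⟩ := D.exists_W_le ((q / (1 - lam)) ^ B)
  obtain ⟨c, hc, hchan⟩ := D.exists_W_chan_le h h0 h1
  set X := treeExp T lam h (fun _ => (Exp.perfect : Exp q)) with hX
  have hnice : ∀ m, 1 ≤ m → ∀ v, (X m v).Nice := fun m hm v => treeUp_nice T h h0.le h1 hm v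
  have hWle : ∀ m, 1 ≤ m → ∀ v, D.W (X m v) ≤ C * (X m v).mom 1 := fun m hm v =>
    hWC _ (hnice m hm v) (treeUp_rb T hB h h0.le h1 hm v)
  have hM : 0 < C * q := mul_pos hC hq
  refine flow_of_recursion T (c1 := min (c / C ^ 3) (1 / (C * q) ^ 2)) (M := C * q)
    (ε := ε ^ 2 / q) h0 h1.le (lt_min (by positivity) (by positivity)) (by positivity) ?_
    (fun n v => if T.depth v < n then D.W (X (n - T.depth v) v) else 0) (fun n v => ?_)
    (fun n v => ?_) (fun n hn => ?_) fun n v hv => ?_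
  · rw [← le_div_iff₀ (by positivity)]
    exact min_le_right _ _
  · split_ifs with hv
    · exact D.W_nonneg (hnice _ (by omega) v)
    · exact le_rfl
  · split_ifs with hv
    · exact (hWle _ (by omega) v).trans (mul_le_mul_of_nonneg_left (treeUp_mom_one_le _) hC.le)
    · exact hM.le
  · have hd : T.depth T.root = 0 := (T.depth_eq_zero_iff _).2 rfl
    rw [hd, if_pos (by omega), Nat.sub_zero, div_le_iff₀ hq, mul_comm]
    have h2 := hrec n
    rw [treeAdvantage_eq T h] at h2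
    exact ((pow_le_pow_left₀ hε.le h2 2).trans (Exp.tv_sq_le_mom _)).trans
      (D.mom_one_le_W (hnice n (by omega) _))
  · obtain ⟨m, hm⟩ : ∃ m, n - T.depth v = m + 1 + 1 := ⟨n - T.depth v - 2, by omega⟩
    rw [if_pos (by omega), hm]
    have h2 : D.W (X (m + 1 + 1) v) ≤ ∑ u ∈ T.children v, D.W (Exp.chan lam h (X (m + 1) u)) := by
      refine (D.W_prodL_le fun μ hμ => ?_).trans (le_of_eq ?_)
      · obtain ⟨u, -, rfl⟩ := List.mem_map.1 hμ
        exact treeUp_nice_chan T h h0.le h1 _ u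
      · rw [List.map_map, Finset.sum_map_toList]
        rfl
    refine h2.trans (Finset.sum_le_sum fun u hu => ?_)
    have hd : T.depth u = T.depth v + 1 :=
      (T.mem_level_iff _ _).1 (Finset.mem_filter.1 hu).1
    rw [if_pos (by omega), show n - T.depth u = m + 1 by omega]
    refine (hchan _ (hnice _ (by omega) u)).trans
      (mul_le_mul_of_nonneg_left (sub_le_sub_left ?_ _) (by positivity))
    have h3 := D.W_nonneg (hnice (m + 1) (by omega) u)
    have h4 := pow_le_pow_left₀ h3 (hWle (m + 1) (by omega) u) 3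
    have h5 := Exp.mom_one_pow_le (X (m + 1) u)
    calc min (c / C ^ 3) (1 / (C * q) ^ 2) * D.W (X (m + 1) u) ^ 3
        ≤ c / C ^ 3 * (C * (X (m + 1) u).mom 1) ^ 3 :=
          mul_le_mul (min_le_left _ _) h4 (by positivity) (by positivity)
      _ = c * (X (m + 1) u).mom 1 ^ 3 := by field_simp
      _ ≤ c * (X (m + 1) u).mom 3 := mul_le_mul_of_nonneg_left h5 hc.le

end Crest.Agent.R163
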