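import Crest.Agent.R163.Bridge4
import Crest.Agent.R163.Bridge3
import Crest.Agent.R163.E2.CertDef
import Crest.Agent.R163.E2.Sound
import Crest.Agent.R163.E2.Local

/-!
# R163/WInst: the potentials for `q = 4`, `q = 3`, the local bounds, and the monotonicity generators

Recipe.  `hc.hq4B.final3` etc. (`E2/CertDef.lean`, `E2/Sound.lean`; never import `E2/Cert*` data files here, they are heavy; the side constraint `Con` is trivial when `c0 = 0`, `con = []`) +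
`bridge_*` + `exists_sorted*` + invariances (`psiB_smul_comp`, `pq_smul`, `pq_comp`, `avg_smul`, `avg_comp`, `mS_comp`, `hom_mS`).
For sorted `L = Lq4 y`: `0 < L 3 ≤ 1`, `avg L ≤ 1`, so `psiB L ≥ psiB L * L 3 ≥ δ' (min 1 max)^6 ≥ δ'' pq³ ≥ δ'' ā pq³`
(`pq_Lq4_le`; for `k0 = 4` use also `min 1 max ≤ 1`).  Upper bounds: `vanCheck_sound hc.van4B`, `hc.van4H`, `sq_max_le4`, `L 3 ≥ 1/R`, `ā ≥ 1/4`.
Generators: the constraint `∀ i, b i ≤ (1+t) avg b` for `b = c • (Lq3 12 y ∘ σ)` gives `Con` (`3 ≤ (1+t)(1 + x + x y)`).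
-/

set_option autoImplicit false

namespace Crest.Agent.R163

open E2

theorem winst_low {δ N C m p a l ψ : ℝ} {k : ℕ} (hδ : 0 < δ) (hN : 0 < N) (hC : 0 < C)
    (hm0 : 0 ≤ m) (hm1 : m ≤ 1) (hk : k ≤ 6) (hl0 : 0 < l) (hl1 : l ≤ 1) (hp0 : 0 ≤ p)
    (hp : p ≤ C * m ^ 2) (ha : a ≤ 1) (h : δ * m ^ k ≤ N * (ψ * l)) :
    δ / (N * C ^ 3) * (a * p ^ 3) ≤ ψ := by
  have h1 : δ * m ^ 6 ≤ N * (ψ * l) :=
    (mul_le_mul_of_nonneg_left (pow_le_pow_of_le_one hm0 hm1 hk) hδ.le).trans h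
  have h2 : 0 ≤ ψ := by
    have h3 : 0 ≤ N * (ψ * l) := le_trans (by positivity) h1
    exact nonneg_of_mul_nonneg_left (nonneg_of_mul_nonneg_right h3 hN |> fun h => by
      simpa [mul_comm] using h) hl0
  have h3 : a * p ^ 3 ≤ C ^ 3 * m ^ 6 := by
    calc a * p ^ 3 ≤ 1 * p ^ 3 := mul_le_mul_of_nonneg_right ha (by positivity)
      _ ≤ (C * m ^ 2) ^ 3 := by rw [one_mul]; exact pow_le_pow_left₀ hp0 hp 3
      _ = _ := by ring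
  calc δ / (N * C ^ 3) * (a * p ^ 3) ≤ δ / (N * C ^ 3) * (C ^ 3 * m ^ 6) :=
        mul_le_mul_of_nonneg_left h3 (by positivity)
    _ = δ * m ^ 6 / N := by field_simp
    _ ≤ ψ * l := by rw [div_le_iff₀ hN]; linarith
    _ ≤ ψ := mul_le_of_le_one_right h2 hl1

theorem winst_up {N C₁ C₂ K m p a w ψ : ℝ} {k : ℕ} (hN : 1 ≤ N) (hC₁ : 0 ≤ C₁) (hC₂ : 0 ≤ C₂)
    (hw : 0 < w) (hK : 1 ≤ K * w) (hp0 : 0 ≤ p) (hp : m ^ 2 ≤ C₂ * p) (ha : 1 / 4 ≤ a)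
    (h : |N * (ψ * w)| ≤ C₁ * m ^ (2 * k)) :
    |ψ| ≤ 4 * |K| * C₁ * C₂ ^ k * (a * p ^ k) := by
  have hK0 : 0 < K := lt_of_mul_lt_mul_right (by linarith : 0 * w < K * w) hw.le
  rw [abs_of_pos hK0]
  rw [abs_mul, abs_mul, abs_of_pos hw, abs_of_pos (by linarith : 0 < N)] at h
  have h1 : m ^ (2 * k) ≤ C₂ ^ k * p ^ k := by
    rw [pow_mul, ← mul_pow]
    exact pow_le_pow_left₀ (sq_nonneg m) hp k
  have h2 : |ψ| * w ≤ C₁ * (C₂ ^ k * p ^ k) :=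
    ((le_mul_of_one_le_left (by positivity) hN).trans h).trans (mul_le_mul_of_nonneg_left h1 hC₁)
  have h3 : p ^ k ≤ 4 * (a * p ^ k) := by nlinarith [pow_nonneg hp0 k]
  calc |ψ| ≤ |ψ| * (K * w) := le_mul_of_one_le_right (abs_nonneg _) hK
    _ = K * (|ψ| * w) := by ring
    _ ≤ K * (C₁ * (C₂ ^ k * p ^ k)) := mul_le_mul_of_nonneg_left h2 hK0.le
    _ ≤ K * (C₁ * (C₂ ^ k * (4 * (a * p ^ k)))) := by gcongr
    _ = _ := by ring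

theorem winst_avg {q : ℕ} (c : ℝ) (L : Vec q) (σ : Equiv.Perm (Fin q)) :
    avg (c • (L ∘ σ)) = c * avg L := by
  rw [avg_smul, avg_comp]

theorem winst_pq {q : ℕ} {c : ℝ} (hc : 0 < c) (L : Vec q) (σ : Equiv.Perm (Fin q)) :
    pq (c • (L ∘ σ)) = pq L := by
  rw [pq_smul hc.ne', pq_comp]

theorem winst_p3 {q : ℕ} {c : ℝ} (hc : 0 < c) (L : Vec q) (σ : Equiv.Perm (Fin q)) :
    p3 (c • (L ∘ σ)) = p3 L := by
  rw [p3_smul hc.ne', p3_comp]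

theorem winst_mS {q : ℕ} [NeZero q] {s : Fin q → ℂ} (hs : SAdm s) {c : ℝ} (hc : 0 < c) {L : Vec q}
    (hL : PP L) (σ : Equiv.Perm (Fin q)) : mS s (c • (L ∘ σ)) = c * mS s L := by
  rw [hom_mS hs c (L ∘ σ) hc (fun i => (hL (σ i)).le), mS_comp]

theorem winst_hS {q : ℕ} [NeZero q] {s η : Fin q → ℂ} (hs : HAdm s η) {c : ℝ} (hc : 0 < c)
    {L : Vec q} (hL : PP L) (σ : Equiv.Perm (Fin q)) : hS s η (c • (L ∘ σ)) = c * hS s η L := by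
  rw [hS_smul (L := L ∘ σ) hs hc (fun i => hL (σ i)), hS_comp]

theorem winst_rat {q : ℕ} {R c : ℝ} (hc : 0 < c) {L : Vec q} {σ : Equiv.Perm (Fin q)}
    (h : Rat_le R (c • (L ∘ σ))) : Rat_le R L := by
  intro i j
  have h1 := h (σ.symm i) (σ.symm j)
  simp only [Pi.smul_apply, Function.comp_apply, Equiv.apply_symm_apply, smul_eq_mul] at h1
  refine le_of_mul_le_mul_left ?_ hc
  linarith

theorem winst_Lq4_le {y1 y2 y3 : ℝ} (h1 : 0 ≤ y1) (h2 : 0 ≤ y2) (h3 : 0 ≤ y3) (i : Fin 4) :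
    Lq4 y1 y2 y3 i ≤ 1 := by
  fin_cases i <;> simp [Lq4] <;> linarith

theorem winst_Lq3_le {D y1 y2 : ℝ} (hD : 0 ≤ D) (h1 : 0 ≤ y1) (h2 : 0 ≤ y2) (i : Fin 3) :
    Lq3 D y1 y2 i ≤ 1 := by
  fin_cases i <;> simp [Lq3] <;> positivity

theorem winst_avg_le {q : ℕ} [NeZero q] {L : Vec q} (h : ∀ i, L i ≤ 1) : avg L ≤ 1 :=
  (avg_mono (L' := fun _ => 1) h).trans_eq (avg_const 1)

theorem winst_avg4_ge (y1 y2 y3 : ℝ) : 1 / 4 ≤ avg (Lq4 y1 y2 y3) := by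
  have h := le_mul_avg (pp_Lq4 y1 y2 y3).nn 0
  have e : Lq4 y1 y2 y3 0 = 1 := rfl
  rw [e] at h
  push_cast at h
  linarith

theorem winst_con {I : Inst} (h0 : I.c0 = 0) (h1 : I.con = []) (y1 y2 y3 : ℝ) :
    I.Con y1 y2 y3 := by
  simp [Inst.Con, h0, h1]

theorem winst_low4 {I : Inst} {k : ℕ} (hk : k ≤ 6) (h0 : I.c0 = 0) (h1 : I.con = [])
    (h : Holds I true k ⟨0, 2, true⟩ ⟨0, 2, true⟩ ⟨0, 2, true⟩) {N : ℝ} (hN : 0 < N)
    {ψ : Vec 4 → ℝ}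
    (hb : ∀ y1 y2 y3, I.val y1 y2 y3 = N * (ψ (Lq4 y1 y2 y3) * Lq4 y1 y2 y3 3))
    (hψ : ∀ (c : ℝ) (L : Vec 4) (σ : Equiv.Perm (Fin 4)), 0 < c → PP L →
      ψ (c • (L ∘ σ)) = c * ψ L) :
    ∃ δ : ℝ, 0 < δ ∧ ∀ L, PP L → δ * (avg L * pq L ^ 3) ≤ ψ L := by
  obtain ⟨δ, hδ, h⟩ := h.final3
  obtain ⟨C, hC, hp⟩ := pq_Lq4_le
  refine ⟨δ / (N * C ^ 3), by positivity, fun L hL => ?_⟩
  obtain ⟨c, y1, y2, y3, σ, hc, g1, g2, g3, rfl⟩ := exists_sorted4 hL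
  have h2 := h y1 y2 y3 g1 g2 g3 (winst_con h0 h1 _ _ _)
  rw [hb] at h2
  have h3 := winst_low hδ hN hC (le_min zero_le_one (g1.trans (le_max_left _ _))) (min_le_left _ _)
    hk (pp_Lq4 y1 y2 y3 3) (winst_Lq4_le g1 g2 g3 3) (pq_nonneg _) (hp y1 y2 y3 g1 g2 g3)
    (winst_avg_le (winst_Lq4_le g1 g2 g3)) h2
  rw [hψ c _ σ hc (pp_Lq4 _ _ _), winst_avg, winst_pq hc]
  nlinarith [mul_le_mul_of_nonneg_left h3 hc.le]

theorem winst_low3 {I : Inst} {k : ℕ} (hk : k ≤ 6) (h0 : I.c0 = 0) (h1 : I.con = [])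
    (h : Holds I false k ⟨0, 2, true⟩ ⟨0, 2, true⟩ ⟨0, 16, false⟩) {N : ℝ} (hN : 0 < N)
    {ψ : Vec 3 → ℝ}
    (hb : ∀ y1 y2, I.val y1 y2 0 = N * (ψ (Lq3 6 y1 y2) * Lq3 6 y1 y2 2))
    (hψ : ∀ (c : ℝ) (L : Vec 3) (σ : Equiv.Perm (Fin 3)), 0 < c → PP L →
      ψ (c • (L ∘ σ)) = c * ψ L) :
    ∃ δ : ℝ, 0 < δ ∧ ∀ L, PP L → δ * (avg L * pq L ^ 3) ≤ ψ L := by
  obtain ⟨δ, hδ, h⟩ := h.final2
  obtain ⟨C, hC, hp⟩ := pq_Lq3_le (D := 6) (by norm_num)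
  refine ⟨δ / (N * C ^ 3), by positivity, fun L hL => ?_⟩
  obtain ⟨c, y1, y2, σ, hc, g1, g2, rfl⟩ := exists_sorted3 (D := 6) (by norm_num) hL
  have h2 := h y1 y2 g1 g2 (winst_con h0 h1 _ _ _)
  rw [hb] at h2
  have h3 := winst_low hδ hN hC (le_min zero_le_one (g1.trans (le_max_left _ _))) (min_le_left _ _)
    hk (pp_Lq3 6 y1 y2 2) (winst_Lq3_le (by norm_num) g1 g2 2) (pq_nonneg _) (hp y1 y2 g1 g2)
    (winst_avg_le (winst_Lq3_le (D := 6) (by norm_num) g1 g2)) h2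
  rw [hψ c _ σ hc (pp_Lq3 _ _ _), winst_avg, winst_pq hc]
  nlinarith [mul_le_mul_of_nonneg_left h3 hc.le]

theorem winst_min {δ δ' x ψ : ℝ} (hx : 0 ≤ x) (h : δ * x ≤ ψ ∨ δ' * x ≤ ψ) :
    min δ δ' * x ≤ ψ := by
  rcases h with h | h
  · exact (mul_le_mul_of_nonneg_right (min_le_left _ _) hx).trans h
  · exact (mul_le_mul_of_nonneg_right (min_le_right _ _) hx).trans h

theorem exists_wdata4 (hc : E2.CertE2) : ∃ D : WData 4, D.s = s4 ∧ D.η = eta4 := by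
  obtain ⟨δB, hδB, hB⟩ := winst_low4 le_rfl rfl rfl hc.hq4B (by norm_num) bridge_q4B
    fun c L σ h hL => psiB_smul_comp hAdm4 h hL σ
  obtain ⟨δA, hδA, hA⟩ := winst_low4 (by norm_num) rfl rfl hc.hq4A (by norm_num) bridge_q4A
    fun c L σ h hL => psiA_smul_comp hAdm4 _ h hL σ
  have hx : ∀ L : Vec 4, PP L → 0 ≤ avg L * pq L ^ 3 := fun L hL =>
    mul_nonneg (avg_nonneg hL.nn) (pow_nonneg (pq_nonneg L) 3)
  refine ⟨⟨s4, eta4, 3 / 10, min δB δA, hAdm4, by norm_num, by norm_num, lt_min hδB hδA,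
    fun L hL => winst_min (hx L hL) (Or.inl (hB L hL)),
    fun L hL => winst_min (hx L hL) (Or.inr (hA L hL)), fun L hL => ?_⟩, rfl, rfl⟩
  obtain ⟨δ, hδ, h⟩ := hc.hq4C.final3
  obtain ⟨c, y1, y2, y3, σ, hc, g1, g2, g3, rfl⟩ := exists_sorted4 hL
  have h2 := h y1 y2 y3 g1 g2 g3 (winst_con rfl rfl _ _ _)
  rw [bridge_q4C, pow_zero] at h2
  rw [winst_mS hAdm4.sAdm hc (pp_Lq4 _ _ _), winst_avg]
  nlinarith

theorem exists_wdata3 (hc : E2.CertE2) : Nonempty (WData 3) := by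
  obtain ⟨δB, hδB, hB⟩ := winst_low3 (by norm_num) rfl rfl hc.hq3B (by norm_num) bridge_q3B
    fun c L σ h hL => psiB_smul_comp hAdm3 h hL σ
  obtain ⟨δA, hδA, hA⟩ := winst_low3 (by norm_num) rfl rfl hc.hq3A (by norm_num) bridge_q3A
    fun c L σ h hL => psiA_smul_comp hAdm3 _ h hL σ
  have hx : ∀ L : Vec 3, PP L → 0 ≤ avg L * pq L ^ 3 := fun L hL =>
    mul_nonneg (avg_nonneg hL.nn) (pow_nonneg (pq_nonneg L) 3)
  refine ⟨⟨s3, eta3, 1 / 8, min δB δA, hAdm3, by norm_num, by norm_num, lt_min hδB hδA,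
    fun L hL => winst_min (hx L hL) (Or.inl (hB L hL)),
    fun L hL => winst_min (hx L hL) (Or.inr (hA L hL)), fun L hL => ?_⟩⟩
  obtain ⟨δ, hδ, h⟩ := hc.hq3C.final2
  obtain ⟨c, y1, y2, σ, hc, g1, g2, rfl⟩ := exists_sorted3 (D := 6) (by norm_num) hL
  have h2 := h y1 y2 g1 g2 (winst_con rfl rfl _ _ _)
  rw [bridge_q3C, pow_zero] at h2
  rw [winst_mS hAdm3.sAdm hc (pp_Lq3 _ _ _), winst_avg]
  nlinarith

theorem hup4 (hc : E2.CertE2) (R : ℝ) : ∃ C : ℝ, 0 ≤ C ∧ ∀ L : Vec 4, PP L → Rat_le R L →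
    psiB s4 eta4 L ≤ C * (avg L * pq L ^ 3) := by
  obtain ⟨C₁, hC₁, h1⟩ := vanCheck_sound hc.van4B R
  obtain ⟨C₂, hC₂, h2⟩ := sq_max_le4 R
  refine ⟨4 * |R| * C₁ * C₂ ^ 3, by positivity, fun L hL hR => ?_⟩
  obtain ⟨c, y1, y2, y3, σ, hc, g1, g2, g3, rfl⟩ := exists_sorted4 hL
  have hR' := winst_rat hc hR
  obtain ⟨h3, h4⟩ := h2 y1 y2 y3 g1 g2 g3 hR'
  have h5 := h1 y1 y2 y3 g1 g2 g3 ((le_max_left _ _).trans h3)
    (((le_max_left _ _).trans (le_max_right _ _)).trans h3)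
    (((le_max_right _ _).trans (le_max_right _ _)).trans h3)
  rw [bridge_q4B] at h5
  have h6 := winst_up (k := 3) (K := R) (by norm_num) hC₁ hC₂ (pp_Lq4 y1 y2 y3 3) (hR' 0 3)
    (pq_nonneg _) h4 (winst_avg4_ge y1 y2 y3) h5
  rw [psiB_smul_comp hAdm4 hc (pp_Lq4 _ _ _), winst_avg, winst_pq hc]
  nlinarith [mul_le_mul_of_nonneg_left ((le_abs_self _).trans h6) hc.le]

theorem hcub4 (hc : E2.CertE2) (R : ℝ) : ∃ C : ℝ, 0 ≤ C ∧ ∀ L : Vec 4, PP L → Rat_le R L →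
    |hS s4 eta4 L - 1 / 2 * (avg L * p3 L)| ≤ C * (avg L * pq L ^ 2) := by
  obtain ⟨C₁, hC₁, h1⟩ := vanCheck_sound hc.van4H R
  obtain ⟨C₂, hC₂, h2⟩ := sq_max_le4 R
  refine ⟨4 * |(16 : ℝ)| * C₁ * C₂ ^ 2, by positivity, fun L hL hR => ?_⟩
  obtain ⟨c, y1, y2, y3, σ, hc, g1, g2, g3, rfl⟩ := exists_sorted4 hL
  have hR' := winst_rat hc hR
  obtain ⟨h3, h4⟩ := h2 y1 y2 y3 g1 g2 g3 hR'
  have h5 := h1 y1 y2 y3 g1 g2 g3 ((le_max_left _ _).trans h3)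
    (((le_max_left _ _).trans (le_max_right _ _)).trans h3)
    (((le_max_right _ _).trans (le_max_right _ _)).trans h3)
  rw [bridge_q4H] at h5
  have ha := winst_avg4_ge y1 y2 y3
  have h6 := winst_up (k := 2) (K := 16) (by norm_num) hC₁ hC₂
    (pow_pos (avg_pos (pp_Lq4 y1 y2 y3)) 2) (by nlinarith) (pq_nonneg _) h4 ha h5
  rw [winst_hS hAdm4 hc (pp_Lq4 _ _ _), winst_avg, winst_pq hc, winst_p3 hc]
  have e : c * hS s4 eta4 (Lq4 y1 y2 y3) - 1 / 2 * (c * avg (Lq4 y1 y2 y3) * p3 (Lq4 y1 y2 y3)) =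
      c * (hS s4 eta4 (Lq4 y1 y2 y3) - 1 / 2 * (avg (Lq4 y1 y2 y3) * p3 (Lq4 y1 y2 y3))) := by
    ring
  rw [e, abs_mul, abs_of_pos hc]
  nlinarith [mul_le_mul_of_nonneg_left h6 hc.le]

theorem winst_con3 {I : Inst} {a b : ℕ} (h0 : I.c0 = a)
    (h1 : I.con = [(0, 0, 0, b), (12, 0, 0, b), (12, 12, 0, b)]) {κ : ℝ} (hκ : a * κ = 3 * b)
    {y1 y2 : ℝ} (h : 1 ≤ κ * avg (Lq3 12 y1 y2)) : I.Con y1 y2 0 := by
  have e : avg (Lq3 12 y1 y2) =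
      (1 + Real.exp (-(12 * y1)) + Real.exp (-(12 * (y1 + y2)))) / 3 := by
    simp [avg, Lq3, Fin.sum_univ_three]
  have h2 := mul_le_mul_of_nonneg_left h (Nat.cast_nonneg a : (0 : ℝ) ≤ a)
  rw [← mul_assoc, hκ, e] at h2
  unfold Inst.Con
  rw [h0, h1]
  simp only [List.map_cons, List.map_nil, List.sum_cons, List.sum_nil, Nat.cast_zero, zero_mul,
    add_zero, neg_zero, Real.exp_zero, Nat.cast_ofNat]
  rw [← mul_add (12 : ℝ)]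
  linarith

theorem winst_gen {I : Inst} {a b : ℕ} (h0 : I.c0 = a)
    (h1 : I.con = [(0, 0, 0, b), (12, 0, 0, b), (12, 12, 0, b)]) {κ : ℝ} (hκ : a * κ = 3 * b)
    (h : Holds I false 4 ⟨0, 2, true⟩ ⟨0, 2, true⟩ ⟨0, 16, false⟩) {N e : ℝ} (hN : 0 < N)
    {F : Vec 3 → ℝ}
    (hbr : ∀ y1 y2, I.val y1 y2 0 = N * (F (Lq3 12 y1 y2) *
      (avg (Lq3 12 y1 y2) ^ 2 * Real.exp (-(e * (y1 + y2))))))
    (hF : ∀ (c : ℝ) (L : Vec 3) (σ : Equiv.Perm (Fin 3)), 0 < c → PP L →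
      F (c • (L ∘ σ)) = c * F L)
    {L : Vec 3} (hL : PP L) (hle : ∀ i, L i ≤ κ * avg L) : 0 ≤ F L := by
  obtain ⟨δ, hδ, h⟩ := h.final2
  obtain ⟨c, y1, y2, σ, hc, g1, g2, rfl⟩ := exists_sorted3 (D := 12) (by norm_num) hL
  have h2 : 1 ≤ κ * avg (Lq3 12 y1 y2) := by
    have h3 := hle (σ.symm 0)
    rw [winst_avg] at h3
    simp only [Pi.smul_apply, Function.comp_apply, Equiv.apply_symm_apply, smul_eq_mul] at h3
    have e : Lq3 12 y1 y2 0 = 1 := rfl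
    rw [e] at h3
    refine le_of_mul_le_mul_left ?_ hc
    linarith
  have h3 := h y1 y2 g1 g2 (winst_con3 h0 h1 hκ h2)
  rw [hbr] at h3
  have h4 : 0 ≤ δ * min 1 (max y1 y2) ^ 4 := by positivity
  have h5 : 0 < avg (Lq3 12 y1 y2) ^ 2 * Real.exp (-(e * (y1 + y2))) :=
    mul_pos (pow_pos (avg_pos (pp_Lq3 _ _ _)) 2) (Real.exp_pos _)
  rw [hF c _ σ hc (pp_Lq3 _ _ _)]
  refine mul_nonneg hc.le ?_
  exact le_of_mul_le_mul_right (by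
    rw [zero_mul]
    exact le_of_mul_le_mul_left (by rw [mul_zero]; exact h4.trans h3) hN) h5

theorem winst_wG {c : ℝ} (hc : 0 < c) {L : Vec 3} (hL : PP L) (σ : Equiv.Perm (Fin 3)) :
    wG (c • (L ∘ σ)) = c * wG L :=
  wS_smul_comp sAdm_sG _ hc hL σ

theorem winst_wJ (j : Fin 6) {c : ℝ} (hc : 0 < c) {L : Vec 3} (hL : PP L)
    (σ : Equiv.Perm (Fin 3)) : wJ j (c • (L ∘ σ)) = c * wJ j L :=
  wS_smul_comp (sAdm_sig j) _ hc hL σ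

theorem gens_of_cert (hc : E2.CertE2) : Gens where
  G b hb h := winst_gen (a := 6) (b := 3) rfl rfl (by norm_num) hc.hgG (by norm_num)
    bridge_gG (fun c L σ h hL => winst_wG h hL σ) hb h
  Q b hb h := sub_nonneg.1 (winst_gen (a := 6) (b := 3) rfl rfl (by norm_num) hc.hgQ
    (by norm_num) (F := fun L => wJ 0 L - 438 / 1000 * wG L) bridge_gQ
    (fun c L σ h hL => by simp only [winst_wG h hL, winst_wJ _ h hL]; ring) hb h)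
  QC b hb h := sub_nonneg.1 (winst_gen (a := 6) (b := 3) rfl rfl (by norm_num) hc.hgQC
    (by norm_num) (F := fun L => wJ 0 L + 8 / 10000 * wJ 5 L - 433 / 1000 * wG L) bridge_gQC
    (fun c L σ h hL => by simp only [winst_wG h hL, winst_wJ _ h hL]; ring) hb h)
  C4 b hb h := winst_gen (a := 6) (b := 3) rfl rfl (by norm_num) hc.hgC4
    (by norm_num) (F := fun L => wJ 5 L + 30 * wG L) bridge_gC4
    (fun c L σ h hL => by simp only [winst_wG h hL, winst_wJ _ h hL]; ring) hb h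
  H b hb h := sub_nonneg.1 (winst_gen (a := 60) (b := 29) rfl rfl (by norm_num)
    hc.hgH (by norm_num) (F := fun L => wJ 1 L - 49 / 100 * wG L) bridge_gH
    (fun c L σ h hL => by simp only [winst_wG h hL, winst_wJ _ h hL]; ring) hb h)
  C1 b hb h := sub_nonneg.1 (winst_gen (a := 60) (b := 29) rfl rfl (by norm_num)
    hc.hgC1 (by norm_num) (F := fun L => wJ 2 L - 33 / 100 * wG L) bridge_gC1
    (fun c L σ h hL => by simp only [winst_wG h hL, winst_wJ _ h hL]; ring) hb h)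
  C2 b hb h := winst_gen (a := 60) (b := 29) rfl rfl (by norm_num)
    hc.hgC2 (by norm_num) (F := fun L => wJ 3 L + 23 / 10 * wG L) bridge_gC2
    (fun c L σ h hL => by simp only [winst_wG h hL, winst_wJ _ h hL]; ring) hb h
  C3 b hb h := winst_gen (a := 60) (b := 29) rfl rfl (by norm_num)
    hc.hgC3 (by norm_num) (F := fun L => wJ 4 L + 19 / 2 * wG L) bridge_gC3
    (fun c L σ h hL => by simp only [winst_wG h hL, winst_wJ _ h hL]; ring) hb h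

end Crest.Agent.R163
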