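import Crest.Agent.R163.Link
import Crest.Agent.R163.Extinct
import Crest.Agent.R163.Ferro
import Crest.Agent.R163.TreeUp
import Crest.Agent.R163.TreeLow
import Crest.Agent.R163.WInst
import Crest.Agent.R163.ADefs2

/-!
# R163/Final: the three statements from the certificates

`advantage_eq`, `gwAdvantage_eq` (use `funext`), `ferro` for `0 ≤ lam < 1` (`exists_wdata4`, `exists_wdata3`); `lam = 1` is impossible for
`b ≥ 2`, `d > 1`, and gives `d ≤ 1` in the Poisson case of `final45` (`extinct`).  `final44`, `lam = -t < 0`: dominate by a critical process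
(`Exp.bp_mono`, `Exp.Le.tv_le`, `squeeze_zero`): `b ≥ 4`: `t' = 1/√b ≤ 1/2`, `τ = t √b`; `b = 2, 3`: `b' = 4`, `t' = 1/2` (`step_reg_mono`);
Poisson: `d' = 1/t² ≥ d` (`step_pois_mono`, `τ = 1`).  `final46`: `tree_up`, `tree_low` with `hup4`, `hcub4`.
-/

set_option autoImplicit false

open Crest Crest.ProbabilityR

namespace Crest.Agent.R163

theorem final_lt_one {d lam : ℝ} (hd1 : 1 < d) (hd : d * lam ^ 2 ≤ 1) : lam < 1 := by
  by_contra h
  have h1 : 1 ≤ lam := not_lt.mp h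
  have h2 : 1 ≤ lam ^ 2 := one_le_pow₀ h1
  nlinarith


theorem final44 (hc : E2.CertE2) (hR : AntiReg) (hP : AntiPois) :
    (∀ b : ℕ, 2 ≤ b → ∀ lam : ℝ, -(1 / 2 : ℝ) ≤ lam → lam ≤ 1 → (b : ℝ) * lam ^ 2 ≤ 1 →
      Filter.Tendsto (Crest.ProbabilityR.Broadcast.advantage 3 b lam) Filter.atTop (nhds 0)) ∧
    (∀ d : ℝ, 1 < d → ∀ lam : ℝ, -(1 / 2 : ℝ) ≤ lam → lam ≤ 1 → d * lam ^ 2 ≤ 1 →
      Filter.Tendsto (Crest.ProbabilityR.Broadcast.gwAdvantage 3 lam d) Filter.atTop (nhds 0)) := by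
  obtain ⟨D⟩ := exists_wdata3 hc
  refine ⟨fun b hb lam h0 h1 hd => ?_, fun d hd1 lam h0 h1 hd => ?_⟩
  · have hb' : (2 : ℝ) ≤ b := by exact_mod_cast hb
    have hA : Adm 3 lam := ⟨h1, by push_cast; linarith⟩
    rw [funext (advantage_eq b hA)]
    rcases le_or_gt 0 lam with hl | hl
    · exact ferro D (Off.reg b) hA hl (final_lt_one (by linarith) hd) hd
    · rcases le_or_gt 4 b with h4 | h4
      · have hb4 : (4 : ℝ) ≤ b := by exact_mod_cast h4
        have hs2 : 2 ≤ √(b : ℝ) := Real.le_sqrt_of_sq_le (by linarith)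
        have hss : √(b : ℝ) ^ 2 = b := Real.sq_sqrt (by linarith)
        have hs0 : 0 < √(b : ℝ) := by linarith
        have ht0 : 0 < 1 / √(b : ℝ) := by positivity
        have ht1 : 1 / √(b : ℝ) ≤ 1 / 2 := by gcongr
        have hA' := adm3_neg ht0.le ht1
        refine squeeze_zero (fun n => Exp.E_tv_nonneg _) (fun n => ?_)
          (hR b h4 _ ht0 hA' (by rw [div_pow, hss]; field_simp))
        refine (Exp.bp_mono (τ := -lam * √(b : ℝ)) (fun μ => Exp.Le.refl _) hA hA'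
          (mul_nonneg (by linarith) hs0.le) ?_ (by field_simp) n).tv_le
        refine abs_le_of_sq_le_sq' ?_ zero_le_one |>.2
        rw [mul_pow, hss]; linarith
      · have hA' := adm3_neg (t := 1 / 2) (by norm_num) le_rfl
        refine squeeze_zero (fun n => Exp.E_tv_nonneg _) (fun n => ?_)
          (hR 4 le_rfl _ (by norm_num) hA' (by norm_num))
        exact (Exp.bp_mono (τ := -lam * 2) (fun μ => Exp.step_reg_mono μ h4.le) hA hA'
          (by linarith) (by linarith) (by ring) n).tv_le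
  · have hd0 : 0 < d := by linarith
    have hA : Adm 3 lam := ⟨h1, by push_cast; linarith⟩
    rw [funext (gwAdvantage_eq hd0 hA)]
    rcases le_or_gt 0 lam with hl | hl
    · exact ferro D (Off.pois d hd0) hA hl (final_lt_one hd1 hd) hd
    · obtain ⟨t, rfl⟩ : ∃ t, lam = -t := ⟨-lam, (neg_neg _).symm⟩
      have ht0 : 0 < t := by linarith
      have ht2 : 0 < t ^ 2 := by positivity
      have hd' : 0 < 1 / t ^ 2 := by positivity
      have hle : d ≤ 1 / t ^ 2 := by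
        rw [le_div_iff₀ ht2]; linarith [neg_sq t]
      refine squeeze_zero (fun n => Exp.E_tv_nonneg _) (fun n => ?_)
        (hP (1 / t ^ 2) hd' t ht0 hA (by field_simp))
      exact (Exp.bp_mono (τ := 1) (fun μ => Exp.step_pois_mono μ hd0 hd' hle) hA hA
        zero_le_one le_rfl (one_mul _).symm n).tv_le


theorem final45 (hc : E2.CertE2) :
    (∀ b : ℕ, 2 ≤ b → ∀ lam : ℝ, 0 ≤ lam → lam ≤ 1 → (b : ℝ) * lam ^ 2 ≤ 1 →
      Filter.Tendsto (Crest.ProbabilityR.Broadcast.advantage 4 b lam) Filter.atTop (nhds 0)) ∧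
    (∀ d : ℝ, 0 < d → ∀ lam : ℝ, 0 ≤ lam → lam ≤ 1 → d * lam ^ 2 ≤ 1 →
      Filter.Tendsto (Crest.ProbabilityR.Broadcast.gwAdvantage 4 lam d) Filter.atTop (nhds 0)) := by
  obtain ⟨D, -, -⟩ := exists_wdata4 hc
  refine ⟨fun b hb lam h0 h1 hd => ?_, fun d hd0 lam h0 h1 hd => ?_⟩
  · have hb' : (2 : ℝ) ≤ b := by exact_mod_cast hb
    have hA : Adm 4 lam := adm_of_nonneg h0 h1
    rw [funext (advantage_eq b hA)]
    exact ferro D (Off.reg b) hA h0 (final_lt_one (by linarith) hd) hd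
  · have hA : Adm 4 lam := adm_of_nonneg h0 h1
    rw [funext (gwAdvantage_eq hd0 hA)]
    rcases le_or_gt d 1 with h | h
    · exact extinct hd0 h hA h0
    · exact ferro D (Off.pois d hd0) hA h0 (final_lt_one h hd) hd


theorem final46 (hc : E2.CertE2) (V : Type*) [DecidableEq V]
    (T : Crest.ProbabilityR.TreeBroadcast.LocFinTree V) [Infinite V] (B : ℕ)
    (hB : ∀ v, (T.children v).card ≤ B) (lam : ℝ) (h0 : 0 < lam) (h1 : lam < 1) :
    (∃ ε : ℝ, 0 < ε ∧ ∀ n, ε ≤ Crest.ProbabilityR.TreeBroadcast.treeAdvantage 4 T lam n) ↔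
    (∃ θ : V → ℝ, Crest.ProbabilityR.TreeBroadcast.IsFlow T θ ∧
      0 < Crest.ProbabilityR.TreeBroadcast.flowMass T θ ∧
      ∀ ξ : ℕ → V, T.IsRay ξ → Crest.ProbabilityR.TreeBroadcast.rayPotential lam θ ξ ≤ 1) := by
  obtain ⟨D, hs, hη⟩ := exists_wdata4 hc
  refine ⟨tree_up D T hB h0 h1, fun ⟨θ, h2, h3, h4⟩ => ?_⟩
  refine tree_low (by norm_num) D ?_ ⟨1 / 2, ?_⟩ T hB h0 h1 h2 h3 h4
  · rw [hs, hη]; exact hup4 hc
  · rw [hs, hη]; exact hcub4 hc


end Crest.Agent.R163
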