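import Crest.Agent.R163.Basic

/-!
# R163/Link: the frozen definitions `advantage`, `gwAdvantage` are `E tv` of `Exp.bp`

Recipe.  Prove by induction on `n` a statement valid for *all* `ψ`:
`∃ e : ((Fin n → Fin b) → Fin q) ≃ (bp (Off.reg b) lam h n).Ω, ∀ τ i, (bp ..).L (e τ) i = leafLaw q b lam n i τ`
and the same for `PObs q n` and `gwLaw`; then `Equiv.tsum_eq`, `tsum_fintype`.
Auxiliary: `(μ.pow k).Ω ≃ (Fin k → μ.Ω)` with `L = ∏ m, μ.L (ω m)` (induction on `k`, `Fin.consEquiv`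
/`Fin.prod_univ_succ`); `List α ≃ Σ k, (Fin k → α)` is `List.equivSigmaTuple`;
`(Fin (n+1) → Fin b) ≃ Fin b × (Fin n → Fin b)`, curry;
`∑ j, channel q lam i j * L j = Pm lam L i`.
-/

set_option autoImplicit false

namespace Crest.Agent.R163

open Crest.ProbabilityR

variable {q : ℕ} [NeZero q]

theorem sum_channel (lam : ℝ) (L : Vec q) (i : Fin q) :
    ∑ j, Broadcast.channel q lam i j * L j = Pm lam L i := by
  simp only [Broadcast.channel, add_mul, Finset.sum_add_distrib, ite_mul, zero_mul,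
    Finset.sum_ite_eq, Finset.mem_univ, if_true, ← Finset.mul_sum, Pm, avg]
  ring

omit [NeZero q] in
/-- the sample space of a power is a space of tuples -/
theorem link_pow {α : Type} (μ : Exp q) (e : α ≃ μ.Ω) (k : ℕ) :
    ∃ E : (Fin k → α) ≃ (μ.pow k).Ω, ∀ x i, (μ.pow k).L (E x) i = ∏ m, μ.L (e (x m)) i := by
  induction k with
  | zero => exact ⟨Equiv.ofUnique _ Unit, fun x i => by simp [Exp.pow, Exp.unit]⟩
  | succ k ih =>
    obtain ⟨E, hE⟩ := ih
    refine ⟨(Fin.consEquiv fun _ => α).symm.trans (Equiv.prodCongr e E), fun x i => ?_⟩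
    rw [Fin.prod_univ_succ, ← hE (fun m => x m.succ) i]
    rfl

theorem link_reg (b : ℕ) {lam : ℝ} (h : Adm q lam) (n : ℕ) :
    ∃ e : ((Fin n → Fin b) → Fin q) ≃ (Exp.bp (Off.reg b) lam h n).Ω, ∀ τ i,
      (Exp.bp (Off.reg b) lam h n).L (e τ) i = Broadcast.leafLaw q b lam n i τ := by
  induction n with
  | zero =>
    refine ⟨Equiv.funUnique _ _, fun τ i => ?_⟩
    change (if τ default = i then (1 : ℝ) else 0) = if τ Fin.elim0 = i then 1 else 0
    rw [Subsingleton.elim (default : Fin 0 → Fin b) Fin.elim0]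
  | succ n ih =>
    obtain ⟨e, he⟩ := ih
    obtain ⟨E, hE⟩ := link_pow (Exp.chan lam h (Exp.bp (Off.reg b) lam h n)) e b
    let e1 : ((Fin (n + 1) → Fin b) → Fin q) ≃ (Fin b → (Fin n → Fin b) → Fin q) :=
      (Equiv.arrowCongr (Fin.consEquiv fun _ => Fin b).symm (Equiv.refl _)).trans (Equiv.curry _ _ _)
    let e2 : ((Exp.chan lam h (Exp.bp (Off.reg b) lam h n)).pow b).Ω ≃
        (Exp.bp (Off.reg b) lam h (n + 1)).Ω :=
      (Equiv.uniqueSigma fun _ : Unit =>
        ((Exp.chan lam h (Exp.bp (Off.reg b) lam h n)).pow b).Ω).symm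
    refine ⟨e1.trans (E.trans e2), fun τ i => ?_⟩
    change 1 * ((Exp.chan lam h (Exp.bp (Off.reg b) lam h n)).pow b).L (E (e1 τ)) i = _
    rw [one_mul, hE, Broadcast.leafLaw]
    refine Finset.prod_congr rfl fun m _ => ?_
    change Pm lam ((Exp.bp (Off.reg b) lam h n).L (e (e1 τ m))) i = _
    rw [← sum_channel]
    simp only [he]
    rfl

theorem link_pois {d : ℝ} (hd : 0 < d) {lam : ℝ} (h : Adm q lam) (n : ℕ) :
    ∃ e : Broadcast.PObs q n ≃ (Exp.bp (Off.pois d hd) lam h n).Ω, ∀ o i,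
      (Exp.bp (Off.pois d hd) lam h n).L (e o) i = Broadcast.gwLaw q lam d n i o := by
  induction n with
  | zero => exact ⟨Equiv.refl _, fun o i => rfl⟩
  | succ n ih =>
    obtain ⟨e, he⟩ := ih
    choose E hE using link_pow (Exp.chan lam h (Exp.bp (Off.pois d hd) lam h n)) e
    refine ⟨List.equivSigmaTuple.trans (Equiv.sigmaCongrRight E), fun o i => ?_⟩
    change Real.exp (-d) * d ^ o.length / (o.length.factorial : ℝ) *
      ((Exp.chan lam h (Exp.bp (Off.pois d hd) lam h n)).pow o.length).L (E o.length o.get) i = _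
    rw [hE, Broadcast.gwLaw, ← Fin.prod_univ_fun_getElem]
    congr 1
    refine Finset.prod_congr rfl fun m _ => ?_
    change Pm lam ((Exp.bp (Off.pois d hd) lam h n).L (e (o.get m))) i = _
    rw [← sum_channel]
    simp only [he]
    rfl

theorem advantage_eq (b : ℕ) {lam : ℝ} (h : Adm q lam) (n : ℕ) :
    Broadcast.advantage q b lam n = (Exp.bp (Off.reg b) lam h n).E tv := by
  obtain ⟨e, he⟩ := link_reg b h n
  rw [Exp.E, ← e.tsum_eq, tsum_fintype, Broadcast.advantage, Finset.mul_sum]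
  refine Finset.sum_congr rfl fun τ _ => ?_
  simp only [tv, avg, he, div_eq_inv_mul, mul_one]

theorem gwAdvantage_eq {d : ℝ} (hd : 0 < d) {lam : ℝ} (h : Adm q lam) (n : ℕ) :
    Broadcast.gwAdvantage q lam d n = (Exp.bp (Off.pois d hd) lam h n).E tv := by
  obtain ⟨e, he⟩ := link_pois hd h n
  rw [Exp.E, ← e.tsum_eq, Broadcast.gwAdvantage, ← tsum_mul_left]
  refine tsum_congr fun o => ?_
  simp only [tv, avg, he, div_eq_inv_mul, mul_one]

end Crest.Agent.R163
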