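import Crest.Agent.R163.Basic

/-!
# R163/Mom: the multiplicative functionals `mS`

Recipes.  `mon s (L * L') = mon s L * mon s L'` on the orthant (`Complex.mul_cpow_ofReal_nonneg`);
`‖mon s L‖ = ∏ L i ^ (s i).re ≤ ∑ (s i).re * L i` (weighted AM–GM `Real.geom_mean_le_arith_mean_weighted`;
`Complex.norm_cpow_eq_rpow_re_of_nonneg`; exponent `0` gives the factor `1`); averaging over `π` gives
`≤ avg L`.  For symmetric `μ`, `M = ∑' ω, mon s (L ω)` (complex, absolutely summable) is invariant under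
`L ↦ L ∘ π` (reindex by the equivalence of `Sym`), real (use `τ` of `SAdm.conj`:
`mon s (L ∘ τ⁻¹)`-type reindexing equals `conj (mon s L)`), so `μ.E (mS s) = M.re`, `M = μ.E (mS s)`, and
`M (prod μ ν) = M μ * M ν` (`tsum_mul_tsum_of_summable_norm`).
-/

set_option autoImplicit false

namespace Crest.Agent.R163

open Finset

variable {q : ℕ} [NeZero q]

omit [NeZero q] in
theorem mon_mul (s : Fin q → ℂ) {L L' : Vec q} (h : NN L) (h' : NN L') :
    mon s (L * L') = mon s L * mon s L' := by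
  unfold mon
  rw [← prod_mul_distrib]
  refine prod_congr rfl fun i _ => ?_
  rw [Pi.mul_apply, Complex.ofReal_mul, Complex.mul_cpow_ofReal_nonneg (h i) (h' i)]
omit [NeZero q] in
theorem mon_eq_exp (s : Fin q → ℂ) {L : Vec q} (h : PP L) : mon s L = Complex.exp (lin s L) := by
  unfold mon lin
  rw [Complex.exp_sum]
  refine prod_congr rfl fun i _ => ?_
  rw [Complex.cpow_def_of_ne_zero (Complex.ofReal_ne_zero.2 (h i).ne'),
    Complex.ofReal_log (h i).le, mul_comm]
omit [NeZero q] in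
theorem HAdm.sAdm {s η : Fin q → ℂ} (h : HAdm s η) : SAdm s := by
  obtain ⟨τ, hτ⟩ := h.conj
  exact ⟨h.sum_one, fun i => Or.inr (h.re_pos i), τ, fun i => (hτ i).1⟩
omit [NeZero q] in
theorem SAdm.mom_re_nonneg {s : Fin q → ℂ} (hs : SAdm s) (i : Fin q) : 0 ≤ (s i).re := by
  rcases hs.re_pos i with h | h
  · rw [h, Complex.zero_re]
  · exact h.le
omit [NeZero q] in
theorem SAdm.mom_sum_re {s : Fin q → ℂ} (hs : SAdm s) : ∑ i, (s i).re = 1 := by
  rw [← Complex.re_sum, hs.sum_one, Complex.one_re]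
omit [NeZero q] in
theorem norm_mon_le {s : Fin q → ℂ} (hs : SAdm s) {L : Vec q} (h : NN L) :
    ‖mon s L‖ ≤ ∑ i, (s i).re * L i := by
  refine le_trans (le_of_eq ?_) (Real.geom_mean_le_arith_mean_weighted univ (fun i => (s i).re) L
    (fun i _ => hs.mom_re_nonneg i) hs.mom_sum_re fun i _ => h i)
  unfold mon
  rw [norm_prod]
  refine prod_congr rfl fun i _ => ?_
  rcases hs.re_pos i with h0 | h0
  · simp [h0]
  · exact Complex.norm_cpow_eq_rpow_re_of_nonneg (h i) h0.ne'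
omit [NeZero q] in
theorem mon_smul {s : Fin q → ℂ} (hs : SAdm s) {c : ℝ} (hc : 0 < c) {L : Vec q} (h : NN L) :
    mon s (c • L) = c * mon s L := by
  have e : c • L = (fun _ => c) * L := rfl
  rw [e, mon_mul s (fun _ => hc.le) h, mon_eq_exp s (L := fun _ => c) fun _ => hc]
  congr 1
  unfold lin
  rw [← sum_mul, hs.sum_one, one_mul, ← Complex.ofReal_exp, Real.exp_log hc]
omit [NeZero q] in
theorem mS_comp (s : Fin q → ℂ) (L : Vec q) (σ : Equiv.Perm (Fin q)) : mS s (L ∘ σ) = mS s L := by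
  unfold mS
  congr 1
  exact Fintype.sum_equiv (Equiv.mulLeft σ) _ _ fun π => rfl
theorem mom_sum_perm (L : Vec q) (i : Fin q) :
    ∑ π : Equiv.Perm (Fin q), L (π i) = q.factorial * avg L := by
  have hq : (q : ℝ) ≠ 0 := Nat.cast_ne_zero.2 (NeZero.ne q)
  have h1 : ∀ j, ∑ π : Equiv.Perm (Fin q), L (π j) = ∑ π : Equiv.Perm (Fin q), L (π i) :=
    fun j => Fintype.sum_equiv (Equiv.mulRight (Equiv.swap i j)) _ _ fun π => by simp
  have h2 : ∑ j, ∑ π : Equiv.Perm (Fin q), L (π j) = q.factorial * ∑ j, L j := by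
    rw [sum_comm]
    simp only [fun π : Equiv.Perm (Fin q) => Equiv.sum_comp π L]
    rw [sum_const, card_univ, Fintype.card_perm, Fintype.card_fin, nsmul_eq_mul]
  simp only [h1] at h2
  rw [sum_const, card_univ, Fintype.card_fin, nsmul_eq_mul] at h2
  unfold avg
  field_simp
  linarith
theorem abs_mS_le {s : Fin q → ℂ} (hs : SAdm s) {L : Vec q} (h : NN L) : |mS s L| ≤ avg L := by
  have hf : (0 : ℝ) < q.factorial := Nat.cast_pos.2 (Nat.factorial_pos q)
  unfold mS
  rw [abs_div, abs_of_pos hf, div_le_iff₀ hf]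
  calc |∑ π : Equiv.Perm (Fin q), (mon s (L ∘ π)).re|
      ≤ ∑ π : Equiv.Perm (Fin q), ∑ i, (s i).re * L (π i) := by
        refine (abs_sum_le_sum_abs _ _).trans (sum_le_sum fun π _ => ?_)
        exact (Complex.abs_re_le_norm _).trans (norm_mon_le hs (L := L ∘ π) fun i => h (π i))
    _ = avg L * q.factorial := by
        rw [sum_comm]
        simp only [← mul_sum, mom_sum_perm]
        rw [← sum_mul, hs.mom_sum_re, one_mul, mul_comm]
theorem lin_mS {s : Fin q → ℂ} (hs : SAdm s) : Lin (mS s) :=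
  ⟨1, fun _ h => by rw [one_mul]; exact abs_mS_le hs h⟩
omit [NeZero q] in
theorem hom_mS {s : Fin q → ℂ} (hs : SAdm s) : Hom (mS s) := by
  intro c L hc h
  unfold mS
  rw [← mul_div_assoc, mul_sum]
  congr 1
  refine sum_congr rfl fun π _ => ?_
  have e : (c • L) ∘ π = c • (L ∘ π) := rfl
  rw [e, mon_smul hs hc (L := L ∘ π) fun i => h (π i), Complex.re_ofReal_mul]
omit [NeZero q] in
theorem mS_one (s : Fin q → ℂ) : mS s (1 : Vec q) = 1 := by
  have hf : (q.factorial : ℝ) ≠ 0 := Nat.cast_ne_zero.2 (Nat.factorial_ne_zero q)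
  simp [mS, mon, Fintype.card_perm, hf]
omit [NeZero q] in
theorem mom_mon_real (s : Fin q → ℝ) {L : Vec q} (h : NN L) :
    (mon (fun i => ((s i : ℝ) : ℂ)) L).re = ∏ i, L i ^ s i := by
  unfold mon
  simp only [fun i => (Complex.ofReal_cpow (h i) (s i)).symm]
  rw [← Complex.ofReal_prod, Complex.ofReal_re]
omit [NeZero q] in
theorem mom_geo_add {s : Fin q → ℝ} (h0 : ∀ i, 0 ≤ s i) (h1 : ∑ i, s i = 1) {L L' : Vec q}
    (h : NN L) (h' : NN L') :
    ∏ i, L i ^ s i + ∏ i, L' i ^ s i ≤ ∏ i, (L i + L' i) ^ s i := by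
  have hT : ∀ i, 0 ≤ L i + L' i := fun i => add_nonneg (h i) (h' i)
  have key : ∀ M : Vec q, NN M → (∀ i, M i ≤ L i + L' i) → ∏ i, M i ^ s i ≤
      (∑ i, s i * (M i / (L i + L' i))) * ∏ i, (L i + L' i) ^ s i := by
    intro M hM hle
    have e : ∀ i, M i ^ s i = (M i / (L i + L' i)) ^ s i * (L i + L' i) ^ s i := by
      intro i
      rw [← Real.mul_rpow (div_nonneg (hM i) (hT i)) (hT i)]
      congr 1
      rcases (hT i).eq_or_lt with h2 | h2
      · rw [← h2, mul_zero]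
        exact le_antisymm (h2 ▸ hle i) (hM i)
      · rw [div_mul_cancel₀ _ h2.ne']
    simp only [e]
    rw [prod_mul_distrib]
    exact mul_le_mul_of_nonneg_right (Real.geom_mean_le_arith_mean_weighted univ s _
      (fun i _ => h0 i) h1 fun i _ => div_nonneg (hM i) (hT i))
      (prod_nonneg fun i _ => Real.rpow_nonneg (hT i) _)
  refine (add_le_add (key L h fun i => le_add_of_nonneg_right (h' i))
    (key L' h' fun i => le_add_of_nonneg_left (h i))).trans ?_
  rw [← add_mul, ← sum_add_distrib]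
  refine mul_le_of_le_one_left (prod_nonneg fun i _ => Real.rpow_nonneg (hT i) _) ?_
  rw [← h1]
  refine sum_le_sum fun i _ => ?_
  rw [← mul_add, ← add_div]
  exact mul_le_of_le_one_right (h0 i) (div_self_le_one _)
/-- real nonnegative exponents give a concave functional -/
theorem good_mS {s : Fin q → ℝ} (h0 : ∀ i, 0 ≤ s i) (h1 : ∑ i, s i = 1) :
    Good (mS fun i => ((s i : ℝ) : ℂ)) := by
  have hf : (0 : ℝ) ≤ q.factorial := Nat.cast_nonneg _
  have e : ∀ L : Vec q, NN L → mS (fun i => ((s i : ℝ) : ℂ)) L =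
      (∑ π : Equiv.Perm (Fin q), ∏ i, L (π i) ^ s i) / q.factorial := by
    intro L h
    unfold mS
    congr 1
    exact sum_congr rfl fun π _ => mom_mon_real s (L := L ∘ π) fun i => h (π i)
  refine ⟨fun L h => ?_, fun L L' h h' => ?_, fun c L hc h => ?_⟩
  · rw [e L h]
    exact div_nonneg (sum_nonneg fun π _ => prod_nonneg fun i _ => Real.rpow_nonneg (h _) _) hf
  · rw [e L h, e L' h', e (L + L') fun i => add_nonneg (h i) (h' i), ← add_div, ← sum_add_distrib]
    refine div_le_div_of_nonneg_right (sum_le_sum fun π _ => ?_) hf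
    exact mom_geo_add h0 h1 (L := L ∘ π) (L' := L' ∘ π) (fun i => h (π i)) fun i => h' (π i)
  · rw [e L h, e (c • L) fun i => mul_nonneg hc (h i), ← mul_div_assoc, mul_sum]
    congr 1
    refine sum_congr rfl fun π _ => ?_
    simp only [Pi.smul_apply, smul_eq_mul, fun i => Real.mul_rpow hc (h (π i)) (z := s i)]
    rw [prod_mul_distrib, ← Real.rpow_sum_of_nonneg hc fun i _ => h0 i, h1, Real.rpow_one]

omit [NeZero q] in
theorem mom_conj_mon {s : Fin q → ℂ} {τ : Equiv.Perm (Fin q)}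
    (hτ : ∀ i, s (τ i) = (starRingEnd ℂ) (s i)) {L : Vec q} (h : NN L) :
    mon s (L ∘ τ.symm) = (starRingEnd ℂ) (mon s L) := by
  unfold mon
  rw [map_prod, ← Equiv.prod_comp τ]
  refine prod_congr rfl fun i _ => ?_
  have harg : ((L i : ℝ) : ℂ).arg ≠ Real.pi := by
    rw [Complex.arg_ofReal_of_nonneg (h i)]
    exact Real.pi_ne_zero.symm
  rw [Function.comp_apply, Equiv.symm_apply_apply, hτ, Complex.cpow_conj _ _ harg,
    Complex.conj_ofReal]

namespace Exp

theorem summable_norm_mon (μ : Exp q) {s : Fin q → ℂ} (hs : SAdm s) :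
    Summable fun ω => ‖mon s (μ.L ω)‖ :=
  Summable.of_nonneg_of_le (fun _ => norm_nonneg _) (fun ω => norm_mon_le hs (μ.nonneg ω))
    (summable_sum fun i _ => (μ.hasSum i).summable.mul_left _)
/-- for symmetric experiments the unsymmetrised complex sum is the real number `E (mS s)` -/
theorem tsum_mon {μ : Exp q} (hμ : μ.Sym) {s : Fin q → ℂ} (hs : SAdm s) :
    ∑' ω, mon s (μ.L ω) = ((μ.E (mS s) : ℝ) : ℂ) := by
  have hM := (μ.summable_norm_mon hs).of_norm.hasSum
  set M := ∑' ω, mon s (μ.L ω)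
  have h1 : ∀ π : Equiv.Perm (Fin q), HasSum (fun ω => mon s (μ.L ω ∘ π)) M := by
    intro π
    obtain ⟨e, he⟩ := hμ π
    simp only [← he]
    exact e.hasSum_iff.2 hM
  have h2 : (starRingEnd ℂ) M = M := by
    obtain ⟨τ, hτ⟩ := hs.conj
    have h3 := h1 τ.symm
    simp only [fun ω => mom_conj_mon hτ (μ.nonneg ω)] at h3
    exact (Complex.conjCLE.toContinuousLinearMap.hasSum hM).unique h3
  have h3 : HasSum (fun ω => mS s (μ.L ω))
      ((∑ _π : Equiv.Perm (Fin q), M.re) / (q.factorial : ℝ)) :=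
    (hasSum_sum fun π _ => Complex.hasSum_re (h1 π)).div_const _
  have hf : (q.factorial : ℝ) ≠ 0 := Nat.cast_ne_zero.2 (Nat.factorial_ne_zero q)
  rw [sum_const, card_univ, Fintype.card_perm, Fintype.card_fin, nsmul_eq_mul,
    mul_div_cancel_left₀ _ hf] at h3
  rw [E, h3.tsum_eq]
  exact (Complex.conj_eq_iff_re.1 h2).symm
theorem abs_E_mS_le (μ : Exp q) {s : Fin q → ℂ} (hs : SAdm s) : |μ.E (mS s)| ≤ 1 :=
  μ.abs_E_le fun ω => by rw [one_mul]; exact abs_mS_le hs (μ.nonneg ω)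
theorem E_mS_prod {μ ν : Exp q} (hμ : μ.Sym) (hν : ν.Sym) {s : Fin q → ℂ} (hs : SAdm s) :
    (prod μ ν).E (mS s) = μ.E (mS s) * ν.E (mS s) := by
  apply Complex.ofReal_injective
  rw [Complex.ofReal_mul, ← tsum_mon hμ hs, ← tsum_mon hν hs, ← tsum_mon (hμ.prod hν) hs,
    tsum_mul_tsum_of_summable_norm (μ.summable_norm_mon hs) (ν.summable_norm_mon hs)]
  exact tsum_congr fun ω => mon_mul s (μ.nonneg ω.1) (ν.nonneg ω.2)
theorem E_mS_pow {μ : Exp q} (hμ : μ.Sym) {s : Fin q → ℂ} (hs : SAdm s) (k : ℕ) :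
    (μ.pow k).E (mS s) = μ.E (mS s) ^ k := by
  induction k with
  | zero => rw [pow_zero, Exp.pow, E_unit, mS_one]
  | succ k ih => rw [Exp.pow, E_mS_prod hμ (hμ.pow k) hs, ih, pow_succ']
theorem E_mS_step {μ : Exp q} (hμ : μ.Sym) {s : Fin q → ℂ} (hs : SAdm s) (O : Off) :
    (step O μ).E (mS s) = O.gen (μ.E (mS s)) := by
  rw [← (hasSum_E_step O μ (lin_mS hs) (hom_mS hs)).tsum_eq, Off.gen]
  exact tsum_congr fun k => by rw [E_mS_pow hμ hs]

end Exp

theorem Off.gen_reg (b : ℕ) (x : ℝ) : (Off.reg b).gen x = x ^ b := by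
  show ∑' _ : Unit, (1 : ℝ) * x ^ b = x ^ b
  simp
theorem Off.gen_pois {d : ℝ} (hd : 0 < d) (x : ℝ) :
    (Off.pois d hd).gen x = Real.exp (-(d * (1 - x))) := by
  show ∑' k : ℕ, Real.exp (-d) * d ^ k / (k.factorial : ℝ) * x ^ k = _
  have h := (Off.hasSum_exp (d * x)).mul_left (Real.exp (-d))
  rw [← Real.exp_add] at h
  rw [show -(d * (1 - x)) = -d + d * x by ring, ← h.tsum_eq]
  exact tsum_congr fun k => by rw [mul_pow]; ring

end Crest.Agent.R163
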