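import Crest.Agent.R163.Mom

/-!
# R163/WProd: product rules for `S`, `H` and the potential `W = S + max (H, -eN H)`

Recipes.  `‖lin η L * mon s L‖ ≤ C * avg L` for positive `L` (`∑ η = 0`: write
`lin η L = ∑ η i * log (L i / Lmax)`, and `|log x| * x ^ a ≤ 1 / a` on `(0,1]`, all `(s i).re > 0`).
`lin η (L * L') = lin η L + lin η L'`, so `H (prod μ ν) = H μ * M ν + M μ * H ν` as for `E_mS_prod`.
`Sf L = (1/q²) ∑ i j, L i * (log L i - log L j) = (1/(2q²)) ∑ i j, (L i - L j)(log L i - log L j)`;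
`(a - b)(log a - log b) ≥ (a - b)² / max a b` and `max ≤ q ā`, `∑ i j (L i - L j)² = 2 q² ā² p`.
`D i j μ = ∑' L i (log L i - log L j)` is additive under `prod` (absolute summability on the product:
`summable_mul_of_summable_norm`); `A i j μ = ∑' |..|` is subadditive, so `A (pow μ k) ≤ k A μ`, which gives
`FinS (step O μ)` by `summable_sigma_of_nonneg` and `O.mean`.
`φ h = max h (-eN h)` is subadditive, positively homogeneous, and `φ (m h) ≤ φ h` for `-eN ≤ m ≤ 1`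
(`M ≥ -eN` is `D.hC`, `M ≤ 1` is `abs_E_mS_le`).
-/

set_option autoImplicit false
set_option linter.unusedSectionVars false

namespace Crest.Agent.R163

open Finset

variable {q : ℕ} [NeZero q]

omit [NeZero q] in
theorem hS_comp (s η : Fin q → ℂ) (L : Vec q) (σ : Equiv.Perm (Fin q)) :
    hS s η (L ∘ σ) = hS s η L := by
  unfold hS
  rw [← Equiv.sum_comp (Equiv.mulLeft σ)
    fun π : Equiv.Perm (Fin q) => (lin η (L ∘ π) * mon s (L ∘ π)).re]
  rfl

omit [NeZero q] in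
theorem wp_lin_mul (η : Fin q → ℂ) {L L' : Vec q} (h : PP L) (h' : PP L') :
    lin η (L * L') = lin η L + lin η L' := by
  unfold lin
  rw [← Finset.sum_add_distrib]
  refine Finset.sum_congr rfl fun i _ => ?_
  rw [Pi.mul_apply, Real.log_mul (h i).ne' (h' i).ne']
  push_cast; ring

omit [NeZero q] in
theorem wp_lin_smul {η : Fin q → ℂ} (h : ∑ i, η i = 0) {c : ℝ} (hc : 0 < c) {L : Vec q}
    (hL : PP L) : lin η (c • L) = lin η L := by
  have : lin η (fun _ => c) = 0 := by rw [lin, ← Finset.sum_mul, h, zero_mul]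
  rw [show c • L = (fun _ => c) * L from rfl, wp_lin_mul η (fun _ => hc) hL, this, zero_add]

theorem wp_norm_le {s η : Fin q → ℂ} (h : HAdm s η) :
    ∃ C : ℝ, ∀ L : Vec q, PP L → ‖lin η L * mon s L‖ ≤ C * avg L := by
  have key : ∀ x : Vec q, PP x → (∀ i, x i ≤ 1) →
      ‖lin η x * mon s x‖ ≤ ∑ i, ‖η i‖ * (1 / (s i).re) := fun x hx h1 => by
    rw [lin, Finset.sum_mul]
    refine (norm_sum_le _ _).trans (Finset.sum_le_sum fun i _ => ?_)
    have h2 : ‖mon s x‖ ≤ x i ^ (s i).re := by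
      rw [mon, norm_prod, ← Finset.mul_prod_erase _ _ (Finset.mem_univ i),
        Complex.norm_cpow_eq_rpow_re_of_pos (hx i)]
      refine mul_le_of_le_one_right (Real.rpow_nonneg (hx i).le _)
        (Finset.prod_le_one (fun j _ => norm_nonneg _) fun j _ => ?_)
      rw [Complex.norm_cpow_eq_rpow_re_of_pos (hx j)]
      exact Real.rpow_le_one (hx j).le (h1 j) (h.re_pos j).le
    have h3 := (Real.abs_log_mul_self_rpow_lt (x i) (s i).re (hx i) (h1 i) (h.re_pos i)).le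
    rw [abs_mul, abs_of_nonneg (Real.rpow_nonneg (hx i).le _)] at h3
    rw [mul_assoc, norm_mul, norm_mul, Complex.norm_real, Real.norm_eq_abs]
    exact mul_le_mul_of_nonneg_left
      ((mul_le_mul_of_nonneg_left h2 (abs_nonneg _)).trans h3) (norm_nonneg _)
  refine ⟨(∑ i, ‖η i‖ * (1 / (s i).re)) * q, fun L hL => ?_⟩
  obtain ⟨i, -, hi⟩ := Finset.exists_max_image Finset.univ L Finset.univ_nonempty
  have hx : PP ((L i)⁻¹ • L) := fun j => mul_pos (inv_pos.2 (hL i)) (hL j)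
  have h1 := key _ hx fun j => by
    rw [Pi.smul_apply, smul_eq_mul, inv_mul_le_iff₀ (hL i), mul_one]
    exact hi j (Finset.mem_univ j)
  have e : L = L i • (L i)⁻¹ • L := by rw [smul_inv_smul₀ (hL i).ne']
  have h2 : lin η L * mon s L = (L i : ℂ) * (lin η ((L i)⁻¹ • L) * mon s ((L i)⁻¹ • L)) := by
    conv_lhs => rw [e, wp_lin_smul h.sum_zero (hL i) hx, mon_smul h.sAdm (hL i) hx.nn]
    ring
  rw [h2, norm_mul, Complex.norm_real, Real.norm_of_nonneg (hL i).le, mul_comm, mul_assoc]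
  exact mul_le_mul h1 (le_mul_avg hL.nn i) (hL i).le ((norm_nonneg _).trans h1)

theorem exists_abs_hS_le {s η : Fin q → ℂ} (h : HAdm s η) :
    ∃ C : ℝ, ∀ L : Vec q, PP L → |hS s η L| ≤ C * avg L := by
  obtain ⟨C, hC⟩ := wp_norm_le h
  refine ⟨C, fun L hL => ?_⟩
  have hq : (0 : ℝ) < q.factorial := Nat.cast_pos.2 q.factorial_pos
  rw [hS, abs_div, abs_of_pos hq, div_le_iff₀ hq]
  refine (Finset.abs_sum_le_sum_abs _ _).trans ((Finset.sum_le_card_nsmul _ _ (C * avg L)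
    fun π _ => ?_).trans (le_of_eq ?_))
  · rw [← avg_comp L π]
    exact (Complex.abs_re_le_norm _).trans (hC _ fun i => hL _)
  · rw [Finset.card_univ, Fintype.card_perm, Fintype.card_fin, nsmul_eq_mul, mul_comm]

omit [NeZero q] in
theorem hS_smul {s η : Fin q → ℂ} (h : HAdm s η) {c : ℝ} (hc : 0 < c) {L : Vec q} (hL : PP L) :
    hS s η (c • L) = c * hS s η L := by
  rw [hS, hS, ← mul_div_assoc, Finset.mul_sum]
  refine congrArg (· / _) (Finset.sum_congr rfl fun π _ => ?_)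
  have hπ : PP (L ∘ π) := fun i => hL _
  rw [show (c • L) ∘ π = c • (L ∘ π) from rfl, wp_lin_smul h.sum_zero hc hπ,
    mon_smul h.sAdm hc hπ.nn, mul_left_comm, Complex.re_ofReal_mul]

omit [NeZero q] in
theorem hS_one (s η : Fin q → ℂ) : hS s η (1 : Vec q) = 0 := by
  simp [hS, lin]

theorem wp_Sf_eq (L : Vec q) :
    Sf L = (∑ i, ∑ j, L i * (Real.log (L i) - Real.log (L j))) / (q : ℝ) ^ 2 := by
  have hq : (q : ℝ) ≠ 0 := Nat.cast_ne_zero.2 (NeZero.ne q)
  simp only [mul_sub, Finset.sum_sub_distrib, Finset.sum_const, Finset.card_univ, Fintype.card_fin,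
    nsmul_eq_mul, ← Finset.mul_sum, ← Finset.sum_mul, Sf, avg]
  field_simp

theorem Sf_smul {c : ℝ} (hc : 0 < c) {L : Vec q} (hL : PP L) : Sf (c • L) = c * Sf L := by
  rw [wp_Sf_eq, wp_Sf_eq, ← mul_div_assoc, Finset.mul_sum]
  refine congrArg (· / _) (Finset.sum_congr rfl fun i _ => ?_)
  rw [Finset.mul_sum]
  refine Finset.sum_congr rfl fun j _ => ?_
  simp only [Pi.smul_apply, smul_eq_mul, Real.log_mul hc.ne' (hL _).ne']
  ring

omit [NeZero q] in
theorem Sf_comp (L : Vec q) (σ : Equiv.Perm (Fin q)) : Sf (L ∘ σ) = Sf L := by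
  rw [Sf, Sf, avg_comp, ← avg_comp (fun i => L i * Real.log (L i)) σ,
    ← avg_comp (fun i => Real.log (L i)) σ]
  rfl

theorem wp_log_ineq {a b M : ℝ} (ha : 0 < a) (hb : 0 < b) (haM : a ≤ M) (hbM : b ≤ M) :
    (a - b) ^ 2 ≤ M * ((a - b) * (Real.log a - Real.log b)) := by
  wlog h : b ≤ a generalizing a b
  · have := this hb ha hbM haM (le_of_not_ge h)
    nlinarith
  have h1 := Real.log_le_sub_one_of_pos (div_pos hb ha)
  rw [Real.log_div hb.ne' ha.ne', le_sub_iff_add_le, le_div_iff₀ ha] at h1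
  have h2 : 0 ≤ Real.log a - Real.log b := sub_nonneg.2 (Real.log_le_log hb h)
  have h3 : a - b ≤ M * (Real.log a - Real.log b) := by nlinarith
  nlinarith [mul_le_mul_of_nonneg_left h3 (sub_nonneg.2 h)]

theorem Sf_ge {L : Vec q} (hL : PP L) : avg L * pq L ≤ q * Sf L := by
  have hq : (1 : ℝ) ≤ q := Nat.one_le_cast.2 (Nat.pos_of_ne_zero (NeZero.ne q))
  have ha := avg_pos hL
  have hs : ∑ i, L i = q * avg L := by unfold avg; field_simp
  have h1 : q * Sf L = ∑ i, (L i - avg L) * (Real.log (L i) - Real.log (avg L)) := by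
    simp only [sub_mul, mul_sub, Finset.sum_sub_distrib, Finset.sum_const, Finset.card_univ,
      Fintype.card_fin, nsmul_eq_mul, ← Finset.mul_sum, ← Finset.sum_mul, hs, Sf]
    generalize avg L = a
    unfold avg
    field_simp
    ring
  have h2 : q * avg L * (avg L * pq L) = ∑ i, (L i - avg L) ^ 2 := by
    unfold pq
    generalize avg L = a at ha
    rw [avg, Finset.sum_div, Finset.mul_sum, Finset.mul_sum]
    refine Finset.sum_congr rfl fun i _ => ?_
    field_simp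
  refine le_of_mul_le_mul_left ?_ (show 0 < q * avg L by positivity)
  rw [h2, h1, Finset.mul_sum]
  exact Finset.sum_le_sum fun i _ => wp_log_ineq (hL i) ha (le_mul_avg hL.nn i)
    (le_mul_of_one_le_left ha.le hq)

theorem Sf_nonneg {L : Vec q} (hL : PP L) : 0 ≤ Sf L := by
  have hq : (0 : ℝ) < q := Nat.cast_pos.2 (Nat.pos_of_ne_zero (NeZero.ne q))
  exact nonneg_of_mul_nonneg_right
    ((mul_nonneg (avg_nonneg hL.nn) (pq_nonneg L)).trans (Sf_ge hL)) hq


namespace Exp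

theorem finS_of_rb {μ : Exp q} (h : μ.Pos) {R : ℝ} (hR : μ.RB R) : μ.FinS := by
  intro i j
  refine Summable.of_norm_bounded ((μ.hasSum i).summable.mul_right |Real.log R|) fun ω => ?_
  have key : ∀ i j, Real.log (μ.L ω i) - Real.log (μ.L ω j) ≤ |Real.log R| := fun i j => by
    have h1 := hR ω i j
    have hR0 : 0 < R := pos_of_mul_pos_left ((h ω i).trans_le h1) (h ω j).le
    have h2 := Real.log_le_log (h ω i) h1
    rw [Real.log_mul hR0.ne' (h ω j).ne'] at h2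
    linarith [le_abs_self (Real.log R)]
  rw [Real.norm_eq_abs, abs_mul, abs_of_pos (h ω i)]
  exact mul_le_mul_of_nonneg_left (abs_sub_le_iff.2 ⟨key i j, key j i⟩) (h ω i).le

/-- the Kullback–Leibler integrand -/
noncomputable def wpK (μ : Exp q) (i j : Fin q) (ω : μ.Ω) : ℝ :=
  μ.L ω i * (Real.log (μ.L ω i) - Real.log (μ.L ω j))

theorem wp_hasSum_Sf {μ : Exp q} (h : μ.FinS) :
    HasSum (fun ω => Sf (μ.L ω)) ((∑ i, ∑ j, ∑' ω, wpK μ i j ω) / (q : ℝ) ^ 2) := by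
  simp only [wp_Sf_eq]
  exact (hasSum_sum fun i _ => hasSum_sum fun j _ => (h i j).hasSum).div_const _

omit [NeZero q] in
theorem wpK_prod {μ ν : Exp q} (h : μ.Pos) (h' : ν.Pos) (i j : Fin q) (ω : (μ.prod ν).Ω) :
    wpK (μ.prod ν) i j ω = wpK μ i j ω.1 * ν.L ω.2 i + μ.L ω.1 i * wpK ν i j ω.2 := by
  simp only [wpK, Exp.prod, Real.log_mul (h _ _).ne' (h' _ _).ne']
  ring

theorem wp_hasSum_mul {α β : Type} {f : α → ℝ} {g : β → ℝ} {a b : ℝ} (hf : HasSum f a)
    (hg : HasSum g b) : HasSum (fun x : α × β => f x.1 * g x.2) (a * b) :=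
  hf.mul hg (summable_mul_of_summable_norm hf.summable.norm hg.summable.norm)

omit [NeZero q] in
theorem wp_hasSum_K_prod {μ ν : Exp q} (h : μ.Nice) (h' : ν.Nice) (i j : Fin q) :
    HasSum (wpK (μ.prod ν) i j) (∑' ω, wpK μ i j ω + ∑' ω, wpK ν i j ω) := by
  have := (wp_hasSum_mul (h.finS i j).hasSum (ν.hasSum i)).add
    (wp_hasSum_mul (μ.hasSum i) (h'.finS i j).hasSum)
  rw [mul_one, one_mul] at this
  rw [funext (wpK_prod h.pos h'.pos i j)]
  exact this

omit [NeZero q] in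
theorem wp_absK_prod {μ ν : Exp q} (h : μ.Nice) (h' : ν.Nice) (i j : Fin q) :
    ∑' ω, |wpK (μ.prod ν) i j ω| ≤ ∑' ω, |wpK μ i j ω| + ∑' ω, |wpK ν i j ω| := by
  have := (wp_hasSum_mul (h.finS i j).abs.hasSum (ν.hasSum i)).add
    (wp_hasSum_mul (μ.hasSum i) (h'.finS i j).abs.hasSum)
  rw [mul_one, one_mul] at this
  refine hasSum_le (fun ω => ?_) (wp_hasSum_K_prod h h' i j).summable.abs.hasSum this
  rw [wpK_prod h.pos h'.pos]
  refine (abs_add_le _ _).trans (le_of_eq ?_)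
  rw [abs_mul _ (ν.L _ _), abs_mul (μ.L _ _) (wpK _ _ _ _), abs_of_pos (h.pos _ _),
    abs_of_pos (h'.pos _ _)]
  rfl

theorem Nice.summable_Sf {μ : Exp q} (h : μ.Nice) : Summable fun ω => Sf (μ.L ω) := by
  exact (wp_hasSum_Sf h.finS).summable

theorem Pos.summable_hS {μ : Exp q} (h : μ.Pos) {s η : Fin q → ℂ} (ha : HAdm s η) :
    Summable fun ω => hS s η (μ.L ω) := by
  obtain ⟨C, hC⟩ := exists_abs_hS_le ha
  exact μ.summable_of_le fun ω => hC _ (h ω)

theorem nice_unit : (unit : Exp q).Nice := by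
  exact ⟨sym_unit, pos_unit, fun i j => by simp [unit]⟩

theorem Nice.prod {μ ν : Exp q} (h : μ.Nice) (h' : ν.Nice) : (prod μ ν).Nice := by
  exact ⟨h.sym.prod h'.sym, h.pos.prod h'.pos, fun i j => (wp_hasSum_K_prod h h' i j).summable⟩

theorem Nice.pow {μ : Exp q} (h : μ.Nice) (k : ℕ) : (μ.pow k).Nice := by
  induction k with
  | zero => exact nice_unit
  | succ k ih => exact h.prod ih

theorem Nice.prodL {l : List (Exp q)} (h : ∀ μ ∈ l, μ.Nice) : (prodL l).Nice := by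
  induction l with
  | nil => exact nice_unit
  | cons μ l ih => exact (h μ (by simp)).prod (ih fun ν hν => h ν (by simp [hν]))

theorem wp_absK_pow {μ : Exp q} (h : μ.Nice) (i j : Fin q) (k : ℕ) :
    ∑' ω, |wpK (μ.pow k) i j ω| ≤ k * ∑' ω, |wpK μ i j ω| := by
  induction k with
  | zero => simp [wpK, Exp.pow, unit]
  | succ k ih =>
    refine (wp_absK_prod h (h.pow k) i j).trans ?_
    push_cast
    linarith

theorem Nice.step {μ : Exp q} (h : μ.Nice) (O : Off) : (step O μ).Nice := by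
  refine ⟨h.sym.step O, h.pos.step O, fun i j => Summable.of_abs ?_⟩
  have e : ∀ ω : (Exp.step O μ).Ω, |wpK (Exp.step O μ) i j ω| =
      O.π ω.1 * |wpK (μ.pow (O.c ω.1)) i j ω.2| := fun ω => by
    simp only [wpK, Exp.step, Real.log_mul (O.pos _).ne' (h.pos.pow _ _ _).ne']
    rw [add_sub_add_left_eq_sub, mul_assoc, abs_mul, abs_of_pos (O.pos _)]
  change Summable fun ω => |wpK (Exp.step O μ) i j ω|
  rw [funext e]
  refine (summable_sigma_of_nonneg fun ω => mul_nonneg (O.pos _).le (abs_nonneg _)).2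
    ⟨fun k => ((h.pow (O.c k)).finS i j).abs.mul_left (O.π k), ?_⟩
  refine Summable.of_nonneg_of_le
    (fun k => tsum_nonneg fun ω => mul_nonneg (O.pos _).le (abs_nonneg _)) (fun k => ?_)
    (O.mean.summable.mul_right (∑' ω, |wpK μ i j ω|))
  simp only [tsum_mul_left, mul_assoc]
  exact mul_le_mul_of_nonneg_left (wp_absK_pow h i j _) (O.pos k).le

theorem nice_chan {μ : Exp q} (hs : μ.Sym) (hz : μ.NZ) {lam : ℝ} (hl : Adm q lam) (h0 : 0 ≤ lam)
    (h1 : lam < 1) : (chan lam hl μ).Nice := by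
  exact ⟨hs.chan hl, hz.pos_chan hl h0 h1,
    finS_of_rb (hz.pos_chan hl h0 h1) (rb_chan μ hl h0 h1)⟩

theorem E_Sf_prod {μ ν : Exp q} (h : μ.Nice) (h' : ν.Nice) :
    (prod μ ν).E Sf = μ.E Sf + ν.E Sf := by
  simp only [E, (wp_hasSum_Sf (h.prod h').finS).tsum_eq, (wp_hasSum_Sf h.finS).tsum_eq,
    (wp_hasSum_Sf h'.finS).tsum_eq, (wp_hasSum_K_prod h h' _ _).tsum_eq, Finset.sum_add_distrib,
    add_div]

theorem wp_hasSum_mulC {α β : Type} {f : α → ℂ} {g : β → ℂ} {a b : ℂ} (hf : HasSum f a)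
    (hg : HasSum g b) : HasSum (fun x : α × β => f x.1 * g x.2) (a * b) :=
  hf.mul hg (summable_mul_of_summable_norm hf.summable.norm hg.summable.norm)

theorem wp_summable_norm {μ : Exp q} (h : μ.Pos) {s η : Fin q → ℂ} (ha : HAdm s η) :
    Summable fun ω => ‖lin η (μ.L ω) * mon s (μ.L ω)‖ := by
  obtain ⟨C, hC⟩ := wp_norm_le ha
  exact μ.summable_of_le (C := C) fun ω => by rw [abs_norm]; exact hC _ (h ω)

omit [NeZero q] in
theorem wp_hasSum_comp {μ : Exp q} (h : μ.Sym) {g : Vec q → ℂ} {a : ℂ}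
    (hg : HasSum (fun ω => g (μ.L ω)) a) (σ : Equiv.Perm (Fin q)) :
    HasSum (fun ω => g (μ.L ω ∘ σ)) a := by
  obtain ⟨e, he⟩ := h σ
  simp only [← he]
  exact e.hasSum_iff.2 hg

omit [NeZero q] in
theorem wp_conj_lin {η : Fin q → ℂ} {τ : Equiv.Perm (Fin q)}
    (h : ∀ i, η (τ i) = (starRingEnd ℂ) (η i)) (L : Vec q) :
    (starRingEnd ℂ) (lin η L) = lin η (L ∘ τ.symm) := by
  rw [lin, lin, map_sum, ← Equiv.sum_comp τ fun i => η i * (Real.log ((L ∘ τ.symm) i) : ℂ)]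
  refine Finset.sum_congr rfl fun i _ => ?_
  rw [map_mul, Complex.conj_ofReal, h, Function.comp_apply, Equiv.symm_apply_apply]

theorem wp_hasSum_hS {μ : Exp q} (h : μ.Nice) {s η : Fin q → ℂ} (ha : HAdm s η) :
    HasSum (fun ω => lin η (μ.L ω) * mon s (μ.L ω)) ((μ.E (hS s η) : ℝ) : ℂ) := by
  have h1 := (wp_summable_norm h.pos ha).of_norm.hasSum
  generalize ∑' ω, lin η (μ.L ω) * mon s (μ.L ω) = T at h1
  have h2 := wp_hasSum_comp h.sym (g := fun L => lin η L * mon s L) h1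
  have h3 : μ.E (hS s η) = T.re := by
    have := (hasSum_sum (s := Finset.univ) fun π _ => Complex.hasSum_re (h2 π)).div_const
      (q.factorial : ℝ)
    rw [Finset.sum_const, Finset.card_univ, Fintype.card_perm, Fintype.card_fin, nsmul_eq_mul,
      mul_div_cancel_left₀ _ (Nat.cast_ne_zero.2 q.factorial_ne_zero)] at this
    exact this.tsum_eq
  obtain ⟨τ, hτ⟩ := ha.conj
  have h4 : (starRingEnd ℂ) T = T := by
    refine (Complex.hasSum_conj'.2 h1).unique ?_
    convert h2 τ.symm using 2 with ω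
    rw [map_mul, wp_conj_lin fun i => (hτ i).2, mon_eq_exp s (h.pos ω), ← Complex.exp_conj,
      wp_conj_lin fun i => (hτ i).1, mon_eq_exp s (L := μ.L ω ∘ τ.symm) fun i => h.pos ω _]
  rwa [h3, Complex.conj_eq_iff_re.1 h4]

theorem E_hS_prod {μ ν : Exp q} (h : μ.Nice) (h' : ν.Nice) {s η : Fin q → ℂ} (ha : HAdm s η) :
    (prod μ ν).E (hS s η) = μ.E (hS s η) * ν.E (mS s) + μ.E (mS s) * ν.E (hS s η) := by
  have m : ∀ {μ : Exp q}, μ.Nice → HasSum (fun ω => mon s (μ.L ω)) ((μ.E (mS s) : ℝ) : ℂ) :=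
    fun {μ} h => tsum_mon h.sym ha.sAdm ▸ (μ.summable_norm_mon ha.sAdm).of_norm.hasSum
  have h1 := (wp_hasSum_mulC (wp_hasSum_hS h ha) (m h')).add
    (wp_hasSum_mulC (m h) (wp_hasSum_hS h' ha))
  have h2 : HasSum (fun ω : μ.Ω × ν.Ω => lin η (μ.L ω.1 * ν.L ω.2) * mon s (μ.L ω.1 * ν.L ω.2))
      (((prod μ ν).E (hS s η) : ℝ) : ℂ) := wp_hasSum_hS (h.prod h') ha
  have e : ∀ ω : μ.Ω × ν.Ω, lin η (μ.L ω.1 * ν.L ω.2) * mon s (μ.L ω.1 * ν.L ω.2) =
      lin η (μ.L ω.1) * mon s (μ.L ω.1) * mon s (ν.L ω.2) +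
        mon s (μ.L ω.1) * (lin η (ν.L ω.2) * mon s (ν.L ω.2)) := fun ω => by
    rw [wp_lin_mul η (h.pos _) (h'.pos _), mon_mul s (μ.nonneg _) (ν.nonneg _)]
    ring
  rw [funext e] at h2
  exact_mod_cast h2.unique h1

theorem Nice.mom_one_le {μ : Exp q} (h : μ.Nice) : μ.mom 1 ≤ q * μ.E Sf := by
  rw [← E_const_mul]
  exact (μ.summable_of_lin (lin_mom 1)).tsum_le_tsum
    (fun ω => by simpa using Sf_ge (h.pos ω)) (h.summable_Sf.mul_left _)


end Exp

namespace WData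

variable (D : WData q)

/-- the `H`-part of the potential -/
noncomputable def wpPhi (μ : Exp q) : ℝ := max (μ.E (hS D.s D.η)) (-D.eN * μ.E (hS D.s D.η))

omit [NeZero q] in
theorem wp_phi_mul {m : ℝ} (h1 : -D.eN ≤ m) (h2 : m ≤ 1) (x : ℝ) :
    x * m ≤ max x (-D.eN * x) ∧ -D.eN * (x * m) ≤ max x (-D.eN * x) := by
  have e0 := D.eN_nonneg
  have e1 := D.eN_le
  rcases le_total 0 x with hx | hx
  · refine ⟨le_max_of_le_left (by nlinarith), le_max_of_le_left ?_⟩
    have : -D.eN * m ≤ 1 := by nlinarith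
    nlinarith
  · refine ⟨le_max_of_le_right (by nlinarith), le_max_of_le_right ?_⟩
    nlinarith [mul_nonneg e0 (sub_nonneg.2 h2)]

theorem wp_M_ge {μ : Exp q} (h : μ.Nice) : -D.eN ≤ μ.E (mS D.s) := by
  have h1 := μ.E_add (lin_mS D.adm.sAdm) (lin_avg.const_mul D.eN)
  rw [Exp.E_const_mul, Exp.E_avg] at h1
  have h2 : 0 ≤ μ.E fun L => mS D.s L + D.eN * avg L := tsum_nonneg fun ω => D.hC _ (h.pos ω)
  linarith

theorem wp_M_le (μ : Exp q) : μ.E (mS D.s) ≤ 1 := (abs_le.1 (μ.abs_E_mS_le D.adm.sAdm)).2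

theorem wp_phi_prod {μ ν : Exp q} (h : μ.Nice) (h' : ν.Nice) :
    D.wpPhi (μ.prod ν) ≤ D.wpPhi μ + D.wpPhi ν := by
  have h1 := D.wp_phi_mul (D.wp_M_ge h') (D.wp_M_le ν) (μ.E (hS D.s D.η))
  have h2 := D.wp_phi_mul (D.wp_M_ge h) (D.wp_M_le μ) (ν.E (hS D.s D.η))
  unfold wpPhi
  rw [Exp.E_hS_prod h h' D.adm]
  exact max_le (by linarith [h1.1, h2.1]) (by linarith [h1.2, h2.2])

theorem Sf_le_W (μ : Exp q) : μ.E Sf ≤ D.W μ := by
  have := (D.wp_phi_mul (m := 0) (neg_nonpos.2 D.eN_nonneg) zero_le_one (μ.E (hS D.s D.η))).1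
  rw [mul_zero] at this
  exact le_add_of_nonneg_right this

theorem F_le_W (μ : Exp q) : D.F μ ≤ D.W μ := by
  exact add_le_add le_rfl (le_max_left _ _)

theorem W_nonneg {μ : Exp q} (h : μ.Nice) : 0 ≤ D.W μ := by
  exact (tsum_nonneg fun ω => Sf_nonneg (h.pos ω)).trans (D.Sf_le_W μ)

theorem mom_one_le_W {μ : Exp q} (h : μ.Nice) : μ.mom 1 ≤ q * D.W μ := by
  exact h.mom_one_le.trans (mul_le_mul_of_nonneg_left (D.Sf_le_W μ) (Nat.cast_nonneg q))

theorem W_unit : D.W Exp.unit = 0 := by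
  simp [W, Exp.E_unit, hS_one, Sf, avg]

theorem W_prod_le {μ ν : Exp q} (h : μ.Nice) (h' : ν.Nice) :
    D.W (Exp.prod μ ν) ≤ D.W μ + D.W ν := by
  have := D.wp_phi_prod h h'
  unfold W
  unfold wpPhi at this
  rw [Exp.E_Sf_prod h h']
  linarith

theorem W_prodL_le {l : List (Exp q)} (h : ∀ μ ∈ l, μ.Nice) :
    D.W (Exp.prodL l) ≤ (l.map D.W).sum := by
  induction l with
  | nil => exact D.W_unit.le
  | cons μ l ih =>
    have hl : ∀ ν ∈ l, ν.Nice := fun ν hν => h ν (by simp [hν])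
    rw [List.map_cons, List.sum_cons]
    exact (D.W_prod_le (h μ (by simp)) (Exp.Nice.prodL hl)).trans (add_le_add le_rfl (ih hl))

theorem wp_W_pow {μ : Exp q} (h : μ.Nice) (k : ℕ) : D.W (μ.pow k) ≤ k * D.W μ := by
  induction k with
  | zero => simpa [Exp.pow] using D.W_unit.le
  | succ k ih =>
    refine (D.W_prod_le h (h.pow k)).trans ?_
    push_cast
    linarith

theorem wp_hasSum_step {μ : Exp q} (h : μ.Nice) (O : Off) {ψ : Vec q → ℝ}
    (hs : ∀ ν : Exp q, ν.Nice → Summable fun ω => ψ (ν.L ω))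
    (hh : ∀ (c : ℝ) L, 0 < c → PP L → ψ (c • L) = c * ψ L) :
    HasSum (fun k => O.π k * (μ.pow (O.c k)).E ψ) ((Exp.step O μ).E ψ) := by
  refine HasSum.sigma (hs _ (h.step O)).hasSum fun k => ?_
  have := (hs _ (h.pow (O.c k))).hasSum.mul_left (O.π k)
  rw [← funext fun ω => hh _ _ (O.pos k) (h.pos.pow (O.c k) ω)] at this
  exact this

theorem W_step_le {μ : Exp q} (h : μ.Nice) (O : Off) : D.W (Exp.step O μ) ≤ O.d * D.W μ := by
  have h1 := wp_hasSum_step h O (ψ := Sf) (fun ν hν => hν.summable_Sf)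
    fun c L hc hL => Sf_smul hc hL
  have h2 := wp_hasSum_step h O (ψ := hS D.s D.η) (fun ν hν => hν.pos.summable_hS D.adm)
    fun c L hc hL => hS_smul D.adm hc hL
  have h3 := O.mean.mul_right (D.W μ)
  rw [W, ← max_add_add_left]
  refine max_le (hasSum_le (fun k => ?_) (h1.add h2) h3)
    (hasSum_le (fun k => ?_) (h1.add (h2.mul_left _)) h3)
  · rw [← mul_add, mul_assoc]
    exact mul_le_mul_of_nonneg_left ((D.F_le_W _).trans (D.wp_W_pow h _)) (O.pos k).le
  · rw [mul_left_comm, ← mul_add, mul_assoc]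
    exact mul_le_mul_of_nonneg_left
      ((add_le_add le_rfl (le_max_right _ _)).trans (D.wp_W_pow h _)) (O.pos k).le

theorem abs_H_prodL_le {l : List (Exp q)} (h : ∀ μ ∈ l, μ.Nice) :
    |(Exp.prodL l).E (hS D.s D.η)| ≤ (l.map fun μ => |μ.E (hS D.s D.η)|).sum := by
  induction l with
  | nil => simp [Exp.prodL, Exp.E_unit, hS_one]
  | cons μ l ih =>
    have hl : ∀ ν ∈ l, ν.Nice := fun ν hν => h ν (by simp [hν])
    rw [List.map_cons, List.sum_cons, Exp.prodL,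
      Exp.E_hS_prod (h μ (by simp)) (Exp.Nice.prodL hl) D.adm]
    refine (abs_add_le _ _).trans (add_le_add ?_ (le_trans ?_ (ih hl))) <;> rw [abs_mul]
    · exact mul_le_of_le_one_right (abs_nonneg _) (Exp.abs_E_mS_le _ D.adm.sAdm)
    · exact mul_le_of_le_one_left (abs_nonneg _) (Exp.abs_E_mS_le _ D.adm.sAdm)

theorem one_sub_M_prodL_le {l : List (Exp q)} (h : ∀ μ ∈ l, μ.Nice) :
    1 - (Exp.prodL l).E (mS D.s) ≤ (l.map fun μ => 1 - μ.E (mS D.s)).sum := by
  induction l with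
  | nil => simp [Exp.prodL, Exp.E_unit, mS_one]
  | cons μ l ih =>
    have hl : ∀ ν ∈ l, ν.Nice := fun ν hν => h ν (by simp [hν])
    rw [List.map_cons, List.sum_cons, Exp.prodL,
      Exp.E_mS_prod (h μ (by simp)).sym (Exp.Nice.prodL hl).sym D.adm.sAdm]
    nlinarith [ih hl, mul_nonneg (sub_nonneg.2 (D.wp_M_le μ))
      (sub_nonneg.2 (D.wp_M_le (Exp.prodL l)))]

/-- lower product rule for `F₊` (induction on the list; all the sums on the right are monotone) -/
theorem F_prodL_ge {l : List (Exp q)} (h : ∀ μ ∈ l, μ.Nice) :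
    (l.map D.F).sum - (l.map fun μ => 1 - μ.E (mS D.s)).sum *
      (l.map fun μ => |μ.E (hS D.s D.η)|).sum ≤ D.F (Exp.prodL l) := by
  induction l with
  | nil => simp [F, Exp.prodL, Exp.E_unit, hS_one, Sf, avg]
  | cons μ l ih =>
    have hl : ∀ ν ∈ l, ν.Nice := fun ν hν => h ν (by simp [hν])
    have h1 := ih hl
    have h2 := D.abs_H_prodL_le hl
    have h3 := D.one_sub_M_prodL_le hl
    have h4 := sub_nonneg.2 (D.wp_M_le μ)
    have h5 := sub_nonneg.2 (D.wp_M_le (Exp.prodL l))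
    simp only [List.map_cons, List.sum_cons, Exp.prodL]
    unfold F at h1 ⊢
    rw [Exp.E_hS_prod (h μ (by simp)) (Exp.Nice.prodL hl) D.adm,
      Exp.E_Sf_prod (h μ (by simp)) (Exp.Nice.prodL hl)]
    have a1 := mul_le_mul (le_abs_self (μ.E (hS D.s D.η))) h3 h5 (abs_nonneg _)
    have a2 := mul_le_mul_of_nonneg_left ((le_abs_self _).trans h2) h4
    have a3 := mul_nonneg h4 (abs_nonneg (μ.E (hS D.s D.η)))
    nlinarith


end WData

end Crest.Agent.R163
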